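import Vale.Agent.P310d.HubL

/-!
# Adjacency from the letters
-/

namespace Vale.Agent.P310d

open Function Vale.Agent.P310y

open scoped Classical

set_option linter.unusedSectionVars false

variable {F : Type} [AddCommGroup F] [Module (ZMod 2) F] [Fintype F] {s K xe : ℕ} {A : Alph F s}
  {D : F → F → F} {ac : F} {cdi : Injective (cdOf A (K := K) (xe := xe))} {gap : ℕ}

theorem zb_eq_iff (v v' t t' : ℕ) :
    zb v t = zb v' t' ↔ (v.testBit t = true ↔ v'.testBit t' = true) := by
  unfold zb
  by_cases h1 : v.testBit t = true <;> by_cases h2 : v'.testBit t' = true <;> simp [h1, h2]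

/-- The letters of an equation of the first class. -/
structure EL (A : Alph F s) (u : ℕ → F) (p : Pos K xe) (g : Gad s (NN s) K xe) (β : F) : Prop where
  gl : GadL A u g
  h0 : u 0 = 0
  h3 : u 3 = A.num p.1.val
  h4 : u 4 = A.num p.idx.val
  h5 : u 5 = β

/-- The letters of an equation of the second class. -/
structure HL (A : Alph F s) (u : ℕ → F) (g : Gad s (NN s) K xe) : Prop where
  gl : GadL A u g
  h0 : u 0 = A.num 1

theorem el_of {u : ℕ → F} {p : Pos K xe} {g : Gad s (NN s) K xe} {β : F}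
    (hr : ∀ j, j < 12 → rawF A (Sum.inl (p, g, β)) j = u j) : EL A u p g β := by
  have hr' : ∀ j, j < 12 → mkF A 0 (gadK g) (gadTau g).val p.1.val p.idx.val β
      (gadT A g) (gadC g) j = u j := hr
  refine ⟨gadL_of_mkF hr', ?_, (hr' 3 (by omega)).symm, (hr' 4 (by omega)).symm,
    (hr' 5 (by omega)).symm⟩
  rw [← hr' 0 (by omega)]
  exact A.num_zero

theorem hl_of {u : ℕ → F} {g : Gad s (NN s) K xe}
    (hr : ∀ j, j < 12 → rawF A (Sum.inr g) j = u j) : HL A u g := by
  have hr' : ∀ j, j < 12 → mkF A 1 (gadK g) (gadTau g).val 0 0 0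
      (gadT A g) (gadC g) j = u j := hr
  exact ⟨gadL_of_mkF hr', (hr' 0 (by omega)).symm⟩

section main

variable (H : Std A D) (C : CTab A D ac) (hKs : K ≤ s) (h6 : 6 * K + 3 * xe + 12 ≤ s) (hK : 0 < K)
  {u u' : ℕ → F} {v v' : ℕ} (hv : nmv A (u 12) = v) (hv' : nmv A (u' 12) = v')

theorem posEq_iff (hs : 60 < s) (h6 : 6 * K + 3 * xe + 12 ≤ s) {p p' : Pos K xe} {g g' : Gad s (NN s) K xe} {β β' : F} (he : EL A u p g β)
    (he' : EL A u' p' g' β') : PosEq u u' ↔ p = p' := by
  constructor
  · rintro ⟨h1, h2⟩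
    rw [he.h3, he'.h3] at h1
    rw [he.h4, he'.h4] at h2
    have e1 : p.dig = p'.dig := Fin.ext (A.num_inj (by have := p.1.isLt; omega)
      (by have := p'.1.isLt; omega) h1)
    have e2 : p.idx = p'.idx := Fin.ext (A.num_inj (by have := p.idx.isLt; omega)
      (by have := p'.idx.isLt; omega) h2)
    exact Pos.ext' e1 e2
  · rintro rfl
    exact ⟨by rw [he.h3, he'.h3], by rw [he.h4, he'.h4]⟩

theorem slot_pres (P : Prog K xe s (NN s) F) {g : Gad s (NN s) K xe} {t : ℕ}
    (ht : t < if gadK g < 8 then 4 else 2) (h0 : t ≠ 0) :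
    Pres g (Fin.ofNat 3 (t - 1)) ∧ t = 1 + (Fin.ofNat 3 (t - 1)).val := by
  have hlt : t - 1 < 3 := by split_ifs at ht <;> omega
  have e1 : (Fin.ofNat 3 (t - 1)).val = t - 1 := by
    rw [ofNat3_val, Nat.mod_eq_of_lt hlt]
  refine ⟨?_, by omega⟩
  by_cases h8 : gadK g < 8
  · exact Or.inl h8
  · right
    rw [if_neg h8] at ht
    apply Fin.ext
    rw [e1]
    show _ = 0
    omega

theorem hubAt_one (P : Prog K xe s (NN s) F) (g : Gad s (NN s) K xe) (d : Fin 3) :
    hubAt P g (1 + d.val) = slotH P K12 g d := by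
  unfold hubAt
  congr 1
  apply Fin.ext
  rw [ofNat3_val]
  have := d.isLt
  omega

theorem fin3_add_sub' : ∀ τ d : Fin 3, τ + d - τ = d := by decide

include H C hKs h6 hv hv' in
/-- Two equations of the first class. -/
theorem ee_iff {p p' : Pos K xe} {g g' : Gad s (NN s) K xe} {β β' : F}
    (hh : (PP A D ac cdi gap).gs.allow g p.1 β) (hh' : (PP A D ac cdi gap).gs.allow g' p'.1 β')
    (he : EL A u p g β) (he' : EL A u' p' g' β') :
    (∀ t t', t < nvF _ (GItem.e p g β hh) → t' < nvF _ (GItem.e p' g' β' hh') →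
      slotF _ hK (GItem.e p g β hh) t = slotF _ hK (GItem.e p' g' β' hh') t' → zb v t = zb v' t') ↔
    (¬ TokEE A u u' ∧ ∀ j, j < 3 → ¬ HubConf A D K xe ac u u' j) := by
  have hs := H.hs
  have hnv : ∀ {g0 : Gad s (NN s) K xe} {p0 β0} {hh0 : (PP A D ac cdi gap).gs.allow g0 p0 β0} (h8 : True), True :=
    fun _ => trivial
  constructor
  · intro hall
    constructor
    · rintro ⟨_, _, hpos, hgad, hne⟩
      have e1 := (posEq_iff hs h6 he he').1 hpos
      have e2 := (gadEq_iff H C h6 he.gl he'.gl).1 hgad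
      subst e1 e2
      have h0 : ∀ g0 : Gad s (NN s) K xe, 0 < (if gadK g0 < 8 then 4 else 2) := by
        intro g0
        split_ifs <;> omega
      have := hall 0 0 (h0 g) (h0 g) (by simp [slotF])
      rw [zb_eq_iff, ← hv, ← hv'] at this
      exact hne this
    · rintro j hj ⟨_, _, hpos, hpr, hpr', hk, hl, hne⟩
      have e1 := (posEq_iff hs h6 he he').1 hpos
      subst e1
      let J : Fin 3 := ⟨j, hj⟩
      have hp := (pres_iff H C he.gl J).1 hpr
      have hp' := (pres_iff H C he'.gl J).1 hpr'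
      have ht := (hubEq_iff (cdi := cdi) (gap := gap) H C h6 he.gl he'.gl J hp hp').1 hk
      have hhub : slotH (PP A D ac cdi gap) K12 g (J - gadTau g) =
          slotH (PP A D ac cdi gap) K12 g' (J - gadTau g') := by
        apply Prod.ext _ ht
        rw [slotH_fst _ hp, slotH_fst _ hp', fin3_add_sub, fin3_add_sub]
      have hlett := hl
      rw [show j = J.val from rfl, lett_eq (cdi := cdi) (gap := gap) H C he.gl J he.h3 he.h5,
        lett_eq (cdi := cdi) (gap := gap) H C he'.gl J he'.h3 he'.h5] at hlett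
      have hlt : ∀ {g0 : Gad s (NN s) K xe} {d : Fin 3}, Pres g0 d →
          1 + d.val < (if gadK g0 < 8 then 4 else 2) := by
        intro g0 d hd
        have := d.isLt
        rcases hd with h | h
        · rw [if_pos h]
          omega
        · subst h
          split_ifs
          · show 1 + 0 < 4
            omega
          · show 1 + 0 < 2
            omega
      have h1 := hall (1 + (J - gadTau g).val) (1 + (J - gadTau g').val) (hlt hp) (hlt hp') (by
        simp only [slotF]
        rw [if_neg (by omega), if_neg (by omega), hubAt_one, hubAt_one, hlett, hhub])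
      apply hne
      unfold tbB
      rw [show j = J.val from rfl, bi_eq H C he.gl J, bi_eq H C he'.gl J, hv, hv']
      exact (zb_eq_iff _ _ _ _).1 h1
  · rintro ⟨h1, h2⟩ t t' ht ht' e
    by_contra hzb
    rw [zb_eq_iff] at hzb
    simp only [slotF] at e
    by_cases h0 : t = 0 <;> by_cases h0' : t' = 0
    · subst h0 h0'
      simp only [if_true] at e
      have e1 := Sum.inr.inj e
      have e2 : g = g' := (Prod.ext_iff.1 e1).1
      have e3 : p = p' := (Prod.ext_iff.1 e1).2
      subst e2 e3
      apply h1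
      refine ⟨he.h0, he'.h0, (posEq_iff hs h6 he he').2 rfl, (gadEq_iff H C h6 he.gl he'.gl).2 rfl, ?_⟩
      rw [hv, hv']
      exact hzb
    · rw [if_pos h0, if_neg h0'] at e
      exact absurd e (by simp [yv, xv])
    · rw [if_neg h0, if_pos h0'] at e
      exact absurd e (by simp [yv, xv])
    · rw [if_neg h0, if_neg h0'] at e
      obtain ⟨a1, a2⟩ := slot_pres (PP A D ac cdi gap) ht h0
      obtain ⟨a1', a2'⟩ := slot_pres (PP A D ac cdi gap) ht' h0'
      have e1 := Sum.inl.inj e
      have e2 : p = p' := (Prod.ext_iff.1 e1).1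
      subst e2
      have e3 := (Prod.ext_iff.1 (Prod.ext_iff.1 e1).2).1
      have e4 := (Prod.ext_iff.1 (Prod.ext_iff.1 e1).2).2
      set d := Fin.ofNat 3 (t - 1) with hd
      set d' := Fin.ofNat 3 (t' - 1) with hd'
      have e3' : slotH (PP A D ac cdi gap) K12 g d = slotH (PP A D ac cdi gap) K12 g' d' := e3
      let J : Fin 3 := gadTau g + d
      have hJ : J - gadTau g = d := fin3_add_sub' _ _
      have hJ' : J - gadTau g' = d' := by
        have h5 := congrArg Prod.fst e3'
        rw [slotH_fst _ a1, slotH_fst _ a1'] at h5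
        show gadTau g + d - gadTau g' = d'
        rw [h5, fin3_add_sub']
      apply h2 J.val J.isLt
      have hp : Pres g (J - gadTau g) := by rw [hJ]; exact a1
      have hp' : Pres g' (J - gadTau g') := by rw [hJ']; exact a1'
      refine ⟨he.h0, he'.h0, (posEq_iff hs h6 he he').2 rfl, (pres_iff H C he.gl J).2 hp,
        (pres_iff H C he'.gl J).2 hp', ?_, ?_, ?_⟩
      · apply (hubEq_iff (cdi := cdi) (gap := gap) H C h6 he.gl he'.gl J hp hp').2
        rw [hJ, hJ', e3']
      · rw [lett_eq (cdi := cdi) (gap := gap) H C he.gl J he.h3 he.h5,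
          lett_eq (cdi := cdi) (gap := gap) H C he'.gl J he'.h3 he'.h5, hJ, hJ']
        exact e4
      · unfold tbB
        rw [bi_eq H C he.gl J, bi_eq H C he'.gl J, hv, hv', hJ, hJ', ← a2, ← a2']
        exact hzb

include H C hKs h6 hv hv' in
/-- An equation of the first class and one of the second class. -/
theorem eh_iff (hx : xe ≤ 1) {p : Pos K xe} {g g' : Gad s (NN s) K xe} {β : F}
    (hh : (PP A D ac cdi gap).gs.allow g p.1 β)
    (he : EL A u p g β) (he' : HL A u' g') :
    (∀ t t', t < nvF _ (GItem.e p g β hh) → t' < 2 * K + xe →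
      slotF _ hK (GItem.e p g β hh) t = slotF (PP A D ac cdi gap) hK (GItem.h g') t' →
        zb v t = zb v' t') ↔ ¬ TokEH A K u u' := by
  have hs := H.hs
  have hn0 : A.num 1 ≠ (0 : F) := Alph.num_one_ne (by omega)
  have h0ne : u' 0 ≠ 0 := by
    rw [he'.h0]
    exact hn0
  have hidx : idxL A K u = tOf p := by
    have hK1 := p.dig.isLt
    have hI1 := p.idx.isLt
    unfold idxL tOf
    rw [he.h3, he.h4, nmv_num (by omega), nmv_num (by omega)]
    by_cases h2 : p.idx.val = 2
    · rw [if_pos h2, if_neg (show ¬ p.idx.val < 2 by omega)]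
      omega
    · rw [if_neg h2, if_pos (show p.idx.val < 2 by omega)]
      have h3 : p.idx.val = 0 ∨ p.idx.val = 1 := by omega
      rcases h3 with h3 | h3
      · rw [h3]
        simp [A.num_zero]
      · rw [h3]
        simp [hn0]
  constructor
  · rintro hall ⟨_, _, hgad, hne⟩
    have e2 := (gadEq_iff H C h6 he.gl he'.gl).1 hgad
    subst e2
    have h0 : 0 < (if gadK g < 8 then 4 else 2) := by split_ifs <;> omega
    have := hall 0 (tOf p) h0 (tOf_lt p) (by
      simp only [slotF, if_true]
      rw [posOf_tOf])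
    rw [zb_eq_iff, ← hv, ← hv'] at this
    rw [hidx] at hne
    exact hne this
  · intro hno t t' ht ht' e
    by_contra hzb
    rw [zb_eq_iff] at hzb
    simp only [slotF] at e
    by_cases h0 : t = 0
    · subst h0
      simp only [if_true] at e
      have e1 := Sum.inr.inj e
      have e2 : g = g' := (Prod.ext_iff.1 e1).1
      have e3 : p = posOf hK t' := (Prod.ext_iff.1 e1).2
      subst e2
      apply hno
      refine ⟨he.h0, h0ne, (gadEq_iff H C h6 he.gl he'.gl).2 rfl, ?_⟩
      rw [hidx, e3, tOf_posOf hK ht', hv, hv']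
      exact hzb
    · rw [if_neg h0] at e
      exact absurd e (by simp [yv, xv])

include H C hKs h6 hv hv' in
/-- An equation of the second class and one of the first class. -/
theorem he_iff (hx : xe ≤ 1) {p : Pos K xe} {g g' : Gad s (NN s) K xe} {β : F}
    (hh : (PP A D ac cdi gap).gs.allow g p.1 β)
    (he : EL A u p g β) (he' : HL A u' g') :
    (∀ t t', t < 2 * K + xe → t' < nvF _ (GItem.e p g β hh) →
      slotF (PP A D ac cdi gap) hK (GItem.h g') t = slotF _ hK (GItem.e p g β hh) t' →
        zb v' t = zb v t') ↔ ¬ TokEH A K u u' := by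
  rw [← eh_iff H C hKs h6 hK hv hv' hx hh he he']
  constructor
  · intro h t t' ht ht' e
    exact (h t' t ht' ht e.symm).symm
  · intro h t t' ht ht' e
    exact (h t' t ht' ht e.symm).symm

omit H C hKs h6 in
theorem hh_iff {g g' : Gad s (NN s) K xe} (hne : g ≠ g') :
    (∀ t t', t < 2 * K + xe → t' < 2 * K + xe →
      slotF (PP A D ac cdi gap) hK (GItem.h g) t = slotF (PP A D ac cdi gap) hK (GItem.h g') t' →
        zb v t = zb v' t') := by
  intro t t' _ _ e
  simp only [slotF] at e
  exact absurd (Prod.ext_iff.1 (Sum.inr.inj e)).1 hne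

/-- The letters of a solution. -/
structure CoreLet (A : Alph F s) (P : Prog K xe s (NN s) F) (hK : 0 < K) {bb : Bool} (x : P.gs.xs.Core bb) (u : ℕ → F) :
    Prop where
  raw : ∀ j, j < 12 → rawF A (P.gs.rawI x.item) j = u j
  va : nmv A (u 12) = vaOf P.gs.xs (nvF P) (slotF P hK) x

include H C hKs h6 in
/-- Adjacency of solutions by letters. -/
theorem coreAdj_letters (hxe : xe ≤ 1) {bb : Bool} {x y : (PP A D ac cdi gap).gs.xs.Core bb}
    (hx : CoreLet A _ hK x u) (hy : CoreLet A _ hK y u') :
    (PP A D ac cdi gap).gs.xs.coreAdj x y ↔ CoreAdjL A D K xe ac u u' := by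
  have hs := H.hs
  have hn0 : A.num 1 ≠ (0 : F) := Alph.num_one_ne (by omega)
  rw [coreAdj_iff (slot_ok _ hK)]
  unfold CoreAdjL
  have hitem : x.item ≠ y.item ↔ ¬ ∀ j, j < 12 → u j = u' j := by
    rw [not_iff_not]
    constructor
    · intro h j hj
      rw [← hx.raw j hj, ← hy.raw j hj, h]
    · intro h
      apply rawI_inj
      apply raw_inj A (by omega) hKs h6
      intro j hj
      rw [hx.raw j hj, hy.raw j hj]
      exact h j hj
  rw [hitem]
  apply and_congr_right
  intro hne0
  have hne : x.item ≠ y.item := hitem.2 hne0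
  have e1 := hx.va
  have e2 := hy.va
  have r1 := hx.raw
  have r2 := hy.raw
  generalize vaOf (PP A D ac cdi gap).gs.xs (nvF _) (slotF _ hK) x = v at *
  generalize vaOf (PP A D ac cdi gap).gs.xs (nvF _) (slotF _ hK) y = v' at *
  generalize x.item = c at *
  generalize y.item = c' at *
  cases c with
  | e p g β hh =>
    have he := el_of r1
    cases c' with
    | e p' g' β' hh' =>
      have he' := el_of r2
      rw [ee_iff (cdi := cdi) (gap := gap) H C hKs h6 hK e1 e2 hh hh' he he']
      have a1 : ¬ TokEH A K u u' := fun h => h.2.1 he'.h0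
      have a2 : ¬ TokEH A K u' u := fun h => h.2.1 he.h0
      tauto
    | h g' =>
      have he' := hl_of r2
      show (∀ t t', t < nvF _ (GItem.e p g β hh) → t' < 2 * K + xe → _ → _) ↔ _
      rw [eh_iff (cdi := cdi) (gap := gap) H C hKs h6 hK e1 e2 hxe hh he he']
      have a0 : u' 0 ≠ 0 := by
        rw [he'.h0]
        exact hn0
      have a1 : ¬ TokEE A u u' := fun h => a0 h.2.1
      have a2 : ¬ TokEH A K u' u := fun h => a0 h.1
      have a3 : ∀ j, j < 3 → ¬ HubConf A D K xe ac u u' j := fun j _ h => a0 h.2.1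
      tauto
  | h g =>
    have he := hl_of r1
    cases c' with
    | e p' g' β' hh' =>
      have he' := el_of r2
      show (∀ t t', t < 2 * K + xe → t' < nvF _ (GItem.e p' g' β' hh') → _ → _) ↔ _
      rw [he_iff (cdi := cdi) (gap := gap) H C hKs h6 hK e2 e1 hxe hh' he' he]
      have a0 : u 0 ≠ 0 := by
        rw [he.h0]
        exact hn0
      have a1 : ¬ TokEE A u u' := fun h => a0 h.1
      have a2 : ¬ TokEH A K u u' := fun h => a0 h.1
      have a3 : ∀ j, j < 3 → ¬ HubConf A D K xe ac u u' j := fun j _ h => a0 h.1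
      tauto
    | h g' =>
      have he' := hl_of r2
      have a0 : u 0 ≠ 0 := by
        rw [he.h0]
        exact hn0
      have hg : g ≠ g' := fun h => hne (by rw [h])
      have a1 : ¬ TokEE A u u' := fun h => a0 h.1
      have a2 : ¬ TokEH A K u u' := fun h => a0 h.1
      have a2' : ¬ TokEH A K u' u := fun h => by
        have := h.1
        rw [he'.h0] at this
        exact hn0 this
      have a3 : ∀ j, j < 3 → ¬ HubConf A D K xe ac u u' j := fun j _ h => a0 h.1
      have a4 := hh_iff (A := A) (D := D) (ac := ac) (cdi := cdi) (gap := gap) hK (v := v) (v' := v') hg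
      constructor
      · intro _
        exact ⟨a1, a2, a2', a3⟩
      · intro _
        exact a4

end main

section vertices

variable (H : Std A D) (C : CTab A D ac) (hKs : K ≤ s) (h6 : 6 * K + 3 * xe + 12 ≤ s) (hK : 0 < K)
  (hp2 : 2 ^ (2 * K + xe) ≤ s) (hW : (PP A D ac cdi (s ^ 15)).gs.xs.bnd + 2 ≤ s ^ 15)

include H C hKs h6 hp2 in
theorem coreLet_idL {bb : Bool} {u : ℕ → F} (v : (PP A D ac cdi (s ^ 15)).gs.xs.Vtx bb)
    (hv : ∀ j, j < 41 → idL A _ hK v j = u j) : CoreLet A _ hK v.1.1 u := by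
  have hs := H.hs
  refine ⟨fun j hj => ?_, ?_⟩
  · rw [← hv j (by omega), idL_lo A hK _ _ hj]
  · rw [← hv 12 (by omega), idL_va]
    exact nmv_num (lt_of_lt_of_le (vaOf_lt _) (nv_le hs hKs h6 hp2 _ _))

include H C hKs h6 hp2 in
/-- Adjacency of vertices by letters. -/
theorem adj_letters (hx : xe ≤ 1) {bb : Bool} {u u' : ℕ → F} (v w : (PP A D ac cdi (s ^ 15)).gs.xs.Vtx bb)
    (hv : ∀ j, j < 41 → idL A _ hK v j = u j) (hw : ∀ j, j < 41 → idL A _ hK w j = u' j) :
    ((PP A D ac cdi (s ^ 15)).gs.xs.graph bb).Adj v w ↔ AdjL A D K xe ac u u' := by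
  have hs := H.hs
  have hn0 : A.num 1 ≠ (0 : F) := Alph.num_one_ne (by omega)
  have hv13 : u 13 = 0 ↔ v.1.2 = 0 := by
    rw [← hv 13 (by omega), idL_pf]
    by_cases h : v.1.2 = 0 <;> simp [h, hn0]
  have hw13 : u' 13 = 0 ↔ w.1.2 = 0 := by
    rw [← hw 13 (by omega), idL_pf]
    by_cases h : w.1.2 = 0 <;> simp [h, hn0]
  have hx' := coreLet_idL H C hKs h6 hK hp2 v hv
  have hy' := coreLet_idL H C hKs h6 hK hp2 w hw
  have hcore : v.1.1 = w.1.1 ↔ ∀ j, j < 13 → u j = u' j := by
    constructor
    · intro h j hj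
      by_cases h12 : j < 12
      · rw [← hx'.raw j h12, ← hy'.raw j h12, h]
      · have : j = 12 := by omega
        subst this
        rw [← hv 12 (by omega), ← hw 12 (by omega), idL_va, idL_va, h]
    · intro h
      have e1 : v.1.1.item = w.1.1.item := by
        apply rawI_inj
        apply raw_inj A (by omega) hKs h6
        intro j hj
        rw [hx'.raw j hj, hy'.raw j hj]
        exact h j (by omega)
      have e2 : nmv A (u 12) = nmv A (u' 12) := by rw [h 12 (by omega)]
      rw [hx'.va, hy'.va] at e2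
      exact core_ext (slot_ok _ hK) e1 e2
  have hc := coreAdj_letters H C hKs h6 hK hx hx' hy'
  show ((v.1.2 = 0 ∧ w.1.2 = 0 ∧ _) ∨ (v.1.1 = w.1.1 ∧ _)) ↔ _
  unfold AdjL
  rw [hc, hcore, hv13, hw13]
  simp only [ne_eq, hv13, hw13]

end vertices

end Vale.Agent.P310d
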