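import Mathlib

/-!
# A flat register machine as an alternating word program

The letters are the elements of a finite group `F` of exponent two, numbered by `Fin s`.
All rules of the program are given by one table `D : F → F → F`.
-/

namespace Vale.Agent.P310d

open Function

open scoped Classical

/-- A numbering of the letters with `0` numbered `0`. -/
structure Alph (F : Type) [Zero F] (s : ℕ) where
  nm : F ≃ Fin s
  nm0 : (nm 0).val = 0

variable {F : Type} [AddCommGroup F] {s : ℕ}

namespace Alph

variable (A : Alph F s)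

/-- The letter with a given number. -/
noncomputable def num (n : ℕ) : F := if h : n < s then A.nm.symm ⟨n, h⟩ else 0

theorem nm_num {n : ℕ} (h : n < s) : (A.nm (A.num n)).val = n := by
  simp [num, h]

theorem num_nm (a : F) : A.num (A.nm a).val = a := by
  have h := (A.nm a).isLt
  simp [num, h]

theorem num_zero : A.num 0 = 0 := by
  have : A.num (A.nm 0).val = 0 := A.num_nm 0
  rwa [A.nm0] at this

theorem num_inj {n n' : ℕ} (h : n < s) (h' : n' < s) (e : A.num n = A.num n') : n = n' := by
  have := congrArg (fun a => (A.nm a).val) e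
  simpa [A.nm_num h, A.nm_num h'] using this

theorem num_eq_iff {n n' : ℕ} (h : n < s) (h' : n' < s) : A.num n = A.num n' ↔ n = n' :=
  ⟨A.num_inj h h', fun e => by rw [e]⟩

theorem num_eq_zero_iff {n : ℕ} (h : n < s) (h0 : 0 < s) : A.num n = 0 ↔ n = 0 := by
  rw [← A.num_zero]
  exact A.num_eq_iff h h0

/-! ### The fixed tables -/

/-- The mask table. -/
noncomputable def mask (a c : F) : F := if a ≠ 0 then c else 0

/-- The letter of a proposition. -/
noncomputable def bl (p : Prop) : F := if p then A.num 1 else 0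

/-- The comparison table. -/
noncomputable def ltL (a c : F) : F := A.bl ((A.nm a).val < (A.nm c).val)

/-- The bit table. -/
noncomputable def bitL (a c : F) : F := A.bl ((A.nm a).val.testBit (A.nm c).val = true)

/-- The cyclic successor. -/
noncomputable def succL (a : F) : F := A.num (((A.nm a).val + 1) % s)

/-- The cyclic predecessor. -/
noncomputable def predL (a : F) : F := A.num (((A.nm a).val + (s - 1)) % s)

/-- The five tables of the gates; the fourth is the free table `D`. -/
noncomputable def tabL (D : F → F → F) (t a c : F) : F :=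
  if t = A.num 0 then a else
  if t = A.num 1 then mask a c else
  if t = A.num 2 then A.ltL a c else
  if t = A.num 3 then D a c else A.bitL a c

/-! ### The fields of the instruction at a program point -/

variable (D : F → F → F)

/-- The kind: 0 gate, 1 immediate, 2 jump if zero, 3 guess, 4 fork, other: no rule. -/
noncomputable def fKind (pc : F) : F := D (A.num 0) pc
noncomputable def fX1 (pc : F) : F := D (A.num 1) pc
noncomputable def fX2 (pc : F) : F := D (A.num 2) pc
noncomputable def fY (pc : F) : F := D (A.num 3) pc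
noncomputable def fTab (pc : F) : F := D (A.num 4) pc
noncomputable def fImm (pc : F) : F := D (A.num 5) pc
noncomputable def fLbl (pc : F) : F := D (A.num 6) pc

/-- Whether the rule `(pc, a, c)` is active. -/
def activeL (pc a c : F) : Prop :=
  fKind A D pc = A.num 0 ∨
  (fKind A D pc = A.num 1 ∧ a = 0 ∧ c = 0) ∨
  (fKind A D pc = A.num 2 ∧ c = 0) ∨
  (fKind A D pc = A.num 3 ∧ c = 0) ∨
  (fKind A D pc = A.num 4 ∧ a = 0 ∧ c = 0)

/-- The test of the rule `(pc, a, c)` at the digit `i` on the letter `β`. -/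
def guardL (pc a c i β : F) : Prop :=
  A.activeL D pc a c ∧
  ((fKind A D pc = A.num 0 ∨ fKind A D pc = A.num 2) → i = fX1 A D pc → β = a) ∧
  (fKind A D pc = A.num 0 → i = fX2 A D pc → β = c)

/-- The child of a rule. -/
noncomputable def chL (pc a c : F) (σ : Bool) : F :=
  if fKind A D pc = A.num 2 then (if a = 0 then fLbl A D pc else A.succL pc)
  else if fKind A D pc = A.num 4 then (if σ then fLbl A D pc else A.succL pc)
  else A.succL pc

/-- The value added at the target digit by a rule. -/
noncomputable def valL (pc a c : F) : F :=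
  if fKind A D pc = A.num 0 then A.tabL D (fTab A D pc) a c
  else if fKind A D pc = A.num 1 then fImm A D pc
  else if fKind A D pc = A.num 3 then a
  else 0

/-- The offset of a rule at the digit `i`. -/
noncomputable def deltaL (pc a c i : F) : F :=
  if i = fY A D pc then A.valL D pc a c else 0

/-! ### The rules -/

/-- The number of a rule. -/
def mkr (pc a c : F) : Fin (s * (s * s)) :=
  finProdFinEquiv (A.nm pc, finProdFinEquiv (A.nm a, A.nm c))

/-- The fields of a rule number. -/
def rpc (r : Fin (s * (s * s))) : F := A.nm.symm (finProdFinEquiv.symm r).1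
def ra (r : Fin (s * (s * s))) : F := A.nm.symm (finProdFinEquiv.symm (finProdFinEquiv.symm r).2).1
def rc (r : Fin (s * (s * s))) : F := A.nm.symm (finProdFinEquiv.symm (finProdFinEquiv.symm r).2).2

@[simp] theorem rpc_mkr (pc a c : F) : A.rpc (A.mkr pc a c) = pc := by simp [rpc, mkr]
@[simp] theorem ra_mkr (pc a c : F) : A.ra (A.mkr pc a c) = a := by simp [ra, mkr]
@[simp] theorem rc_mkr (pc a c : F) : A.rc (A.mkr pc a c) = c := by simp [rc, mkr]

theorem mkr_eta (r : Fin (s * (s * s))) : A.mkr (A.rpc r) (A.ra r) (A.rc r) = r := by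
  unfold mkr rpc ra rc
  rw [Equiv.apply_symm_apply, Equiv.apply_symm_apply, Equiv.apply_symm_apply, Prod.mk.eta,
    Equiv.apply_symm_apply, Prod.mk.eta, Equiv.apply_symm_apply]

end Alph

/-! ### Acceptance by letters and register files -/

section

variable (A : Alph F s) (D : F → F → F) {K : ℕ} (st ac : F)

/-- The word of a register file. -/
def wd (K : ℕ) (ρ : ℕ → F) : Fin K → F := fun i => ρ i.val

/-- Acceptance by the rules of a table. -/
inductive AccA (A : Alph F s) (D : F → F → F) {K : ℕ} (ac : F) : F → (Fin K → F) → Prop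
  | base : AccA A D ac ac 0
  | step (pc a b : F) (c : Fin K → F) : (∀ i : Fin K, A.guardL D pc a b (A.num i.val) (c i)) →
      AccA A D ac (A.chL D pc a b false) (fun i => c i + A.deltaL D pc a b (A.num i.val)) →
      AccA A D ac (A.chL D pc a b true) (fun i => c i + A.deltaL D pc a b (A.num i.val)) →
      AccA A D ac pc c

/-- Acceptance at a letter. -/
def AccL (A : Alph F s) (D : F → F → F) {K : ℕ} (_st ac : F) (pc : F) (c : Fin K → F) : Prop :=
  AccA A D ac pc c

theorem accL_iff (pc : F) (c : Fin K → F) :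
    AccL A D st ac pc c ↔ (pc = ac ∧ c = 0) ∨
      ∃ a b, (∀ i : Fin K, A.guardL D pc a b (A.num i.val) (c i)) ∧
        AccL A D st ac (A.chL D pc a b false) (fun i => c i + A.deltaL D pc a b (A.num i.val)) ∧
        AccL A D st ac (A.chL D pc a b true) (fun i => c i + A.deltaL D pc a b (A.num i.val)) := by
  constructor
  · intro h
    cases h with
    | base => exact Or.inl ⟨rfl, rfl⟩
    | step pc a b c hg h1 h2 => exact Or.inr ⟨a, b, hg, h1, h2⟩
  · rintro (⟨rfl, rfl⟩ | ⟨a, b, hg, h1, h2⟩)
    · exact AccA.base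
    · exact AccA.step pc a b c hg h1 h2

variable {A D st ac}

theorem wd_val {pc a b : F} {y : ℕ} (ρ : ℕ → F) (hKs : K ≤ s) (hy : Alph.fY A D pc = A.num y)
    (hyK : y < K) :
    (fun i : Fin K => wd K ρ i + A.deltaL D pc a b (A.num i.val)) =
      wd K (update ρ y (ρ y + A.valL D pc a b)) := by
  funext i
  unfold Alph.deltaL wd
  rw [hy]
  by_cases h : i.val = y
  · rw [if_pos (by rw [h]), h, update_self]
  · rw [if_neg (fun e => h (A.num_inj (lt_of_lt_of_le i.isLt hKs) (lt_of_lt_of_le hyK hKs) e)),
      update_of_ne h, add_zero]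

theorem accL_gate {pc : F} {x1 x2 y : ℕ} (ρ : ℕ → F) (hs : 4 < s) (hKs : K ≤ s)
    (hk : Alph.fKind A D pc = A.num 0) (h1 : Alph.fX1 A D pc = A.num x1)
    (h2 : Alph.fX2 A D pc = A.num x2) (hy : Alph.fY A D pc = A.num y)
    (hx1 : x1 < K) (hx2 : x2 < K) (hyK : y < K) (hne : pc ≠ ac) :
    AccL A D st ac pc (wd K ρ) ↔ AccL A D st ac (A.succL pc)
      (wd K (update ρ y (ρ y + A.tabL D (Alph.fTab A D pc) (ρ x1) (ρ x2)))) := by
  have e02 : A.num 0 ≠ (A.num 2 : F) := fun e => by
    have := A.num_inj (by omega) (by omega) e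
    omega
  have e04 : A.num 0 ≠ (A.num 4 : F) := fun e => by
    have := A.num_inj (by omega) (by omega) e
    omega
  have hch : ∀ a b σ, A.chL D pc a b σ = A.succL pc := by
    intro a b σ
    unfold Alph.chL
    rw [hk, if_neg e02, if_neg e04]
  have hval : ∀ a b, A.valL D pc a b = A.tabL D (Alph.fTab A D pc) a b := by
    intro a b
    unfold Alph.valL
    rw [if_pos hk]
  rw [accL_iff]
  constructor
  · rintro (⟨e, _⟩ | ⟨a, b, hg, h3, _⟩)
    · exact (hne e).elim
    · have ha : ρ x1 = a := by
        have := (hg ⟨x1, hx1⟩).2.1 (Or.inl hk) (by rw [h1])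
        exact this
      have hb : ρ x2 = b := by
        have := (hg ⟨x2, hx2⟩).2.2 hk (by rw [h2])
        exact this
      subst ha
      subst hb
      rw [hch] at h3
      have h4 := wd_val (A := A) (D := D) (pc := pc) (a := ρ x1) (b := ρ x2) ρ hKs hy hyK
      rw [hval] at h4
      rw [← h4]
      exact h3
  · intro h
    right
    have h4 := wd_val (A := A) (D := D) (pc := pc) (a := ρ x1) (b := ρ x2) ρ hKs hy hyK
    rw [hval] at h4
    rw [← h4] at h
    refine ⟨ρ x1, ρ x2, ?_, ?_, ?_⟩
    · intro i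
      refine ⟨Or.inl hk, ?_, ?_⟩
      · intro _ e
        rw [h1] at e
        have := A.num_inj (lt_of_lt_of_le i.isLt hKs) (lt_of_lt_of_le hx1 hKs) e
        show ρ i.val = _
        rw [this]
      · intro _ e
        rw [h2] at e
        have := A.num_inj (lt_of_lt_of_le i.isLt hKs) (lt_of_lt_of_le hx2 hKs) e
        show ρ i.val = _
        rw [this]
    · rw [hch]
      exact h
    · rw [hch]
      exact h

theorem accL_imm {pc : F} {y : ℕ} (ρ : ℕ → F) (hs : 4 < s) (hKs : K ≤ s)
    (hk : Alph.fKind A D pc = A.num 1) (hy : Alph.fY A D pc = A.num y)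
    (hyK : y < K) (hne : pc ≠ ac) :
    AccL A D st ac pc (wd K ρ) ↔ AccL A D st ac (A.succL pc)
      (wd K (update ρ y (ρ y + Alph.fImm A D pc))) := by
  have ne : ∀ i j, i < 5 → j < 5 → i ≠ j → A.num i ≠ (A.num j : F) := fun i j hi hj hij e =>
    hij (A.num_inj (by omega) (by omega) e)
  have hch : ∀ a b σ, A.chL D pc a b σ = A.succL pc := by
    intro a b σ
    unfold Alph.chL
    rw [hk, if_neg (ne 1 2 (by omega) (by omega) (by omega)),
      if_neg (ne 1 4 (by omega) (by omega) (by omega))]
  have hval : ∀ a b, A.valL D pc a b = Alph.fImm A D pc := by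
    intro a b
    unfold Alph.valL
    rw [hk, if_neg (ne 1 0 (by omega) (by omega) (by omega)), if_pos rfl]
  rw [accL_iff]
  constructor
  · rintro (⟨e, _⟩ | ⟨a, b, _, h3, _⟩)
    · exact (hne e).elim
    · rw [hch, wd_val ρ hKs hy hyK, hval] at h3
      exact h3
  · intro h
    right
    refine ⟨0, 0, ?_, ?_, ?_⟩
    · intro i
      refine ⟨Or.inr (Or.inl ⟨hk, rfl, rfl⟩), ?_, ?_⟩
      · rintro (e | e) _
        · rw [hk] at e
          exact (ne 1 0 (by omega) (by omega) (by omega) e).elim
        · rw [hk] at e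
          exact (ne 1 2 (by omega) (by omega) (by omega) e).elim
      · intro e _
        rw [hk] at e
        exact (ne 1 0 (by omega) (by omega) (by omega) e).elim
    · rw [hch, wd_val ρ hKs hy hyK, hval]
      exact h
    · rw [hch, wd_val ρ hKs hy hyK, hval]
      exact h

theorem accL_jz {pc : F} {x y : ℕ} (ρ : ℕ → F) (hs : 4 < s) (hKs : K ≤ s)
    (hk : Alph.fKind A D pc = A.num 2) (h1 : Alph.fX1 A D pc = A.num x)
    (hy : Alph.fY A D pc = A.num y) (hyK : y < K)
    (hx : x < K) (hne : pc ≠ ac) :
    AccL A D st ac pc (wd K ρ) ↔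
      AccL A D st ac (if ρ x = 0 then Alph.fLbl A D pc else A.succL pc) (wd K ρ) := by
  have ne : ∀ i j, i < 5 → j < 5 → i ≠ j → A.num i ≠ (A.num j : F) := fun i j hi hj hij e =>
    hij (A.num_inj (by omega) (by omega) e)
  have hch : ∀ a b σ, A.chL D pc a b σ = if a = 0 then Alph.fLbl A D pc else A.succL pc := by
    intro a b σ
    unfold Alph.chL
    rw [if_pos hk]
  have hval : ∀ a b, A.valL D pc a b = 0 := by
    intro a b
    unfold Alph.valL
    rw [hk, if_neg (ne 2 0 (by omega) (by omega) (by omega)),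
      if_neg (ne 2 1 (by omega) (by omega) (by omega)),
      if_neg (ne 2 3 (by omega) (by omega) (by omega))]
  have hw : ∀ a b, (fun i : Fin K => wd K ρ i + A.deltaL D pc a b (A.num i.val)) = wd K ρ := by
    intro a b
    rw [wd_val ρ hKs hy hyK, hval, add_zero, update_eq_self]
  rw [accL_iff]
  constructor
  · rintro (⟨e, _⟩ | ⟨a, b, hg, h3, _⟩)
    · exact (hne e).elim
    · have ha : ρ x = a := (hg ⟨x, hx⟩).2.1 (Or.inr hk) (by rw [h1])
      subst ha
      rw [hw, hch] at h3
      exact h3
  · intro h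
    right
    refine ⟨ρ x, 0, ?_, ?_, ?_⟩
    · intro i
      refine ⟨Or.inr (Or.inr (Or.inl ⟨hk, rfl⟩)), ?_, ?_⟩
      · intro _ e
        rw [h1] at e
        have := A.num_inj (lt_of_lt_of_le i.isLt hKs) (lt_of_lt_of_le hx hKs) e
        show ρ i.val = _
        rw [this]
      · intro e _
        rw [hk] at e
        exact (ne 2 0 (by omega) (by omega) (by omega) e).elim
    · rw [hw, hch]
      exact h
    · rw [hw, hch]
      exact h

theorem accL_guess {pc : F} {y : ℕ} (ρ : ℕ → F) (hs : 4 < s) (hKs : K ≤ s)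
    (hk : Alph.fKind A D pc = A.num 3) (hy : Alph.fY A D pc = A.num y)
    (hyK : y < K) (hne : pc ≠ ac) :
    AccL A D st ac pc (wd K ρ) ↔ ∃ a, AccL A D st ac (A.succL pc)
      (wd K (update ρ y (ρ y + a))) := by
  have ne : ∀ i j, i < 5 → j < 5 → i ≠ j → A.num i ≠ (A.num j : F) := fun i j hi hj hij e =>
    hij (A.num_inj (by omega) (by omega) e)
  have hch : ∀ a b σ, A.chL D pc a b σ = A.succL pc := by
    intro a b σ
    unfold Alph.chL
    rw [hk, if_neg (ne 3 2 (by omega) (by omega) (by omega)),
      if_neg (ne 3 4 (by omega) (by omega) (by omega))]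
  have hval : ∀ a b, A.valL D pc a b = a := by
    intro a b
    unfold Alph.valL
    rw [hk, if_neg (ne 3 0 (by omega) (by omega) (by omega)),
      if_neg (ne 3 1 (by omega) (by omega) (by omega)), if_pos rfl]
  rw [accL_iff]
  constructor
  · rintro (⟨e, _⟩ | ⟨a, b, _, h3, _⟩)
    · exact (hne e).elim
    · rw [hch, wd_val ρ hKs hy hyK, hval] at h3
      exact ⟨a, h3⟩
  · rintro ⟨a, h⟩
    right
    refine ⟨a, 0, ?_, ?_, ?_⟩
    · intro i
      refine ⟨Or.inr (Or.inr (Or.inr (Or.inl ⟨hk, rfl⟩))), ?_, ?_⟩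
      · rintro (e | e) _
        · rw [hk] at e
          exact (ne 3 0 (by omega) (by omega) (by omega) e).elim
        · rw [hk] at e
          exact (ne 3 2 (by omega) (by omega) (by omega) e).elim
      · intro e _
        rw [hk] at e
        exact (ne 3 0 (by omega) (by omega) (by omega) e).elim
    · rw [hch, wd_val ρ hKs hy hyK, hval]
      exact h
    · rw [hch, wd_val ρ hKs hy hyK, hval]
      exact h

theorem accL_fork {pc : F} {y : ℕ} (ρ : ℕ → F) (hs : 4 < s) (hKs : K ≤ s)
    (hk : Alph.fKind A D pc = A.num 4) (hy : Alph.fY A D pc = A.num y) (hyK : y < K)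
    (hne : pc ≠ ac) :
    AccL A D st ac pc (wd K ρ) ↔
      AccL A D st ac (A.succL pc) (wd K ρ) ∧ AccL A D st ac (Alph.fLbl A D pc) (wd K ρ) := by
  have ne : ∀ i j, i < 5 → j < 5 → i ≠ j → A.num i ≠ (A.num j : F) := fun i j hi hj hij e =>
    hij (A.num_inj (by omega) (by omega) e)
  have hch : ∀ a b σ, A.chL D pc a b σ = if σ then Alph.fLbl A D pc else A.succL pc := by
    intro a b σ
    unfold Alph.chL
    rw [hk, if_neg (ne 4 2 (by omega) (by omega) (by omega)), if_pos rfl]
  have hval : ∀ a b, A.valL D pc a b = 0 := by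
    intro a b
    unfold Alph.valL
    rw [hk, if_neg (ne 4 0 (by omega) (by omega) (by omega)),
      if_neg (ne 4 1 (by omega) (by omega) (by omega)),
      if_neg (ne 4 3 (by omega) (by omega) (by omega))]
  have hw : ∀ a b, (fun i : Fin K => wd K ρ i + A.deltaL D pc a b (A.num i.val)) = wd K ρ := by
    intro a b
    rw [wd_val ρ hKs hy hyK, hval, add_zero, update_eq_self]
  rw [accL_iff]
  constructor
  · rintro (⟨e, _⟩ | ⟨a, b, _, h3, h4⟩)
    · exact (hne e).elim
    · rw [hw, hch] at h3 h4
      exact ⟨h3, h4⟩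
  · rintro ⟨h3, h4⟩
    right
    refine ⟨0, 0, ?_, ?_, ?_⟩
    · intro i
      refine ⟨Or.inr (Or.inr (Or.inr (Or.inr ⟨hk, rfl, rfl⟩))), ?_, ?_⟩
      · rintro (e | e) _
        · rw [hk] at e
          exact (ne 4 0 (by omega) (by omega) (by omega) e).elim
        · rw [hk] at e
          exact (ne 4 2 (by omega) (by omega) (by omega) e).elim
      · intro e _
        rw [hk] at e
        exact (ne 4 0 (by omega) (by omega) (by omega) e).elim
    · rw [hw, hch]
      exact h3
    · rw [hw, hch]
      exact h4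

/-- A letter whose kind has no rule accepts nothing, unless it is the accepting letter. -/
theorem accL_halt {pc : F} {c : Fin K → F} (hk : ¬ A.activeL D pc (0 : F) 0)
    (hall : ∀ a b, ¬ A.activeL D pc a b) (hne : pc ≠ ac) (hK : 0 < K) :
    ¬ AccL A D st ac pc c := by
  rw [accL_iff]
  rintro (⟨e, _⟩ | ⟨a, b, hg, _⟩)
  · exact hne e
  · exact hall a b (hg ⟨0, hK⟩).1

theorem accL_acc {c : Fin K → F} (hall : ∀ a b, ¬ A.activeL D ac a b) (hK : 0 < K) :
    AccL A D st ac ac c ↔ c = 0 := by
  rw [accL_iff]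
  constructor
  · rintro (⟨_, h⟩ | ⟨a, b, hg, _⟩)
    · exact h
    · exact (hall a b (hg ⟨0, hK⟩).1).elim
  · intro h
    exact Or.inl ⟨rfl, h⟩

end

end Vale.Agent.P310d
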