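import Vale.Agent.P310d.TMDefs

/-!
# The cells of a computation and the local rule
-/

namespace Vale.Agent.P310d

open Function

open scoped Classical

variable {Q Γ : Type}

/-- The symbol of a cell: the wall left of the first cell, a tape symbol, or a tape symbol with the
head and the state. -/
inductive Sym (Q Γ : Type) : Type
  | wall : Sym Q Γ
  | pl (a : Γ) : Sym Q Γ
  | hd (q : Q) (a : Γ) : Sym Q Γ

instance [Finite Q] [Finite Γ] : Finite (Sym Q Γ) :=
  Finite.of_injective
    (fun x : Sym Q Γ => match x with
      | .wall => (Sum.inl () : Unit ⊕ Γ ⊕ (Q × Γ))
      | .pl a => Sum.inr (Sum.inl a)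
      | .hd q a => Sum.inr (Sum.inr (q, a)))
    (by
      intro x y h
      cases x <;> cases y <;> simp_all)

/-- The cells of a configuration: `0` is the wall, `p + 1` is the tape cell `p`. -/
noncomputable def cellOf (c : Cfg Q Γ) : ℕ → Sym Q Γ
  | 0 => Sym.wall
  | p + 1 => if c.head = p then Sym.hd c.state (c.tape p) else Sym.pl (c.tape p)

namespace TM

variable (M : TM Q Γ)

/-- The state enters from the left, if the left cell has the head moving right. -/
noncomputable def fromL : Sym Q Γ → Option Q
  | Sym.hd q b => if ¬ (q = M.accept ∨ q = M.reject) ∧ (M.δ q b).2.2 = true then some (M.δ q b).1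
      else none
  | _ => none

/-- The state enters from the right, if the right cell has the head moving left. -/
noncomputable def fromR : Sym Q Γ → Option Q
  | Sym.hd q b => if ¬ (q = M.accept ∨ q = M.reject) ∧ (M.δ q b).2.2 = false then some (M.δ q b).1
      else none
  | _ => none

/-- The local rule: the new symbol of a tape cell from the old symbols of the cell and its two
neighbours. -/
noncomputable def rule (L X R : Sym Q Γ) : Sym Q Γ :=
  match X with
  | Sym.wall => Sym.wall
  | Sym.hd q a =>
    if q = M.accept ∨ q = M.reject then Sym.hd q a
    else if (M.δ q a).2.2 = true then Sym.pl (M.δ q a).2.1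
    else if L = Sym.wall then Sym.hd (M.δ q a).1 (M.δ q a).2.1
    else Sym.pl (M.δ q a).2.1
  | Sym.pl a =>
    match M.fromL L, M.fromR R with
    | some q, _ => Sym.hd q a
    | none, some q => Sym.hd q a
    | none, none => Sym.pl a

theorem step_halted {c : Cfg Q Γ} (h : c.state = M.accept ∨ c.state = M.reject) : M.step c = c := by
  unfold step
  rw [if_pos h]

theorem step_active {c : Cfg Q Γ} (h : ¬ (c.state = M.accept ∨ c.state = M.reject)) :
    M.step c = { state := (M.δ c.state (c.tape c.head)).1
                 head := if (M.δ c.state (c.tape c.head)).2.2 then c.head + 1 else c.head - 1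
                 tape := update c.tape c.head (M.δ c.state (c.tape c.head)).2.1 } := by
  unfold step
  rw [if_neg h]

theorem cell_eq {c : Cfg Q Γ} {p : ℕ} (h : c.head = p) :
    cellOf c (p + 1) = Sym.hd c.state (c.tape p) := by
  simp [cellOf, h]

theorem cell_ne {c : Cfg Q Γ} {p : ℕ} (h : c.head ≠ p) :
    cellOf c (p + 1) = Sym.pl (c.tape p) := by
  simp [cellOf, h]

theorem step_active' {c : Cfg Q Γ} (h : ¬ (c.state = M.accept ∨ c.state = M.reject)) {q' : Q} {a' : Γ}
    {d : Bool} (hδ : M.δ c.state (c.tape c.head) = (q', a', d)) :
    M.step c = { state := q'
                 head := if d then c.head + 1 else c.head - 1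
                 tape := update c.tape c.head a' } := by
  rw [M.step_active h, hδ]

theorem fromL_halted {c : Cfg Q Γ} (hh : c.state = M.accept ∨ c.state = M.reject) (p : ℕ) :
    M.fromL (cellOf c p) = none := by
  cases p with
  | zero => rfl
  | succ p' =>
    by_cases h2 : c.head = p'
    · rw [cell_eq h2]
      show (if ¬ (c.state = M.accept ∨ c.state = M.reject) ∧ (M.δ c.state (c.tape p')).2.2 = true
        then some (M.δ c.state (c.tape p')).1 else none) = none
      rw [if_neg (fun h => h.1 hh)]
    · rw [cell_ne h2]
      rfl

theorem fromR_halted {c : Cfg Q Γ} (hh : c.state = M.accept ∨ c.state = M.reject) (p : ℕ) :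
    M.fromR (cellOf c p) = none := by
  cases p with
  | zero => rfl
  | succ p' =>
    by_cases h2 : c.head = p'
    · rw [cell_eq h2]
      show (if ¬ (c.state = M.accept ∨ c.state = M.reject) ∧ (M.δ c.state (c.tape p')).2.2 = false
        then some (M.δ c.state (c.tape p')).1 else none) = none
      rw [if_neg (fun h => h.1 hh)]
    · rw [cell_ne h2]
      rfl

/-- The local rule describes the step. -/
theorem cell_step (c : Cfg Q Γ) (p : ℕ) :
    cellOf (M.step c) (p + 1) = M.rule (cellOf c p) (cellOf c (p + 1)) (cellOf c (p + 2)) := by
  by_cases hh : c.state = M.accept ∨ c.state = M.reject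
  · rw [M.step_halted hh]
    by_cases h1 : c.head = p
    · rw [cell_eq h1]
      show _ = if c.state = M.accept ∨ c.state = M.reject then _ else _
      rw [if_pos hh]
    · rw [cell_ne h1]
      show _ = match M.fromL (cellOf c p), M.fromR (cellOf c (p + 2)) with
        | some q, _ => Sym.hd q (c.tape p)
        | none, some q => Sym.hd q (c.tape p)
        | none, none => Sym.pl (c.tape p)
      rw [M.fromL_halted hh, M.fromR_halted hh]
  · rcases hδ : M.δ c.state (c.tape c.head) with ⟨q', a', d⟩
    rw [M.step_active' hh hδ]
    by_cases h1 : c.head = p
    · subst h1
      rw [cell_eq rfl]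
      have e2 : M.rule (cellOf c c.head) (Sym.hd c.state (c.tape c.head)) (cellOf c (c.head + 2)) =
          if d = true then Sym.pl a' else
            if cellOf c c.head = Sym.wall then Sym.hd q' a' else Sym.pl a' := by
        show (if c.state = M.accept ∨ c.state = M.reject then _ else _) = _
        rw [if_neg hh, hδ]
      rw [e2]
      cases d with
      | true =>
        simp only [if_true]
        rw [cell_ne (by simp)]
        simp
      | false =>
        simp only [Bool.false_eq_true, if_false]
        cases hp : c.head with
        | zero =>
          show _ = if (Sym.wall : Sym Q Γ) = Sym.wall then _ else _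
          rw [if_pos rfl, cell_eq (by simp)]
          simp
        | succ p' =>
          rw [cell_ne (by simp), cell_ne (by omega : c.head ≠ p')]
          have : (Sym.pl (c.tape p') : Sym Q Γ) ≠ Sym.wall := by simp
          rw [if_neg this]
          simp
    · rw [cell_ne h1]
      have e0 : update c.tape c.head a' p = c.tape p := update_of_ne (Ne.symm h1) _ _
      by_cases h2 : c.head + 1 = p
      · subst h2
        rw [cell_eq rfl, cell_ne (by omega : c.head ≠ c.head + 1 + 1)]
        have e1 : M.rule (Sym.hd c.state (c.tape c.head)) (Sym.pl (c.tape (c.head + 1)))
            (Sym.pl (c.tape (c.head + 1 + 1))) =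
            if d = true then Sym.hd q' (c.tape (c.head + 1)) else Sym.pl (c.tape (c.head + 1)) := by
          have e3 : M.fromL (Sym.hd c.state (c.tape c.head)) =
              if d = true then some q' else none := by
            show (if ¬ (c.state = M.accept ∨ c.state = M.reject) ∧
              (M.δ c.state (c.tape c.head)).2.2 = true
              then some (M.δ c.state (c.tape c.head)).1 else none) = _
            rw [hδ]
            simp [hh]
          have e4 : M.fromR (Sym.pl (c.tape (c.head + 1 + 1))) = none := rfl
          show (match M.fromL (Sym.hd c.state (c.tape c.head)),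
              M.fromR (Sym.pl (c.tape (c.head + 1 + 1))) with
            | some q, _ => Sym.hd q (c.tape (c.head + 1))
            | none, some q => Sym.hd q (c.tape (c.head + 1))
            | none, none => Sym.pl (c.tape (c.head + 1))) = _
          rw [e3, e4]
          cases d <;> simp
        rw [e1]
        cases d with
        | true =>
          simp only [if_true]
          rw [cell_eq rfl]
          simp [e0]
        | false =>
          simp only [Bool.false_eq_true, if_false]
          rw [cell_ne (by simp <;> omega)]
          simp [e0]
      · by_cases h3 : c.head = p + 1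
        · have e5 : cellOf c (p + 2) = Sym.hd c.state (c.tape c.head) := by
            rw [show p + 2 = p + 1 + 1 from rfl, cell_eq h3, h3]
          have e6 : M.fromL (cellOf c p) = none := by
            cases p with
            | zero => rfl
            | succ p' =>
              rw [cell_ne (by omega)]
              rfl
          have e7 : M.fromR (Sym.hd c.state (c.tape c.head)) =
              if d = false then some q' else none := by
            show (if ¬ (c.state = M.accept ∨ c.state = M.reject) ∧
              (M.δ c.state (c.tape c.head)).2.2 = false
              then some (M.δ c.state (c.tape c.head)).1 else none) = _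
            rw [hδ]
            simp [hh]
          have e8 : M.rule (cellOf c p) (Sym.pl (c.tape p)) (cellOf c (p + 2)) =
              if d = false then Sym.hd q' (c.tape p) else Sym.pl (c.tape p) := by
            show (match M.fromL (cellOf c p), M.fromR (cellOf c (p + 2)) with
              | some q, _ => Sym.hd q (c.tape p)
              | none, some q => Sym.hd q (c.tape p)
              | none, none => Sym.pl (c.tape p)) = _
            rw [e6, e5, e7]
            cases d <;> simp
          rw [e8]
          cases d with
          | true =>
            simp only [Bool.true_eq_false, if_false]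
            rw [cell_ne (by simp <;> omega)]
            simp [e0]
          | false =>
            simp only [if_true]
            rw [cell_eq (by simp [h3])]
            simp [e0]
        · have e6 : M.fromL (cellOf c p) = none := by
            cases p with
            | zero => rfl
            | succ p' =>
              rw [cell_ne (by omega)]
              rfl
          have e7 : M.fromR (cellOf c (p + 2)) = none := by
            rw [show p + 2 = p + 1 + 1 from rfl, cell_ne h3]
            rfl
          have e8 : M.rule (cellOf c p) (Sym.pl (c.tape p)) (cellOf c (p + 2)) =
              Sym.pl (c.tape p) := by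
            show (match M.fromL (cellOf c p), M.fromR (cellOf c (p + 2)) with
              | some q, _ => Sym.hd q (c.tape p)
              | none, some q => Sym.hd q (c.tape p)
              | none, none => Sym.pl (c.tape p)) = _
            rw [e6, e7]
          rw [e8, cell_ne (by cases d <;> simp <;> omega)]
          simp [e0]

/-! ### Facts on the run -/

theorem run_zero (w : List Bool) : M.run w 0 = M.init w := rfl

theorem run_succ (w : List Bool) (t : ℕ) : M.run w (t + 1) = M.step (M.run w t) := by
  unfold run
  rw [Function.iterate_succ_apply']

/-- The cells evolve by the rule. -/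
theorem cell_run (w : List Bool) (t p : ℕ) :
    cellOf (M.run w (t + 1)) (p + 1) =
      M.rule (cellOf (M.run w t) p) (cellOf (M.run w t) (p + 1)) (cellOf (M.run w t) (p + 2)) := by
  rw [run_succ, cell_step]

theorem head_le (w : List Bool) (t : ℕ) : (M.run w t).head ≤ t := by
  induction t with
  | zero => exact Nat.le_refl _
  | succ t ih =>
    rw [run_succ]
    by_cases hh : (M.run w t).state = M.accept ∨ (M.run w t).state = M.reject
    · rw [M.step_halted hh]
      omega
    · rcases hδ : M.δ (M.run w t).state ((M.run w t).tape (M.run w t).head) with ⟨q', a', d⟩
      rw [M.step_active' hh hδ]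
      cases d <;> simp <;> omega

/-- A cell beyond the reach of the head keeps its initial symbol. -/
theorem tape_far (w : List Bool) (t c : ℕ) (h : t ≤ c) :
    (M.run w t).tape c = (M.init w).tape c := by
  induction t with
  | zero => rfl
  | succ t ih =>
    rw [run_succ]
    by_cases hh : (M.run w t).state = M.accept ∨ (M.run w t).state = M.reject
    · rw [M.step_halted hh]
      exact ih (by omega)
    · rcases hδ : M.δ (M.run w t).state ((M.run w t).tape (M.run w t).head) with ⟨q', a', d⟩
      rw [M.step_active' hh hδ]
      have := M.head_le w t
      show update _ _ _ _ = _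
      rw [update_of_ne (by omega)]
      exact ih (by omega)

theorem cell_far (w : List Bool) (t c : ℕ) (h : t < c) :
    cellOf (M.run w t) (c + 1) = Sym.pl ((M.init w).tape c) := by
  have := M.head_le w t
  rw [cell_ne (by omega), M.tape_far w t c h.le]

theorem run_stays {w : List Bool} {t t' : ℕ} (h : t ≤ t')
    (hh : (M.run w t).state = M.accept ∨ (M.run w t).state = M.reject) :
    M.run w t' = M.run w t := by
  induction t', h using Nat.le_induction with
  | base => rfl
  | succ n _ ih =>
    rw [run_succ, ih, M.step_halted hh]

theorem accept_iff_cell (w : List Bool) (t : ℕ) :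
    (M.run w t).state = M.accept ↔ ∃ p a, cellOf (M.run w t) p = Sym.hd M.accept a := by
  constructor
  · intro h
    refine ⟨(M.run w t).head + 1, (M.run w t).tape (M.run w t).head, ?_⟩
    rw [cell_eq rfl, h]
  · rintro ⟨p, a, h⟩
    cases p with
    | zero => cases h
    | succ p' =>
      by_cases h2 : (M.run w t).head = p'
      · rw [cell_eq h2] at h
        exact (Sym.hd.inj h).1
      · rw [cell_ne h2] at h
        cases h

end TM

end Vale.Agent.P310d
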