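import Vale.Agent.P310d.Comb
import Vale.Agent.P310d.Truth

/-!
# The register program simulating a Turing machine
-/

namespace Vale.Agent.P310d

open Function

open scoped Classical

set_option linter.unusedSectionVars false

variable {F : Type} [AddCommGroup F] [Module (ZMod 2) F] {s : ℕ} (A : Alph F s)

/-- The program. Registers: `0 .. m` the position, `m + 1 .. 2 m` the time, `2 m + 1` the claimed
symbol, `2 m + 2` the guess. Statement `3` checks the claim. -/
noncomputable def tabStmts (m : ℕ) (symE : Exp F) (cW cB : F) : List (Stmt F) :=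
  [ Stmt.asg (digL (m + 1) m (fun _ => Exp.lit (A.num (s - 1)))),
    Stmt.guess ((2 * m + 1) :: List.range (m + 1)),
    Stmt.jze (eD A 25 (Exp.reg (2 * m + 1))) 28,
    Stmt.jze (eNot A (eAllEq A 0 (m + 1) 0)) 20,
    Stmt.jze (eNot A (eAllEq A 0 (m + 1) (A.num (s - 1)))) 22,
    Stmt.jze (eNot A (eAllEq A (m + 1) m 0)) 24,
    Stmt.asg (digL (m + 1) m (eDec A (m + 1))),
    Stmt.guess [2 * m + 2],
    Stmt.jze (eAnd (eD A 20 (Exp.reg (2 * m + 2)))
      (eEq A (eD A 21 (Exp.reg (2 * m + 2))) (Exp.reg (2 * m + 1)))) 28,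
    Stmt.asg [(2 * m + 1, Exp.lit 0)],
    Stmt.fork 14,
    Stmt.asg [(2 * m + 1, eD A 22 (Exp.reg (2 * m + 2))), (2 * m + 2, Exp.lit 0)],
    Stmt.asg (digL 0 (m + 1) (eDec A 0)),
    Stmt.jze (Exp.lit 0) 3,
    Stmt.fork 17,
    Stmt.asg [(2 * m + 1, eD A 23 (Exp.reg (2 * m + 2))), (2 * m + 2, Exp.lit 0)],
    Stmt.jze (Exp.lit 0) 3,
    Stmt.asg [(2 * m + 1, eD A 24 (Exp.reg (2 * m + 2))), (2 * m + 2, Exp.lit 0)],
    Stmt.asg (digL 0 (m + 1) (eInc A 0)),
    Stmt.jze (Exp.lit 0) 3,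
    Stmt.jze (eEq A (Exp.reg (2 * m + 1)) (Exp.lit cW)) 28,
    Stmt.jze (Exp.lit 0) 26,
    Stmt.jze (eEq A (Exp.reg (2 * m + 1)) (Exp.lit cB)) 28,
    Stmt.jze (Exp.lit 0) 26,
    Stmt.asg (digL 0 (m + 1) (eDec A 0)),
    Stmt.jze (eEq A (Exp.reg (2 * m + 1))
      (eIf A (eAllEq A 0 (m + 1) 0) (eD A 26 symE) symE)) 28,
    Stmt.asg (digL 0 (2 * m + 3) (fun _ => Exp.lit 0)),
    Stmt.jze (Exp.lit 0) 29,
    Stmt.halt,
    Stmt.halt ]

theorem tabStmts_length (m : ℕ) (symE : Exp F) (cW cB : F) :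
    (tabStmts A m symE cW cB).length = 30 := rfl

/-- The register file of a claim. -/
noncomputable def St (m t p : ℕ) (x g : F) : ℕ → F := fun i =>
  if i < m + 1 then A.num (dgt s p i)
  else if i < 2 * m + 1 then A.num (dgt s t (i - (m + 1)))
  else if i = 2 * m + 1 then x
  else if i = 2 * m + 2 then g
  else 0

section state

variable {m t p : ℕ} {x g : F}

theorem St_X {j : ℕ} (hj : j < m + 1) : St A m t p x g j = A.num (dgt s p j) := by
  simp [St, hj]

theorem St_T {j : ℕ} (hj : j < m) : St A m t p x g (m + 1 + j) = A.num (dgt s t j) := by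
  have h1 : ¬ (m + 1 + j < m + 1) := by omega
  have h2 : m + 1 + j < 2 * m + 1 := by omega
  simp [St, h1, h2]

theorem St_S : St A m t p x g (2 * m + 1) = x := by
  have h1 : ¬ (2 * m + 1 < m + 1) ∨ m = 0 := by omega
  unfold St
  rcases h1 with h1 | h1
  · simp [h1]
  · subst h1
    simp

theorem St_G : St A m t p x g (2 * m + 2) = g := by
  have h1 : ¬ (2 * m + 2 < m + 1) := by omega
  have h2 : ¬ (2 * m + 2 < 2 * m + 1) := by omega
  have h3 : ¬ (2 * m + 2 = 2 * m + 1) := by omega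
  simp [St, h1, h2, h3]

theorem St_hi {y : ℕ} (hy : 2 * m + 3 ≤ y) : St A m t p x g y = 0 := by
  have h1 : ¬ (y < m + 1) := by omega
  have h2 : ¬ (y < 2 * m + 1) := by omega
  have h3 : ¬ (y = 2 * m + 1) := by omega
  have h4 : ¬ (y = 2 * m + 2) := by omega
  simp [St, h1, h2, h3, h4]

theorem St_upd_S (x' : F) : update (St A m t p x g) (2 * m + 1) x' = St A m t p x' g := by
  funext i
  by_cases hi : i = 2 * m + 1
  · subst hi
    rw [update_self, St_S]
  · rw [update_of_ne hi]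
    unfold St
    simp [hi]

theorem St_upd_G (g' : F) : update (St A m t p x g) (2 * m + 2) g' = St A m t p x g' := by
  funext i
  by_cases hi : i = 2 * m + 2
  · subst hi
    rw [update_self, St_G]
  · rw [update_of_ne hi]
    unfold St
    simp [hi]

end state

/-! ### The hypotheses on the tables -/

/-- The tables needed for a machine `M`, with codes `cS`, `cT` of symbols and triples of symbols. -/
structure TabAux (A : Alph F s) (aux : F → F → F) {Q Γ : Type} (M : TM Q Γ)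
    (cS : Sym Q Γ → F) (cT : Sym Q Γ × Sym Q Γ × Sym Q Γ → F) : Prop where
  hs : 60 < s
  hz : ∀ a, aux (A.num 7) a = A.bl (a = 0)
  hsucc : ∀ a, aux (A.num 8) a = A.succL a
  hpred : ∀ a, aux (A.num 9) a = A.predL a
  cS_inj : Injective cS
  cT_inj : Injective cT
  h20 : ∀ a, aux (A.num 20) a = A.bl (∃ t, a = cT t)
  h21 : ∀ t, aux (A.num 21) (cT t) = cS (M.rule t.1 t.2.1 t.2.2)
  h22 : ∀ t, aux (A.num 22) (cT t) = cS t.1
  h23 : ∀ t, aux (A.num 23) (cT t) = cS t.2.1
  h24 : ∀ t, aux (A.num 24) (cT t) = cS t.2.2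
  h25 : ∀ a, aux (A.num 25) a = A.bl (∃ c, a = cS (Sym.hd M.accept c))
  h26 : ∀ c, aux (A.num 26) (cS (Sym.pl c)) = cS (Sym.hd M.start c)

theorem codeTab_aux {code : ℕ → Instr F} {aux : F → F → F} {τ : ℕ} (h1 : 7 ≤ τ) (h2 : τ < s)
    (a : F) : codeTab A code aux (A.num τ) a = aux (A.num τ) a := by
  unfold codeTab
  rw [if_neg (ne_num h2 (by omega) (by omega)), if_neg (ne_num h2 (by omega) (by omega)),
    if_neg (ne_num h2 (by omega) (by omega)), if_neg (ne_num h2 (by omega) (by omega)),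
    if_neg (ne_num h2 (by omega) (by omega)), if_neg (ne_num h2 (by omega) (by omega)),
    if_neg (ne_num h2 (by omega) (by omega))]

/-- Acceptance at a statement of the program. -/
def Ac (m : ℕ) (symE : Exp F) (K : ℕ) (aux : F → F → F) (cW cB : F) (i : ℕ) (ρ : ℕ → F) : Prop :=
  AccS A (tabStmts A m symE cW cB) (2 * m + 3) K 29 aux i ρ

/-- The value of an expression in the program. -/
noncomputable def Vl (m : ℕ) (symE : Exp F) (aux : F → F → F) (cW cB : F) (e : Exp F)
    (ρ : ℕ → F) : F :=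
  ev A (tabStmts A m symE cW cB) (2 * m + 3) aux e ρ

section main

variable {A}

variable {Q Γ : Type} {M : TM Q Γ} {cS : Sym Q Γ → F} {cT : Sym Q Γ × Sym Q Γ × Sym Q Γ → F}
  {aux : F → F → F} {m K : ℕ} {symE : Exp F} {w : List Bool}

variable {cW cB : F}

theorem TabAux.std (H : TabAux A aux M cS cT) (code : ℕ → Instr F) :
    Std A (codeTab A code aux) where
  hs := H.hs
  hz a := by
    rw [codeTab_aux A (by omega) (by have := H.hs; omega)]
    exact H.hz a
  hsucc a := by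
    rw [codeTab_aux A (by omega) (by have := H.hs; omega)]
    exact H.hsucc a
  hpred a := by
    rw [codeTab_aux A (by omega) (by have := H.hs; omega)]
    exact H.hpred a

variable (hP : POk A (tabStmts A m symE cW cB) (2 * m + 3) K 29)

include hP

theorem Ac_jze {i L : ℕ} {e : Exp F} (hi : i < 30)
    (hq : (tabStmts A m symE cW cB)[i]'(by rw [tabStmts_length]; exact hi) = Stmt.jze e L)
    (hr : Exp.Rb (2 * m + 3) e) {ρ : ℕ → F} (hc : ∀ y, 2 * m + 3 ≤ y → ρ y = 0) :
    Ac A m symE K aux cW cB i ρ ↔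
      Ac A m symE K aux cW cB (if Vl A m symE aux cW cB e ρ = 0 then L else i + 1) ρ :=
  accS_jze hP (by rw [tabStmts_length]; exact hi) hq hr hc

theorem Ac_asg {i : ℕ} {q : List (ℕ × Exp F)} (hi : i < 30)
    (hq : (tabStmts A m symE cW cB)[i]'(by rw [tabStmts_length]; exact hi) = Stmt.asg q)
    (hr : ∀ p ∈ q, p.1 < 2 * m + 3 ∧ Exp.Rb (2 * m + 3) p.2) {ρ : ℕ → F}
    (hc : ∀ y, 2 * m + 3 ≤ y → ρ y = 0) :
    Ac A m symE K aux cW cB i ρ ↔ Ac A m symE K aux cW cB (i + 1)
      (runL A (tabStmts A m symE cW cB) (2 * m + 3) aux q ρ) :=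
  accS_asg hP (by rw [tabStmts_length]; exact hi) hq hr hc

theorem Ac_fork {i L : ℕ} (hi : i < 30)
    (hq : (tabStmts A m symE cW cB)[i]'(by rw [tabStmts_length]; exact hi) = Stmt.fork L)
    (ρ : ℕ → F) :
    Ac A m symE K aux cW cB i ρ ↔
      Ac A m symE K aux cW cB (i + 1) ρ ∧ Ac A m symE K aux cW cB L ρ :=
  accS_fork hP (by rw [tabStmts_length]; exact hi) hq ρ

theorem Ac_jump {i L : ℕ} (hi : i < 30)
    (hq : (tabStmts A m symE cW cB)[i]'(by rw [tabStmts_length]; exact hi) =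
      Stmt.jze (Exp.lit 0) L) {ρ : ℕ → F} (hc : ∀ y, 2 * m + 3 ≤ y → ρ y = 0) :
    Ac A m symE K aux cW cB i ρ ↔ Ac A m symE K aux cW cB L ρ := by
  rw [Ac_jze hP hi hq trivial hc]
  have : Vl A m symE aux cW cB (Exp.lit 0) ρ = 0 := rfl
  rw [this, if_pos rfl]

theorem Ac_fail (ρ : ℕ → F) : ¬ Ac A m symE K aux cW cB 28 ρ :=
  accS_halt hP (by rw [tabStmts_length]; omega) rfl (by omega) ρ

theorem Ac_acc (ρ : ℕ → F) : Ac A m symE K aux cW cB 29 ρ ↔ wd K ρ = 0 :=
  accS_acc hP ρ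

theorem Ac_guess {i : ℕ} {xs : List ℕ} (hi : i < 30)
    (hq : (tabStmts A m symE cW cB)[i]'(by rw [tabStmts_length]; exact hi) = Stmt.guess xs)
    (hnd : xs.Nodup) (hr : ∀ x ∈ xs, x < 2 * m + 3) {ρ : ℕ → F}
    (hc : ∀ y, 2 * m + 3 ≤ y → ρ y = 0) :
    Ac A m symE K aux cW cB i ρ ↔
      ∃ f : ℕ → F, Ac A m symE K aux cW cB (i + 1)
        (fun x => if x ∈ xs then ρ x + f x else ρ x) :=
  accS_guess hP (by rw [tabStmts_length]; exact hi) hq hnd hr hc

omit hP in
theorem mem_digL {base n : ℕ} {e : ℕ → Exp F} {p : ℕ × Exp F} (h : p ∈ digL base n e) :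
    ∃ j, j < n ∧ p = (base + j, e j) := by
  induction n with
  | zero => simp [digL] at h
  | succ n ih =>
    simp only [digL, List.mem_cons] at h
    rcases h with h | h
    · exact ⟨n, by omega, h⟩
    · obtain ⟨j, hj, e1⟩ := ih h
      exact ⟨j, by omega, e1⟩

theorem Ac_clear {t p : ℕ} {x g : F} : Ac A m symE K aux cW cB 26 (St A m t p x g) := by
  rw [Ac_asg hP (i := 26) (by omega) rfl (by
    intro q hq
    obtain ⟨j, hj, rfl⟩ := mem_digL hq
    exact ⟨by simp only; omega, trivial⟩) (fun y hy => St_hi A hy)]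
  have e1 := runL_digL (A := A) (l := tabStmts A m symE cW cB) (b := 2 * m + 3) (aux := aux)
    (base := 0) (M := 2 * m + 3) (e := fun _ => Exp.lit 0) (ρ0 := St A m t p x g)
    (fun j _ ρ1 _ => rfl) (2 * m + 3) le_rfl _ (fun _ _ => rfl)
  rw [e1]
  have e2 : (fun y => if 0 ≤ y ∧ y < 0 + (2 * m + 3)
      then ev A (tabStmts A m symE cW cB) (2 * m + 3) aux (Exp.lit 0) (St A m t p x g)
      else St A m t p x g y) = fun _ => 0 := by
    funext y
    by_cases hy : y < 2 * m + 3
    · rw [if_pos ⟨Nat.zero_le _, by omega⟩]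
      rfl
    · rw [if_neg (by omega)]
      exact St_hi A (by omega)
  rw [e2]
  have hc0 : ∀ y, 2 * m + 3 ≤ y → (fun _ : ℕ => (0 : F)) y = 0 := fun _ _ => rfl
  rw [Ac_jump hP (i := 27) (by omega) rfl hc0, Ac_acc hP]
  rfl

omit hP

variable (H : TabAux A aux M cS cT)

include H

theorem predL_num {d : ℕ} (hd : d < s) : A.predL (A.num d) = A.num ((d + (s - 1)) % s) := by
  unfold Alph.predL
  rw [A.nm_num hd]

theorem succL_num {d : ℕ} (hd : d < s) : A.succL (A.num d) = A.num ((d + 1) % s) := by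
  unfold Alph.succL
  rw [A.nm_num hd]

theorem Vl_zero_x {t p : ℕ} {x g : F} (hp : p < s ^ (m + 1)) :
    Vl A m symE aux cW cB (eAllEq A 0 (m + 1) 0) (St A m t p x g) ≠ 0 ↔ p = 0 := by
  have hs0 : 0 < s := by have := H.hs; omega
  unfold Vl ev
  rw [tv_allEq (H.std _)]
  constructor
  · intro h
    have h1 : ∀ i, i < m + 1 → dgt s p i = 0 := fun i hi => by
      have := h i hi
      rw [zero_add, St_X A hi] at this
      exact (A.num_eq_zero_iff (dgt_lt hs0 _ _) hs0).1 this
    have h2 := (all_zero_iff hs0 p (m + 1)).2 h1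
    rwa [Nat.mod_eq_of_lt hp] at h2
  · rintro rfl i hi
    rw [zero_add, St_X A hi]
    simp [dgt, A.num_zero]

theorem Vl_max_x {t p : ℕ} {x g : F} (hp : p < s ^ (m + 1)) :
    Vl A m symE aux cW cB (eAllEq A 0 (m + 1) (A.num (s - 1))) (St A m t p x g) ≠ 0 ↔
      p = s ^ (m + 1) - 1 := by
  have hs0 : 0 < s := by have := H.hs; omega
  unfold Vl ev
  rw [tv_allEq (H.std _)]
  have e1 : (∀ i, i < m + 1 → St A m t p x g (0 + i) = A.num (s - 1)) ↔
      ∀ i, i < m + 1 → dgt s p i = s - 1 := by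
    apply forall_congr'
    intro i
    apply imp_congr_ctx Iff.rfl
    intro hi
    rw [zero_add, St_X A hi]
    exact A.num_eq_iff (dgt_lt hs0 _ _) (by omega)
  rw [e1, ← all_max_iff hs0, Nat.mod_eq_of_lt hp]

theorem Vl_zero_t {t p : ℕ} {x g : F} (ht : t < s ^ m) :
    Vl A m symE aux cW cB (eAllEq A (m + 1) m 0) (St A m t p x g) ≠ 0 ↔ t = 0 := by
  have hs0 : 0 < s := by have := H.hs; omega
  unfold Vl ev
  rw [tv_allEq (H.std _)]
  constructor
  · intro h
    have h1 : ∀ i, i < m → dgt s t i = 0 := fun i hi => by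
      have := h i hi
      rw [St_T A hi] at this
      exact (A.num_eq_zero_iff (dgt_lt hs0 _ _) hs0).1 this
    have h2 := (all_zero_iff hs0 t m).2 h1
    rwa [Nat.mod_eq_of_lt ht] at h2
  · rintro rfl i hi
    rw [St_T A hi]
    simp [dgt, A.num_zero]

theorem dec_congr {base j : ℕ} {ρ1 ρ0 : ℕ → F} (h : ∀ i, i ≤ j → ρ1 (base + i) = ρ0 (base + i)) :
    Vl A m symE aux cW cB (eDec A base j) ρ1 = Vl A m symE aux cW cB (eDec A base j) ρ0 := by
  unfold Vl ev
  rw [eval_dec (H.std _), eval_dec (H.std _)]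
  have e : (∀ i, i < j → ρ1 (base + i) = 0) ↔ (∀ i, i < j → ρ0 (base + i) = 0) :=
    forall_congr' fun i => imp_congr_ctx Iff.rfl fun hi => by rw [h i hi.le]
  simp only [e, h j le_rfl]

theorem inc_congr {base j : ℕ} {ρ1 ρ0 : ℕ → F} (h : ∀ i, i ≤ j → ρ1 (base + i) = ρ0 (base + i)) :
    Vl A m symE aux cW cB (eInc A base j) ρ1 = Vl A m symE aux cW cB (eInc A base j) ρ0 := by
  unfold Vl ev
  rw [eval_inc (H.std _), eval_inc (H.std _)]
  have e : (∀ i, i < j → ρ1 (base + i) = A.num (s - 1)) ↔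
      (∀ i, i < j → ρ0 (base + i) = A.num (s - 1)) :=
    forall_congr' fun i => imp_congr_ctx Iff.rfl fun hi => by rw [h i hi.le]
  simp only [e, h j le_rfl]

theorem Vl_decX {t p i : ℕ} {x g : F} (hi : i < m + 1) (hp : 0 < p) :
    Vl A m symE aux cW cB (eDec A 0 i) (St A m t p x g) = A.num (dgt s (p - 1) i) := by
  have hs0 : 0 < s := by have := H.hs; omega
  unfold Vl ev
  rw [eval_dec (H.std _)]
  rw [dgt_pred hs0 hp]
  have e1 : (∀ i', i' < i → St A m t p x g (0 + i') = 0) ↔ ∀ i', i' < i → dgt s p i' = 0 := by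
    apply forall_congr'
    intro i'
    apply imp_congr_ctx Iff.rfl
    intro hi'
    rw [zero_add, St_X A (by omega)]
    exact A.num_eq_zero_iff (dgt_lt hs0 _ _) hs0
  simp only [e1]
  rw [zero_add, St_X A hi]
  by_cases h : ∀ i', i' < i → dgt s p i' = 0
  · rw [if_pos h, if_pos h, predL_num H (dgt_lt hs0 _ _)]
  · rw [if_neg h, if_neg h]

theorem Vl_incX {t p i : ℕ} {x g : F} (hi : i < m + 1) :
    Vl A m symE aux cW cB (eInc A 0 i) (St A m t p x g) = A.num (dgt s (p + 1) i) := by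
  have hs0 : 0 < s := by have := H.hs; omega
  unfold Vl ev
  rw [eval_inc (H.std _)]
  rw [dgt_succ hs0]
  have e1 : (∀ i', i' < i → St A m t p x g (0 + i') = A.num (s - 1)) ↔
      ∀ i', i' < i → dgt s p i' = s - 1 := by
    apply forall_congr'
    intro i'
    apply imp_congr_ctx Iff.rfl
    intro hi'
    rw [zero_add, St_X A (by omega)]
    exact A.num_eq_iff (dgt_lt hs0 _ _) (by omega)
  simp only [e1]
  rw [zero_add, St_X A hi]
  by_cases h : ∀ i', i' < i → dgt s p i' = s - 1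
  · rw [if_pos h, if_pos h, succL_num H (dgt_lt hs0 _ _)]
  · rw [if_neg h, if_neg h]

theorem Vl_decT {t p i : ℕ} {x g : F} (hi : i < m) (ht : 0 < t) :
    Vl A m symE aux cW cB (eDec A (m + 1) i) (St A m t p x g) = A.num (dgt s (t - 1) i) := by
  have hs0 : 0 < s := by have := H.hs; omega
  unfold Vl ev
  rw [eval_dec (H.std _)]
  rw [dgt_pred hs0 ht]
  have e1 : (∀ i', i' < i → St A m t p x g (m + 1 + i') = 0) ↔ ∀ i', i' < i → dgt s t i' = 0 := by
    apply forall_congr'
    intro i'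
    apply imp_congr_ctx Iff.rfl
    intro hi'
    rw [St_T A (by omega)]
    exact A.num_eq_zero_iff (dgt_lt hs0 _ _) hs0
  simp only [e1]
  rw [St_T A hi]
  by_cases h : ∀ i', i' < i → dgt s t i' = 0
  · rw [if_pos h, if_pos h, predL_num H (dgt_lt hs0 _ _)]
  · rw [if_neg h, if_neg h]

theorem St_ne_X {t t' p p' : ℕ} {x g : F} {i : ℕ} (hi : ¬ i < m + 1) :
    St A m t p x g i = St A m t' p' x g i ∨ i < 2 * m + 1 := by
  by_cases h2 : i < 2 * m + 1
  · exact Or.inr h2
  · left
    simp [St, hi, h2]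

theorem run_decX {t p : ℕ} {x g : F} (hp : 0 < p) :
    runL A (tabStmts A m symE cW cB) (2 * m + 3) aux (digL 0 (m + 1) (eDec A 0)) (St A m t p x g) =
      St A m t (p - 1) x g := by
  rw [runL_digL (base := 0) (M := m + 1) (e := eDec A 0) (ρ0 := St A m t p x g)
    (fun j _ ρ1 h1 => dec_congr H (fun i hi => h1 _ (Or.inl (by omega)))) (m + 1) le_rfl _
    (fun _ _ => rfl)]
  funext i
  by_cases hi : i < m + 1
  · rw [if_pos ⟨Nat.zero_le _, by omega⟩, Nat.sub_zero, St_X A hi]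
    exact Vl_decX H hi hp
  · rw [if_neg (by omega)]
    simp [St, hi]

theorem run_incX {t p : ℕ} {x g : F} :
    runL A (tabStmts A m symE cW cB) (2 * m + 3) aux (digL 0 (m + 1) (eInc A 0)) (St A m t p x g) =
      St A m t (p + 1) x g := by
  rw [runL_digL (base := 0) (M := m + 1) (e := eInc A 0) (ρ0 := St A m t p x g)
    (fun j _ ρ1 h1 => inc_congr H (fun i hi => h1 _ (Or.inl (by omega)))) (m + 1) le_rfl _
    (fun _ _ => rfl)]
  funext i
  by_cases hi : i < m + 1
  · rw [if_pos ⟨Nat.zero_le _, by omega⟩, Nat.sub_zero, St_X A hi]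
    exact Vl_incX H hi
  · rw [if_neg (by omega)]
    simp [St, hi]

theorem run_decT {t p : ℕ} {x g : F} (ht : 0 < t) :
    runL A (tabStmts A m symE cW cB) (2 * m + 3) aux (digL (m + 1) m (eDec A (m + 1)))
      (St A m t p x g) = St A m (t - 1) p x g := by
  rw [runL_digL (base := m + 1) (M := m) (e := eDec A (m + 1)) (ρ0 := St A m t p x g)
    (fun j _ ρ1 h1 => dec_congr H (fun i hi => h1 _ (Or.inl (by omega)))) m le_rfl _
    (fun _ _ => rfl)]
  funext i
  by_cases hi : m + 1 ≤ i ∧ i < m + 1 + m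
  · rw [if_pos hi]
    obtain ⟨j, rfl⟩ : ∃ j, i = m + 1 + j := ⟨i - (m + 1), by omega⟩
    rw [St_T A (by omega), Nat.add_sub_cancel_left]
    exact Vl_decT H (by omega) ht
  · rw [if_neg hi]
    by_cases h1 : i < m + 1
    · rw [St_X A h1, St_X A h1]
    · have h2 : ¬ i < 2 * m + 1 := by omega
      simp [St, h1, h2]

theorem Vl_eq_zero (a c : Exp F) (ρ : ℕ → F) :
    Vl A m symE aux cW cB (eEq A a c) ρ = 0 ↔
      Vl A m symE aux cW cB a ρ ≠ Vl A m symE aux cW cB c ρ := by
  have := tv_eq (H.std (codeOf (2 * m + 3) (tabStmts A m symE cW cB))) ρ a c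
  unfold Vl ev
  constructor
  · intro h1 h2
    exact (this.2 h2) h1
  · intro h1
    by_contra h2
    exact h1 (this.1 h2)

theorem Vl_not_zero (e : Exp F) (ρ : ℕ → F) :
    Vl A m symE aux cW cB (eNot A e) ρ = 0 ↔ Vl A m symE aux cW cB e ρ ≠ 0 := by
  have := tv_not (H.std (codeOf (2 * m + 3) (tabStmts A m symE cW cB))) ρ e
  unfold Vl ev
  constructor
  · intro h1 h2
    exact (this.2 h2) h1
  · intro h1
    by_contra h2
    exact h1 (this.1 h2)

theorem Vl_eD {τ : ℕ} (h7 : 7 ≤ τ) (hτ : τ < 60) (e : Exp F) (ρ : ℕ → F) :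
    Vl A m symE aux cW cB (eD A τ e) ρ = aux (A.num τ) (Vl A m symE aux cW cB e ρ) := by
  have := eval_eD (H.std (codeOf (2 * m + 3) (tabStmts A m symE cW cB))) ρ τ e
  unfold Vl ev
  rw [this, codeTab_aux A h7 (by have := H.hs; omega)]

variable (hP : POk A (tabStmts A m symE cW cB) (2 * m + 3) K 29)

include hP

theorem Ac_wall {t p : ℕ} {x : F} : Ac A m symE K aux cW cB 20 (St A m t p x 0) ↔ x = cW := by
  have hc : ∀ y, 2 * m + 3 ≤ y → St A m t p x 0 y = 0 := fun y hy => St_hi A hy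
  rw [Ac_jze hP (i := 20) (by omega) rfl (by simp [Exp.Rb] <;> omega) hc]
  have e : Vl A m symE aux cW cB (Exp.reg (2 * m + 1)) (St A m t p x 0) = x := St_S A
  have e' : Vl A m symE aux cW cB (Exp.lit cW) (St A m t p x 0) = cW := rfl
  by_cases h : x = cW
  · have h1 : Vl A m symE aux cW cB (eEq A (Exp.reg (2 * m + 1)) (Exp.lit cW)) (St A m t p x 0) ≠ 0 := by
      intro h2
      have := (Vl_eq_zero H _ _ _).1 h2
      rw [e, e'] at this
      exact this h
    rw [if_neg h1, Ac_jump hP (i := 21) (by omega) rfl hc]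
    exact ⟨fun _ => h, fun _ => Ac_clear hP⟩
  · have h1 : Vl A m symE aux cW cB (eEq A (Exp.reg (2 * m + 1)) (Exp.lit cW)) (St A m t p x 0) = 0 := by
      rw [Vl_eq_zero H, e, e']
      exact h
    rw [if_pos h1]
    exact ⟨fun h2 => (Ac_fail hP _ h2).elim, fun h2 => (h h2).elim⟩

theorem Ac_blank {t p : ℕ} {x : F} : Ac A m symE K aux cW cB 22 (St A m t p x 0) ↔ x = cB := by
  have hc : ∀ y, 2 * m + 3 ≤ y → St A m t p x 0 y = 0 := fun y hy => St_hi A hy
  rw [Ac_jze hP (i := 22) (by omega) rfl (by simp [Exp.Rb] <;> omega) hc]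
  have e : Vl A m symE aux cW cB (Exp.reg (2 * m + 1)) (St A m t p x 0) = x := St_S A
  have e' : Vl A m symE aux cW cB (Exp.lit cB) (St A m t p x 0) = cB := rfl
  by_cases h : x = cB
  · have h1 : Vl A m symE aux cW cB (eEq A (Exp.reg (2 * m + 1)) (Exp.lit cB)) (St A m t p x 0) ≠ 0 := by
      intro h2
      have := (Vl_eq_zero H _ _ _).1 h2
      rw [e, e'] at this
      exact this h
    rw [if_neg h1, Ac_jump hP (i := 23) (by omega) rfl hc]
    exact ⟨fun _ => h, fun _ => Ac_clear hP⟩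
  · have h1 : Vl A m symE aux cW cB (eEq A (Exp.reg (2 * m + 1)) (Exp.lit cB)) (St A m t p x 0) = 0 := by
      rw [Vl_eq_zero H, e, e']
      exact h
    rw [if_pos h1]
    exact ⟨fun h2 => (Ac_fail hP _ h2).elim, fun h2 => (h h2).elim⟩

/-- The first tests of the check of a claim. -/
theorem Ac_pre {t p : ℕ} {x : F} (hp : p < s ^ (m + 1)) :
    Ac A m symE K aux cW cB 3 (St A m t p x 0) ↔
      if p = 0 then x = cW else if p = s ^ (m + 1) - 1 then x = cB
      else Ac A m symE K aux cW cB 5 (St A m t p x 0) := by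
  have hc : ∀ y, 2 * m + 3 ≤ y → St A m t p x 0 y = 0 := fun y hy => St_hi A hy
  have r1 : Exp.Rb (2 * m + 3) (eAllEq A 0 (m + 1) (0 : F)) := rb_allEq (by omega)
  have r2 : Exp.Rb (2 * m + 3) (eAllEq A 0 (m + 1) (A.num (s - 1))) := rb_allEq (by omega)
  rw [Ac_jze hP (i := 3) (by omega) rfl (rb_not.2 r1) hc]
  by_cases h0 : p = 0
  · rw [if_pos h0]
    rw [if_pos (by rw [Vl_not_zero H, Vl_zero_x H hp]; exact h0)]
    exact Ac_wall hP H
  · rw [if_neg h0]
    rw [if_neg (by rw [Vl_not_zero H, Vl_zero_x H hp]; exact fun h => h0 h)]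
    rw [Ac_jze hP (i := 4) (by omega) rfl (rb_not.2 r2) hc]
    by_cases h1 : p = s ^ (m + 1) - 1
    · rw [if_pos h1]
      rw [if_pos (by rw [Vl_not_zero H, Vl_max_x H hp]; exact h1)]
      exact Ac_blank hP H
    · rw [if_neg h1]
      rw [if_neg (by rw [Vl_not_zero H, Vl_max_x H hp]; exact fun h => h1 h)]

/-- The check of a claim, at time zero. -/
theorem Ac_zero {c : ℕ} {x : F} {tp : ℕ → Γ}
    (hrb : Exp.Rb (2 * m + 3) symE)
    (hsym : ∀ (c : ℕ) (ρ : ℕ → F), c < s ^ (m + 1) → (∀ j, j ≤ m → ρ j = A.num (dgt s c j)) →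
      Vl A m symE aux cW cB symE ρ = cS (Sym.pl (tp c)))
    (hc1 : c + 1 < s ^ (m + 1)) (ht0 : 0 < s ^ m) :
    Ac A m symE K aux cW cB 5 (St A m 0 (c + 1) x 0) ↔
      x = (if c = 0 then cS (Sym.hd M.start (tp c)) else cS (Sym.pl (tp c))) := by
  have hc : ∀ (t p : ℕ) (y : ℕ), 2 * m + 3 ≤ y → St A m t p x 0 y = 0 := fun _ _ y hy => St_hi A hy
  have r1 : Exp.Rb (2 * m + 3) (eAllEq A (m + 1) m (0 : F)) := rb_allEq (by omega)
  have r2 : Exp.Rb (2 * m + 3) (eAllEq A 0 (m + 1) (0 : F)) := rb_allEq (by omega)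
  rw [Ac_jze hP (i := 5) (by omega) rfl (rb_not.2 r1) (hc _ _)]
  rw [if_pos (by rw [Vl_not_zero H, Vl_zero_t H ht0])]
  rw [Ac_asg hP (i := 24) (by omega) rfl (by
    intro q hq
    obtain ⟨j, hj, rfl⟩ := mem_digL hq
    exact ⟨by simp only; omega, rb_dec (by omega)⟩) (hc _ _)]
  rw [run_decX H (by omega), Nat.add_sub_cancel]
  rw [Ac_jze hP (i := 25) (by omega) rfl (by
    simp only [rb_eq, rb_if, rb_eD]
    exact ⟨by show 2 * m + 1 < 2 * m + 3; omega, r2, hrb, hrb⟩) (hc _ _)]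
  have e1 : Vl A m symE aux cW cB (Exp.reg (2 * m + 1)) (St A m 0 c x 0) = x := St_S A
  have e2 : Vl A m symE aux cW cB symE (St A m 0 c x 0) = cS (Sym.pl (tp c)) :=
    hsym c _ (by omega) (fun j hj => St_X A (by omega))
  have e3 : Vl A m symE aux cW cB (eIf A (eAllEq A 0 (m + 1) 0) (eD A 26 symE) symE)
      (St A m 0 c x 0) =
      (if c = 0 then cS (Sym.hd M.start (tp c)) else cS (Sym.pl (tp c))) := by
    have e4 := eval_if (H.std (codeOf (2 * m + 3) (tabStmts A m symE cW cB))) (St A m 0 c x 0)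
      (eAllEq A 0 (m + 1) 0) (eD A 26 symE) symE
    unfold Vl ev at *
    rw [e4]
    have e5 := Vl_zero_x (t := 0) (x := x) (g := 0) (cW := cW) (cB := cB) (symE := symE) H
      (show c < s ^ (m + 1) by omega)
    unfold Vl ev at e5
    by_cases h0 : c = 0
    · rw [if_pos (e5.2 h0), if_pos h0]
      have e6 := Vl_eD (m := m) (cW := cW) (cB := cB) (symE := symE) H (τ := 26) (by omega) (by omega) symE
        (St A m 0 c x 0)
      unfold Vl ev at e6
      rw [e6, e2]
      exact H.h26 _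
    · rw [if_neg (fun h => h0 (e5.1 h)), if_neg h0, e2]
  by_cases h : x = (if c = 0 then cS (Sym.hd M.start (tp c)) else cS (Sym.pl (tp c)))
  · have h1 : Vl A m symE aux cW cB (eEq A (Exp.reg (2 * m + 1))
        (eIf A (eAllEq A 0 (m + 1) 0) (eD A 26 symE) symE)) (St A m 0 c x 0) ≠ 0 := by
      intro h2
      have := (Vl_eq_zero H _ _ _).1 h2
      rw [e1, e3] at this
      exact this h
    rw [if_neg h1]
    exact ⟨fun _ => h, fun _ => Ac_clear hP⟩
  · have h1 : Vl A m symE aux cW cB (eEq A (Exp.reg (2 * m + 1))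
        (eIf A (eAllEq A 0 (m + 1) 0) (eD A 26 symE) symE)) (St A m 0 c x 0) = 0 := by
      rw [Vl_eq_zero H, e1, e3]
      exact h
    rw [if_pos h1]
    exact ⟨fun h2 => (Ac_fail hP _ h2).elim, fun h2 => (h h2).elim⟩

theorem run_S {t p : ℕ} {v : F} {τ : ℕ} (h7 : 7 ≤ τ) (hτ : τ < 60) :
    runL A (tabStmts A m symE cW cB) (2 * m + 3) aux
      [(2 * m + 1, eD A τ (Exp.reg (2 * m + 2))), (2 * m + 2, Exp.lit 0)] (St A m t p 0 v) =
      St A m t p (aux (A.num τ) v) 0 := by
  rw [runL_cons, runL_cons, runL_nil]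
  simp only
  have e1 : ev A (tabStmts A m symE cW cB) (2 * m + 3) aux (eD A τ (Exp.reg (2 * m + 2)))
      (St A m t p 0 v) = aux (A.num τ) v := by
    have := Vl_eD (m := m) (cW := cW) (cB := cB) (symE := symE) H h7 hτ (Exp.reg (2 * m + 2))
      (St A m t p 0 v)
    unfold Vl at this
    rw [this]
    congr 1
    exact St_G A
  rw [e1, St_upd_S]
  have e2 : ev A (tabStmts A m symE cW cB) (2 * m + 3) aux (Exp.lit 0)
      (St A m t p (aux (A.num τ) v) v) = 0 := rfl
  rw [e2, St_upd_G]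

theorem Ac_check {t p : ℕ} {x v : F} :
    Ac A m symE K aux cW cB 8 (St A m t p x v) ↔
      ((∃ tr, v = cT tr) ∧ aux (A.num 21) v = x) ∧
        Ac A m symE K aux cW cB 10 (St A m t p 0 v) := by
  have hc : ∀ (t p : ℕ) (x g : F) (y : ℕ), 2 * m + 3 ≤ y → St A m t p x g y = 0 :=
    fun _ _ _ _ y hy => St_hi A hy
  have hS := H.std (codeOf (2 * m + 3) (tabStmts A m symE cW cB))
  rw [Ac_jze hP (i := 8) (by omega) rfl (by
    simp only [rb_and, rb_eq, rb_eD]
    refine ⟨?_, ?_, ?_⟩ <;> (show _ < 2 * m + 3; omega)) (hc _ _ _ _)]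
  have e1 : Vl A m symE aux cW cB (Exp.reg (2 * m + 2)) (St A m t p x v) = v := St_G A
  have e2 : Vl A m symE aux cW cB (Exp.reg (2 * m + 1)) (St A m t p x v) = x := St_S A
  have e3 : Vl A m symE aux cW cB (eD A 20 (Exp.reg (2 * m + 2))) (St A m t p x v) =
      A.bl (∃ tr, v = cT tr) := by
    rw [Vl_eD H (by omega) (by omega), e1, H.h20]
  have e4 : Vl A m symE aux cW cB (eD A 21 (Exp.reg (2 * m + 2))) (St A m t p x v) =
      aux (A.num 21) v := by
    rw [Vl_eD H (by omega) (by omega), e1]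
  have e5 : Vl A m symE aux cW cB (eAnd (eD A 20 (Exp.reg (2 * m + 2)))
      (eEq A (eD A 21 (Exp.reg (2 * m + 2))) (Exp.reg (2 * m + 1)))) (St A m t p x v) ≠ 0 ↔
      (∃ tr, v = cT tr) ∧ aux (A.num 21) v = x := by
    have h1 := tv_and hS (St A m t p x v) (eD A 20 (Exp.reg (2 * m + 2)))
      (eEq A (eD A 21 (Exp.reg (2 * m + 2))) (Exp.reg (2 * m + 1)))
    have h2 := tv_eq hS (St A m t p x v) (eD A 21 (Exp.reg (2 * m + 2))) (Exp.reg (2 * m + 1))
    unfold Vl ev at *
    rw [h1, h2, e3, e4, e2, Alph.bl_ne_zero (by have := H.hs; omega)]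
  by_cases hq : (∃ tr, v = cT tr) ∧ aux (A.num 21) v = x
  · rw [if_neg (e5.2 hq)]
    rw [Ac_asg hP (i := 9) (by omega) rfl (by
      intro q hq'
      simp only [List.mem_singleton] at hq'
      subst hq'
      exact ⟨by simp only; omega, trivial⟩) (hc _ _ _ _)]
    rw [runL_cons, runL_nil]
    simp only
    have e6 : ev A (tabStmts A m symE cW cB) (2 * m + 3) aux (Exp.lit 0) (St A m t p x v) = 0 := rfl
    rw [e6, St_upd_S]
    exact ⟨fun h => ⟨hq, h⟩, fun h => h.2⟩
  · have h0 : Vl A m symE aux cW cB (eAnd (eD A 20 (Exp.reg (2 * m + 2)))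
        (eEq A (eD A 21 (Exp.reg (2 * m + 2))) (Exp.reg (2 * m + 1)))) (St A m t p x v) = 0 := by
      by_contra h1
      exact hq (e5.1 h1)
    rw [if_pos h0]
    exact ⟨fun h => (Ac_fail hP _ h).elim, fun h => (hq h.1).elim⟩

theorem Ac_children {t c : ℕ} {v : F} :
    Ac A m symE K aux cW cB 10 (St A m t (c + 1) 0 v) ↔
        Ac A m symE K aux cW cB 3 (St A m t c (aux (A.num 22) v) 0) ∧
        Ac A m symE K aux cW cB 3 (St A m t (c + 1) (aux (A.num 23) v) 0) ∧
        Ac A m symE K aux cW cB 3 (St A m t (c + 2) (aux (A.num 24) v) 0) := by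
  have hc : ∀ (t p : ℕ) (x g : F) (y : ℕ), 2 * m + 3 ≤ y → St A m t p x g y = 0 :=
    fun _ _ _ _ y hy => St_hi A hy
  rw [Ac_fork hP (i := 10) (L := 14) (by omega) rfl, Ac_fork hP (i := 14) (L := 17) (by omega) rfl]
  have s1 : Ac A m symE K aux cW cB 11 (St A m t (c + 1) 0 v) ↔
      Ac A m symE K aux cW cB 3 (St A m t c (aux (A.num 22) v) 0) := by
    rw [Ac_asg hP (i := 11) (by omega) rfl (by
      intro q hq'
      simp only [List.mem_cons, List.not_mem_nil, or_false] at hq'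
      rcases hq' with rfl | rfl
      · exact ⟨by simp only; omega, by
          simp only [rb_eD]
          show _ < 2 * m + 3
          omega⟩
      · exact ⟨by simp only; omega, trivial⟩) (hc _ _ _ _)]
    rw [run_S hP H (τ := 22) (by omega) (by omega)]
    rw [Ac_asg hP (i := 12) (by omega) rfl (by
      intro q hq
      obtain ⟨j, hj, rfl⟩ := mem_digL hq
      exact ⟨by simp only; omega, rb_dec (by omega)⟩) (hc _ _ _ _)]
    rw [run_decX H (by omega), Nat.add_sub_cancel]
    exact Ac_jump hP (i := 13) (by omega) rfl (hc _ _ _ _)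
  have s2 : Ac A m symE K aux cW cB 15 (St A m t (c + 1) 0 v) ↔
      Ac A m symE K aux cW cB 3 (St A m t (c + 1) (aux (A.num 23) v) 0) := by
    rw [Ac_asg hP (i := 15) (by omega) rfl (by
      intro q hq'
      simp only [List.mem_cons, List.not_mem_nil, or_false] at hq'
      rcases hq' with rfl | rfl
      · exact ⟨by simp only; omega, by
          simp only [rb_eD]
          show _ < 2 * m + 3
          omega⟩
      · exact ⟨by simp only; omega, trivial⟩) (hc _ _ _ _)]
    rw [run_S hP H (τ := 23) (by omega) (by omega)]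
    exact Ac_jump hP (i := 16) (by omega) rfl (hc _ _ _ _)
  have s3 : Ac A m symE K aux cW cB 17 (St A m t (c + 1) 0 v) ↔
      Ac A m symE K aux cW cB 3 (St A m t (c + 2) (aux (A.num 24) v) 0) := by
    rw [Ac_asg hP (i := 17) (by omega) rfl (by
      intro q hq'
      simp only [List.mem_cons, List.not_mem_nil, or_false] at hq'
      rcases hq' with rfl | rfl
      · exact ⟨by simp only; omega, by
          simp only [rb_eD]
          show _ < 2 * m + 3
          omega⟩
      · exact ⟨by simp only; omega, trivial⟩) (hc _ _ _ _)]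
    rw [run_S hP H (τ := 24) (by omega) (by omega)]
    rw [Ac_asg hP (i := 18) (by omega) rfl (by
      intro q hq
      obtain ⟨j, hj, rfl⟩ := mem_digL hq
      exact ⟨by simp only; omega, rb_inc (by omega)⟩) (hc _ _ _ _)]
    rw [run_incX H]
    exact Ac_jump hP (i := 19) (by omega) rfl (hc _ _ _ _)
  rw [s1, s2, s3]

/-- A step of the check of a claim. -/
theorem Ac_succ {t c : ℕ} {x : F} (ht : t + 1 < s ^ m) (hc1 : c + 2 < s ^ (m + 1)) :
    Ac A m symE K aux cW cB 5 (St A m (t + 1) (c + 1) x 0) ↔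
      ∃ v, ((∃ tr, v = cT tr) ∧ aux (A.num 21) v = x) ∧
        Ac A m symE K aux cW cB 3 (St A m t c (aux (A.num 22) v) 0) ∧
        Ac A m symE K aux cW cB 3 (St A m t (c + 1) (aux (A.num 23) v) 0) ∧
        Ac A m symE K aux cW cB 3 (St A m t (c + 2) (aux (A.num 24) v) 0) := by
  have hc : ∀ (t p : ℕ) (x g : F) (y : ℕ), 2 * m + 3 ≤ y → St A m t p x g y = 0 :=
    fun _ _ _ _ y hy => St_hi A hy
  have r1 : Exp.Rb (2 * m + 3) (eAllEq A (m + 1) m (0 : F)) := rb_allEq (by omega)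
  rw [Ac_jze hP (i := 5) (by omega) rfl (rb_not.2 r1) (hc _ _ _ _)]
  rw [if_neg (by
    rw [Vl_not_zero H, Vl_zero_t H ht]
    omega)]
  rw [Ac_asg hP (i := 6) (by omega) rfl (by
    intro q hq
    obtain ⟨j, hj, rfl⟩ := mem_digL hq
    exact ⟨by simp only; omega, rb_dec (by omega)⟩) (hc _ _ _ _)]
  rw [run_decT H (by omega), Nat.add_sub_cancel]
  rw [Ac_guess hP (i := 7) (by omega) rfl (by simp) (by simp) (hc _ _ _ _)]
  have eG : ∀ f : ℕ → F, (fun y => if y ∈ [2 * m + 2] then St A m t (c + 1) x 0 y + f y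
      else St A m t (c + 1) x 0 y) = St A m t (c + 1) x (f (2 * m + 2)) := by
    intro f
    funext y
    by_cases hy : y = 2 * m + 2
    · subst hy
      simp [St_G]
    · have : y ∉ [2 * m + 2] := by simpa using hy
      rw [if_neg this]
      unfold St
      simp [hy]
  constructor
  · rintro ⟨f, hf⟩
    rw [eG, Ac_check hP H, Ac_children hP H] at hf
    exact ⟨f (2 * m + 2), hf⟩
  · rintro ⟨v, h⟩
    refine ⟨fun _ => v, ?_⟩
    rw [eG, Ac_check hP H, Ac_children hP H]
    exact h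

/-- The program decides the claims. -/
theorem loop_spec {w : List Bool} (hrb : Exp.Rb (2 * m + 3) symE)
    (hsym : ∀ (c : ℕ) (ρ : ℕ → F), c < s ^ (m + 1) → (∀ j, j ≤ m → ρ j = A.num (dgt s c j)) →
      Vl A m symE aux cW cB symE ρ = cS (Sym.pl ((M.init w).tape c)))
    (hW : cW = cS Sym.wall) (hB : cB = cS (Sym.pl M.blank)) (hw : w.length ≤ s ^ m) :
    ∀ t, t < s ^ m → ∀ p, p < s ^ (m + 1) → ∀ x,
      (Ac A m symE K aux cW cB 3 (St A m t p x 0) ↔ x = cS (cellOf (M.run w t) p)) := by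
  have hs0 : 0 < s := by have := H.hs; omega
  have hsl := H.hs
  have far : ∀ t, t < s ^ m → ∀ c, c + 1 = s ^ (m + 1) - 1 →
      cellOf (M.run w t) (c + 1) = Sym.pl M.blank := by
    intro t ht c hc
    have e1 : s ^ (m + 1) = s ^ m * s := pow_succ s m
    have e2 : s ^ m * 60 ≤ s ^ m * s := Nat.mul_le_mul_left _ (by omega)
    rw [M.cell_far w t c (by omega)]
    have e3 : w.length ≤ c := by omega
    simp [TM.init, List.getElem?_eq_none e3]
  intro t
  induction t with
  | zero =>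
    intro ht p hp x
    rw [Ac_pre hP H hp]
    by_cases h0 : p = 0
    · subst h0
      rw [if_pos rfl, hW]
      rfl
    · rw [if_neg h0]
      obtain ⟨c, rfl⟩ : ∃ c, p = c + 1 := ⟨p - 1, by omega⟩
      by_cases h1 : c + 1 = s ^ (m + 1) - 1
      · rw [if_pos h1, hB, far 0 ht c h1]
      · rw [if_neg h1]
        rw [Ac_zero hP H hrb hsym (by omega) ht]
        rw [M.run_zero]
        by_cases h2 : c = 0
        · subst h2
          rw [if_pos rfl, TM.cell_eq (c := M.init w) (p := 0) rfl]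
          rfl
        · rw [if_neg h2, TM.cell_ne (c := M.init w) (p := c) (by
            show 0 ≠ c
            omega)]
  | succ t ih =>
    intro ht p hp x
    rw [Ac_pre hP H hp]
    by_cases h0 : p = 0
    · subst h0
      rw [if_pos rfl, hW]
      rfl
    · rw [if_neg h0]
      obtain ⟨c, rfl⟩ : ∃ c, p = c + 1 := ⟨p - 1, by omega⟩
      by_cases h1 : c + 1 = s ^ (m + 1) - 1
      · rw [if_pos h1, hB, far (t + 1) ht c h1]
      · rw [if_neg h1]
        rw [Ac_succ hP H ht (by omega)]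
        have ih' := ih (by omega)
        rw [M.cell_run]
        constructor
        · rintro ⟨v, ⟨⟨tr, rfl⟩, h2⟩, h3, h4, h5⟩
          rw [ih' c (by omega)] at h3
          rw [ih' (c + 1) (by omega)] at h4
          rw [ih' (c + 2) (by omega)] at h5
          rw [H.h22] at h3
          rw [H.h23] at h4
          rw [H.h24] at h5
          rw [H.h21] at h2
          rw [← h2, ← H.cS_inj h3, ← H.cS_inj h4, ← H.cS_inj h5]
        · intro h2
          refine ⟨cT (cellOf (M.run w t) c, cellOf (M.run w t) (c + 1), cellOf (M.run w t) (c + 2)),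
            ⟨⟨_, rfl⟩, ?_⟩, ?_, ?_, ?_⟩
          · rw [H.h21, h2]
          · rw [ih' c (by omega), H.h22]
          · rw [ih' (c + 1) (by omega), H.h23]
          · rw [ih' (c + 2) (by omega), H.h24]

/-- The whole program: it accepts if and only if the machine is in the accepting state at the
time `s ^ m - 1`. -/
theorem tab_main {w : List Bool} (hrb : Exp.Rb (2 * m + 3) symE)
    (hsym : ∀ (c : ℕ) (ρ : ℕ → F), c < s ^ (m + 1) → (∀ j, j ≤ m → ρ j = A.num (dgt s c j)) →
      Vl A m symE aux cW cB symE ρ = cS (Sym.pl ((M.init w).tape c)))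
    (hW : cW = cS Sym.wall) (hB : cB = cS (Sym.pl M.blank)) (hw : w.length ≤ s ^ m)
    (hm : 0 < m) :
    Ac A m symE K aux cW cB 0 (fun _ => 0) ↔ (M.run w (s ^ m - 1)).state = M.accept := by
  have hs0 : 0 < s := by have := H.hs; omega
  have hsl := H.hs
  have hc : ∀ (t p : ℕ) (x g : F) (y : ℕ), 2 * m + 3 ≤ y → St A m t p x g y = 0 :=
    fun _ _ _ _ y hy => St_hi A hy
  have hB0 : 0 < s ^ m := Nat.pow_pos hs0
  set Tm := s ^ m - 1 with hTm
  have e0 : (fun _ : ℕ => (0 : F)) = St A m 0 0 0 0 := by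
    funext i
    unfold St
    simp [dgt, A.num_zero]
  rw [e0]
  rw [Ac_asg hP (i := 0) (by omega) rfl (by
    intro q hq
    obtain ⟨j, hj, rfl⟩ := mem_digL hq
    exact ⟨by simp only; omega, trivial⟩) (hc _ _ _ _)]
  have e1 : runL A (tabStmts A m symE cW cB) (2 * m + 3) aux
      (digL (m + 1) m (fun _ => Exp.lit (A.num (s - 1)))) (St A m 0 0 0 0) =
      St A m Tm 0 0 0 := by
    rw [runL_digL (base := m + 1) (M := m) (e := fun _ => Exp.lit (A.num (s - 1)))
      (ρ0 := St A m 0 0 0 0) (fun j _ ρ1 h1 => rfl) m le_rfl _ (fun _ _ => rfl)]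
    funext i
    by_cases hi : m + 1 ≤ i ∧ i < m + 1 + m
    · rw [if_pos hi]
      obtain ⟨j, rfl⟩ : ∃ j, i = m + 1 + j := ⟨i - (m + 1), by omega⟩
      rw [St_T A (by omega)]
      have h1 : Tm % s ^ m = s ^ m - 1 := Nat.mod_eq_of_lt (by omega)
      have h2 := (all_max_iff hs0 Tm m).1 h1 j (by omega)
      rw [h2]
      rfl
    · rw [if_neg hi]
      by_cases h1 : i < m + 1
      · rw [St_X A h1, St_X A h1]
      · have h2 : ¬ i < 2 * m + 1 := by omega
        simp [St, h1, h2]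
  rw [e1]
  have hnd : ((2 * m + 1) :: List.range (m + 1)).Nodup := by
    refine List.nodup_cons.2 ⟨?_, List.nodup_range⟩
    simp
    omega
  rw [Ac_guess hP (i := 1) (by omega) rfl hnd (by
    intro x hx
    simp only [List.mem_cons, List.mem_range] at hx
    omega) (hc _ _ _ _)]
  -- the states after the guess
  have eG : ∀ f : ℕ → F, ∃ p, p < s ^ (m + 1) ∧
      (fun y => if y ∈ (2 * m + 1) :: List.range (m + 1) then St A m Tm 0 0 0 y + f y
        else St A m Tm 0 0 0 y) = St A m Tm p (f (2 * m + 1)) 0 := by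
    intro f
    obtain ⟨p, hp, hpd⟩ := exists_dgt hs0 (fun j => (A.nm (f j)).val) (fun j => (A.nm (f j)).isLt)
      (m + 1)
    refine ⟨p, hp, ?_⟩
    funext y
    by_cases h1 : y < m + 1
    · have h2 : y ∈ (2 * m + 1) :: List.range (m + 1) := by
        simp [h1]
      rw [if_pos h2, St_X A h1, St_X A h1, hpd y h1]
      simp only [dgt, Nat.zero_div, Nat.zero_mod, A.num_zero, zero_add]
      exact (A.num_nm _).symm
    · by_cases h3 : y = 2 * m + 1
      · subst h3
        simp [St_S]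
      · have h4 : y ∉ (2 * m + 1) :: List.range (m + 1) := by
          simp [h1, h3]
        rw [if_neg h4]
        by_cases h5 : y < 2 * m + 1
        · simp [St, h1, h5]
        · simp [St, h1, h5, h3]
  have eG' : ∀ (p : ℕ) (x : F), p < s ^ (m + 1) → ∃ f : ℕ → F,
      (fun y => if y ∈ (2 * m + 1) :: List.range (m + 1) then St A m Tm 0 0 0 y + f y
        else St A m Tm 0 0 0 y) = St A m Tm p x 0 := by
    intro p x hp
    refine ⟨fun y => if y = 2 * m + 1 then x else A.num (dgt s p y), ?_⟩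
    funext y
    by_cases h1 : y < m + 1
    · have h2 : y ∈ (2 * m + 1) :: List.range (m + 1) := by
        simp [h1]
      have h3 : y ≠ 2 * m + 1 := by omega
      rw [if_pos h2, St_X A h1, St_X A h1]
      show A.num (dgt s 0 y) + (if y = 2 * m + 1 then x else A.num (dgt s p y)) = _
      rw [if_neg h3]
      simp only [dgt, Nat.zero_div, Nat.zero_mod, A.num_zero, zero_add]
    · by_cases h3 : y = 2 * m + 1
      · subst h3
        simp [St_S]
      · have h4 : y ∉ (2 * m + 1) :: List.range (m + 1) := by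
          simp [h1, h3]
        rw [if_neg h4]
        by_cases h5 : y < 2 * m + 1
        · simp [St, h1, h5]
        · simp [St, h1, h5, h3]
  -- the test of the guess
  have eT : ∀ (p : ℕ) (x : F), p < s ^ (m + 1) →
      (Ac A m symE K aux cW cB 2 (St A m Tm p x 0) ↔
        (∃ c, x = cS (Sym.hd M.accept c)) ∧ x = cS (cellOf (M.run w Tm) p)) := by
    intro p x hp
    rw [Ac_jze hP (i := 2) (by omega) rfl (by
      simp only [rb_eD]
      show _ < 2 * m + 3
      omega) (hc _ _ _ _)]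
    have e2 : Vl A m symE aux cW cB (eD A 25 (Exp.reg (2 * m + 1))) (St A m Tm p x 0) =
        A.bl (∃ c, x = cS (Sym.hd M.accept c)) := by
      rw [Vl_eD H (by omega) (by omega)]
      have : Vl A m symE aux cW cB (Exp.reg (2 * m + 1)) (St A m Tm p x 0) = x := St_S A
      rw [this, H.h25]
    rw [e2]
    by_cases h3 : ∃ c, x = cS (Sym.hd M.accept c)
    · have h4 : A.bl (∃ c, x = cS (Sym.hd M.accept c)) ≠ 0 :=
        (Alph.bl_ne_zero (by omega)).2 h3
      rw [if_neg h4]
      rw [loop_spec hP H hrb hsym hW hB hw Tm (by omega) p hp x]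
      exact ⟨fun h => ⟨h3, h⟩, fun h => h.2⟩
    · have h4 : A.bl (∃ c, x = cS (Sym.hd M.accept c)) = 0 :=
        (Alph.bl_eq_zero (by omega)).2 h3
      rw [if_pos h4]
      exact ⟨fun h => (Ac_fail hP _ h).elim, fun h => (h3 h.1).elim⟩
  rw [TM.accept_iff_cell]
  constructor
  · rintro ⟨f, hf⟩
    obtain ⟨p, hp, e⟩ := eG f
    rw [e, eT p _ hp] at hf
    obtain ⟨⟨c, h1⟩, h2⟩ := hf
    refine ⟨p, c, ?_⟩
    rw [h1] at h2
    exact (H.cS_inj h2).symm
  · rintro ⟨p, c, h⟩
    -- the position is small: the head is not beyond the time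
    have hp : p < s ^ (m + 1) := by
      cases p with
      | zero => exact Nat.pow_pos hs0
      | succ p' =>
        by_cases h2 : (M.run w Tm).head = p'
        · have h3 := M.head_le w Tm
          have e1 : s ^ (m + 1) = s ^ m * s := pow_succ s m
          have e2 : s ^ m * 60 ≤ s ^ m * s := Nat.mul_le_mul_left _ (by omega)
          omega
        · rw [TM.cell_ne h2] at h
          cases h
    obtain ⟨f, e⟩ := eG' p (cS (Sym.hd M.accept c)) hp
    refine ⟨f, ?_⟩
    rw [e, eT p _ hp]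
    exact ⟨⟨c, rfl⟩, by rw [h]⟩

end main

end Vale.Agent.P310d
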