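import Vale.Agent.P310d.Circ
import Vale.Agent.P310d.Tab

/-!
# The auxiliary table of the register program, and the existence of alphabets and codes
-/

namespace Vale.Agent.P310d

open Function

open scoped Classical

set_option linter.unusedSectionVars false

variable {F : Type} [AddCommGroup F] [Module (ZMod 2) F] {s : ℕ} (A : Alph F s)

/-- The auxiliary table, indexed by the number of its first argument. -/
noncomputable def auxN {Q Γ : Type} (M : TM Q Γ) (cS : Sym Q Γ → F)
    (cT : Sym Q Γ × Sym Q Γ × Sym Q Γ → F) (ac : F) (n : ℕ) (a : F) : F :=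
  if n = 7 then A.bl (a = 0) else
  if n = 8 then A.succL a else
  if n = 9 then A.predL a else
  if n = 10 then A.bl (parN s (nmv A a) = 1) else
  if n = 11 then A.num (2 * nmv A a) else
  if n = 12 then A.num (2 * nmv A a + 1) else
  if n = 13 then ac else
  if n = 20 then A.bl (∃ t, a = cT t) else
  if n = 21 then extend cT (fun t => cS (M.rule t.1 t.2.1 t.2.2)) 0 a else
  if n = 22 then extend cT (fun t => cS t.1) 0 a else
  if n = 23 then extend cT (fun t => cS t.2.1) 0 a else
  if n = 24 then extend cT (fun t => cS t.2.2) 0 a else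
  if n = 25 then A.bl (∃ c, a = cS (Sym.hd M.accept c)) else
  if n = 26 then extend (fun c => cS (Sym.pl c)) (fun c => cS (Sym.hd M.start c)) 0 a else
  if n = 30 then A.num (40 + (0 + 3 - nmv A a) % 3) else
  if n = 31 then A.num (40 + (1 + 3 - nmv A a) % 3) else
  if n = 32 then A.num (40 + (2 + 3 - nmv A a) % 3) else
  if n = 40 then A.num (nmv A a * 3 + 0) else
  if n = 41 then A.num (nmv A a * 3 + 1) else
  if n = 42 then A.num (nmv A a * 3 + 2) else
  if n = 50 then A.num (kT (nmv A a)) else
  if n = 51 then A.num (tcT (nmv A a)) else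
  if n = 52 then A.num (coT (nmv A a)) else
  if n = 53 then A.bl (nmv A a < 24 ∨ nmv A a % 3 = 0) else
  if n = 54 then A.num (1 + nmv A a % 3) else
  if n = 55 then A.bl (nmv A a / 3 = 1 ∧ nmv A a % 3 ≠ 0) else 0

/-- The auxiliary table. -/
noncomputable def auxT {Q Γ : Type} (M : TM Q Γ) (cS : Sym Q Γ → F)
    (cT : Sym Q Γ × Sym Q Γ × Sym Q Γ → F) (ac : F) : F → F → F :=
  fun τ a => auxN A M cS cT ac (A.nm τ).val a

section

variable {A} {Q Γ : Type} {M : TM Q Γ} {cS : Sym Q Γ → F}
  {cT : Sym Q Γ × Sym Q Γ × Sym Q Γ → F} {ac : F}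

theorem auxT_num {n : ℕ} (h : n < s) (a : F) :
    auxT A M cS cT ac (A.num n) a = auxN A M cS cT ac n a := by
  unfold auxT
  rw [A.nm_num h]

theorem auxT_tab (hs : 60 < s) (hS : Injective cS) (hT : Injective cT) :
    TabAux A (auxT A M cS cT ac) M cS cT where
  hs := hs
  hz a := by rw [auxT_num (by omega)]; simp [auxN]
  hsucc a := by rw [auxT_num (by omega)]; simp [auxN]
  hpred a := by rw [auxT_num (by omega)]; simp [auxN]
  cS_inj := hS
  cT_inj := hT
  h20 a := by rw [auxT_num (by omega)]; simp [auxN]
  h21 t := by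
    rw [auxT_num (by omega)]
    simp only [auxN]
    norm_num
    exact hT.extend_apply _ _ t
  h22 t := by
    rw [auxT_num (by omega)]
    simp only [auxN]
    norm_num
    exact hT.extend_apply _ _ t
  h23 t := by
    rw [auxT_num (by omega)]
    simp only [auxN]
    norm_num
    exact hT.extend_apply _ _ t
  h24 t := by
    rw [auxT_num (by omega)]
    simp only [auxN]
    norm_num
    exact hT.extend_apply _ _ t
  h25 a := by rw [auxT_num (by omega)]; simp [auxN]
  h26 c := by
    rw [auxT_num (by omega)]
    simp only [auxN]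
    norm_num
    have hp : Injective (fun c => cS (Sym.pl c : Sym Q Γ)) := fun x y h => by
      have := hS h
      cases this
      rfl
    exact hp.extend_apply _ _ c

theorem auxT_std (hs : 60 < s) (hS : Injective cS) (hT : Injective cT) (code : ℕ → Instr F) :
    Std A (codeTab A code (auxT A M cS cT ac)) :=
  (auxT_tab (ac := ac) hs hS hT).std code

theorem auxT_ctab (hs : 60 < s) (code : ℕ → Instr F) :
    CTab A (codeTab A code (auxT A M cS cT ac)) ac where
  hpar a := by
    rw [codeTab_aux A (by omega) (by omega), auxT_num (by omega)]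
    simp [auxN]
  h2x a := by
    rw [codeTab_aux A (by omega) (by omega), auxT_num (by omega)]
    simp [auxN]
  h2y a := by
    rw [codeTab_aux A (by omega) (by omega), auxT_num (by omega)]
    simp [auxN]
  hac a := by
    rw [codeTab_aux A (by omega) (by omega), auxT_num (by omega)]
    simp [auxN]
  hsub j hj a := by
    rw [codeTab_aux A (by omega) (by omega), auxT_num (by omega)]
    interval_cases j <;> simp [auxN]
  hpk d hd a := by
    rw [codeTab_aux A (by omega) (by omega), auxT_num (by omega)]
    interval_cases d <;> simp [auxN]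
  hk a := by
    rw [codeTab_aux A (by omega) (by omega), auxT_num (by omega)]
    simp [auxN]
  htc a := by
    rw [codeTab_aux A (by omega) (by omega), auxT_num (by omega)]
    simp [auxN]
  hco a := by
    rw [codeTab_aux A (by omega) (by omega), auxT_num (by omega)]
    simp [auxN]
  hpr a := by
    rw [codeTab_aux A (by omega) (by omega), auxT_num (by omega)]
    simp [auxN]
  hbi a := by
    rw [codeTab_aux A (by omega) (by omega), auxT_num (by omega)]
    simp [auxN]
  hof a := by
    rw [codeTab_aux A (by omega) (by omega), auxT_num (by omega)]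
    simp [auxN]

end

/-- There is a numbering of the group of vectors over the field with two elements. -/
theorem exists_alph (b : ℕ) : Nonempty (Alph (Fin b → ZMod 2) (2 ^ b)) := by
  have hc : Fintype.card (Fin b → ZMod 2) = 2 ^ b := by
    simp [ZMod.card]
  let e : (Fin b → ZMod 2) ≃ Fin (2 ^ b) := Fintype.equivFinOfCardEq hc
  let z : Fin (2 ^ b) := ⟨0, Nat.pow_pos (by norm_num)⟩
  exact ⟨⟨e.trans (Equiv.swap (e 0) z), by simp [z]⟩⟩

/-- Codes of the symbols and of the triples of symbols by letters of a large alphabet. -/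
theorem exists_codes {Q Γ : Type} [Finite Q] [Finite Γ] :
    ∃ N : ℕ, ∀ s, N ≤ s → ∀ {F : Type} [AddCommGroup F] (A : Alph F s),
      ∃ (cS : Sym Q Γ → F) (cT : Sym Q Γ × Sym Q Γ × Sym Q Γ → F),
        Injective cS ∧ Injective cT := by
  obtain ⟨n1, ⟨e1⟩⟩ := Finite.exists_equiv_fin (Sym Q Γ)
  obtain ⟨n2, ⟨e2⟩⟩ := Finite.exists_equiv_fin (Sym Q Γ × Sym Q Γ × Sym Q Γ)
  refine ⟨n1 + n2, fun s hs F _ A => ⟨fun x => A.num (e1 x).val, fun x => A.num (e2 x).val, ?_, ?_⟩⟩
  · intro x y h
    have h1 := (e1 x).isLt
    have h2 := (e1 y).isLt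
    exact e1.injective (Fin.ext (A.num_inj (by omega) (by omega) h))
  · intro x y h
    have h1 := (e2 x).isLt
    have h2 := (e2 y).isLt
    exact e2.injective (Fin.ext (A.num_inj (by omega) (by omega) h))

end Vale.Agent.P310d
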