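import Vale.Agent.P310d.Comb

/-!
# The letters of the numbers of rules and of the copies
-/

namespace Vale.Agent.P310d

open Function

open scoped Classical

set_option linter.unusedSectionVars false

variable {F : Type} [AddCommGroup F] {s : ℕ} (A : Alph F s)

/-- The number of rules. -/
abbrev NN (s : ℕ) : ℕ := s * (s * s)

theorem NN_eq_pow (s : ℕ) : NN s = s ^ 3 := by
  unfold NN
  ring

/-- The letters of a number of a copy: `f < 3` the digits of half the number, `f = 3` whether it is
beyond the numbers of rules, `f = 4` the last bit (or the excess). -/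
noncomputable def chD (i f : ℕ) : F :=
  if i < 2 * NN s then
    (if f < 3 then A.num (dgt s (i / 2) f) else if f = 3 then 0 else A.num (i % 2))
  else (if f = 3 then A.num 1 else if f = 4 then A.num (i - 2 * NN s) else 0)

section

variable {A}

theorem chD_zero (hs : 0 < s) (f : ℕ) : chD A 0 f = 0 := by
  unfold chD
  have h : 0 < 2 * NN s := by
    unfold NN
    positivity
  rw [if_pos h]
  simp only [Nat.zero_div, dgt, Nat.zero_mod, A.num_zero]
  split_ifs <;> rfl

theorem chD_low {i f : ℕ} (h : i < 2 * NN s) (hf : f < 3) : chD A i f = A.num (dgt s (i / 2) f) := by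
  unfold chD
  rw [if_pos h, if_pos hf]

theorem chD_low3 {i : ℕ} (h : i < 2 * NN s) : chD A i 3 = 0 := by
  unfold chD
  rw [if_pos h]
  simp

theorem chD_low4 {i : ℕ} (h : i < 2 * NN s) : chD A i 4 = A.num (i % 2) := by
  unfold chD
  rw [if_pos h]
  simp

theorem chD_high {i f : ℕ} (h : ¬ i < 2 * NN s) (hf : f < 3) : chD A i f = 0 := by
  unfold chD
  rw [if_neg h, if_neg (by omega), if_neg (by omega)]

theorem chD_high3 {i : ℕ} (h : ¬ i < 2 * NN s) : chD A i 3 = A.num 1 := by
  unfold chD
  rw [if_neg h]
  simp

theorem chD_high4 {i : ℕ} (h : ¬ i < 2 * NN s) : chD A i 4 = A.num (i - 2 * NN s) := by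
  unfold chD
  rw [if_neg h]
  simp

/-- The letters determine the number. -/
theorem chD_inj (hs : 3 < s) {i i' : ℕ} (hi : i < 2 * NN s + 3) (hi' : i' < 2 * NN s + 3)
    (h : ∀ f, f < 5 → chD A i f = chD A i' f) : i = i' := by
  have hs0 : 0 < s := by omega
  have h1 : A.num 1 ≠ (0 : F) := by
    intro e
    rw [← A.num_zero] at e
    have := A.num_inj (by omega) (by omega) e
    omega
  by_cases h2 : i < 2 * NN s <;> by_cases h3 : i' < 2 * NN s
  · have e1 : i / 2 = i' / 2 := by
      have hN : NN s = s ^ 3 := NN_eq_pow s
      apply eq_of_dgt hs0 (m := 3)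
      · rw [← hN]
        omega
      · rw [← hN]
        omega
      · intro j hj
        have := h j (by omega)
        rw [chD_low h2 hj, chD_low h3 hj] at this
        exact A.num_inj (dgt_lt hs0 _ _) (dgt_lt hs0 _ _) this
    have e2 : i % 2 = i' % 2 := by
      have := h 4 (by omega)
      rw [chD_low4 h2, chD_low4 h3] at this
      exact A.num_inj (by omega) (by omega) this
    omega
  · have := h 3 (by omega)
    rw [chD_low3 h2, chD_high3 h3] at this
    exact (h1 this.symm).elim
  · have := h 3 (by omega)
    rw [chD_high3 h2, chD_low3 h3] at this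
    exact (h1 this).elim
  · have := h 4 (by omega)
    rw [chD_high4 h2, chD_high4 h3] at this
    have := A.num_inj (by omega) (by omega) this
    omega

/-- The letters of the next number, from the letters of a number. -/
noncomputable def nxF (A : Alph F s) (dig : ℕ → F) (f : ℕ) : F :=
  if dig 3 ≠ 0 then
    (if f = 3 then A.num 1 else if f = 4 then A.succL (dig 4) else 0)
  else if dig 4 = 0 then
    (if f = 4 then A.num 1 else if f = 3 then 0 else dig f)
  else
    (if f = 3 then (if (∀ i, i < 3 → dig i = A.num (s - 1)) then A.num 1 else 0)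
     else if f = 4 then 0
     else (if (∀ i, i < f → dig i = A.num (s - 1)) then A.succL (dig f) else dig f))

theorem succL_num' {d : ℕ} (hd : d < s) : A.succL (A.num d) = A.num ((d + 1) % s) := by
  unfold Alph.succL
  rw [A.nm_num hd]

theorem chD_succ (hs : 4 < s) {i f : ℕ} (hi : i + 1 < 2 * NN s + 3) (hf : f < 5) :
    nxF A (chD A i) f = chD A (i + 1) f := by
  have hs0 : 0 < s := by omega
  have h1 : A.num 1 ≠ (0 : F) := by
    intro e
    rw [← A.num_zero] at e
    have := A.num_inj (by omega) (by omega) e
    omega
  have hN : NN s = s ^ 3 := NN_eq_pow s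
  by_cases h2 : i < 2 * NN s
  · have h3 : chD A i 3 = 0 := chD_low3 h2
    unfold nxF
    rw [if_neg (by simpa using h3)]
    rcases Nat.mod_two_eq_zero_or_one i with h4 | h4
    · -- even
      have h5 : chD A i 4 = 0 := by
        rw [chD_low4 h2, h4, A.num_zero]
      rw [if_pos h5]
      have h6 : i + 1 < 2 * NN s := by omega
      have h7 : (i + 1) / 2 = i / 2 := by omega
      by_cases h8 : f = 4
      · subst h8
        rw [if_pos rfl, chD_low4 h6]
        congr 1
        omega
      · rw [if_neg h8]
        by_cases h9 : f = 3
        · subst h9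
          rw [if_pos rfl, chD_low3 h6]
        · rw [if_neg h9, chD_low h2 (by omega), chD_low h6 (by omega), h7]
    · -- odd
      have h5 : chD A i 4 ≠ 0 := by
        rw [chD_low4 h2, h4]
        exact h1
      rw [if_neg h5]
      set r := i / 2 with hr
      have hi2 : i = 2 * r + 1 := by omega
      have hr1 : r + 1 ≤ NN s := by omega
      have e1 : (i + 1) / 2 = r + 1 := by omega
      have hlast : (∀ j, j < 3 → chD A i j = A.num (s - 1)) ↔ r + 1 = NN s := by
        constructor
        · intro h6
          have h7 : ∀ j, j < 3 → dgt s r j = s - 1 := by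
            intro j hj
            have := h6 j hj
            rw [chD_low h2 hj] at this
            exact A.num_inj (dgt_lt hs0 _ _) (by omega) this
          have h8 := (all_max_iff hs0 r 3).2 h7
          rw [Nat.mod_eq_of_lt (by rw [← hN]; omega)] at h8
          rw [hN] at hr1 ⊢
          have : 0 < s ^ 3 := Nat.pow_pos hs0
          omega
        · intro h6 j hj
          rw [chD_low h2 hj]
          have h7 : r % s ^ 3 = s ^ 3 - 1 := by
            rw [hN] at h6
            rw [Nat.mod_eq_of_lt (by omega)]
            omega
          rw [(all_max_iff hs0 r 3).1 h7 j hj]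
      have hdg : ∀ j, j < 3 → (if (∀ i', i' < j → chD A i i' = A.num (s - 1))
          then A.succL (chD A i j) else chD A i j) = A.num (dgt s (r + 1) j) := by
        intro j hj
        rw [chD_low h2 hj, dgt_succ hs0]
        have e3 : (∀ i', i' < j → chD A i i' = A.num (s - 1)) ↔ ∀ i', i' < j → dgt s r i' = s - 1 := by
          apply forall_congr'
          intro i'
          apply imp_congr_ctx Iff.rfl
          intro hi'
          rw [chD_low h2 (by omega)]
          exact A.num_eq_iff (dgt_lt hs0 _ _) (by omega)
        by_cases h6 : ∀ i', i' < j → dgt s r i' = s - 1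
        · rw [if_pos (e3.2 h6), if_pos h6, succL_num' (dgt_lt hs0 _ _)]
        · rw [if_neg (fun h7 => h6 (e3.1 h7)), if_neg h6]
      by_cases h6 : r + 1 = NN s
      · -- the last number of a rule
        have h7 : ¬ i + 1 < 2 * NN s := by omega
        have h9 : i + 1 - 2 * NN s = 0 := by omega
        by_cases h8 : f = 3
        · subst h8
          rw [if_pos rfl, if_pos (hlast.2 h6), chD_high3 h7]
        · rw [if_neg h8]
          by_cases h10 : f = 4
          · subst h10
            rw [if_pos rfl, chD_high4 h7, h9, A.num_zero]
          · rw [if_neg h10, hdg f (by omega), chD_high h7 (by omega), h6, hN,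
              dgt_of_pow_self hs0 (by omega) (by omega), A.num_zero]
      · have h7 : i + 1 < 2 * NN s := by omega
        by_cases h8 : f = 3
        · subst h8
          rw [if_pos rfl, if_neg (fun h9 => h6 (hlast.1 h9)), chD_low3 h7]
        · rw [if_neg h8]
          by_cases h10 : f = 4
          · subst h10
            rw [if_pos rfl, chD_low4 h7]
            have : (i + 1) % 2 = 0 := by omega
            rw [this, A.num_zero]
          · rw [if_neg h10, hdg f (by omega), chD_low h7 (by omega), e1]
  · have h3 : chD A i 3 = A.num 1 := chD_high3 h2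
    unfold nxF
    rw [if_pos (by rw [h3]; exact h1)]
    have h6 : ¬ i + 1 < 2 * NN s := by omega
    by_cases h8 : f = 3
    · subst h8
      rw [if_pos rfl, chD_high3 h6]
    · rw [if_neg h8]
      by_cases h9 : f = 4
      · subst h9
        rw [if_pos rfl, chD_high4 h2, chD_high4 h6, succL_num' (by omega),
          Nat.mod_eq_of_lt (by omega)]
        congr 1
        omega
      · rw [if_neg h9, chD_high h6 (by omega)]

end

end Vale.Agent.P310d
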