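import Vale.Agent.P310d.Hub

/-!
# The expressions of the adjacency circuit
-/

namespace Vale.Agent.P310d

open Function Vale.Agent.P310y

open scoped Classical

set_option linter.unusedSectionVars false

variable {F : Type} [AddCommGroup F] [Module (ZMod 2) F] {s : ℕ} (A : Alph F s)

/-- A register relative to a base. -/
def eR (bs j : ℕ) : Exp F := Exp.reg (bs + j)

noncomputable def eImp (p q : Exp F) : Exp F := eOr A (eNot A p) q

/-! ### The hubs -/

noncomputable def srcE (bs : ℕ) : Exp F :=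
  eIf A (eR bs 10) (Exp.lit 0) (chE A (eR bs 9) (eR bs 8) (eR bs 11))

noncomputable def tSelE (K xe bs : ℕ) (tc : Exp F) : Exp F :=
  eIf A (eIs A tc 1) (eR bs 6) (eIf A (eIs A tc 2) (eR bs 9) (eIf A (eIs A tc 3) (srcE A bs)
    (eIf A (eIs A tc 4) (eD A 13 (Exp.lit 0)) (eIf A (eIs A tc 5) (eD A 8 (eR bs 6))
      (eIf A (eIs A tc 6) (eN A (6 * K + 3 * xe + 11)) (Exp.lit 0))))))

noncomputable def nxE (bs f : ℕ) : Exp F :=
  eIf A (eR bs 10) (if f = 3 then eN A 1 else if f = 4 then eD A 8 (eR bs 11) else Exp.lit 0)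
    (eIf A (eIs A (eR bs 11) 0)
      (if f = 4 then eN A 1 else if f = 3 then Exp.lit 0 else eR bs (7 + f))
      (if f = 3 then eIf A (eAllEq A (bs + 7) 3 (A.num (s - 1))) (eN A 1) (Exp.lit 0)
        else if f = 4 then Exp.lit 0 else eInc A (bs + 7) f))

noncomputable def chSelE (bs : ℕ) (co : Exp F) (f : ℕ) : Exp F :=
  eIf A (eIs A co 1) (eR bs (7 + f)) (eIf A (eIs A co 2) (nxE A bs f)
    (eIf A (eIs A co 3) (Exp.lit (chD A (2 * NN s) f))
      (eIf A (eIs A co 4) (Exp.lit (chD A (2 * NN s + 1) f)) (Exp.lit 0))))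

/-- The packed number of slot and kind, for the hub of type `j`. -/
noncomputable def pkE (bs j : ℕ) : Exp F := Exp.ap 3 (eD A (30 + j) (eR bs 2)) (eR bs 1)

noncomputable def hubKE (bs j : ℕ) : Exp F := eD A 50 (pkE A bs j)
noncomputable def hubTE (K xe bs j : ℕ) : Exp F := tSelE A K xe bs (eD A 51 (pkE A bs j))
noncomputable def hubCE (bs j f : ℕ) : Exp F := chSelE A bs (eD A 52 (pkE A bs j)) f
noncomputable def hubPE (bs j : ℕ) : Exp F := eD A 53 (pkE A bs j)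
noncomputable def hubBE (bs j : ℕ) : Exp F := eD A 54 (pkE A bs j)
noncomputable def hubLE (bs j : ℕ) : Exp F :=
  Exp.add (eR bs 5) (eIf A (eD A 55 (pkE A bs j))
    (deltaE A (eR bs 9) (eR bs 8) (eR bs 7) (eR bs 3)) (Exp.lit 0))

/-- The tables of the circuit. -/
structure CTab (A : Alph F s) (D : F → F → F) (ac : F) : Prop where
  hpar : ∀ a, D (A.num 10) a = A.bl (parN s (nmv A a) = 1)
  h2x : ∀ a, D (A.num 11) a = A.num (2 * nmv A a)
  h2y : ∀ a, D (A.num 12) a = A.num (2 * nmv A a + 1)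
  hac : ∀ a, D (A.num 13) a = ac
  hsub : ∀ j, j < 3 → ∀ a, D (A.num (30 + j)) a = A.num (40 + (j + 3 - nmv A a) % 3)
  hpk : ∀ d, d < 3 → ∀ a, D (A.num (40 + d)) a = A.num (nmv A a * 3 + d)
  hk : ∀ a, D (A.num 50) a = A.num (kT (nmv A a))
  htc : ∀ a, D (A.num 51) a = A.num (tcT (nmv A a))
  hco : ∀ a, D (A.num 52) a = A.num (coT (nmv A a))
  hpr : ∀ a, D (A.num 53) a = A.bl (nmv A a < 24 ∨ nmv A a % 3 = 0)
  hbi : ∀ a, D (A.num 54) a = A.num (1 + nmv A a % 3)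
  hof : ∀ a, D (A.num 55) a = A.bl (nmv A a / 3 = 1 ∧ nmv A a % 3 ≠ 0)

section hubvalues

variable {A} {D : F → F → F} {ac : F} (H : Std A D) (C : CTab A D ac) (ρ : ℕ → F)

include H

theorem tv_if (p x y : Exp F) :
    Exp.eval (tbl A D) (eIf A p x y) ρ ≠ 0 ↔
      (if Exp.eval (tbl A D) p ρ ≠ 0 then Exp.eval (tbl A D) x ρ ≠ 0
        else Exp.eval (tbl A D) y ρ ≠ 0) := by
  rw [eval_if H]
  split_ifs <;> rfl

theorem tv_imp (p q : Exp F) :
    Exp.eval (tbl A D) (eImp A p q) ρ ≠ 0 ↔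
      (Exp.eval (tbl A D) p ρ ≠ 0 → Exp.eval (tbl A D) q ρ ≠ 0) := by
  unfold eImp
  rw [tv_or H, tv_not2 H]
  tauto

theorem tv_num_one : Exp.eval (tbl A D) (eN A 1) ρ ≠ 0 := by
  have := Alph.num_one_ne (A := A) (by have := H.hs; omega)
  exact this

theorem eval_src (bs : ℕ) : Exp.eval (tbl A D) (srcE A bs) ρ = srcL A D (fun j => ρ (bs + j)) := by
  unfold srcE srcL
  rw [eval_if H, eval_ch H]
  rfl

include C

theorem eval_tSel (K xe bs : ℕ) (tc : Exp F) :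
    Exp.eval (tbl A D) (tSelE A K xe bs tc) ρ =
      tSel K xe A D ac (fun j => ρ (bs + j)) (Exp.eval (tbl A D) tc ρ) := by
  simp only [tSelE, eval_if H, tv_is H, eval_src H, eval_eD H, C.hac, H.hsucc, tSel, eN, eR,
    Exp.eval]

omit C in
theorem eval_nx (bs : ℕ) {f : ℕ} (hf : f < 5) :
    Exp.eval (tbl A D) (nxE A bs f) ρ = nxF A (fun i => ρ (bs + (7 + i))) f := by
  have e10 : ρ (bs + (7 + 3)) = ρ (bs + 10) := rfl
  have e11 : ρ (bs + (7 + 4)) = ρ (bs + 11) := rfl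
  have e0 : Exp.eval (tbl A D) (eR bs 10) ρ = ρ (bs + 10) := rfl
  have e1 : Exp.eval (tbl A D) (eR bs 11) ρ = ρ (bs + 11) := rfl
  unfold nxE nxF
  by_cases h3 : f = 3
  · subst h3
    simp only [eval_if H, tv_is H, tv_allEq H, e10, e11, e0, e1, A.num_zero, if_true,
      if_neg (show ¬ (3 = 4) by omega), eN, Exp.eval, Nat.add_assoc]
    congr
  · by_cases h4 : f = 4
    · subst h4
      simp only [eval_if H, tv_is H, eval_eD H, H.hsucc, e10, e11, e0, e1, A.num_zero, if_true,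
        if_neg (show ¬ (4 = 3) by omega), eN, Exp.eval]
    · simp only [if_neg h3, if_neg h4, eval_if H, tv_is H, eval_inc H, e10, e11, e0, e1,
        A.num_zero, Exp.eval, eR, Nat.add_assoc]

theorem eval_chSel (bs : ℕ) (co : Exp F) {f : ℕ} (hf : f < 5) :
    Exp.eval (tbl A D) (chSelE A bs co f) ρ =
      chSel A (fun j => ρ (bs + j)) (Exp.eval (tbl A D) co ρ) f := by
  simp only [chSelE, eval_if H, tv_is H, eval_nx H ρ bs hf, chSel, eR, Exp.eval]

theorem eval_pk {bs j : ℕ} (hj : j < 3) {g τ : ℕ} (hτ : ρ (bs + 2) = A.num τ) (hg : ρ (bs + 1) = A.num g)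
    (hτ3 : τ < 3) (hg10 : g < 10) :
    Exp.eval (tbl A D) (pkE A bs j) ρ = A.num (g * 3 + (j + 3 - τ) % 3) := by
  have hs := H.hs
  show tbl A D 3 _ _ = _
  rw [tbl_three H, eval_eD H, C.hsub j hj]
  show D _ (ρ (bs + 1)) = _
  have e1 : Exp.eval (tbl A D) (eR bs 2) ρ = A.num τ := hτ
  rw [e1, hg]
  have e2 : nmv A (A.num τ : F) = τ := A.nm_num (by omega)
  have e3 : nmv A (A.num g : F) = g := A.nm_num (by omega)
  rw [e2]
  have := C.hpk ((j + 3 - τ) % 3) (Nat.mod_lt _ (by omega)) (A.num g)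
  rw [this, e3]

end hubvalues

end Vale.Agent.P310d
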