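import Vale.Agent.P310d.AdjL

/-!
# The expressions of validity and adjacency
-/

namespace Vale.Agent.P310d

open Function Vale.Agent.P310y

open scoped Classical

set_option linter.unusedSectionVars false

variable {F : Type} [AddCommGroup F] [Module (ZMod 2) F] [Fintype F] {s : ℕ} (A : Alph F s)

noncomputable def gadOkE (K xe bs : ℕ) : Exp F :=
  eAnd (eLt (eR bs 1) (eN A 10))
    (eAnd (eIf A (eIs A (eR bs 1) 9) (eIs A (eR bs 2) 0) (eLt (eR bs 2) (eN A 3)))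
      (eAnd
        (eOr A (eIs A (eR bs 1) 2) (eOr A (eIs A (eR bs 1) 3)
          (eIf A (eIs A (eR bs 1) 6) (eLt (eR bs 6) (eN A (6 * K + 3 * xe + 11))) (eIs A (eR bs 6) 0))))
        (eIf A (eLt (eR bs 1) (eN A 2)) (eAnd (eIs A (eR bs 10) 0) (eIs A (eR bs 11) 0))
          (eIf A (eOr A (eIs A (eR bs 1) 3) (eIs A (eR bs 1) 4))
            (eAnd (eLt (eR bs 11) (eN A 2)) (eOr A (eIs A (eR bs 10) 0)
              (eAnd (eIs A (eR bs 10) 1) (eAllEq A (bs + 7) 3 0))))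
            (eAllEq A (bs + 7) 5 0)))))

noncomputable def allowE (bs : ℕ) : Exp F :=
  eIf A (eIs A (eR bs 1) 1) (guardE A (eR bs 9) (eR bs 8) (eR bs 7) (eR bs 3) (eR bs 5))
    (eIf A (eLt (eR bs 1) (eN A 5)) (eN A 1) (eIs A (eR bs 5) 0))

noncomputable def itemOkE (K xe bs : ℕ) : Exp F :=
  eAnd (gadOkE A K xe bs)
    (eIf A (eIs A (eR bs 0) 0)
      (eAnd (eLt (eR bs 3) (eN A K)) (eAnd (eLt (eR bs 4) (eN A (2 + xe)))
        (eAnd (eOr A (eLt (eR bs 4) (eN A 2)) (eIs A (eR bs 3) 0)) (allowE A bs))))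
      (eAnd (eIs A (eR bs 0) 1) (eAnd (eIs A (eR bs 3) 0) (eAnd (eIs A (eR bs 4) 0) (eIs A (eR bs 5) 0)))))

noncomputable def coreOkE (K xe bs : ℕ) (bE : Exp F) : Exp F :=
  eAnd (eLt (eR bs 12)
      (eIf A (eR bs 0) (eN A (2 ^ (2 * K + xe))) (eIf A (eLt (eR bs 1) (eN A 8)) (eN A (2 ^ 4)) (eN A (2 ^ 2)))))
    (eEq A (eD A 10 (eR bs 12))
      (eIf A (eAnd bE (eAnd (eR bs 0) (eIs A (eR bs 1) 9))) (eN A 1) (Exp.lit 0)))

/-- The comparison of the high digits of the pendant number with the letters of the equation. -/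
noncomputable def leE (bs : ℕ) : ℕ → Exp F
  | 0 => eN A 1
  | n + 1 => eOr A (eLt (eR bs (29 + n)) (eR bs n))
      (eAnd (eEq A (eR bs (29 + n)) (eR bs n)) (leE bs n))

noncomputable def pendOkE (bs : ℕ) : Exp F :=
  eOr A (eAnd (eIs A (eR bs 13) 0) (eAllEq A (bs + 14) 27 0))
    (eAnd (eIs A (eR bs 13) 1) (leE A bs 12))

noncomputable def vertOkE (K xe bs : ℕ) (bE : Exp F) : Exp F :=
  eAnd (itemOkE A K xe bs) (eAnd (coreOkE A K xe bs bE) (pendOkE A bs))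

section values

variable {A} {D : F → F → F} {ac : F} (H : Std A D) (ρ : ℕ → F)

include H

omit H in
@[simp] theorem eval_eR (bs j : ℕ) (T : ℕ → F → F → F) : Exp.eval T (eR bs j) ρ = ρ (bs + j) := rfl

omit H in
@[simp] theorem eval_eN (n : ℕ) (T : ℕ → F → F → F) : Exp.eval T (eN A n) ρ = A.num n := rfl

theorem tv_ltN (e : Exp F) {n : ℕ} (hn : n < s) :
    Exp.eval (tbl A D) (eLt e (eN A n)) ρ ≠ 0 ↔ nmv A (Exp.eval (tbl A D) e ρ) < n := by
  rw [tv_lt H]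
  show _ < (A.nm (A.num n)).val ↔ _
  rw [A.nm_num hn]

theorem tv_isN (e : Exp F) {n : ℕ} (hn : n < s) :
    Exp.eval (tbl A D) (eIs A e n) ρ ≠ 0 ↔ nmv A (Exp.eval (tbl A D) e ρ) = n := by
  rw [tv_is H]
  exact num_eq_iff_nmv hn

theorem tv_is0 (e : Exp F) :
    Exp.eval (tbl A D) (eIs A e 0) ρ ≠ 0 ↔ Exp.eval (tbl A D) e ρ = 0 := by
  rw [tv_is H, A.num_zero]

theorem tv_gadOk {K xe bs : ℕ} (h6 : 6 * K + 3 * xe + 12 ≤ s) :
    Exp.eval (tbl A D) (gadOkE A K xe bs) ρ ≠ 0 ↔ GadOk A K xe (fun j => ρ (bs + j)) := by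
  have hs := H.hs
  unfold gadOkE GadOk
  simp only [tv_and H, tv_if H, tv_or H, tv_ltN H ρ _ (show 10 < s by omega),
    tv_isN H ρ _ (show 9 < s by omega), tv_is0 H, tv_ltN H ρ _ (show 3 < s by omega),
    tv_isN H ρ _ (show 2 < s by omega), tv_isN H ρ _ (show 3 < s by omega),
    tv_isN H ρ _ (show 6 < s by omega), tv_ltN H ρ _ (show 6 * K + (3 * xe + 11) < s by omega),
    tv_ltN H ρ _ (show 2 < s by omega), tv_isN H ρ _ (show 4 < s by omega), tv_allEq H, tv_is H,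
    eval_eR, Nat.add_assoc]

theorem tv_allow {bs : ℕ} :
    Exp.eval (tbl A D) (allowE A bs) ρ ≠ 0 ↔ AllowL A D (fun j => ρ (bs + j)) := by
  have hs := H.hs
  have h1 : (Exp.eval (tbl A D) (eN A 1) ρ ≠ 0) ↔ True := iff_true_intro (tv_num_one H ρ)
  unfold allowE AllowL
  simp only [tv_if H, tv_isN H ρ _ (show 1 < s by omega), tv_ltN H ρ _ (show 5 < s by omega),
    tv_guard H, tv_is0 H, eval_eR, h1]

theorem tv_itemOk {K xe bs : ℕ} (h6 : 6 * K + 3 * xe + 12 ≤ s) :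
    Exp.eval (tbl A D) (itemOkE A K xe bs) ρ ≠ 0 ↔ ItemOk A D K xe (fun j => ρ (bs + j)) := by
  have hs := H.hs
  unfold itemOkE ItemOk
  simp only [tv_and H, tv_gadOk H ρ h6, tv_if H, tv_is0 H, tv_ltN H ρ _ (show K < s by omega),
    tv_ltN H ρ _ (show 2 + xe < s by omega), tv_or H,
    tv_ltN H ρ _ (show 2 < s by omega), tv_allow H, tv_is H, eval_eR]

theorem tv_le {bs : ℕ} (n : ℕ) :
    Exp.eval (tbl A D) (leE A bs n) ρ ≠ 0 ↔
      numOf s (fun j => nmv A (ρ (bs + (29 + j)))) n ≤ numOf s (fun j => nmv A (ρ (bs + j))) n := by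
  have hs := H.hs
  induction n with
  | zero => simpa [leE, numOf] using tv_num_one H ρ
  | succ n ih =>
    simp only [leE]
    have e1 : Exp.eval (tbl A D) (leE A bs n) ρ ≠ 0 ↔
      numOf s (fun j => nmv A (ρ (bs + (29 + j)))) n ≤ numOf s (fun j => nmv A (ρ (bs + j))) n := ih
    rw [tv_or H, tv_lt H, tv_and H, tv_eq H, e1, numOf_le_succ (by omega)
      (fun j _ => (A.nm _).isLt) (fun j _ => (A.nm _).isLt)]
    simp only [eval_eR, nmv]
    constructor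
    · rintro (h | ⟨h1, h2⟩)
      · exact Or.inl h
      · exact Or.inr ⟨by rw [h1], h2⟩
    · rintro (h | ⟨h1, h2⟩)
      · exact Or.inl h
      · exact Or.inr ⟨A.nm.injective (Fin.ext h1), h2⟩

theorem tv_pendOk {bs : ℕ} :
    Exp.eval (tbl A D) (pendOkE A bs) ρ ≠ 0 ↔ PendOk A (fun j => ρ (bs + j)) := by
  have hs := H.hs
  unfold pendOkE PendOk
  simp only [tv_or H, tv_and H, tv_is0 H, tv_is H, tv_allEq H, tv_le H, eval_eR, Nat.add_assoc]

include H in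
theorem tv_coreOk {K xe bs : ℕ} (hp : 2 ^ (2 * K + xe) < s) (C : CTab A D ac) {bE : Exp F} {bb : Bool}
    (hb : Exp.eval (tbl A D) bE ρ ≠ 0 ↔ bb = true) :
    Exp.eval (tbl A D) (coreOkE A K xe bs bE) ρ ≠ 0 ↔ CoreOk A K xe bb (fun j => ρ (bs + j)) := by
  have hs := H.hs
  unfold coreOkE CoreOk nvL
  rw [tv_and H, tv_lt H, tv_eq H, eval_eD H, C.hpar]
  simp only [eval_if H, tv_and H, hb, tv_isN H ρ _ (show 9 < s by omega),
    tv_ltN H ρ _ (show 8 < s by omega), eval_eR, eval_eN, Exp.eval]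
  apply and_congr
  · by_cases h0 : ρ (bs + 0) ≠ 0
    · simp only [h0, if_true, ne_eq, not_false_eq_true]
      show _ < (A.nm (A.num (2 ^ (2 * K + xe)))).val ↔ _
      rw [A.nm_num hp]
    · simp only [h0, if_false]
      by_cases h8 : nmv A (ρ (bs + 1)) < 8
      · simp only [h8, if_true]
        show _ < (A.nm (A.num (2 ^ 4))).val ↔ _
        rw [A.nm_num (by norm_num; omega)]
      · simp only [h8, if_false]
        show _ < (A.nm (A.num (2 ^ 2))).val ↔ _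
        rw [A.nm_num (by norm_num; omega)]
  · congr! 2

theorem tv_vertOk {K xe bs : ℕ} (h6 : 6 * K + 3 * xe + 12 ≤ s) (hp : 2 ^ (2 * K + xe) < s) (C : CTab A D ac) {bE : Exp F}
    {bb : Bool} (hb : Exp.eval (tbl A D) bE ρ ≠ 0 ↔ bb = true) :
    Exp.eval (tbl A D) (vertOkE A K xe bs bE) ρ ≠ 0 ↔ VertOk A D K xe bb (fun j => ρ (bs + j)) := by
  unfold vertOkE VertOk
  rw [tv_and H, tv_and H, tv_itemOk H ρ h6, tv_coreOk H ρ hp C hb, tv_pendOk H ρ]

end values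

end Vale.Agent.P310d
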