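import Vale.Agent.P310d.Circ2

/-!
# The expressions of adjacency
-/

namespace Vale.Agent.P310d

open Function Vale.Agent.P310y

open scoped Classical

set_option linter.unusedSectionVars false

variable {F : Type} [AddCommGroup F] [Module (ZMod 2) F] [Fintype F] {s : ℕ} (A : Alph F s)

/-- All registers from two bases agree. -/
noncomputable def eSame (bs bs' : ℕ) : ℕ → Exp F
  | 0 => eN A 1
  | n + 1 => eAnd (eEq A (eR bs n) (eR bs' n)) (eSame bs bs' n)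

noncomputable def gadEqE (bs bs' : ℕ) : Exp F :=
  eAnd (eEq A (eR bs 1) (eR bs' 1)) (eAnd (eEq A (eR bs 2) (eR bs' 2))
    (eAnd (eEq A (eR bs 6) (eR bs' 6)) (eSame A (bs + 7) (bs' + 7) 5)))

noncomputable def posEqE (bs bs' : ℕ) : Exp F :=
  eAnd (eEq A (eR bs 3) (eR bs' 3)) (eEq A (eR bs 4) (eR bs' 4))

noncomputable def neBit (a c a' c' : Exp F) : Exp F := eNot A (eEq A (eBit a c) (eBit a' c'))

noncomputable def tokEEE (bs bs' : ℕ) : Exp F :=
  eAnd (eIs A (eR bs 0) 0) (eAnd (eIs A (eR bs' 0) 0) (eAnd (posEqE A bs bs') (eAnd (gadEqE A bs bs')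
    (neBit A (eR bs 12) (eN A 0) (eR bs' 12) (eN A 0)))))

noncomputable def idxE (K bs : ℕ) : Exp F :=
  eIf A (eIs A (eR bs 4) 2) (eN A (2 * K)) (eIf A (eR bs 4) (eD A 12 (eR bs 3)) (eD A 11 (eR bs 3)))

noncomputable def tokEHE (K bs bs' : ℕ) : Exp F :=
  eAnd (eIs A (eR bs 0) 0) (eAnd (eNot A (eIs A (eR bs' 0) 0)) (eAnd (gadEqE A bs bs')
    (neBit A (eR bs 12) (eN A 0) (eR bs' 12) (idxE A K bs))))

/-- The letters of the numbers of copy of two hubs agree. -/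
noncomputable def chainEq (bs bs' j : ℕ) : ℕ → Exp F
  | 0 => eN A 1
  | n + 1 => eAnd (eEq A (hubCE A bs j n) (hubCE A bs' j n)) (chainEq bs bs' j n)

noncomputable def hubConfE (K xe bs bs' j : ℕ) : Exp F :=
  eAnd (eIs A (eR bs 0) 0) (eAnd (eIs A (eR bs' 0) 0) (eAnd (posEqE A bs bs')
    (eAnd (hubPE A bs j) (eAnd (hubPE A bs' j)
      (eAnd (eAnd (eEq A (hubKE A bs j) (hubKE A bs' j))
          (eAnd (eEq A (hubTE A K xe bs j) (hubTE A K xe bs' j)) (chainEq A bs bs' j 5)))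
        (eAnd (eEq A (hubLE A bs j) (hubLE A bs' j))
          (neBit A (eR bs 12) (hubBE A bs j) (eR bs' 12) (hubBE A bs' j))))))))

noncomputable def coreAdjE (K xe bs bs' : ℕ) : Exp F :=
  eAnd (eNot A (eSame A bs bs' 12)) (eAnd (eNot A (tokEEE A bs bs')) (eAnd (eNot A (tokEHE A K bs bs'))
    (eAnd (eNot A (tokEHE A K bs' bs)) (eAnd (eNot A (hubConfE A K xe bs bs' 0))
      (eAnd (eNot A (hubConfE A K xe bs bs' 1)) (eNot A (hubConfE A K xe bs bs' 2)))))))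

noncomputable def adjLE (K xe bs bs' : ℕ) : Exp F :=
  eOr A (eAnd (eIs A (eR bs 13) 0) (eAnd (eIs A (eR bs' 13) 0) (coreAdjE A K xe bs bs')))
    (eAnd (eSame A bs bs' 13) (eOr A (eAnd (eIs A (eR bs 13) 0) (eNot A (eIs A (eR bs' 13) 0)))
      (eAnd (eNot A (eIs A (eR bs 13) 0)) (eIs A (eR bs' 13) 0))))

noncomputable def adjE (K xe bs bs' : ℕ) (bE : Exp F) : Exp F :=
  eAnd (vertOkE A K xe bs bE) (eAnd (vertOkE A K xe bs' bE) (adjLE A K xe bs bs'))

section values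

variable {A} {D : F → F → F} {ac : F} {K xe : ℕ} (H : Std A D) (C : CTab A D ac) (ρ : ℕ → F)

include H

theorem tv_same {bs bs' : ℕ} (n : ℕ) :
    Exp.eval (tbl A D) (eSame A bs bs' n) ρ ≠ 0 ↔ ∀ i, i < n → ρ (bs + i) = ρ (bs' + i) := by
  induction n with
  | zero => simpa [eSame] using tv_num_one H ρ
  | succ n ih =>
    have e1 : Exp.eval (tbl A D) (eSame A bs bs' n) ρ ≠ 0 ↔ ∀ i, i < n → ρ (bs + i) = ρ (bs' + i) := ih
    simp only [eSame]
    rw [tv_and H, tv_eq H, e1]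
    simp only [eval_eR]
    constructor
    · rintro ⟨h1, h2⟩ i hi
      rcases Nat.lt_succ_iff_lt_or_eq.1 hi with hi | rfl
      · exact h2 i hi
      · exact h1
    · intro h
      exact ⟨h n (by omega), fun i hi => h i (by omega)⟩

theorem tv_gadEq {bs bs' : ℕ} :
    Exp.eval (tbl A D) (gadEqE A bs bs') ρ ≠ 0 ↔
      GadEq (fun j => ρ (bs + j)) (fun j => ρ (bs' + j)) := by
  unfold gadEqE GadEq
  simp only [tv_and H, tv_eq H, tv_same H, eval_eR, Nat.add_assoc]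

theorem tv_posEq {bs bs' : ℕ} :
    Exp.eval (tbl A D) (posEqE A bs bs') ρ ≠ 0 ↔
      PosEq (fun j => ρ (bs + j)) (fun j => ρ (bs' + j)) := by
  unfold posEqE PosEq
  simp only [tv_and H, tv_eq H, eval_eR]

theorem eval_bit (a c : Exp F) :
    Exp.eval (tbl A D) (eBit a c) ρ =
      A.bl ((A.nm (Exp.eval (tbl A D) a ρ)).val.testBit (A.nm (Exp.eval (tbl A D) c ρ)).val = true) :=
  tbl_four H _ _

theorem bl_eq_iff {p q : Prop} : A.bl p = A.bl q ↔ (p ↔ q) := by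
  have hs := H.hs
  have hn0 : A.num 1 ≠ (0 : F) := Alph.num_one_ne (by omega)
  unfold Alph.bl
  by_cases h1 : p <;> by_cases h2 : q <;> simp [h1, h2, hn0, hn0.symm]

theorem tv_neBit (a c a' c' : Exp F) :
    Exp.eval (tbl A D) (neBit A a c a' c') ρ ≠ 0 ↔
      ¬ ((nmv A (Exp.eval (tbl A D) a ρ)).testBit (nmv A (Exp.eval (tbl A D) c ρ)) = true ↔
        (nmv A (Exp.eval (tbl A D) a' ρ)).testBit (nmv A (Exp.eval (tbl A D) c' ρ)) = true) := by
  unfold neBit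
  rw [tv_not2 H, tv_eq H, eval_bit H, eval_bit H, bl_eq_iff H]

theorem tv_tokEE {bs bs' : ℕ} :
    Exp.eval (tbl A D) (tokEEE A bs bs') ρ ≠ 0 ↔
      TokEE A (fun j => ρ (bs + j)) (fun j => ρ (bs' + j)) := by
  have hs := H.hs
  have e0 : nmv A (Exp.eval (tbl A D) (eN A 0) ρ) = 0 := nmv_num (by omega)
  unfold tokEEE TokEE
  simp only [tv_and H, tv_is0 H, tv_posEq H, tv_gadEq H, tv_neBit H, e0, eval_eR]

theorem eval_idx {bs : ℕ} (C : CTab A D ac) :
    Exp.eval (tbl A D) (idxE A K bs) ρ = A.num (idxL A K (fun j => ρ (bs + j))) := by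
  have hs := H.hs
  unfold idxE idxL
  rw [eval_if H, eval_if H, eval_eD H, eval_eD H, C.h2x, C.h2y]
  simp only [eval_eR, tv_isN H ρ _ (show 2 < s by omega), eval_eN]
  by_cases h2 : nmv A (ρ (bs + 4)) = 2
  · simp [h2]
  · by_cases h : ρ (bs + 4) ≠ 0
    · simp [h2, h]
    · simp only [h2, h, if_false]
      rfl

theorem tv_tokEH {bs bs' : ℕ} (C : CTab A D ac) (hK2 : 2 * K < s)
    (hlt : 2 * nmv A (ρ (bs + 3)) + 1 < s) :
    Exp.eval (tbl A D) (tokEHE A K bs bs') ρ ≠ 0 ↔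
      TokEH A K (fun j => ρ (bs + j)) (fun j => ρ (bs' + j)) := by
  have hs := H.hs
  have e0 : nmv A (Exp.eval (tbl A D) (eN A 0) ρ) = 0 := nmv_num (by omega)
  have e1 : nmv A (Exp.eval (tbl A D) (idxE A K bs) ρ) = idxL A K (fun j => ρ (bs + j)) := by
    rw [eval_idx H ρ C]
    apply nmv_num
    show (if nmv A (ρ (bs + 4)) = 2 then 2 * K else
      2 * nmv A (ρ (bs + 3)) + (if ρ (bs + 4) ≠ 0 then 1 else 0)) < s
    split_ifs <;> omega
  unfold tokEHE TokEH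
  simp only [tv_and H, tv_not2 H, tv_is0 H, tv_gadEq H, tv_neBit H, e0, e1, eval_eR]

include C

omit C in
theorem eval_pkE {bs j : ℕ} :
    Exp.eval (tbl A D) (pkE A bs j) ρ = pkL A D (fun i => ρ (bs + i)) j := by
  show tbl A D 3 _ _ = _
  rw [tbl_three H, eval_eD H]
  rfl

theorem eval_hubT {bs j : ℕ} :
    Exp.eval (tbl A D) (hubTE A K xe bs j) ρ =
      tSel K xe A D ac (fun i => ρ (bs + i)) (D (A.num 51) (pkL A D (fun i => ρ (bs + i)) j)) := by
  unfold hubTE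
  rw [eval_tSel H C, eval_eD H, eval_pkE H]

theorem eval_hubC {bs j f : ℕ} (hf : f < 5) :
    Exp.eval (tbl A D) (hubCE A bs j f) ρ =
      chSel A (fun i => ρ (bs + i)) (D (A.num 52) (pkL A D (fun i => ρ (bs + i)) j)) f := by
  unfold hubCE
  rw [eval_chSel H C _ _ _ hf, eval_eD H, eval_pkE H]

theorem tv_chainEq {bs bs' j : ℕ} (n : ℕ) (hn : n ≤ 5) :
    Exp.eval (tbl A D) (chainEq A bs bs' j n) ρ ≠ 0 ↔ ∀ f, f < n →
      chSel A (fun i => ρ (bs + i)) (D (A.num 52) (pkL A D (fun i => ρ (bs + i)) j)) f =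
      chSel A (fun i => ρ (bs' + i)) (D (A.num 52) (pkL A D (fun i => ρ (bs' + i)) j)) f := by
  induction n with
  | zero => simpa [chainEq] using tv_num_one H ρ
  | succ n ih =>
    have e1 := ih (by omega)
    simp only [chainEq]
    rw [tv_and H, tv_eq H, e1, eval_hubC H C ρ (by omega), eval_hubC H C ρ (by omega)]
    constructor
    · rintro ⟨h1, h2⟩ i hi
      rcases Nat.lt_succ_iff_lt_or_eq.1 hi with hi | rfl
      · exact h2 i hi
      · exact h1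
    · intro h
      exact ⟨h n (by omega), fun i hi => h i (by omega)⟩

omit C in
theorem eval_hubL {bs j : ℕ} :
    Exp.eval (tbl A D) (hubLE A bs j) ρ = lettL A D (fun i => ρ (bs + i)) j := by
  unfold hubLE lettL
  show Exp.eval (tbl A D) (eR bs 5) ρ + Exp.eval (tbl A D) (eIf A _ _ _) ρ = _
  rw [eval_if H, eval_eD H, eval_pkE H, eval_delta H]
  rfl

theorem tv_hubConf {bs bs' j : ℕ} :
    Exp.eval (tbl A D) (hubConfE A K xe bs bs' j) ρ ≠ 0 ↔
      HubConf A D K xe ac (fun i => ρ (bs + i)) (fun i => ρ (bs' + i)) j := by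
  have e3 := tv_chainEq (bs := bs) (bs' := bs') (j := j) H C ρ 5 (by omega)
  unfold hubConfE HubConf HubEq
  simp only [tv_and H, tv_is0 H, tv_posEq H, tv_eq H, tv_neBit H, e3, eval_hubT H C, eval_hubL H,
    hubPE, hubKE, hubBE, eval_eD H, eval_pkE H, eval_eR]
  rfl

/-- The condition of a bound for the digit of the position. -/
theorem tv_coreAdj {bs bs' : ℕ} (hK2 : 2 * K < s) (hlt : 2 * nmv A (ρ (bs + 3)) + 1 < s)
    (hlt' : 2 * nmv A (ρ (bs' + 3)) + 1 < s) :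
    Exp.eval (tbl A D) (coreAdjE A K xe bs bs') ρ ≠ 0 ↔
      CoreAdjL A D K xe ac (fun i => ρ (bs + i)) (fun i => ρ (bs' + i)) := by
  unfold coreAdjE CoreAdjL
  simp only [tv_and H, tv_not2 H, tv_same H, tv_tokEE H, tv_tokEH H ρ C hK2 hlt, tv_tokEH H ρ C hK2 hlt',
    tv_hubConf H C]
  have hj : ∀ P : ℕ → Prop, (∀ j, j < 3 → P j) ↔ (P 0 ∧ P 1 ∧ P 2) := by
    intro P
    constructor
    · intro h
      exact ⟨h 0 (by omega), h 1 (by omega), h 2 (by omega)⟩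
    · rintro ⟨h0, h1, h2⟩ j hj
      have : j = 0 ∨ j = 1 ∨ j = 2 := by omega
      rcases this with rfl | rfl | rfl <;> assumption
  rw [hj (fun j => ¬ HubConf A D K xe ac (fun i => ρ (bs + i)) (fun i => ρ (bs' + i)) j)]

theorem tv_adjL {bs bs' : ℕ} (hK2 : 2 * K < s) (hlt : 2 * nmv A (ρ (bs + 3)) + 1 < s)
    (hlt' : 2 * nmv A (ρ (bs' + 3)) + 1 < s) :
    Exp.eval (tbl A D) (adjLE A K xe bs bs') ρ ≠ 0 ↔
      AdjL A D K xe ac (fun i => ρ (bs + i)) (fun i => ρ (bs' + i)) := by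
  unfold adjLE AdjL
  simp only [tv_or H, tv_and H, tv_not2 H, tv_is0 H, tv_same H, tv_coreAdj H C ρ hK2 hlt hlt', eval_eR]

end values

section spec

variable {A} {D : F → F → F} {ac : F} {K xe : ℕ} {cdi : Injective (cdOf A (K := K) (xe := xe))} (H : Std A D)
  (C : CTab A D ac) (ρ : ℕ → F)

include H in
theorem pos_bound {bb : Bool} {u : ℕ → F} (h6 : 6 * K + 3 * xe + 12 ≤ s) (hp : 2 ^ (2 * K + xe) < s)
    (h : VertOk A D K xe bb u) : 2 * nmv A (u 3) + 1 < s := by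
  have hs := H.hs
  have h1 := h.1.2
  have h2 : 2 * K + xe < 2 ^ (2 * K + xe) := Nat.lt_two_pow_self
  by_cases h0 : u 0 = 0
  · rw [if_pos h0] at h1
    have := h1.1
    by_contra h3
    have h5 : s ≤ 2 * nmv A (u 3) + 1 := by omega
    omega
  · rw [if_neg h0] at h1
    rw [h1.2.1]
    rw [nmv_zero (by omega)]
    omega

include H C in
/-- The adjacency circuit. -/
theorem adjE_spec (hxe : xe ≤ 1) (hKs : K ≤ s) (h6 : 6 * K + 3 * xe + 12 ≤ s) (hK : 0 < K) (hp : 2 ^ (2 * K + xe) < s)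
    (hW : (PP A D ac cdi (s ^ 15)).gs.xs.bnd + 2 ≤ s ^ 15) {bb : Bool} {bE : Exp F}
    (hb : Exp.eval (tbl A D) bE ρ ≠ 0 ↔ bb = true) (bs bs' : ℕ) :
    Exp.eval (tbl A D) (adjE A K xe bs bs' bE) ρ ≠ 0 ↔
      ∃ v w : (PP A D ac cdi (s ^ 15)).gs.xs.Vtx bb, ((PP A D ac cdi (s ^ 15)).gs.xs.graph bb).Adj v w ∧
        (∀ j, j < 41 → idL A _ hK v j = ρ (bs + j)) ∧ (∀ j, j < 41 → idL A _ hK w j = ρ (bs' + j)) := by
  have hs := H.hs
  have hK2 : 2 * K < s := by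
    have h2 : 2 * K + xe < 2 ^ (2 * K + xe) := Nat.lt_two_pow_self
    omega
  unfold adjE
  rw [tv_and H, tv_and H, tv_vertOk H ρ h6 hp C hb, tv_vertOk H ρ h6 hp C hb]
  constructor
  · rintro ⟨h1, h2, h3⟩
    obtain ⟨v, hv⟩ := exists_vert (A := A) (D := D) (cdi := cdi) (ac := ac)
      (u := fun j => ρ (bs + j)) hs hKs h6 hp.le hW hK bb h1
    obtain ⟨w, hw⟩ := exists_vert (A := A) (D := D) (cdi := cdi) (ac := ac)
      (u := fun j => ρ (bs' + j)) hs hKs h6 hp.le hW hK bb h2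
    refine ⟨v, w, ?_, hv, hw⟩
    have b1 : 2 * nmv A (ρ (bs + 3)) + 1 < s := pos_bound H h6 hp h1
    have b2 : 2 * nmv A (ρ (bs' + 3)) + 1 < s := pos_bound H h6 hp h2
    have h4 := (tv_adjL (K := K) (xe := xe) H C ρ hK2 b1 b2).1 h3
    exact (adj_letters H C hKs h6 hK hp.le hxe v w hv hw).2 h4
  · rintro ⟨v, w, hA, hv, hw⟩
    have h1 := vertOk_of (A := A) (D := D) (cdi := cdi) (ac := ac)
      (u := fun j => ρ (bs + j)) hs hKs h6 hp.le hW hK bb v hv
    have h2 := vertOk_of (A := A) (D := D) (cdi := cdi) (ac := ac)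
      (u := fun j => ρ (bs' + j)) hs hKs h6 hp.le hW hK bb w hw
    refine ⟨h1, h2, ?_⟩
    have b1 : 2 * nmv A (ρ (bs + 3)) + 1 < s := pos_bound H h6 hp h1
    have b2 : 2 * nmv A (ρ (bs' + 3)) + 1 < s := pos_bound H h6 hp h2
    exact (tv_adjL (K := K) (xe := xe) H C ρ hK2 b1 b2).2
      ((adj_letters H C hKs h6 hK hp.le hxe v w hv hw).1 hA)

end spec

end Vale.Agent.P310d
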