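import Mathlib

/-!
# Digits of natural numbers
-/

namespace Vale.Agent.P310d

/-- The digit number `j` of `p` in base `s`. -/
def dgt (s p j : ℕ) : ℕ := p / s ^ j % s

variable {s : ℕ}

theorem dgt_lt (hs : 0 < s) (p j : ℕ) : dgt s p j < s := Nat.mod_lt _ hs

theorem mod_succ_eq (p j : ℕ) : p % s ^ (j + 1) = p % s ^ j + s ^ j * dgt s p j :=
  Nat.mod_pow_succ

theorem all_max_iff (hs : 0 < s) (p j : ℕ) :
    p % s ^ j = s ^ j - 1 ↔ ∀ i, i < j → dgt s p i = s - 1 := by
  induction j with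
  | zero =>
    simp [Nat.mod_one]
  | succ j ih =>
    have hB : 0 < s ^ j := Nat.pow_pos hs
    have h1 : p % s ^ j < s ^ j := Nat.mod_lt _ hB
    have h2 := dgt_lt hs p j
    have e := mod_succ_eq (s := s) p j
    have e2 : s ^ (j + 1) = s ^ j * s := pow_succ s j
    constructor
    · intro h
      rw [e, e2] at h
      obtain ⟨r, rfl⟩ : ∃ r, s = r + 1 := ⟨s - 1, by omega⟩
      have hd : dgt (r + 1) p j = r := by
        by_contra hne
        have h3 : dgt (r + 1) p j + 1 ≤ r := by omega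
        have h4 := Nat.mul_le_mul_left ((r + 1) ^ j) h3
        rw [Nat.mul_add, Nat.mul_one] at h4
        have h5 : 0 < (r + 1) ^ j * (r + 1) := by positivity
        have h6 : (r + 1) ^ j * (r + 1) = (r + 1) ^ j * r + (r + 1) ^ j := by ring
        omega
      have hl : p % (r + 1) ^ j = (r + 1) ^ j - 1 := by
        rw [hd] at h
        have h6 : (r + 1) ^ j * (r + 1) = (r + 1) ^ j * r + (r + 1) ^ j := by ring
        omega
      intro i hi
      rcases Nat.lt_succ_iff_lt_or_eq.1 hi with hi | rfl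
      · exact (ih.1 hl) i hi
      · simpa using hd
    · intro h
      have hl := ih.2 (fun i hi => h i (by omega))
      have hd := h j (by omega)
      rw [e, hl, hd, e2]
      obtain ⟨r, rfl⟩ : ∃ r, s = r + 1 := ⟨s - 1, by omega⟩
      have h6 : (r + 1) ^ j * (r + 1) = (r + 1) ^ j * r + (r + 1) ^ j := by ring
      simp only [Nat.add_sub_cancel]
      omega

theorem all_zero_iff (hs : 0 < s) (p j : ℕ) :
    p % s ^ j = 0 ↔ ∀ i, i < j → dgt s p i = 0 := by
  induction j with
  | zero =>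
    simp [Nat.mod_one]
  | succ j ih =>
    have e := mod_succ_eq (s := s) p j
    have hB : 0 < s ^ j := Nat.pow_pos hs
    constructor
    · intro h
      rw [e] at h
      obtain ⟨h1, h2⟩ := Nat.add_eq_zero_iff.1 h
      have h3 : dgt s p j = 0 := by
        rcases Nat.mul_eq_zero.1 h2 with h4 | h4
        · omega
        · exact h4
      intro i hi
      rcases Nat.lt_succ_iff_lt_or_eq.1 hi with hi | rfl
      · exact (ih.1 h1) i hi
      · exact h3
    · intro h
      rw [e, ih.2 (fun i hi => h i (by omega)), h j (by omega)]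
      simp

theorem div_succ_carry (hs : 0 < s) (p j : ℕ) :
    (p + 1) / s ^ j = p / s ^ j + (if p % s ^ j = s ^ j - 1 then 1 else 0) := by
  have hB : 0 < s ^ j := Nat.pow_pos hs
  set B := s ^ j with hBd
  have e := Nat.div_add_mod p B
  have h1 : p % B < B := Nat.mod_lt _ hB
  split_ifs with h
  · have : p + 1 = B * (p / B + 1) := by
      rw [Nat.mul_add, Nat.mul_one]
      omega
    rw [this, Nat.mul_div_cancel_left _ hB]
  · have : p + 1 = (p % B + 1) + B * (p / B) := by omega
    rw [this, Nat.add_mul_div_left _ _ hB, Nat.div_eq_of_lt (by omega)]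
    omega

/-- The digits of the successor. -/
theorem dgt_succ (hs : 0 < s) (p j : ℕ) :
    dgt s (p + 1) j = if (∀ i, i < j → dgt s p i = s - 1) then (dgt s p j + 1) % s else dgt s p j := by
  unfold dgt
  rw [div_succ_carry hs]
  by_cases h : ∀ i, i < j → p / s ^ i % s = s - 1
  · have h2 : p % s ^ j = s ^ j - 1 := (all_max_iff hs p j).2 h
    rw [if_pos h2, if_pos h, Nat.add_mod]
    simp
  · have h2 : ¬ p % s ^ j = s ^ j - 1 := fun e => h ((all_max_iff hs p j).1 e)
    rw [if_neg h2, if_neg h, add_zero]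

/-- Carry and zeros. -/
theorem carry_iff (hs : 0 < s) (p j : ℕ) :
    (∀ i, i < j → dgt s p i = s - 1) ↔ ∀ i, i < j → dgt s (p + 1) i = 0 := by
  rw [← all_max_iff hs, ← all_zero_iff hs]
  have hB : 0 < s ^ j := Nat.pow_pos hs
  constructor
  · intro h
    have h1 := Nat.div_add_mod p (s ^ j)
    rw [h] at h1
    have : p + 1 = s ^ j * (p / s ^ j + 1) := by
      rw [Nat.mul_add, Nat.mul_one]
      omega
    rw [this]
    simp
  · intro h
    have h1 := Nat.div_add_mod (p + 1) (s ^ j)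
    rw [h] at h1
    have h2 : p % s ^ j < s ^ j := Nat.mod_lt _ hB
    have h3 : s ^ j ∣ p + 1 := Nat.dvd_of_mod_eq_zero h
    obtain ⟨c, hc⟩ := h3
    cases c with
    | zero => simp at hc
    | succ c =>
      have : p = (s ^ j - 1) + s ^ j * c := by
        rw [Nat.mul_add, Nat.mul_one] at hc
        omega
      rw [this, Nat.add_mul_mod_self_left, Nat.mod_eq_of_lt (by omega)]

/-- The digits of the predecessor. -/
theorem dgt_pred (hs : 0 < s) {t : ℕ} (ht : 0 < t) (j : ℕ) :
    dgt s (t - 1) j = if (∀ i, i < j → dgt s t i = 0) then (dgt s t j + (s - 1)) % s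
      else dgt s t j := by
  obtain ⟨p, rfl⟩ : ∃ p, t = p + 1 := ⟨t - 1, by omega⟩
  simp only [Nat.add_sub_cancel]
  have hc := carry_iff hs p j
  rw [dgt_succ hs]
  by_cases h : ∀ i, i < j → dgt s p i = s - 1
  · rw [if_pos h, if_pos (hc.1 h)]
    have h1 := dgt_lt hs p j
    obtain ⟨r, rfl⟩ : ∃ r, s = r + 1 := ⟨s - 1, by omega⟩
    simp only [Nat.add_sub_cancel]
    by_cases h2 : dgt (r + 1) p j + 1 < r + 1
    · rw [Nat.mod_eq_of_lt h2, show dgt (r + 1) p j + 1 + r = dgt (r + 1) p j + (r + 1) by omega,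
        Nat.add_mod_right, Nat.mod_eq_of_lt h1]
    · have h3 : dgt (r + 1) p j = r := by omega
      rw [h3, Nat.mod_self, zero_add, Nat.mod_eq_of_lt (by omega)]
  · rw [if_neg h, if_neg (fun x => h (hc.2 x))]

theorem dgt_add_high (hs : 0 < s) (r x j : ℕ) : dgt s (r + s ^ j * (s * x)) j = dgt s r j := by
  unfold dgt
  rw [Nat.add_mul_div_left _ _ (Nat.pow_pos hs), Nat.add_mul_mod_self_left]

theorem dgt_mod_pow (hs : 0 < s) {m j : ℕ} (hj : j < m) (p : ℕ) : dgt s (p % s ^ m) j = dgt s p j := by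
  obtain ⟨d, rfl⟩ : ∃ d, m = j + d + 1 := ⟨m - j - 1, by omega⟩
  have e : s ^ (j + d + 1) = s ^ j * (s * s ^ d) := by ring
  conv_rhs => rw [← Nat.mod_add_div p (s ^ (j + d + 1))]
  rw [e, Nat.mul_assoc (s ^ j), Nat.mul_assoc s, dgt_add_high hs]

/-- Numbers below a power are determined by their digits. -/
theorem eq_of_dgt (hs : 0 < s) {p q m : ℕ} (hp : p < s ^ m) (hq : q < s ^ m)
    (h : ∀ j, j < m → dgt s p j = dgt s q j) : p = q := by
  induction m generalizing p q with
  | zero =>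
    simp at hp hq
    omega
  | succ m ih =>
    have hB : 0 < s ^ m := Nat.pow_pos hs
    have e1 := mod_succ_eq (s := s) p m
    have e2 := mod_succ_eq (s := s) q m
    rw [Nat.mod_eq_of_lt hp] at e1
    rw [Nat.mod_eq_of_lt hq] at e2
    have h1 : p % s ^ m = q % s ^ m := by
      apply ih (Nat.mod_lt _ hB) (Nat.mod_lt _ hB)
      intro j hj
      rw [dgt_mod_pow hs hj, dgt_mod_pow hs hj]
      exact h j (by omega)
    rw [e1, e2, h1, h m (by omega)]

/-- Numbers with prescribed digits exist. -/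
theorem exists_dgt (hs : 0 < s) (f : ℕ → ℕ) (hf : ∀ j, f j < s) (m : ℕ) :
    ∃ p, p < s ^ m ∧ ∀ j, j < m → dgt s p j = f j := by
  induction m with
  | zero => exact ⟨0, by simp, fun j hj => by omega⟩
  | succ m ih =>
    obtain ⟨p, hp, h⟩ := ih
    have hB : 0 < s ^ m := Nat.pow_pos hs
    refine ⟨p + s ^ m * f m, ?_, ?_⟩
    · have h1 := hf m
      have e2 : s ^ (m + 1) = s ^ m * s := pow_succ s m
      have : s ^ m * (f m + 1) ≤ s ^ m * s := Nat.mul_le_mul_left _ h1
      rw [Nat.mul_add, Nat.mul_one] at this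
      omega
    · intro j hj
      rcases Nat.lt_succ_iff_lt_or_eq.1 hj with hj | rfl
      · rw [← h j hj]
        obtain ⟨d, hd⟩ : ∃ d, m = j + d + 1 := ⟨m - j - 1, by omega⟩
        have e : s ^ m = s ^ j * (s * s ^ d) := by
          rw [hd]
          ring
        rw [e, Nat.mul_assoc (s ^ j), Nat.mul_assoc s, dgt_add_high hs]
      · unfold dgt
        rw [Nat.add_mul_div_left _ _ hB, Nat.div_eq_of_lt hp, zero_add, Nat.mod_eq_of_lt (hf _)]

theorem dgt_of_lt_pow (hs : 0 < s) {p j : ℕ} (h : p < s ^ j) : dgt s p j = 0 := by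
  unfold dgt
  rw [Nat.div_eq_of_lt h, Nat.zero_mod]

theorem dgt_of_pow_self (hs : 0 < s) {m j : ℕ} (hj : j < m) (_h0 : 0 < m) : dgt s (s ^ m) j = 0 := by
  obtain ⟨d, rfl⟩ : ∃ d, m = j + d + 1 := ⟨m - j - 1, by omega⟩
  unfold dgt
  have e : s ^ (j + d + 1) = s ^ j * (s * s ^ d) := by ring
  rw [e, Nat.mul_div_cancel_left _ (Nat.pow_pos hs), Nat.mul_mod_right]

end Vale.Agent.P310d
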