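import Vale.Agent.P310d.Stmt
import Vale.Agent.P310d.Digits

/-!
# Combinators of expressions, and their values
-/

namespace Vale.Agent.P310d

open Function

open scoped Classical

set_option linter.unusedSectionVars false

variable {F : Type} [AddCommGroup F] [Module (ZMod 2) F] {s : ℕ} (A : Alph F s)

/-- Applying the free table to a literal index. -/
noncomputable def eD (τ : ℕ) (e : Exp F) : Exp F := Exp.ap 3 (Exp.lit (A.num τ)) e

noncomputable def eNot (e : Exp F) : Exp F := eD A 7 e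

noncomputable def eEq (a c : Exp F) : Exp F := eNot A (Exp.add a c)

def eAnd (p q : Exp F) : Exp F := Exp.ap 1 p q

noncomputable def eOr (p q : Exp F) : Exp F := eNot A (eAnd (eNot A p) (eNot A q))

noncomputable def eIf (p x y : Exp F) : Exp F := Exp.add (Exp.ap 1 p x) (Exp.ap 1 (eNot A p) y)

def eLt (a c : Exp F) : Exp F := Exp.ap 2 a c

def eBit (a c : Exp F) : Exp F := Exp.ap 4 a c

/-- All registers from `base` on, `n` of them, hold the letter `v`. -/
noncomputable def eAllEq (base : ℕ) : ℕ → F → Exp F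
  | 0, _ => Exp.lit (A.num 1)
  | n + 1, v => eAnd (eEq A (Exp.reg (base + n)) (Exp.lit v)) (eAllEq base n v)

/-- The digit `j` of the predecessor, the digits starting at `base`. -/
noncomputable def eDec (base j : ℕ) : Exp F :=
  eIf A (eAllEq A base j 0) (eD A 9 (Exp.reg (base + j))) (Exp.reg (base + j))

/-- The digit `j` of the successor. -/
noncomputable def eInc (base j : ℕ) : Exp F :=
  eIf A (eAllEq A base j (A.num (s - 1))) (eD A 8 (Exp.reg (base + j))) (Exp.reg (base + j))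

/-- Assignments to digits, the highest first. -/
def digL (base : ℕ) : ℕ → (ℕ → Exp F) → List (ℕ × Exp F)
  | 0, _ => []
  | m + 1, e => (base + m, e m) :: digL base m e

namespace Alph

variable {A}

theorem num_one_ne (hs : 1 < s) : A.num 1 ≠ (0 : F) := by
  intro h
  rw [← A.num_zero] at h
  have := A.num_inj (by omega) (by omega) h
  omega

theorem bl_ne_zero (hs : 1 < s) {p : Prop} : A.bl p ≠ 0 ↔ p := by
  unfold bl
  by_cases h : p
  · simp [h, num_one_ne hs]
  · simp [h]

theorem bl_eq_zero (hs : 1 < s) {p : Prop} : A.bl p = 0 ↔ ¬ p := by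
  rw [← not_iff_not, not_not, ← ne_eq, bl_ne_zero hs]

end Alph

/-- The tables of the standard combinators. -/
structure Std (A : Alph F s) (D : F → F → F) : Prop where
  hs : 60 < s
  hz : ∀ a, D (A.num 7) a = A.bl (a = 0)
  hsucc : ∀ a, D (A.num 8) a = A.succL a
  hpred : ∀ a, D (A.num 9) a = A.predL a

section values

variable {A} {D : F → F → F} (H : Std A D)

include H

theorem tbl_one (a c : F) : tbl A D 1 a c = Alph.mask a c := by
  have hs := H.hs
  unfold tbl Alph.tabL
  rw [if_neg (ne_num (by omega) (by omega) (by omega)), if_pos rfl]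

theorem tbl_two (a c : F) : tbl A D 2 a c = A.ltL a c := by
  have hs := H.hs
  unfold tbl Alph.tabL
  rw [if_neg (ne_num (by omega) (by omega) (by omega)),
    if_neg (ne_num (by omega) (by omega) (by omega)), if_pos rfl]

theorem tbl_three (a c : F) : tbl A D 3 a c = D a c := by
  have hs := H.hs
  unfold tbl Alph.tabL
  rw [if_neg (ne_num (by omega) (by omega) (by omega)),
    if_neg (ne_num (by omega) (by omega) (by omega)),
    if_neg (ne_num (by omega) (by omega) (by omega)), if_pos rfl]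

theorem tbl_four (a c : F) : tbl A D 4 a c = A.bitL a c := by
  have hs := H.hs
  unfold tbl Alph.tabL
  rw [if_neg (ne_num (by omega) (by omega) (by omega)),
    if_neg (ne_num (by omega) (by omega) (by omega)),
    if_neg (ne_num (by omega) (by omega) (by omega)),
    if_neg (ne_num (by omega) (by omega) (by omega))]

variable (ρ : ℕ → F)

theorem eval_eD (τ : ℕ) (e : Exp F) :
    Exp.eval (tbl A D) (eD A τ e) ρ = D (A.num τ) (Exp.eval (tbl A D) e ρ) :=
  tbl_three H _ _

theorem tv_not (e : Exp F) :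
    Exp.eval (tbl A D) (eNot A e) ρ ≠ 0 ↔ Exp.eval (tbl A D) e ρ = 0 := by
  unfold eNot
  rw [eval_eD H, H.hz, Alph.bl_ne_zero (by have := H.hs; omega)]

theorem eq_iff_add_zero (a c : F) : a + c = 0 ↔ a = c := by
  constructor
  · intro h
    have h1 : a + c + c = 0 + c := by rw [h]
    rwa [add_assoc, F_add_self, add_zero, zero_add] at h1
  · rintro rfl
    exact F_add_self a

theorem tv_eq (a c : Exp F) :
    Exp.eval (tbl A D) (eEq A a c) ρ ≠ 0 ↔ Exp.eval (tbl A D) a ρ = Exp.eval (tbl A D) c ρ := by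
  unfold eEq
  rw [tv_not H]
  exact eq_iff_add_zero H _ _

theorem eval_and (p q : Exp F) :
    Exp.eval (tbl A D) (eAnd p q) ρ =
      if Exp.eval (tbl A D) p ρ ≠ 0 then Exp.eval (tbl A D) q ρ else 0 :=
  tbl_one H _ _

theorem tv_and (p q : Exp F) :
    Exp.eval (tbl A D) (eAnd p q) ρ ≠ 0 ↔
      Exp.eval (tbl A D) p ρ ≠ 0 ∧ Exp.eval (tbl A D) q ρ ≠ 0 := by
  rw [eval_and H]
  by_cases h : Exp.eval (tbl A D) p ρ ≠ 0
  · simp [h]
  · simp [h]

theorem tv_or (p q : Exp F) :
    Exp.eval (tbl A D) (eOr A p q) ρ ≠ 0 ↔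
      Exp.eval (tbl A D) p ρ ≠ 0 ∨ Exp.eval (tbl A D) q ρ ≠ 0 := by
  unfold eOr
  rw [tv_not H]
  have h := tv_and H ρ (eNot A p) (eNot A q)
  rw [tv_not H, tv_not H] at h
  by_cases h1 : Exp.eval (tbl A D) p ρ = 0 <;> by_cases h2 : Exp.eval (tbl A D) q ρ = 0
  · have h3 := h.2 ⟨h1, h2⟩
    simp [h1, h2, h3]
  · have h3 : Exp.eval (tbl A D) (eAnd (eNot A p) (eNot A q)) ρ = 0 := by
      by_contra h4
      exact h2 (h.1 h4).2
    simp [h2, h3]
  · have h3 : Exp.eval (tbl A D) (eAnd (eNot A p) (eNot A q)) ρ = 0 := by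
      by_contra h4
      exact h1 (h.1 h4).1
    simp [h1, h3]
  · have h3 : Exp.eval (tbl A D) (eAnd (eNot A p) (eNot A q)) ρ = 0 := by
      by_contra h4
      exact h1 (h.1 h4).1
    simp [h1, h3]

theorem eval_if (p x y : Exp F) :
    Exp.eval (tbl A D) (eIf A p x y) ρ =
      if Exp.eval (tbl A D) p ρ ≠ 0 then Exp.eval (tbl A D) x ρ else Exp.eval (tbl A D) y ρ := by
  show tbl A D 1 _ _ + tbl A D 1 _ _ = _
  rw [tbl_one H, tbl_one H]
  have h1 := tv_not H ρ p
  unfold Alph.mask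
  by_cases h : Exp.eval (tbl A D) p ρ = 0
  · have h2 := h1.2 h
    simp [h, h2]
  · have h2 : Exp.eval (tbl A D) (eNot A p) ρ = 0 := by
      by_contra h3
      exact h (h1.1 h3)
    simp [h, h2]

theorem tv_lt (a c : Exp F) :
    Exp.eval (tbl A D) (eLt a c) ρ ≠ 0 ↔
      (A.nm (Exp.eval (tbl A D) a ρ)).val < (A.nm (Exp.eval (tbl A D) c ρ)).val := by
  show tbl A D 2 _ _ ≠ 0 ↔ _
  rw [tbl_two H]
  exact Alph.bl_ne_zero (by have := H.hs; omega)

theorem tv_bit (a c : Exp F) :
    Exp.eval (tbl A D) (eBit a c) ρ ≠ 0 ↔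
      (A.nm (Exp.eval (tbl A D) a ρ)).val.testBit (A.nm (Exp.eval (tbl A D) c ρ)).val = true := by
  show tbl A D 4 _ _ ≠ 0 ↔ _
  rw [tbl_four H]
  exact Alph.bl_ne_zero (by have := H.hs; omega)

theorem tv_allEq (base n : ℕ) (v : F) :
    Exp.eval (tbl A D) (eAllEq A base n v) ρ ≠ 0 ↔ ∀ i, i < n → ρ (base + i) = v := by
  induction n with
  | zero =>
    simp only [eAllEq, Exp.eval]
    simp [Alph.num_one_ne (by have := H.hs; omega : 1 < s)]
  | succ n ih =>
    simp only [eAllEq]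
    rw [tv_and H, tv_eq H, ih]
    simp only [Exp.eval]
    constructor
    · rintro ⟨h1, h2⟩ i hi
      rcases Nat.lt_succ_iff_lt_or_eq.1 hi with hi | rfl
      · exact h2 i hi
      · exact h1
    · intro h
      exact ⟨h n (by omega), fun i hi => h i (by omega)⟩

theorem eval_dec (base j : ℕ) : Exp.eval (tbl A D) (eDec A base j) ρ =
    if (∀ i, i < j → ρ (base + i) = 0) then A.predL (ρ (base + j)) else ρ (base + j) := by
  unfold eDec
  rw [eval_if H, eval_eD H, H.hpred]
  simp only [Exp.eval]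
  by_cases h : ∀ i, i < j → ρ (base + i) = 0
  · rw [if_pos h, if_pos ((tv_allEq H ρ base j 0).2 h)]
  · rw [if_neg h, if_neg (fun h2 => h ((tv_allEq H ρ base j 0).1 h2))]

theorem eval_inc (base j : ℕ) : Exp.eval (tbl A D) (eInc A base j) ρ =
    if (∀ i, i < j → ρ (base + i) = A.num (s - 1)) then A.succL (ρ (base + j))
      else ρ (base + j) := by
  unfold eInc
  rw [eval_if H, eval_eD H, H.hsucc]
  simp only [Exp.eval]
  by_cases h : ∀ i, i < j → ρ (base + i) = A.num (s - 1)
  · rw [if_pos h, if_pos ((tv_allEq H ρ base j _).2 h)]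
  · rw [if_neg h, if_neg (fun h2 => h ((tv_allEq H ρ base j _).1 h2))]

end values

/-! ### Registers and temporary registers -/

section rb

variable {A}

@[simp] theorem rb_eD {b τ : ℕ} {e : Exp F} : Exp.Rb b (eD A τ e) ↔ Exp.Rb b e := by
  simp [eD, Exp.Rb]

@[simp] theorem rb_not {b : ℕ} {e : Exp F} : Exp.Rb b (eNot A e) ↔ Exp.Rb b e := by
  simp [eNot]

@[simp] theorem rb_eq {b : ℕ} {a c : Exp F} : Exp.Rb b (eEq A a c) ↔ Exp.Rb b a ∧ Exp.Rb b c := by
  simp [eEq, Exp.Rb]

@[simp] theorem rb_and {b : ℕ} {p q : Exp F} : Exp.Rb b (eAnd p q) ↔ Exp.Rb b p ∧ Exp.Rb b q := by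
  simp [eAnd, Exp.Rb]

@[simp] theorem rb_or {b : ℕ} {p q : Exp F} : Exp.Rb b (eOr A p q) ↔ Exp.Rb b p ∧ Exp.Rb b q := by
  simp [eOr]

@[simp] theorem rb_if {b : ℕ} {p x y : Exp F} :
    Exp.Rb b (eIf A p x y) ↔ Exp.Rb b p ∧ Exp.Rb b x ∧ Exp.Rb b y := by
  simp [eIf, Exp.Rb]
  tauto

@[simp] theorem rb_lt {b : ℕ} {p q : Exp F} : Exp.Rb b (eLt p q) ↔ Exp.Rb b p ∧ Exp.Rb b q := by
  simp [eLt, Exp.Rb]

@[simp] theorem rb_bit {b : ℕ} {p q : Exp F} : Exp.Rb b (eBit p q) ↔ Exp.Rb b p ∧ Exp.Rb b q := by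
  simp [eBit, Exp.Rb]

theorem rb_allEq {b base n : ℕ} {v : F} (h : base + n ≤ b) : Exp.Rb b (eAllEq A base n v) := by
  induction n with
  | zero => exact trivial
  | succ n ih =>
    simp only [eAllEq, rb_and, rb_eq]
    refine ⟨⟨?_, trivial⟩, ih (by omega)⟩
    show base + n < b
    omega

theorem rb_dec {b base j : ℕ} (h : base + j < b) : Exp.Rb b (eDec A base j) := by
  simp only [eDec, rb_if, rb_eD]
  exact ⟨rb_allEq (by omega), h, h⟩

theorem rb_inc {b base j : ℕ} (h : base + j < b) : Exp.Rb b (eInc A base j) := by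
  simp only [eInc, rb_if, rb_eD]
  exact ⟨rb_allEq (by omega), h, h⟩

theorem dp_eD (τ : ℕ) (e : Exp F) : Exp.dp (eD A τ e) = 2 + Exp.dp e := by
  simp [eD, Exp.dp]

theorem dp_not (e : Exp F) : Exp.dp (eNot A e) = 2 + Exp.dp e := dp_eD _ _

theorem dp_eq (a c : Exp F) : Exp.dp (eEq A a c) = 2 + max (Exp.dp a) (Exp.dp c) := by
  simp [eEq, dp_not, Exp.dp]

theorem dp_and (a c : Exp F) : Exp.dp (eAnd a c) = 2 + max (Exp.dp a) (Exp.dp c) := rfl

theorem dp_or (a c : Exp F) : Exp.dp (eOr A a c) = 6 + max (Exp.dp a) (Exp.dp c) := by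
  simp only [eOr, dp_not, dp_and]
  omega

theorem dp_if (p x y : Exp F) :
    Exp.dp (eIf A p x y) = max (2 + max (Exp.dp p) (Exp.dp x)) (2 + max (2 + Exp.dp p) (Exp.dp y)) := by
  simp only [eIf, Exp.dp, dp_not]

theorem dp_allEq (base n : ℕ) (v : F) : Exp.dp (eAllEq A base n v) ≤ 2 * n + 2 := by
  induction n with
  | zero => simp [eAllEq, Exp.dp]
  | succ n ih =>
    simp only [eAllEq, dp_and, dp_eq, Exp.dp]
    omega

theorem dp_dec (base j : ℕ) : Exp.dp (eDec A base j) ≤ 2 * j + 6 := by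
  simp only [eDec, dp_if, dp_eD, Exp.dp]
  have := dp_allEq (A := A) base j 0
  omega

theorem dp_inc (base j : ℕ) : Exp.dp (eInc A base j) ≤ 2 * j + 6 := by
  simp only [eInc, dp_if, dp_eD, Exp.dp]
  have := dp_allEq (A := A) base j (A.num (s - 1))
  omega

end rb

/-! ### Runs of digit assignments -/

section digits

variable {A} {l : List (Stmt F)} {b : ℕ} {aux : F → F → F}

theorem runL_cons {p : ℕ × Exp F} {q : List (ℕ × Exp F)} {ρ : ℕ → F} :
    runL A l b aux (p :: q) ρ = runL A l b aux q (update ρ p.1 (ev A l b aux p.2 ρ)) := rfl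

theorem runL_nil {ρ : ℕ → F} : runL A l b aux [] ρ = ρ := rfl

/-- The result of assignments to digits, each digit read only by itself and the digits above it. -/
theorem runL_digL {base M : ℕ} {e : ℕ → Exp F} {ρ0 : ℕ → F}
    (Hd : ∀ j, j < M → ∀ ρ1 : ℕ → F, (∀ x, x < base + j + 1 ∨ base + M ≤ x → ρ1 x = ρ0 x) →
      ev A l b aux (e j) ρ1 = ev A l b aux (e j) ρ0) :
    ∀ m, m ≤ M → ∀ ρ : ℕ → F, (∀ x, x < base + m ∨ base + M ≤ x → ρ x = ρ0 x) →
      runL A l b aux (digL base m e) ρ = fun x =>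
        if base ≤ x ∧ x < base + m then ev A l b aux (e (x - base)) ρ0 else ρ x := by
  intro m
  induction m with
  | zero =>
    intro _ ρ _
    funext x
    simp [digL, runL]
  | succ m ih =>
    intro hm ρ hρ
    simp only [digL]
    rw [runL_cons]
    have e1 := Hd m (by omega) ρ (fun x hx => hρ x (by omega))
    simp only
    rw [e1]
    rw [ih (by omega) _ (by
      intro x hx
      rw [update_of_ne (by omega)]
      exact hρ x (by omega))]
    funext x
    by_cases h1 : base ≤ x ∧ x < base + m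
    · rw [if_pos h1, if_pos ⟨h1.1, by omega⟩]
    · rw [if_neg h1]
      by_cases h2 : x = base + m
      · subst h2
        rw [update_self, if_pos ⟨by omega, by omega⟩]
        simp
      · rw [update_of_ne h2, if_neg (by omega)]

end digits

end Vale.Agent.P310d
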