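import Vale.Agent.P310d.Digits

/-!
# Numbers from digits
-/

namespace Vale.Agent.P310d

variable {s : ℕ}

/-- The number with the digits `f j`, `j < n`. -/
def numOf (s : ℕ) (f : ℕ → ℕ) : ℕ → ℕ
  | 0 => 0
  | n + 1 => numOf s f n + s ^ n * f n

theorem numOf_lt (f : ℕ → ℕ) {n : ℕ} (h : ∀ j, j < n → f j < s) : numOf s f n < s ^ n := by
  induction n with
  | zero => simp [numOf]
  | succ n ih =>
    have h1 := ih (fun j hj => h j (by omega))
    have h2 := h n (by omega)
    simp only [numOf]
    have h3 : s ^ n * f n + s ^ n ≤ s ^ n * s := by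
      calc s ^ n * f n + s ^ n = s ^ n * (f n + 1) := by ring
        _ ≤ s ^ n * s := Nat.mul_le_mul_left _ h2
    rw [pow_succ]
    omega

theorem numOf_congr {f g : ℕ → ℕ} {n : ℕ} (h : ∀ j, j < n → f j = g j) :
    numOf s f n = numOf s g n := by
  induction n with
  | zero => rfl
  | succ n ih =>
    simp only [numOf]
    rw [ih (fun j hj => h j (by omega)), h n (by omega)]

theorem numOf_dgt (p n : ℕ) : numOf s (dgt s p) n = p % s ^ n := by
  induction n with
  | zero => simp [numOf, Nat.mod_one]
  | succ n ih =>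
    simp only [numOf]
    rw [ih, mod_succ_eq]

theorem numOf_mod (f : ℕ → ℕ) {n m : ℕ} (hm : m ≤ n) (h : ∀ j, j < n → f j < s) :
    numOf s f n % s ^ m = numOf s f m := by
  induction n, hm using Nat.le_induction with
  | base => exact Nat.mod_eq_of_lt (numOf_lt f h)
  | succ n hmn ih =>
    simp only [numOf]
    obtain ⟨d, rfl⟩ : ∃ d, n = m + d := ⟨n - m, by omega⟩
    have e : s ^ (m + d) * f (m + d) = s ^ m * (s ^ d * f (m + d)) := by ring
    rw [e, Nat.add_mul_mod_self_left]
    exact ih (fun j hj => h j (by omega))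

theorem dgt_numOf (hs : 0 < s) (f : ℕ → ℕ) {n j : ℕ} (h : ∀ j, j < n → f j < s) (hj : j < n) :
    dgt s (numOf s f n) j = f j := by
  induction n with
  | zero => omega
  | succ n ih =>
    by_cases h1 : j = n
    · subst h1
      unfold dgt
      simp only [numOf]
      rw [Nat.add_mul_div_left _ _ (Nat.pow_pos hs),
        Nat.div_eq_of_lt (numOf_lt f (fun j hj => h j (by omega))), zero_add,
        Nat.mod_eq_of_lt (h j (by omega))]
    · have h2 : j < n := by omega
      have h3 := ih (fun j hj => h j (by omega)) h2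
      rw [← h3]
      have h4 := dgt_mod_pow hs (m := n) h2 (numOf s f (n + 1))
      rw [numOf_mod f (by omega) h] at h4
      exact h4.symm

theorem aux_le {a c x y B : ℕ} (h1 : a < B) (h2 : c < B) :
    a + B * x ≤ c + B * y ↔ x < y ∨ (x = y ∧ a ≤ c) := by
  constructor
  · intro h
    rcases lt_trichotomy x y with h3 | h3 | h3
    · exact Or.inl h3
    · subst h3
      refine Or.inr ⟨rfl, ?_⟩
      omega
    · exfalso
      have h4 : B * y + B ≤ B * x := by
        calc B * y + B = B * (y + 1) := by ring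
          _ ≤ B * x := Nat.mul_le_mul_left _ h3
      omega
  · rintro (h | ⟨h, h3⟩)
    · have h4 : B * x + B ≤ B * y := by
        calc B * x + B = B * (x + 1) := by ring
          _ ≤ B * y := Nat.mul_le_mul_left _ h
      omega
    · rw [h]
      omega

/-- The comparison by the highest digit. -/
theorem mod_le_succ_iff (hs : 0 < s) (p q j : ℕ) :
    p % s ^ (j + 1) ≤ q % s ^ (j + 1) ↔ dgt s p j < dgt s q j ∨
      (dgt s p j = dgt s q j ∧ p % s ^ j ≤ q % s ^ j) := by
  rw [mod_succ_eq, mod_succ_eq]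
  exact aux_le (Nat.mod_lt _ (Nat.pow_pos hs)) (Nat.mod_lt _ (Nat.pow_pos hs))

theorem numOf_add (f : ℕ → ℕ) (m n : ℕ) :
    numOf s f (m + n) = numOf s f m + s ^ m * numOf s (fun j => f (m + j)) n := by
  induction n with
  | zero => simp [numOf]
  | succ n ih =>
    rw [← Nat.add_assoc]
    simp only [numOf]
    rw [ih, pow_add]
    ring

theorem numOf_le_succ (hs : 0 < s) {f g : ℕ → ℕ} {n : ℕ} (hf : ∀ j, j < n → f j < s)
    (hg : ∀ j, j < n → g j < s) :
    numOf s f (n + 1) ≤ numOf s g (n + 1) ↔ f n < g n ∨ (f n = g n ∧ numOf s f n ≤ numOf s g n) := by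
  simp only [numOf]
  exact aux_le (numOf_lt f hf) (numOf_lt g hg)

/-- The pendant numbers of an equation. -/
theorem pend_iff {p lo hi W κ : ℕ} (hp : p = lo + W * hi) (hlo : lo < W) :
    p < W * (κ + 1) ↔ hi ≤ κ := by
  subst hp
  constructor
  · intro h
    by_contra h1
    have h2 : W * (κ + 1) ≤ W * hi := Nat.mul_le_mul_left _ (by omega)
    omega
  · intro h
    have h2 : W * hi + W ≤ W * (κ + 1) := by
      calc W * hi + W = W * (hi + 1) := by ring
        _ ≤ W * (κ + 1) := Nat.mul_le_mul_left _ (by omega)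
    omega

end Vale.Agent.P310d
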