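import Vale.Agent.P310d.Gates
import Vale.Agent.P310d.NumOf
import Vale.Agent.P310y.Horn

/-!
# The program of a table, and the letters of gadgets and hubs
-/

namespace Vale.Agent.P310d

open Function Vale.Agent.P310y

open scoped Classical

set_option linter.unusedSectionVars false

variable {F : Type} [AddCommGroup F] [Module (ZMod 2) F] {s K xe : ℕ} (A : Alph F s)

/-- The raw data of an equation. -/
abbrev Raw (F : Type) (s K xe : ℕ) : Type :=
  (Pos K xe × Gad s (NN s) K xe × F) ⊕ Gad s (NN s) K xe

/-- The program given by a table. -/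
noncomputable def prog (D : F → F → F) (K xe : ℕ) (ac : F) (cd : Raw F s K xe → ℕ)
    (cd_inj : Injective cd) (gap : ℕ) : Prog K xe s (NN s) F where
  par r := A.nm (A.rpc r)
  ch1 r := A.nm (A.chL D (A.rpc r) (A.ra r) (A.rc r) false)
  ch2 r := A.nm (A.chL D (A.rpc r) (A.ra r) (A.rc r) true)
  guard r i β := A.guardL D (A.rpc r) (A.ra r) (A.rc r) (A.num i.val) β
  δ1 r i := A.deltaL D (A.rpc r) (A.ra r) (A.rc r) (A.num i.val)
  δ2 r i := A.deltaL D (A.rpc r) (A.ra r) (A.rc r) (A.num i.val)
  acc := A.nm ac
  cB := 0
  s0 := A.nm 0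
  c0 := 0
  cd := cd
  cd_inj := cd_inj
  gap := gap

/-- The letter of a state. -/
def stL (t : Fin s) : F := A.nm.symm t

/-- The kind of a family of gadgets. -/
def lamK : Lam s (NN s) K xe → ℕ
  | .orR _ => 0
  | .andR _ => 1
  | .cz _ => 2
  | .cs _ _ => 3
  | .us _ _ => 4
  | .bas => 5
  | .del _ => 6
  | .las => 7

/-- The letter of a family of gadgets. -/
noncomputable def lamT : Lam s (NN s) K xe → F
  | .orR _ => 0
  | .andR _ => 0
  | .cz t => stL A t
  | .cs t _ => stL A t
  | .us _ _ => 0
  | .bas => 0
  | .del j => A.num j.val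
  | .las => 0

/-- The number of the copy of a family of gadgets. -/
def lamC : Lam s (NN s) K xe → ℕ
  | .orR r => 2 * r.val
  | .andR r => 2 * r.val
  | .cz _ => 0
  | .cs _ i => i.val
  | .us r σ => 2 * r.val + (if σ then 1 else 0)
  | .bas => 0
  | .del _ => 0
  | .las => 0

/-- The kind of a gadget. -/
def gadK : Gad s (NN s) K xe → ℕ
  | .tri l _ => lamK l
  | .mono _ => 8
  | .tw => 9

/-- The type of a gadget. -/
def gadTau : Gad s (NN s) K xe → Fin 3
  | .tri _ τ => τ
  | .mono τ => τ
  | .tw => 0

/-- The letter of a gadget. -/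
noncomputable def gadT : Gad s (NN s) K xe → F
  | .tri l _ => lamT A l
  | .mono _ => 0
  | .tw => 0

/-- The number of the copy of a gadget. -/
def gadC : Gad s (NN s) K xe → ℕ
  | .tri l _ => lamC l
  | .mono _ => 0
  | .tw => 0

/-- The letters of an equation. -/
noncomputable def mkF (h gk τ i σ : ℕ) (β t : F) (ch : ℕ) : ℕ → F
  | 0 => A.num h
  | 1 => A.num gk
  | 2 => A.num τ
  | 3 => A.num i
  | 4 => A.num σ
  | 5 => β
  | 6 => t
  | j + 7 => chD A ch j

/-- The letters of the raw data of an equation. -/
noncomputable def rawF : Raw F s K xe → ℕ → F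
  | Sum.inl (p, b, β) => mkF A 0 (gadK b) (gadTau b).val p.1.val p.idx.val β (gadT A b)
      (gadC b)
  | Sum.inr b => mkF A 1 (gadK b) (gadTau b).val 0 0 0 (gadT A b) (gadC b)

/-- The number of the copy of a gadget is in its range. -/
theorem gadC_lt (b : Gad s (NN s) K xe) : gadC b < 2 * NN s + 3 := by
  rcases b with ⟨l, τ⟩ | τ | _
  · cases l with
    | orR r => have := r.isLt; simp only [gadC, lamC]; omega
    | andR r => have := r.isLt; simp only [gadC, lamC]; omega
    | cz t => simp only [gadC, lamC]; omega
    | cs t i => have := i.isLt; simp only [gadC, lamC]; omega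
    | us r σ =>
      have := r.isLt
      simp only [gadC, lamC]
      split_ifs <;> omega
    | bas => simp only [gadC, lamC]; omega
    | del j => simp only [gadC, lamC]; omega
    | las => simp only [gadC, lamC]; omega
  · simp only [gadC]; omega
  · simp only [gadC]; omega

theorem stL_inj {t t' : Fin s} (h : stL A t = stL A t') : t = t' := A.nm.symm.injective h

/-- The letters determine a gadget. -/
theorem gad_inj (h6 : 6 * K + 3 * xe + 12 ≤ s) {b b' : Gad s (NN s) K xe} (h1 : gadK b = gadK b')
    (h2 : gadTau b = gadTau b') (h3 : gadT A b = gadT A b') (h4 : gadC b = gadC b') : b = b' := by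
  rcases b with ⟨l, τ⟩ | τ | _ <;> rcases b' with ⟨l', τ'⟩ | τ' | _
  · simp only [gadTau] at h2
    subst h2
    simp only [gadK] at h1
    simp only [gadT] at h3
    simp only [gadC] at h4
    congr 1
    cases l <;> cases l' <;> simp only [lamK] at h1 <;> try omega
    all_goals simp only [lamT, lamC] at h3 h4
    · congr 1
      exact Fin.ext (by omega)
    · congr 1
      exact Fin.ext (by omega)
    · rw [stL_inj A h3]
    · rw [stL_inj A h3]
      congr 1
      exact Fin.ext h4
    · rename_i r σ r' σ'
      have e : r = r' := Fin.ext (by split_ifs at h4 <;> omega)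
      have e2 : σ = σ' := by
        subst e
        cases σ <;> cases σ' <;> simp at h4 <;> rfl
      rw [e, e2]
    · rfl
    · rename_i j j'
      have := A.num_inj (by have := j.isLt; omega) (by have := j'.isLt; omega) h3
      rw [Fin.ext this]
    · rfl
  · simp only [gadK] at h1
    cases l <;> simp only [lamK] at h1 <;> omega
  · simp only [gadK] at h1
    cases l <;> simp only [lamK] at h1 <;> omega
  · simp only [gadK] at h1
    cases l' <;> simp only [lamK] at h1 <;> omega
  · simp only [gadTau] at h2
    rw [h2]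
  · simp only [gadK] at h1
    omega
  · simp only [gadK] at h1
    cases l' <;> simp only [lamK] at h1 <;> omega
  · simp only [gadK] at h1
    omega
  · rfl

theorem mk_lt_gadK (b : Gad s (NN s) K xe) : gadK b < 10 := by
  rcases b with ⟨l, τ⟩ | τ | _
  · cases l <;> simp [gadK, lamK]
  · simp [gadK]
  · simp [gadK]

/-- The letters determine the raw data. -/
theorem raw_inj (hs : 4 < s) (hK : K ≤ s) (h6 : 6 * K + 3 * xe + 12 ≤ s) {r r' : Raw F s K xe}
    (h : ∀ j, j < 12 → rawF A r j = rawF A r' j) : r = r' := by
  have e10 : A.num 0 ≠ (A.num 1 : F) := fun e => by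
    have := A.num_inj (by omega) (by omega) e
    omega
  have hgad : ∀ (b b' : Gad s (NN s) K xe) (h0 h0' i i' σ σ' : ℕ) (β β' : F),
      (∀ j, j < 12 → mkF A h0 (gadK b) (gadTau b).val i σ β (gadT A b) (gadC b) j =
        mkF A h0' (gadK b') (gadTau b').val i' σ' β' (gadT A b') (gadC b') j) → b = b' := by
    intro b b' h0 h0' i i' σ σ' β β' hh
    apply gad_inj A h6
    · have := hh 1 (by omega)
      simp only [mkF] at this
      have h1 := mk_lt_gadK b
      have h2 := mk_lt_gadK b'
      exact A.num_inj (by omega) (by omega) this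
    · have := hh 2 (by omega)
      simp only [mkF] at this
      exact Fin.ext (A.num_inj (by have := (gadTau b).isLt; omega)
        (by have := (gadTau b').isLt; omega) this)
    · have := hh 6 (by omega)
      simpa only [mkF] using this
    · apply chD_inj (A := A) (by omega) (gadC_lt b) (gadC_lt b')
      intro f hf
      have := hh (f + 7) (by omega)
      simpa only [mkF] using this
  rcases r with ⟨p, b, β⟩ | b <;> rcases r' with ⟨p', b', β'⟩ | b'
  · have e := hgad _ _ _ _ _ _ _ _ _ _ h
    subst e
    have h3 := h 3 (by omega)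
    have h4 := h 4 (by omega)
    have h5 := h 5 (by omega)
    simp only [rawF, mkF] at h3 h4 h5
    have e3 : p.dig = p'.dig := Fin.ext (A.num_inj (by have := p.dig.isLt; omega)
      (by have := p'.dig.isLt; omega) h3)
    have e4 : p.idx = p'.idx := Fin.ext (A.num_inj (by have := p.idx.isLt; omega)
      (by have := p'.idx.isLt; omega) h4)
    have e5 : p = p' := Pos.ext' e3 e4
    subst e5 h5
    rfl
  · have := h 0 (by omega)
    simp only [rawF, mkF] at this
    exact (e10 this).elim
  · have := h 0 (by omega)
    simp only [rawF, mkF] at this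
    exact (e10 this.symm).elim
  · have e := hgad _ _ _ _ _ _ _ _ _ _ h
    rw [e]

/-- The number of the raw data of an equation. -/
noncomputable def cdOf (r : Raw F s K xe) : ℕ := numOf s (fun j => nmv A (rawF A r j)) 12

theorem cdOf_inj (hs : 4 < s) (hK : K ≤ s) (h6 : 6 * K + 3 * xe + 12 ≤ s) :
    Injective (cdOf A (K := K) (xe := xe)) := by
  intro r r' h
  apply raw_inj A hs hK h6
  intro j hj
  have hlt : ∀ (r : Raw F s K xe) j, nmv A (rawF A r j) < s := fun _ _ => (A.nm _).isLt
  have h1 := dgt_numOf (s := s) (by omega) (fun j => nmv A (rawF A r j)) (n := 12)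
    (fun j _ => hlt r j) hj
  have h2 := dgt_numOf (s := s) (by omega) (fun j => nmv A (rawF A r' j)) (n := 12)
    (fun j _ => hlt r' j) hj
  unfold cdOf at h
  rw [h, h2] at h1
  exact A.nm.injective (Fin.ext h1.symm)

theorem cdOf_lt (r : Raw F s K xe) : cdOf A r < s ^ 12 :=
  numOf_lt _ (fun _ _ => (A.nm _).isLt)

end Vale.Agent.P310d
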