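import Vale.Agent.P310d.TMDefs

/-!
# Length and entries of the input word of a pair of graphs
-/

namespace Vale.Agent.P310d

open Function Vale.Agent.P310h2

open scoped Classical

/-- The entries of a concatenation of lists of equal length. -/
theorem getElem?_flatMap_const {α β : Type} (L : List α) (f : α → List β) (n : ℕ)
    (hf : ∀ a, (f a).length = n) (i j : ℕ) (hj : j < n) :
    (L.flatMap f)[i * n + j]? = (L[i]?).bind (fun a => (f a)[j]?) := by
  induction L generalizing i with
  | nil => simp
  | cons a L ih =>
    rw [List.flatMap_cons]
    cases i with
    | zero =>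
      have h1 : j < (f a).length := by rw [hf]; exact hj
      simp only [Nat.zero_mul, Nat.zero_add, List.getElem?_cons_zero, Option.bind_some]
      rw [List.getElem?_append_left h1]
    | succ i =>
      have h2 : (f a).length ≤ (i + 1) * n + j := by
        rw [hf, Nat.succ_mul]
        omega
      rw [List.getElem?_append_right h2, hf]
      have e : (i + 1) * n + j - n = i * n + j := by
        rw [Nat.succ_mul]
        omega
      rw [e, ih i]
      simp

theorem adjBits_length {n : ℕ} (G : SimpleGraph (Fin n)) : (adjBits G).length = n * n := by
  simp [adjBits, List.length_flatMap]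

theorem encPair_length {n : ℕ} (G H : SimpleGraph (Fin n)) :
    (encPair G H).length = 2 * n * n := by
  simp only [encPair, List.length_append, adjBits_length]
  ring

theorem adjBits_getElem? {n : ℕ} (G : SimpleGraph (Fin n)) (u v : Fin n) :
    (adjBits G)[u.val * n + v.val]? = some (decide (G.Adj u v)) := by
  unfold adjBits
  rw [getElem?_flatMap_const (List.finRange n) _ n (by simp) u.val v.val v.isLt]
  simp

theorem encPair_getElem?_left {n : ℕ} (G H : SimpleGraph (Fin n)) (u v : Fin n) :
    (encPair G H)[u.val * n + v.val]? = some (decide (G.Adj u v)) := by
  have hlt : u.val * n + v.val < (adjBits G).length := by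
    rw [adjBits_length]
    have h1 : u.val + 1 ≤ n := u.isLt
    have h2 := v.isLt
    nlinarith
  unfold encPair
  rw [List.getElem?_append_left hlt, adjBits_getElem?]

theorem encPair_getElem?_right {n : ℕ} (G H : SimpleGraph (Fin n)) (u v : Fin n) :
    (encPair G H)[n * n + u.val * n + v.val]? = some (decide (H.Adj u v)) := by
  unfold encPair
  have hle : (adjBits G).length ≤ n * n + u.val * n + v.val := by
    rw [adjBits_length]
    omega
  rw [List.getElem?_append_right hle, adjBits_length]
  have e : n * n + u.val * n + v.val - n * n = u.val * n + v.val := by omega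
  rw [e, adjBits_getElem?]

end Vale.Agent.P310d
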