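import Vale.Agent.P310y.Defs

/-!
# The graphs of a linear system have no isolated vertices
-/

namespace Vale.Agent.P310d

open Function Vale.Agent.P310y

open scoped Classical

/-- Every vertex of the graph of a linear system has a neighbour: a pendant vertex is adjacent to its
solution, and a solution has a pendant vertex. -/
theorem xs_graph_no_isolated {V I : Type} [Fintype I] (S : XS V I) (b : Bool) (v : S.Vtx b) :
    ∃ w, (S.graph b).Adj v w := by
  obtain ⟨⟨x, i⟩, hi⟩ := v
  by_cases h0 : i = 0
  · subst h0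
    have hw : 1 ≤ S.weight x.item := by
      unfold XS.weight
      have h1 : 1 ≤ max (S.bnd + 2) S.gap := le_trans (by omega) (le_max_left _ _)
      exact Nat.mul_pos h1 (by omega)
    refine ⟨⟨(x, 1), hw⟩, ?_⟩
    exact Or.inr ⟨rfl, Or.inl ⟨rfl, by simp⟩⟩
  · refine ⟨⟨(x, 0), Nat.zero_le _⟩, ?_⟩
    exact Or.inr ⟨rfl, Or.inr ⟨h0, rfl⟩⟩

end Vale.Agent.P310d
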