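import Vale.Agent.P310d.Hub

/-!
# Acceptance of the program of a table, and the bound for the number of solutions
-/

namespace Vale.Agent.P310d

open Function Vale.Agent.P310y

open scoped Classical

set_option linter.unusedSectionVars false

variable {F : Type} [AddCommGroup F] [Module (ZMod 2) F] {s K xe : ℕ} (A : Alph F s)
  (D : F → F → F) (ac : F) (cdi : Injective (cdOf A (K := K) (xe := xe))) (gap : ℕ)

theorem prog_acc_mp {q : Fin s} {c : Fin K → F} (h : (PP A D ac cdi gap).Acc q c) :
    AccA A D ac (A.nm.symm q) c := by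
  induction h with
  | base =>
    have e : A.nm.symm (PP A D ac cdi gap).acc = ac := A.nm.symm_apply_apply ac
    rw [e]
    exact AccA.base
  | step r c hg _ _ ih1 ih2 =>
    have e : A.nm.symm ((PP A D ac cdi gap).par r) = A.rpc r := A.nm.symm_apply_apply _
    rw [e]
    have e1 : A.nm.symm ((PP A D ac cdi gap).ch1 r) = A.chL D (A.rpc r) (A.ra r) (A.rc r) false :=
      A.nm.symm_apply_apply _
    have e2 : A.nm.symm ((PP A D ac cdi gap).ch2 r) = A.chL D (A.rpc r) (A.ra r) (A.rc r) true :=
      A.nm.symm_apply_apply _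
    rw [e1] at ih1
    rw [e2] at ih2
    exact AccA.step (A.rpc r) (A.ra r) (A.rc r) c hg ih1 ih2

theorem prog_acc_mpr {pc : F} {c : Fin K → F} (h : AccA A D ac pc c) :
    (PP A D ac cdi gap).Acc (A.nm pc) c := by
  induction h with
  | base => exact Prog.Acc.base
  | step pc a b c hg _ _ ih1 ih2 =>
    have h := Prog.Acc.step (P := PP A D ac cdi gap) (A.mkr pc a b) c
      (by
        intro i
        show A.guardL D (A.rpc (A.mkr pc a b)) (A.ra (A.mkr pc a b)) (A.rc (A.mkr pc a b)) _ _
        rw [A.rpc_mkr, A.ra_mkr, A.rc_mkr]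
        exact hg i)
      (by
        show (PP A D ac cdi gap).Acc
          (A.nm (A.chL D (A.rpc (A.mkr pc a b)) (A.ra (A.mkr pc a b)) (A.rc (A.mkr pc a b)) false))
          (fun i => c i + A.deltaL D (A.rpc (A.mkr pc a b)) (A.ra (A.mkr pc a b))
            (A.rc (A.mkr pc a b)) (A.num i.val))
        rw [A.rpc_mkr, A.ra_mkr, A.rc_mkr]
        exact ih1)
      (by
        show (PP A D ac cdi gap).Acc
          (A.nm (A.chL D (A.rpc (A.mkr pc a b)) (A.ra (A.mkr pc a b)) (A.rc (A.mkr pc a b)) true))
          (fun i => c i + A.deltaL D (A.rpc (A.mkr pc a b)) (A.ra (A.mkr pc a b))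
            (A.rc (A.mkr pc a b)) (A.num i.val))
        rw [A.rpc_mkr, A.ra_mkr, A.rc_mkr]
        exact ih2)
    have e : (PP A D ac cdi gap).par (A.mkr pc a b) = A.nm pc := by
      show A.nm (A.rpc (A.mkr pc a b)) = A.nm pc
      rw [A.rpc_mkr]
    rwa [e] at h

/-- The program of a table accepts exactly as the rules of the table do. -/
theorem prog_acc {pc : F} {c : Fin K → F} :
    (PP A D ac cdi gap).Acc (A.nm pc) c ↔ AccL A D (A.num 0) ac pc c := by
  constructor
  · intro h
    have := prog_acc_mp A D ac cdi gap h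
    rwa [A.nm.symm_apply_apply] at this
  · exact prog_acc_mpr A D ac cdi gap

variable [Fintype F]

theorem card_image_le' {α β : Type} (inst : DecidableEq β) (t : Finset α) (f : α → β) :
    (@Finset.image α β inst f t).card ≤ t.card := @Finset.card_image_le α β t f inst

theorem card_insert_le' {α : Type} (inst : DecidableEq α) (a : α) (t : Finset α) :
    (@Insert.insert α (Finset α) (@Finset.instInsert α inst) a t).card ≤ t.card + 1 :=
  @Finset.card_insert_le α inst a t

theorem card_vars_le (P : Prog K xe s (NN s) F) (c : GItem P.gs) :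
    (P.gs.xs.vars c).card ≤ 2 * K + xe + 4 := by
  show (P.gs.gvars c).card ≤ 2 * K + xe + 4
  cases c with
  | e p b β hh =>
    have h1 : (P.gs.hubs b).card ≤ 3 := by
      rcases b with ⟨l, τ⟩ | τ | _
      · refine le_trans (card_image_le' _ _ _) ?_
        simp
      · show (({(τ, Tag.base)} : Finset _)).card ≤ 3
        simp
      · show (({(0, Tag.dly _)} : Finset _)).card ≤ 3
        simp
    unfold GS.gvars
    refine le_trans (card_insert_le' _ _ _) ?_
    refine le_trans (Nat.add_le_add_right (card_image_le' _ _ _) 1) ?_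
    omega
  | h b =>
    unfold GS.gvars
    refine le_trans (card_image_le' _ _ _) ?_
    have hc : Fintype.card (Pos K xe) ≤ 2 * K + xe := by
      rcases Nat.eq_zero_or_pos K with rfl | h
      · have : IsEmpty (Pos 0 xe) := ⟨fun p => p.dig.elim0⟩
        simp
      · exact le_of_eq (Pos.card_eq h)
    simp only [Finset.card_univ]
    omega

theorem code_lt (c : GItem (PP A D ac cdi gap).gs) :
    (PP A D ac cdi gap).gs.xs.code c < s ^ 12 := cdOf_lt A _

theorem rawI_inj' (P : Prog K xe s (NN s) F) {c c' : GItem P.gs} (h : P.gs.rawI c = P.gs.rawI c') :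
    c = c' := by
  cases c <;> cases c' <;> simp_all [GS.rawI]

theorem card_items_le : Fintype.card (GItem (PP A D ac cdi gap).gs) ≤ s ^ 12 := by
  have hinj : Injective (fun c : GItem (PP A D ac cdi gap).gs =>
      (⟨(PP A D ac cdi gap).gs.xs.code c, code_lt A D ac cdi gap c⟩ : Fin (s ^ 12))) := by
    intro c c' h
    have h1 : (PP A D ac cdi gap).gs.xs.code c = (PP A D ac cdi gap).gs.xs.code c' :=
      congrArg Fin.val h
    exact rawI_inj' _ (cdi h1)
  simpa using Fintype.card_le_of_injective _ hinj

/-- The bound for the number of solutions. -/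
theorem bnd_le (h : 2 ^ (2 * K + xe + 4) ≤ s) (hs2 : 2 ≤ s) :
    (PP A D ac cdi (s ^ 15)).gs.xs.bnd + 2 ≤ s ^ 15 := by
  have h1 : (PP A D ac cdi (s ^ 15)).gs.xs.bnd ≤ s ^ 12 * s := by
    unfold XS.bnd
    calc ∑ c, 2 ^ ((PP A D ac cdi (s ^ 15)).gs.xs.vars c).card
        ≤ ∑ _c : GItem (PP A D ac cdi (s ^ 15)).gs, s := by
          apply Finset.sum_le_sum
          intro c _
          exact le_trans (Nat.pow_le_pow_right (by omega) (card_vars_le _ c)) h
      _ = Fintype.card (GItem (PP A D ac cdi (s ^ 15)).gs) * s := by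
          simp [Finset.card_univ]
      _ ≤ s ^ 12 * s := Nat.mul_le_mul_right _ (card_items_le A D ac cdi _)
  have h2 : s ^ 15 = s ^ 12 * s * (s * s) := by ring
  have h3 : 1 ≤ s ^ 12 * s := Nat.one_le_iff_ne_zero.2 (by positivity)
  have h4 : 4 ≤ s * s := by nlinarith
  have h5 : s ^ 12 * s * 4 ≤ s ^ 12 * s * (s * s) := Nat.mul_le_mul_left _ h4
  omega

end Vale.Agent.P310d
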