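import Vale.Agent.P310d.Circ3

/-!
# Uniform size bounds for the adjacency circuit

The registers used, the stack depth `Exp.dp` and the code length `Exp.len` of the circuit `adjE`,
with bounds that do not depend on the alphabet, on `K` or on the bases.
-/

namespace Vale.Agent.P310d.SZ

open Function Vale.Agent.P310y Vale.Agent.P310d

open scoped Classical

set_option linter.unusedSectionVars false

variable {F : Type} [AddCommGroup F] [Module (ZMod 2) F] {s : ℕ} (A : Alph F s)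

/-! ### The basic combinators -/

section basic

variable (τ n : ℕ) (e a c p q x y : Exp F)

theorem len_eD : Exp.len (eD A τ e) = Exp.len e + 4 := by simp only [eD, Exp.len]; omega
theorem dp_eD : Exp.dp (eD A τ e) = Exp.dp e + 2 := by simp only [eD, Exp.dp]; omega
theorem rb_eD {b : ℕ} : Exp.Rb b (eD A τ e) ↔ Exp.Rb b e := by simp [eD, Exp.Rb]

theorem len_eNot : Exp.len (eNot A e) = Exp.len e + 4 := len_eD A 7 e
theorem dp_eNot : Exp.dp (eNot A e) = Exp.dp e + 2 := dp_eD A 7 e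
theorem rb_eNot {b : ℕ} : Exp.Rb b (eNot A e) ↔ Exp.Rb b e := rb_eD A 7 e

theorem len_eEq : Exp.len (eEq A a c) = Exp.len a + Exp.len c + 4 := by
  simp only [eEq, len_eNot, Exp.len]
theorem dp_eEq : Exp.dp (eEq A a c) = max (Exp.dp a) (Exp.dp c) + 2 := by
  simp only [eEq, dp_eNot, Exp.dp]
theorem rb_eEq {b : ℕ} : Exp.Rb b (eEq A a c) ↔ Exp.Rb b a ∧ Exp.Rb b c := by
  simp only [eEq, rb_eNot, Exp.Rb]

theorem len_eAnd : Exp.len (eAnd p q) = Exp.len p + Exp.len q + 3 := rfl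
theorem dp_eAnd : Exp.dp (eAnd p q) = 2 + max (Exp.dp p) (Exp.dp q) := rfl
theorem rb_eAnd {b : ℕ} : Exp.Rb b (eAnd p q) ↔ Exp.Rb b p ∧ Exp.Rb b q := by
  simp [eAnd, Exp.Rb]

theorem len_eLt : Exp.len (eLt a c) = Exp.len a + Exp.len c + 3 := rfl
theorem dp_eLt : Exp.dp (eLt a c) = 2 + max (Exp.dp a) (Exp.dp c) := rfl
theorem rb_eLt {b : ℕ} : Exp.Rb b (eLt a c) ↔ Exp.Rb b a ∧ Exp.Rb b c := by
  simp [eLt, Exp.Rb]

theorem len_eBit : Exp.len (eBit a c) = Exp.len a + Exp.len c + 3 := rfl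
theorem dp_eBit : Exp.dp (eBit a c) = 2 + max (Exp.dp a) (Exp.dp c) := rfl
theorem rb_eBit {b : ℕ} : Exp.Rb b (eBit a c) ↔ Exp.Rb b a ∧ Exp.Rb b c := by
  simp [eBit, Exp.Rb]

theorem len_eOr : Exp.len (eOr A p q) = Exp.len p + Exp.len q + 15 := by
  simp only [eOr, len_eNot, len_eAnd]; omega
theorem dp_eOr : Exp.dp (eOr A p q) = max (Exp.dp p) (Exp.dp q) + 6 := by
  simp only [eOr, dp_eNot, dp_eAnd]; omega
theorem rb_eOr {b : ℕ} : Exp.Rb b (eOr A p q) ↔ Exp.Rb b p ∧ Exp.Rb b q := by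
  simp only [eOr, rb_eNot, rb_eAnd]

theorem len_eIf : Exp.len (eIf A p x y) = 2 * Exp.len p + Exp.len x + Exp.len y + 10 := by
  simp only [eIf, len_eNot, Exp.len]; omega
theorem dp_eIf : Exp.dp (eIf A p x y) = max (Exp.dp p + 4) (2 + max (Exp.dp x) (Exp.dp y)) := by
  simp only [eIf, dp_eNot, Exp.dp]; omega
theorem rb_eIf {b : ℕ} : Exp.Rb b (eIf A p x y) ↔ Exp.Rb b p ∧ Exp.Rb b x ∧ Exp.Rb b y := by
  simp only [eIf, rb_eNot, Exp.Rb]
  constructor
  · rintro ⟨⟨_, h1, h2⟩, ⟨_, _, h3⟩⟩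
    exact ⟨h1, h2, h3⟩
  · rintro ⟨h1, h2, h3⟩
    exact ⟨⟨by omega, h1, h2⟩, ⟨by omega, h1, h3⟩⟩

theorem len_eN : Exp.len (eN A n : Exp F) = 1 := rfl
theorem dp_eN : Exp.dp (eN A n : Exp F) = 0 := rfl
theorem rb_eN {b : ℕ} : Exp.Rb b (eN A n : Exp F) ↔ True := Iff.rfl

theorem len_eR (bs j : ℕ) : Exp.len (eR bs j : Exp F) = 1 := rfl
theorem dp_eR (bs j : ℕ) : Exp.dp (eR bs j : Exp F) = 0 := rfl
theorem rb_eR {b : ℕ} (bs j : ℕ) : Exp.Rb b (eR bs j : Exp F) ↔ bs + j < b := Iff.rfl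

theorem rb_lit {b : ℕ} (a : F) : Exp.Rb b (Exp.lit a) ↔ True := Iff.rfl
theorem rb_reg {b : ℕ} (r : ℕ) : Exp.Rb b (Exp.reg r : Exp F) ↔ r < b := Iff.rfl

theorem len_eIs : Exp.len (eIs A e n) = Exp.len e + 5 := by
  simp only [eIs, len_eEq, len_eN]
theorem dp_eIs : Exp.dp (eIs A e n) = Exp.dp e + 2 := by
  simp only [eIs, dp_eEq, dp_eN]; omega
theorem rb_eIs {b : ℕ} : Exp.Rb b (eIs A e n) ↔ Exp.Rb b e := by
  simp only [eIs, rb_eEq, rb_eN, and_true]

theorem len_isK : Exp.len (isK A e n) = Exp.len e + 9 := by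
  simp only [isK, len_eIs, len_eD]
theorem dp_isK : Exp.dp (isK A e n) = Exp.dp e + 4 := by
  simp only [isK, dp_eIs, dp_eD]
theorem rb_isK {b : ℕ} : Exp.Rb b (isK A e n) ↔ Exp.Rb b e := by
  simp only [isK, rb_eIs, rb_eD]

end basic

/-! ### Chains -/

theorem len_eAllEq (base n : ℕ) (v : F) : Exp.len (eAllEq A base n v) = 9 * n + 1 := by
  induction n with
  | zero => rfl
  | succ n ih =>
    simp only [eAllEq, len_eAnd, len_eEq, ih, Exp.len]
    omega

theorem dp_eAllEq (base n : ℕ) (v : F) : Exp.dp (eAllEq A base n v) ≤ 2 * n + 2 := by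
  induction n with
  | zero => exact Nat.zero_le _
  | succ n ih =>
    simp only [eAllEq, dp_eAnd, dp_eEq, Exp.dp]
    omega

theorem rb_eAllEq {b : ℕ} (base n : ℕ) (v : F) (h : base + n ≤ b) :
    Exp.Rb b (eAllEq A base n v) := by
  induction n with
  | zero => exact trivial
  | succ n ih =>
    simp only [eAllEq, rb_eAnd, rb_eEq, rb_reg, rb_lit, and_true]
    exact ⟨by omega, ih (by omega)⟩

theorem len_eInc (base j : ℕ) : Exp.len (eInc A base j) = 18 * j + 18 := by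
  simp only [eInc, len_eIf, len_eAllEq, len_eD, Exp.len]
  omega

theorem dp_eInc (base j : ℕ) : Exp.dp (eInc A base j) ≤ 2 * j + 6 := by
  have := dp_eAllEq A base j (A.num (s - 1))
  simp only [eInc, dp_eIf, dp_eD, Exp.dp]
  omega

theorem rb_eInc {b : ℕ} (base j : ℕ) (h : base + j < b) : Exp.Rb b (eInc A base j) := by
  simp only [eInc, rb_eIf, rb_eD, rb_reg]
  exact ⟨rb_eAllEq A base j _ (by omega), h, h⟩

/-! ### The rules of a table, at registers -/

section regs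

variable (pc a c i β σ : Exp F) (hpc : Exp.len pc = 1) (ha : Exp.len a = 1) (hc : Exp.len c = 1)
  (hi : Exp.len i = 1) (hβ : Exp.len β = 1) (hσ : Exp.len σ = 1)
  (dpc : Exp.dp pc = 0) (da : Exp.dp a = 0) (dc : Exp.dp c = 0)
  (di : Exp.dp i = 0) (dβ : Exp.dp β = 0) (dσ : Exp.dp σ = 0)

include hpc ha hc in
theorem len_activeE : Exp.len (activeE A pc a c) = 164 := by
  simp only [activeE, len_eOr, len_eAnd, len_isK, len_eIs, hpc, ha, hc]

include dpc da dc in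
theorem dp_activeE : Exp.dp (activeE A pc a c) = 30 := by
  simp only [activeE, dp_eOr, dp_eAnd, dp_isK, dp_eIs, dpc, da, dc]
  rfl

include hpc ha hc hi hβ in
theorem len_guardE : Exp.len (guardE A pc a c i β) = 323 := by
  simp only [guardE, len_activeE A pc a c hpc ha hc, len_eAnd, len_eOr, len_eNot, len_isK, len_eEq,
    len_eD, hpc, ha, hc, hi, hβ]

include dpc da dc di dβ in
theorem dp_guardE : Exp.dp (guardE A pc a c i β) = 32 := by
  simp only [guardE, dp_activeE A pc a c dpc da dc, dp_eAnd, dp_eOr, dp_eNot, dp_isK, dp_eEq, dp_eD,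
    dpc, da, dc, di, dβ]
  rfl

include hpc ha hσ in
theorem len_chE : Exp.len (chE A pc a σ) = 119 := by
  simp only [chE, len_eIf, len_isK, len_eIs, len_eD, hpc, ha, hσ]

include dpc da dσ in
theorem dp_chE : Exp.dp (chE A pc a σ) = 10 := by
  simp only [chE, dp_eIf, dp_isK, dp_eIs, dp_eD, dpc, da, dσ]
  rfl

include hpc ha hc in
theorem len_valE : Exp.len (valE A pc a c) = 238 := by
  simp only [valE, tabE, len_eIf, len_isK, len_eIs, len_eD, Exp.len, hpc, ha, hc]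

include dpc da dc in
theorem dp_valE : Exp.dp (valE A pc a c) = 16 := by
  simp only [valE, tabE, dp_eIf, dp_isK, dp_eIs, dp_eD, Exp.dp, dpc, da, dc]
  rfl

include hpc ha hc hi in
theorem len_deltaE : Exp.len (deltaE A pc a c i) = 269 := by
  simp only [deltaE, len_valE A pc a c hpc ha hc, len_eIf, len_eEq, len_eD, Exp.len, hpc, hi]

include dpc da dc di in
theorem dp_deltaE : Exp.dp (deltaE A pc a c i) = 18 := by
  simp only [deltaE, dp_valE A pc a c dpc da dc, dp_eIf, dp_eEq, dp_eD, Exp.dp, dpc, di]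
  rfl

end regs

section rbrules

variable {b : ℕ} (pc a c i β σ : Exp F)
  (hpc : Exp.Rb b pc) (ha : Exp.Rb b a) (hc : Exp.Rb b c)
  (hi : Exp.Rb b i) (hβ : Exp.Rb b β) (hσ : Exp.Rb b σ)

include hpc ha hc in
theorem rb_activeE : Exp.Rb b (activeE A pc a c) := by
  simp only [activeE, rb_eOr, rb_eAnd, rb_isK, rb_eIs]
  tauto

include hpc ha hc hi hβ in
theorem rb_guardE : Exp.Rb b (guardE A pc a c i β) := by
  simp only [guardE, rb_eAnd, rb_eOr, rb_eNot, rb_isK, rb_eEq, rb_eD]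
  exact ⟨rb_activeE A pc a c hpc ha hc, by tauto⟩

include hpc ha hσ in
theorem rb_chE : Exp.Rb b (chE A pc a σ) := by
  simp only [chE, rb_eIf, rb_isK, rb_eIs, rb_eD]
  tauto

include hpc ha hc in
theorem rb_valE : Exp.Rb b (valE A pc a c) := by
  simp only [valE, tabE, rb_eIf, rb_isK, rb_eIs, rb_eD, Exp.Rb]
  simp only [ha, hc, hpc, and_self, true_and, and_true, Nat.lt_add_one, Nat.reduceLT]

include hpc ha hc hi in
theorem rb_deltaE : Exp.Rb b (deltaE A pc a c i) := by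
  simp only [deltaE, rb_eIf, rb_eEq, rb_eD, rb_lit]
  exact ⟨⟨hi, hpc⟩, rb_valE A pc a c hpc ha hc, trivial⟩

end rbrules

/-! ### The hubs -/

section hubs

variable (K xe bs j f : ℕ)

theorem len_srcE : Exp.len (srcE A bs) = 132 := by
  simp only [srcE, len_chE A _ _ _ (len_eR bs _) (len_eR bs _) (len_eR bs _), len_eIf, len_eR,
    Exp.len]

theorem dp_srcE : Exp.dp (srcE A bs) = 12 := by
  simp only [srcE, dp_chE A _ _ _ (dp_eR bs _) (dp_eR bs _) (dp_eR bs _), dp_eIf, dp_eR, Exp.dp]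
  rfl

theorem rb_srcE {b : ℕ} (h : bs + 12 ≤ b) : Exp.Rb b (srcE A bs) := by
  simp only [srcE, rb_eIf, rb_eR, rb_lit, true_and]
  refine ⟨by omega, rb_chE A _ _ _ ?_ ?_ ?_⟩ <;> simp only [rb_eR] <;> omega

theorem len_pkE : Exp.len (pkE A bs j) = 9 := by
  simp only [pkE, len_eD, len_eR, Exp.len]

theorem dp_pkE : Exp.dp (pkE A bs j) = 4 := by
  simp only [pkE, dp_eD, dp_eR, Exp.dp]
  rfl

theorem rb_pkE {b : ℕ} (h : bs + 3 ≤ b) : Exp.Rb b (pkE A bs j) := by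
  simp only [pkE, Exp.Rb, rb_eD, rb_eR]
  omega

theorem len_hubKE : Exp.len (hubKE A bs j) = 13 := by simp only [hubKE, len_eD, len_pkE]
theorem dp_hubKE : Exp.dp (hubKE A bs j) = 6 := by simp only [hubKE, dp_eD, dp_pkE]
theorem rb_hubKE {b : ℕ} (h : bs + 3 ≤ b) : Exp.Rb b (hubKE A bs j) := by
  simp only [hubKE, rb_eD]; exact rb_pkE A bs j h

theorem len_hubPE : Exp.len (hubPE A bs j) = 13 := by simp only [hubPE, len_eD, len_pkE]
theorem dp_hubPE : Exp.dp (hubPE A bs j) = 6 := by simp only [hubPE, dp_eD, dp_pkE]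
theorem rb_hubPE {b : ℕ} (h : bs + 3 ≤ b) : Exp.Rb b (hubPE A bs j) := by
  simp only [hubPE, rb_eD]; exact rb_pkE A bs j h

theorem len_hubBE : Exp.len (hubBE A bs j) = 13 := by simp only [hubBE, len_eD, len_pkE]
theorem dp_hubBE : Exp.dp (hubBE A bs j) = 6 := by simp only [hubBE, dp_eD, dp_pkE]
theorem rb_hubBE {b : ℕ} (h : bs + 3 ≤ b) : Exp.Rb b (hubBE A bs j) := by
  simp only [hubBE, rb_eD]; exact rb_pkE A bs j h

theorem len_hubTE : Exp.len (hubTE A K xe bs j) = 422 := by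
  simp only [hubTE, tSelE, len_eIf, len_eIs, len_eD, len_pkE, len_srcE, len_eR, len_eN, Exp.len]

theorem dp_hubTE : Exp.dp (hubTE A K xe bs j) = 22 := by
  simp only [hubTE, tSelE, dp_eIf, dp_eIs, dp_eD, dp_pkE, dp_srcE, dp_eR, dp_eN, Exp.dp]
  rfl

theorem rb_hubTE {b : ℕ} (h : bs + 12 ≤ b) : Exp.Rb b (hubTE A K xe bs j) := by
  have h0 := rb_pkE A bs j (b := b) (by omega)
  have h1 := rb_srcE A bs h
  simp only [hubTE, tSelE, rb_eIf, rb_eIs, rb_eD, rb_eR, rb_eN, rb_lit, h0, h1, true_and, and_true]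
  omega

theorem len_nxE_le (hf : f < 5) : Exp.len (nxE A bs f) ≤ 104 := by
  unfold nxE
  interval_cases f <;>
    simp [len_eIf, len_eIs, len_eD, len_eInc, len_eAllEq, len_eR, len_eN, Exp.len]

theorem dp_nxE_le (hf : f < 5) : Exp.dp (nxE A bs f) ≤ 16 := by
  have h3 := dp_eAllEq A (bs + 7) 3 (A.num (s - 1))
  have h0 := dp_eInc A (bs + 7) f
  have hE : ∀ g, Exp.dp (eInc A (bs + 7) g) ≤ 2 * g + 6 := fun g => dp_eInc A (bs + 7) g
  unfold nxE
  interval_cases f <;>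
    simp [dp_eIf, dp_eIs, dp_eD, dp_eR, dp_eN, Exp.dp] <;> omega

theorem rb_nxE {b : ℕ} (hf : f < 5) (h : bs + 12 ≤ b) : Exp.Rb b (nxE A bs f) := by
  have hE : ∀ g, g < 5 → Exp.Rb b (eInc A (bs + 7) g) := fun g hg => rb_eInc A _ g (by omega)
  have h3 : Exp.Rb b (eAllEq A (bs + 7) 3 (A.num (s - 1))) := rb_eAllEq A _ 3 _ (by omega)
  unfold nxE
  interval_cases f <;>
    simp [rb_eIf, rb_eIs, rb_eD, rb_eR, rb_eN, rb_lit, hE, h3] <;> omega

theorem len_hubCE_le (hf : f < 5) : Exp.len (hubCE A bs j f) ≤ 292 := by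
  have h := len_nxE_le A bs f hf
  simp only [hubCE, chSelE, len_eIf, len_eIs, len_eD, len_pkE, len_eR, Exp.len]
  omega

theorem dp_hubCE_le (hf : f < 5) : Exp.dp (hubCE A bs j f) ≤ 20 := by
  have h := dp_nxE_le A bs f hf
  simp only [hubCE, chSelE, dp_eIf, dp_eIs, dp_eD, dp_pkE, dp_eR, Exp.dp]
  omega

theorem rb_hubCE {b : ℕ} (hf : f < 5) (h : bs + 12 ≤ b) : Exp.Rb b (hubCE A bs j f) := by
  have h0 := rb_pkE A bs j (b := b) (by omega)
  have h1 := rb_nxE A bs f (b := b) hf h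
  simp only [hubCE, chSelE, rb_eIf, rb_eIs, rb_eD, rb_eR, rb_lit, h0, h1, true_and, and_true]
  omega

theorem len_hubLE : Exp.len (hubLE A bs j) = 307 := by
  simp only [hubLE, len_deltaE A _ _ _ _ (len_eR bs _) (len_eR bs _) (len_eR bs _) (len_eR bs _),
    len_eIf, len_eD, len_pkE, len_eR, Exp.len]

theorem dp_hubLE : Exp.dp (hubLE A bs j) = 20 := by
  simp only [hubLE, dp_deltaE A _ _ _ _ (dp_eR bs _) (dp_eR bs _) (dp_eR bs _) (dp_eR bs _),
    dp_eIf, dp_eD, dp_pkE, dp_eR, Exp.dp]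
  rfl

theorem rb_hubLE {b : ℕ} (h : bs + 12 ≤ b) : Exp.Rb b (hubLE A bs j) := by
  have h0 := rb_pkE A bs j (b := b) (by omega)
  have h1 : Exp.Rb b (deltaE A (eR bs 9) (eR bs 8) (eR bs 7) (eR bs 3)) := by
    apply rb_deltaE <;> simp only [rb_eR] <;> omega
  simp only [hubLE, Exp.Rb, rb_eIf, rb_eD, rb_eR, rb_lit, h0, h1, true_and, and_true]
  omega

end hubs

/-! ### Validity of a vertex -/

section valid

variable (K xe bs bs' : ℕ)

theorem len_gadOkE : Exp.len (gadOkE A K xe bs) = 333 := by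
  simp only [gadOkE, len_eAnd, len_eLt, len_eIf, len_eOr, len_eIs, len_eR, len_eN, len_eAllEq]

theorem dp_gadOkE : Exp.dp (gadOkE A K xe bs) ≤ 28 := by
  have h3 := dp_eAllEq A (bs + 7) 3 (0 : F)
  have h5 := dp_eAllEq A (bs + 7) 5 (0 : F)
  simp only [gadOkE, dp_eAnd, dp_eLt, dp_eIf, dp_eOr, dp_eIs, dp_eR, dp_eN]
  omega

theorem rb_gadOkE {b : ℕ} (h : bs + 12 ≤ b) : Exp.Rb b (gadOkE A K xe bs) := by
  have h3 : Exp.Rb b (eAllEq A (bs + 7) 3 (0 : F)) := rb_eAllEq A _ 3 _ (by omega)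
  have h5 : Exp.Rb b (eAllEq A (bs + 7) 5 (0 : F)) := rb_eAllEq A _ 5 _ (by omega)
  simp only [gadOkE, rb_eAnd, rb_eLt, rb_eIf, rb_eOr, rb_eIs, rb_eR, rb_eN, h3, h5, true_and,
    and_true]
  omega

theorem len_allowE : Exp.len (allowE A bs) = 372 := by
  simp only [allowE, len_guardE A _ _ _ _ _ (len_eR bs _) (len_eR bs _) (len_eR bs _) (len_eR bs _)
    (len_eR bs _), len_eIf, len_eIs, len_eLt, len_eR, len_eN]

theorem dp_allowE : Exp.dp (allowE A bs) = 34 := by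
  simp only [allowE, dp_guardE A _ _ _ _ _ (dp_eR bs _) (dp_eR bs _) (dp_eR bs _) (dp_eR bs _)
    (dp_eR bs _), dp_eIf, dp_eIs, dp_eLt, dp_eR, dp_eN]
  rfl

theorem rb_allowE {b : ℕ} (h : bs + 12 ≤ b) : Exp.Rb b (allowE A bs) := by
  have h1 : Exp.Rb b (guardE A (eR bs 9) (eR bs 8) (eR bs 7) (eR bs 3) (eR bs 5)) := by
    apply rb_guardE <;> simp only [rb_eR] <;> omega
  simp only [allowE, rb_eIf, rb_eIs, rb_eLt, rb_eR, rb_eN, h1, true_and, and_true]
  omega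

theorem len_itemOkE : Exp.len (itemOkE A K xe bs) = 808 := by
  simp only [itemOkE, len_gadOkE, len_allowE, len_eAnd, len_eIf, len_eLt, len_eIs, len_eR, len_eN,
    len_eOr]

theorem dp_itemOkE : Exp.dp (itemOkE A K xe bs) ≤ 44 := by
  have h := dp_gadOkE A K xe bs
  simp only [itemOkE, dp_allowE, dp_eAnd, dp_eIf, dp_eLt, dp_eIs, dp_eR, dp_eN, dp_eOr]
  omega

theorem rb_itemOkE {b : ℕ} (h : bs + 12 ≤ b) : Exp.Rb b (itemOkE A K xe bs) := by
  have h1 := rb_gadOkE A K xe bs h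
  have h2 := rb_allowE A bs h
  simp only [itemOkE, rb_eAnd, rb_eIf, rb_eLt, rb_eIs, rb_eR, rb_eN, rb_eOr, h1, h2, true_and,
    and_true]
  omega

variable (bE : Exp F)

theorem len_coreOkE (h : Exp.len bE = 1) : Exp.len (coreOkE A K xe bs bE) = 91 := by
  simp only [coreOkE, len_eAnd, len_eLt, len_eIf, len_eEq, len_eD, len_eIs, len_eR, len_eN, Exp.len,
    h]

theorem dp_coreOkE (h : Exp.dp bE = 0) : Exp.dp (coreOkE A K xe bs bE) = 14 := by
  simp only [coreOkE, dp_eAnd, dp_eLt, dp_eIf, dp_eEq, dp_eD, dp_eIs, dp_eR, dp_eN, Exp.dp, h]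
  rfl

theorem rb_coreOkE {b : ℕ} (hb : bs + 13 ≤ b) (h : Exp.Rb b bE) : Exp.Rb b (coreOkE A K xe bs bE) := by
  simp only [coreOkE, rb_eAnd, rb_eLt, rb_eIf, rb_eEq, rb_eD, rb_eIs, rb_eR, rb_eN, rb_lit, h,
    true_and, and_true]
  omega

theorem len_leE (n : ℕ) : Exp.len (leE A bs n) = 29 * n + 1 := by
  induction n with
  | zero => rfl
  | succ n ih =>
    simp only [leE, len_eOr, len_eLt, len_eAnd, len_eEq, len_eR, ih]
    omega

theorem dp_leE (n : ℕ) : Exp.dp (leE A bs n) ≤ 8 * n + 2 := by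
  induction n with
  | zero => exact Nat.zero_le _
  | succ n ih =>
    simp only [leE, dp_eOr, dp_eLt, dp_eAnd, dp_eEq, dp_eR]
    omega

theorem rb_leE {b : ℕ} (n : ℕ) (h : bs + 29 + n ≤ b) : Exp.Rb b (leE A bs n) := by
  induction n with
  | zero => exact trivial
  | succ n ih =>
    simp only [leE, rb_eOr, rb_eLt, rb_eAnd, rb_eEq, rb_eR]
    exact ⟨⟨by omega, by omega⟩, ⟨by omega, by omega⟩, ih (by omega)⟩

theorem len_pendOkE : Exp.len (pendOkE A bs) = 626 := by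
  simp only [pendOkE, len_eOr, len_eAnd, len_eIs, len_eR, len_eAllEq, len_leE]

theorem dp_pendOkE : Exp.dp (pendOkE A bs) ≤ 106 := by
  have h1 := dp_eAllEq A (bs + 14) 27 (0 : F)
  have h2 := dp_leE A bs 12
  simp only [pendOkE, dp_eOr, dp_eAnd, dp_eIs, dp_eR]
  omega

theorem rb_pendOkE {b : ℕ} (h : bs + 41 ≤ b) : Exp.Rb b (pendOkE A bs) := by
  have h1 : Exp.Rb b (eAllEq A (bs + 14) 27 (0 : F)) := rb_eAllEq A _ 27 _ (by omega)
  have h2 := rb_leE A bs (b := b) 12 (by omega)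
  simp only [pendOkE, rb_eOr, rb_eAnd, rb_eIs, rb_eR, h1, h2, and_true]
  omega

theorem len_vertOkE (h : Exp.len bE = 1) : Exp.len (vertOkE A K xe bs bE) = 1531 := by
  simp only [vertOkE, len_eAnd, len_itemOkE, len_coreOkE A K xe bs bE h, len_pendOkE]

theorem dp_vertOkE (h : Exp.dp bE = 0) : Exp.dp (vertOkE A K xe bs bE) ≤ 110 := by
  have h1 := dp_itemOkE A K xe bs
  have h2 := dp_pendOkE A bs
  simp only [vertOkE, dp_eAnd, dp_coreOkE A K xe bs bE h]
  omega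

theorem rb_vertOkE {b : ℕ} (hb : bs + 41 ≤ b) (h : Exp.Rb b bE) : Exp.Rb b (vertOkE A K xe bs bE) := by
  simp only [vertOkE, rb_eAnd]
  exact ⟨rb_itemOkE A K xe bs (by omega), rb_coreOkE A K xe bs bE (by omega) h, rb_pendOkE A bs hb⟩

end valid

/-! ### Adjacency -/

section adj

variable [Fintype F] (K xe bs bs' j a c a' c' : ℕ)

theorem len_eSame (n : ℕ) : Exp.len (eSame A bs bs' n) = 9 * n + 1 := by
  induction n with
  | zero => rfl
  | succ n ih =>
    simp only [eSame, len_eAnd, len_eEq, len_eR, ih]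
    omega

theorem dp_eSame (n : ℕ) : Exp.dp (eSame A bs bs' n) ≤ 2 * n + 2 := by
  induction n with
  | zero => exact Nat.zero_le _
  | succ n ih =>
    simp only [eSame, dp_eAnd, dp_eEq, dp_eR]
    omega

theorem rb_eSame {b : ℕ} (n : ℕ) (h : bs + n ≤ b) (h' : bs' + n ≤ b) :
    Exp.Rb b (eSame A bs bs' n) := by
  induction n with
  | zero => exact trivial
  | succ n ih =>
    simp only [eSame, rb_eAnd, rb_eEq, rb_eR]
    exact ⟨⟨by omega, by omega⟩, ih (by omega) (by omega)⟩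

theorem len_gadEqE : Exp.len (gadEqE A bs bs') = 73 := by
  simp only [gadEqE, len_eAnd, len_eEq, len_eR, len_eSame]

theorem dp_gadEqE : Exp.dp (gadEqE A bs bs') ≤ 18 := by
  have h := dp_eSame A (bs + 7) (bs' + 7) 5
  simp only [gadEqE, dp_eAnd, dp_eEq, dp_eR]
  omega

theorem rb_gadEqE {b : ℕ} (h : bs + 12 ≤ b) (h' : bs' + 12 ≤ b) : Exp.Rb b (gadEqE A bs bs') := by
  have h1 : Exp.Rb b (eSame A (bs + 7) (bs' + 7) 5) := rb_eSame A _ _ 5 (by omega) (by omega)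
  simp only [gadEqE, rb_eAnd, rb_eEq, rb_eR, h1, and_true]
  omega

theorem len_posEqE : Exp.len (posEqE A bs bs') = 15 := by
  simp only [posEqE, len_eAnd, len_eEq, len_eR]

theorem dp_posEqE : Exp.dp (posEqE A bs bs') = 4 := by
  simp only [posEqE, dp_eAnd, dp_eEq, dp_eR]
  rfl

theorem rb_posEqE {b : ℕ} (h : bs + 5 ≤ b) (h' : bs' + 5 ≤ b) : Exp.Rb b (posEqE A bs bs') := by
  simp only [posEqE, rb_eAnd, rb_eEq, rb_eR]
  omega

theorem len_neBit (e1 e2 e3 e4 : Exp F) : Exp.len (neBit A e1 e2 e3 e4) =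
    Exp.len e1 + Exp.len e2 + Exp.len e3 + Exp.len e4 + 14 := by
  simp only [neBit, len_eNot, len_eEq, len_eBit]
  omega

theorem dp_neBit (e1 e2 e3 e4 : Exp F) : Exp.dp (neBit A e1 e2 e3 e4) =
    max (max (Exp.dp e1) (Exp.dp e2)) (max (Exp.dp e3) (Exp.dp e4)) + 6 := by
  simp only [neBit, dp_eNot, dp_eEq, dp_eBit]
  omega

theorem rb_neBit {b : ℕ} (e1 e2 e3 e4 : Exp F) : Exp.Rb b (neBit A e1 e2 e3 e4) ↔
    (Exp.Rb b e1 ∧ Exp.Rb b e2) ∧ (Exp.Rb b e3 ∧ Exp.Rb b e4) := by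
  simp only [neBit, rb_eNot, rb_eEq, rb_eBit]

theorem len_tokEEE : Exp.len (tokEEE A bs bs') = 130 := by
  simp only [tokEEE, len_eAnd, len_eIs, len_posEqE, len_gadEqE, len_neBit, len_eR, len_eN]

theorem dp_tokEEE : Exp.dp (tokEEE A bs bs') ≤ 26 := by
  have h := dp_gadEqE A bs bs'
  simp only [tokEEE, dp_eAnd, dp_eIs, dp_posEqE, dp_neBit, dp_eR, dp_eN]
  omega

theorem rb_tokEEE {b : ℕ} (h : bs + 13 ≤ b) (h' : bs' + 13 ≤ b) : Exp.Rb b (tokEEE A bs bs') := by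
  have h1 := rb_gadEqE A bs bs' (b := b) (by omega) (by omega)
  have h2 := rb_posEqE A bs bs' (b := b) (by omega) (by omega)
  simp only [tokEEE, rb_eAnd, rb_eIs, rb_neBit, rb_eR, rb_eN, h1, h2, true_and, and_true]
  omega

theorem len_idxE : Exp.len (idxE A K bs) = 45 := by
  simp only [idxE, len_eIf, len_eD, len_eR, len_eIs, len_eN]

theorem dp_idxE : Exp.dp (idxE A K bs) ≤ 12 := by
  simp only [idxE, dp_eIf, dp_eD, dp_eR, dp_eIs, dp_eN]
  omega

theorem rb_idxE {b : ℕ} (h : bs + 5 ≤ b) : Exp.Rb b (idxE A K bs) := by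
  simp only [idxE, rb_eIf, rb_eD, rb_eR, rb_eIs, rb_eN, true_and, and_true]
  omega

theorem len_tokEHE : Exp.len (tokEHE A K bs bs') = 160 := by
  simp only [tokEHE, len_eAnd, len_eIs, len_eNot, len_gadEqE, len_neBit, len_idxE, len_eR, len_eN]

theorem dp_tokEHE : Exp.dp (tokEHE A K bs bs') ≤ 30 := by
  have h := dp_gadEqE A bs bs'
  have h2 := dp_idxE A K bs
  simp only [tokEHE, dp_eAnd, dp_eIs, dp_eNot, dp_neBit, dp_eR, dp_eN]
  omega

theorem rb_tokEHE {b : ℕ} (h : bs + 13 ≤ b) (h' : bs' + 13 ≤ b) : Exp.Rb b (tokEHE A K bs bs') := by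
  have h1 := rb_gadEqE A bs bs' (b := b) (by omega) (by omega)
  have h2 := rb_idxE A K bs (b := b) (by omega)
  simp only [tokEHE, rb_eAnd, rb_eIs, rb_eNot, rb_neBit, rb_eR, rb_eN, h1, h2, true_and, and_true]
  omega

theorem len_chainEq (n : ℕ) (hn : n ≤ 5) : Exp.len (chainEq A bs bs' j n) ≤ 591 * n + 1 := by
  induction n with
  | zero => exact le_refl _
  | succ n ih =>
    have h1 := len_hubCE_le A bs j n (by omega)
    have h2 := len_hubCE_le A bs' j n (by omega)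
    have h3 := ih (by omega)
    simp only [chainEq, len_eAnd, len_eEq]
    omega

theorem dp_chainEq (n : ℕ) (hn : n ≤ 5) : Exp.dp (chainEq A bs bs' j n) ≤ 2 * n + 22 := by
  induction n with
  | zero => exact Nat.zero_le _
  | succ n ih =>
    have h1 := dp_hubCE_le A bs j n (by omega)
    have h2 := dp_hubCE_le A bs' j n (by omega)
    have h3 := ih (by omega)
    simp only [chainEq, dp_eAnd, dp_eEq]
    omega

theorem rb_chainEq {b : ℕ} (n : ℕ) (hn : n ≤ 5) (h : bs + 12 ≤ b) (h' : bs' + 12 ≤ b) :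
    Exp.Rb b (chainEq A bs bs' j n) := by
  induction n with
  | zero => exact trivial
  | succ n ih =>
    simp only [chainEq, rb_eAnd, rb_eEq]
    exact ⟨⟨rb_hubCE A bs j n (by omega) h, rb_hubCE A bs' j n (by omega) h'⟩, ih (by omega)⟩

theorem len_hubConfE : Exp.len (hubConfE A K xe bs bs' j) ≤ 4574 := by
  have h := len_chainEq A bs bs' j 5 (le_refl _)
  simp only [hubConfE, len_eAnd, len_eEq, len_eIs, len_posEqE, len_hubPE, len_hubKE, len_hubTE,
    len_hubLE, len_neBit, len_hubBE, len_eR]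
  omega

theorem dp_hubConfE : Exp.dp (hubConfE A K xe bs bs' j) ≤ 48 := by
  have h := dp_chainEq A bs bs' j 5 (le_refl _)
  simp only [hubConfE, dp_eAnd, dp_eEq, dp_eIs, dp_posEqE, dp_hubPE, dp_hubKE, dp_hubTE,
    dp_hubLE, dp_neBit, dp_hubBE, dp_eR]
  omega

theorem rb_hubConfE {b : ℕ} (h : bs + 13 ≤ b) (h' : bs' + 13 ≤ b) :
    Exp.Rb b (hubConfE A K xe bs bs' j) := by
  have h1 := rb_chainEq A bs bs' j (b := b) 5 (le_refl _) (by omega) (by omega)
  have h2 := rb_posEqE A bs bs' (b := b) (by omega) (by omega)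
  have e1 := rb_hubPE A bs j (b := b) (by omega)
  have e2 := rb_hubPE A bs' j (b := b) (by omega)
  have e3 := rb_hubKE A bs j (b := b) (by omega)
  have e4 := rb_hubKE A bs' j (b := b) (by omega)
  have e5 := rb_hubTE A K xe bs j (b := b) (by omega)
  have e6 := rb_hubTE A K xe bs' j (b := b) (by omega)
  have e7 := rb_hubLE A bs j (b := b) (by omega)
  have e8 := rb_hubLE A bs' j (b := b) (by omega)
  have e9 := rb_hubBE A bs j (b := b) (by omega)
  have e10 := rb_hubBE A bs' j (b := b) (by omega)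
  simp only [hubConfE, rb_eAnd, rb_eEq, rb_eIs, rb_neBit, rb_eR, h1, h2, e1, e2, e3, e4, e5, e6, e7,
    e8, e9, e10, true_and, and_true]
  omega

theorem len_coreAdjE : Exp.len (coreAdjE A K xe bs bs') ≤ 14327 := by
  have h0 := len_hubConfE A K xe bs bs' 0
  have h1 := len_hubConfE A K xe bs bs' 1
  have h2 := len_hubConfE A K xe bs bs' 2
  simp only [coreAdjE, len_eAnd, len_eNot, len_eSame, len_tokEEE, len_tokEHE]
  omega

theorem dp_coreAdjE : Exp.dp (coreAdjE A K xe bs bs') ≤ 62 := by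
  have h0 := dp_hubConfE A K xe bs bs' 0
  have h1 := dp_hubConfE A K xe bs bs' 1
  have h2 := dp_hubConfE A K xe bs bs' 2
  have h3 := dp_eSame A bs bs' 12
  have h4 := dp_tokEEE A bs bs'
  have h5 := dp_tokEHE A K bs bs'
  have h6 := dp_tokEHE A K bs' bs
  simp only [coreAdjE, dp_eAnd, dp_eNot]
  omega

theorem rb_coreAdjE {b : ℕ} (h : bs + 13 ≤ b) (h' : bs' + 13 ≤ b) :
    Exp.Rb b (coreAdjE A K xe bs bs') := by
  simp only [coreAdjE, rb_eAnd, rb_eNot]
  exact ⟨rb_eSame A bs bs' 12 (by omega) (by omega), rb_tokEEE A bs bs' h h', rb_tokEHE A K bs bs' h h',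
    rb_tokEHE A K bs' bs h' h, rb_hubConfE A K xe bs bs' 0 h h', rb_hubConfE A K xe bs bs' 1 h h',
    rb_hubConfE A K xe bs bs' 2 h h'⟩

theorem len_adjLE : Exp.len (adjLE A K xe bs bs') ≤ 14534 := by
  have h0 := len_coreAdjE A K xe bs bs'
  simp only [adjLE, len_eOr, len_eAnd, len_eIs, len_eNot, len_eSame, len_eR]
  omega

theorem dp_adjLE : Exp.dp (adjLE A K xe bs bs') ≤ 72 := by
  have h0 := dp_coreAdjE A K xe bs bs'
  have h1 := dp_eSame A bs bs' 13
  simp only [adjLE, dp_eOr, dp_eAnd, dp_eIs, dp_eNot, dp_eR]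
  omega

theorem rb_adjLE {b : ℕ} (h : bs + 14 ≤ b) (h' : bs' + 14 ≤ b) :
    Exp.Rb b (adjLE A K xe bs bs') := by
  have h0 := rb_coreAdjE A K xe bs bs' (b := b) (by omega) (by omega)
  have h1 := rb_eSame A bs bs' (b := b) 13 (by omega) (by omega)
  simp only [adjLE, rb_eOr, rb_eAnd, rb_eIs, rb_eNot, rb_eR, h0, h1, true_and, and_true]
  omega

end adj

end Vale.Agent.P310d.SZ

namespace Vale.Agent.P310d

open Function Vale.Agent.P310y SZ

open scoped Classical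

variable {F : Type} [AddCommGroup F] [Module (ZMod 2) F] [Fintype F] {s : ℕ} (A : Alph F s)

/-- A bound for the stack depth of the circuit of adjacency. -/
def dpAdj : ℕ := 114

/-- A bound for the code length of the circuit of adjacency. -/
def lenAdj : ℕ := 17602

/-- The registers of the circuit of adjacency. -/
theorem rb_adjE (K xe bs bs2 : ℕ) {r b : ℕ} (h1 : bs + 41 ≤ b) (h2 : bs2 + 41 ≤ b) (hr : r < b) :
    Exp.Rb b (adjE A K xe bs bs2 (Exp.reg r)) := by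
  simp only [adjE, SZ.rb_eAnd]
  have hR : Exp.Rb b (Exp.reg r : Exp F) := hr
  exact ⟨rb_vertOkE A K xe bs _ h1 hR, rb_vertOkE A K xe bs2 _ h2 hR, rb_adjLE A K xe bs bs2 (by omega) (by omega)⟩

/-- The stack depth of the circuit of adjacency. -/
theorem dp_adjE (K xe bs bs2 r : ℕ) : Exp.dp (adjE A K xe bs bs2 (Exp.reg r)) ≤ dpAdj := by
  have h1 := SZ.dp_vertOkE A K xe bs (Exp.reg r : Exp F) rfl
  have h2 := SZ.dp_vertOkE A K xe bs2 (Exp.reg r : Exp F) rfl
  have h3 := dp_adjLE A K xe bs bs2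
  simp only [adjE, SZ.dp_eAnd, dpAdj]
  omega

/-- The code length of the circuit of adjacency. -/
theorem len_adjE (K xe bs bs2 r : ℕ) : Exp.len (adjE A K xe bs bs2 (Exp.reg r)) ≤ lenAdj := by
  have h1 := SZ.len_vertOkE A K xe bs (Exp.reg r : Exp F) rfl
  have h2 := SZ.len_vertOkE A K xe bs2 (Exp.reg r : Exp F) rfl
  have h3 := len_adjLE A K xe bs bs2
  simp only [adjE, SZ.len_eAnd, lenAdj]
  omega

end Vale.Agent.P310d
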