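import Vale.Agent.P310d.Tab

/-!
# The program of the tableau satisfies the side conditions
-/

namespace Vale.Agent.P310d

open Function

open scoped Classical

set_option linter.unusedSectionVars false

variable {F : Type} [AddCommGroup F] [Module (ZMod 2) F] {s : ℕ} (A : Alph F s)

/-! ### Instructions of compiled expressions and statements are in range -/

theorem cmp_ok {K : ℕ} (hs0 : 0 < s) (hK0 : 0 < K) (e : Exp F) :
    ∀ (y d : ℕ), Exp.Rb K e → y < K → d + Exp.dp e ≤ K → ∀ i ∈ Exp.cmp e y d, i.Ok K s := by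
  induction e with
  | lit a =>
    intro y d _ hy _ i hi
    simp only [Exp.cmp, List.mem_singleton] at hi
    subst hi
    exact ⟨hK0, hK0, hy, by simp [Instr.tab], by simpa [Instr.lbl] using hs0⟩
  | reg x =>
    intro y d hx hy _ i hi
    simp only [Exp.cmp, List.mem_singleton] at hi
    subst hi
    exact ⟨hx, hx, hy, by simp [Instr.tab], by simpa [Instr.lbl] using hs0⟩
  | add e1 e2 h1 h2 =>
    intro y d hb hy hd i hi
    simp only [Exp.cmp, List.mem_append] at hi
    simp only [Exp.dp] at hd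
    rcases hi with hi | hi
    · exact h1 y d hb.1 hy (by omega) i hi
    · exact h2 y d hb.2 hy (by omega) i hi
  | ap t e1 e2 h1 h2 =>
    intro y d hb hy hd i hi
    simp only [Exp.cmp, List.mem_append, List.mem_cons, List.not_mem_nil, or_false] at hi
    simp only [Exp.dp] at hd
    have hd1 : d < K := by omega
    have hd2 : d + 1 < K := by omega
    rcases hi with (hi | hi) | rfl | rfl | rfl
    · exact h1 d (d + 2) hb.2.1 hd1 (by omega) i hi
    · exact h2 (d + 1) (d + 2) hb.2.2 hd2 (by omega) i hi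
    · exact ⟨hd1, hd2, hy, hb.1, by simpa [Instr.lbl] using hs0⟩
    · exact ⟨hd1, hd1, hd1, by simp [Instr.tab], by simpa [Instr.lbl] using hs0⟩
    · exact ⟨hd2, hd2, hd2, by simp [Instr.tab], by simpa [Instr.lbl] using hs0⟩

/-- The side conditions of one statement. -/
def StOk (K b : ℕ) : Stmt F → Prop
  | Stmt.asg q => ∀ p ∈ q, p.1 < K ∧ Exp.Rb K p.2 ∧ b + 1 + Exp.dp p.2 ≤ K
  | Stmt.jze e _ => Exp.Rb K e ∧ b + 1 + Exp.dp e ≤ K
  | Stmt.guess xs => ∀ x ∈ xs, x < K
  | Stmt.fork _ => True
  | Stmt.halt => True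

theorem cmpL_ok {K b : ℕ} (hs0 : 0 < s) (hb : b < K) (q : List (ℕ × Exp F))
    (hq : ∀ p ∈ q, p.1 < K ∧ Exp.Rb K p.2 ∧ b + 1 + Exp.dp p.2 ≤ K) :
    ∀ i ∈ cmpL b q, i.Ok K s := by
  have hK0 : 0 < K := by omega
  have hgb : (Instr.gate 0 b b b : Instr F).Ok K s :=
    ⟨hb, hb, hb, by simp [Instr.tab], by simpa [Instr.lbl] using hs0⟩
  induction q with
  | nil =>
    intro i hi
    simp only [cmpL, List.mem_singleton] at hi
    subst hi
    exact hgb
  | cons p q ih =>
    intro i hi
    simp only [cmpL, List.mem_append] at hi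
    rcases hi with hi | hi
    · obtain ⟨h1, h2, h3⟩ := hq p (List.mem_cons_self ..)
      simp only [cmpA, List.mem_append, List.mem_cons, List.not_mem_nil, or_false] at hi
      rcases hi with hi | rfl | rfl | rfl
      · exact cmp_ok hs0 hK0 p.2 b (b + 1) h2 hb h3 i hi
      · exact ⟨h1, h1, h1, by simp [Instr.tab], by simpa [Instr.lbl] using hs0⟩
      · exact ⟨hb, hb, h1, by simp [Instr.tab], by simpa [Instr.lbl] using hs0⟩
      · exact hgb
    · exact ih (fun p' hp' => hq p' (List.mem_cons_of_mem _ hp')) i hi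

theorem cmpS_ok {K b : ℕ} (hs0 : 0 < s) (hb : b < K) {ad : ℕ → ℕ} (had : ∀ L, ad L < s)
    (t : Stmt F) (ht : StOk K b t) : ∀ i ∈ cmpS b ad t, i.Ok K s := by
  have hK0 : 0 < K := by omega
  have hgb : (Instr.gate 0 b b b : Instr F).Ok K s :=
    ⟨hb, hb, hb, by simp [Instr.tab], by simpa [Instr.lbl] using hs0⟩
  cases t with
  | asg q => exact cmpL_ok hs0 hb q ht
  | jze e L =>
    intro i hi
    simp only [cmpS, List.mem_append, List.mem_cons, List.not_mem_nil, or_false] at hi
    rcases hi with hi | rfl | rfl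
    · exact cmp_ok hs0 hK0 e b (b + 1) ht.1 hb ht.2 i hi
    · exact ⟨hb, hK0, hK0, by simp [Instr.tab], by simpa [Instr.lbl] using had L⟩
    · exact hgb
  | guess xs =>
    intro i hi
    simp only [cmpS, List.mem_append, List.mem_map, List.mem_singleton] at hi
    rcases hi with ⟨x, hx, rfl⟩ | rfl
    · exact ⟨hK0, hK0, ht x hx, by simp [Instr.tab], by simpa [Instr.lbl] using hs0⟩
    · exact hgb
  | fork L =>
    intro i hi
    simp only [cmpS, List.mem_singleton] at hi
    subst hi
    exact ⟨hK0, hK0, hK0, by simp [Instr.tab], by simpa [Instr.lbl] using had L⟩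
  | halt =>
    intro i hi
    simp only [cmpS, List.mem_singleton] at hi
    subst hi
    exact ⟨hK0, hK0, hK0, by simp [Instr.tab], by simpa [Instr.lbl] using hs0⟩

theorem addr_le_total (l : List (Stmt F)) (L : ℕ) : addr l L ≤ addr l l.length := by
  by_cases h : L ≤ l.length
  · exact addr_le h
  · have : addr l L = addr l l.length := by
      unfold addr
      rw [List.take_of_length_le (by omega), List.take_length]
    omega

theorem codeOf_ok {K b : ℕ} (hb : b < K) {l : List (Stmt F)} (hl : ∀ t ∈ l, StOk K b t)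
    (hlen : (flat b l).length < s) (a : ℕ) : (codeOf b l a).Ok K s := by
  have hs0 : 0 < s := by omega
  have hK0 : 0 < K := by omega
  have had : ∀ L, addr l L < s := by
    intro L
    have h1 := addr_le_total l L
    have h2 := addr_length l
    have h3 := length_flat b 0 l
    omega
  unfold codeOf
  by_cases ha : a < (flat b l).length
  · rw [List.getD_eq_getElem _ _ ha]
    have hm : (flat b l)[a] ∈ flat b l := List.getElem_mem ha
    unfold flat at hm
    obtain ⟨t, ht, hi⟩ := List.mem_flatMap.1 hm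
    exact cmpS_ok hs0 hb had t (hl t ht) _ hi
  · rw [List.getD_eq_default _ _ (by omega)]
    exact ⟨hK0, hK0, hK0, by simp [Instr.tab], by simpa [Instr.lbl] using hs0⟩

/-! ### Lengths of the combinators -/

namespace TabLen

variable {A}

theorem len_eD (τ : ℕ) (e : Exp F) : Exp.len (eD A τ e) = Exp.len e + 4 := by
  simp only [eD, Exp.len]
  omega

theorem len_not (e : Exp F) : Exp.len (eNot A e) = Exp.len e + 4 := len_eD _ _

theorem len_eq (a c : Exp F) : Exp.len (eEq A a c) = Exp.len a + Exp.len c + 4 := by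
  simp only [eEq, len_not, Exp.len]

theorem len_and (a c : Exp F) : Exp.len (eAnd a c) = Exp.len a + Exp.len c + 3 := rfl

theorem len_if (p x y : Exp F) :
    Exp.len (eIf A p x y) = 2 * Exp.len p + Exp.len x + Exp.len y + 10 := by
  simp only [eIf, Exp.len, len_not]
  omega

theorem len_allEq (base n : ℕ) (v : F) : Exp.len (eAllEq A base n v) = 9 * n + 1 := by
  induction n with
  | zero => rfl
  | succ n ih =>
    simp only [eAllEq, len_and, len_eq, Exp.len, ih]
    omega

theorem len_dec (base j : ℕ) : Exp.len (eDec A base j) = 18 * j + 18 := by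
  simp only [eDec, len_if, len_eD, len_allEq, Exp.len]
  omega

theorem len_inc (base j : ℕ) : Exp.len (eInc A base j) = 18 * j + 18 := by
  simp only [eInc, len_if, len_eD, len_allEq, Exp.len]
  omega

theorem lenL_digL_le {base n B : ℕ} {e : ℕ → Exp F} (h : ∀ j, j < n → Exp.len (e j) ≤ B) :
    lenL (digL base n e) ≤ n * (B + 3) + 1 := by
  induction n with
  | zero => simp [digL, lenL]
  | succ n ih =>
    have h1 := ih (fun j hj => h j (by omega))
    have h2 := h n (by omega)
    simp only [digL, lenL]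
    rw [Nat.succ_mul]
    omega

end TabLen

/-- The length of the program of the tableau, without the expression of the input. -/
def tabLen (m : ℕ) : ℕ := 72 * m * m + 250 * m + 329

theorem tab_flat_length {m : ℕ} {symE : Exp F} {cW cB : F} (b : ℕ) :
    (flat b (tabStmts A m symE cW cB)).length ≤ tabLen m + 2 * Exp.len symE := by
  unfold flat
  rw [length_flatMap_cmpS]
  have h0 : lenL (digL (m + 1) m (fun _ => Exp.lit (A.num (s - 1)))) ≤ m * (1 + 3) + 1 :=
    TabLen.lenL_digL_le (fun _ _ => le_rfl)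
  have h6 : lenL (digL (m + 1) m (eDec A (m + 1))) ≤ m * ((18 * m + 18) + 3) + 1 :=
    TabLen.lenL_digL_le (fun j hj => by rw [TabLen.len_dec]; omega)
  have h12 : lenL (digL 0 (m + 1) (eDec A 0)) ≤ (m + 1) * ((18 * (m + 1) + 18) + 3) + 1 :=
    TabLen.lenL_digL_le (fun j hj => by rw [TabLen.len_dec]; omega)
  have h18 : lenL (digL 0 (m + 1) (eInc A 0)) ≤ (m + 1) * ((18 * (m + 1) + 18) + 3) + 1 :=
    TabLen.lenL_digL_le (fun j hj => by rw [TabLen.len_inc]; omega)
  have h26 : lenL (digL 0 (2 * m + 3) (fun _ => (Exp.lit 0 : Exp F))) ≤ (2 * m + 3) * (1 + 3) + 1 :=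
    TabLen.lenL_digL_le (fun _ _ => le_rfl)
  simp only [tabStmts, List.map_cons, List.map_nil, List.sum_cons, List.sum_nil, lenS, lenL,
    List.length_cons, List.length_nil, List.length_range, TabLen.len_eD, TabLen.len_not,
    TabLen.len_eq, TabLen.len_and, TabLen.len_if, TabLen.len_allEq, Exp.len]
  unfold tabLen
  nlinarith [h0, h6, h12, h18, h26]

theorem tab_stOk {m K : ℕ} {symE : Exp F} {cW cB : F} (hrb : Exp.Rb (2 * m + 3) symE)
    (hK : 4 * m + 30 + Exp.dp symE ≤ K) :
    ∀ t ∈ tabStmts A m symE cW cB, StOk K (2 * m + 3) t := by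
  have hrb' : Exp.Rb K symE := hrb.mono (by omega)
  have hAll : ∀ (base n : ℕ) (v : F), base + n ≤ K → Exp.Rb K (eAllEq A base n v) :=
    fun _ _ _ h => rb_allEq h
  have hdAll := fun (base n : ℕ) (v : F) => dp_allEq (A := A) base n v
  have hdDec := fun (base j : ℕ) => dp_dec (A := A) base j
  have hdInc := fun (base j : ℕ) => dp_inc (A := A) base j
  have hreg : ∀ x, x < K → Exp.Rb K (Exp.reg x : Exp F) := fun _ h => h
  have hreg2 : Exp.Rb K (Exp.reg (2 * m + 1) : Exp F) := hreg _ (by omega)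
  have hreg3 : Exp.Rb K (Exp.reg (2 * m + 2) : Exp F) := hreg _ (by omega)
  have hlit : ∀ a : F, Exp.Rb K (Exp.lit a) := fun _ => trivial
  have hdig : ∀ (base n : ℕ) (e : ℕ → Exp F), base + n ≤ K →
      (∀ j, j < n → Exp.Rb K (e j) ∧ 2 * m + 3 + 1 + Exp.dp (e j) ≤ K) →
      StOk K (2 * m + 3) (Stmt.asg (digL base n e)) := by
    intro base n e h1 h2 p hp
    obtain ⟨j, hj, rfl⟩ := mem_digL hp
    exact ⟨by simp only; omega, h2 j hj⟩
  have hjz : ∀ (e : Exp F) (L : ℕ), Exp.Rb K e → 2 * m + 3 + 1 + Exp.dp e ≤ K →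
      StOk K (2 * m + 3) (Stmt.jze e L) := fun _ _ h1 h2 => ⟨h1, h2⟩
  have hj0 : ∀ L : ℕ, StOk K (2 * m + 3) (Stmt.jze (Exp.lit 0 : Exp F) L) := fun L =>
    hjz _ L trivial (by simp only [Exp.dp]; omega)
  have hasg2 : ∀ (τ : ℕ), StOk K (2 * m + 3)
      (Stmt.asg [(2 * m + 1, eD A τ (Exp.reg (2 * m + 2))), (2 * m + 2, Exp.lit 0)]) := by
    intro τ p hp
    simp only [List.mem_cons, List.not_mem_nil, or_false] at hp
    rcases hp with rfl | rfl
    · refine ⟨by simp only; omega, (rb_eD).2 hreg3, ?_⟩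
      simp only [dp_eD, Exp.dp]
      omega
    · refine ⟨by simp only; omega, trivial, ?_⟩
      simp only [Exp.dp]
      omega
  unfold tabStmts
  simp only [List.forall_mem_cons]
  refine ⟨?_, ?_, ?_, ?_, ?_, ?_, ?_, ?_, ?_, ?_, ?_, hasg2 22, ?_, hj0 3, ?_, hasg2 23, hj0 3,
    hasg2 24, ?_, hj0 3, ?_, hj0 26, ?_, hj0 26, ?_, ?_, ?_, hj0 29, ?_, ?_, ?_⟩
  · exact hdig _ _ _ (by omega) (fun j hj => ⟨trivial, by simp only [Exp.dp]; omega⟩)
  · intro x hx
    simp only [List.mem_cons, List.mem_range] at hx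
    omega
  · exact hjz _ _ (rb_eD.2 hreg2) (by simp only [dp_eD, Exp.dp]; omega)
  · exact hjz _ _ (rb_not.2 (hAll _ _ _ (by omega))) (by
      have := hdAll 0 (m + 1) 0
      rw [dp_not]
      omega)
  · exact hjz _ _ (rb_not.2 (hAll _ _ _ (by omega))) (by
      have := hdAll 0 (m + 1) (A.num (s - 1))
      rw [dp_not]
      omega)
  · exact hjz _ _ (rb_not.2 (hAll _ _ _ (by omega))) (by
      have := hdAll (m + 1) m 0
      rw [dp_not]
      omega)
  · exact hdig _ _ _ (by omega) (fun j hj => ⟨rb_dec (by omega), by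
      have := hdDec (m + 1) j
      omega⟩)
  · intro x hx
    simp only [List.mem_singleton] at hx
    omega
  · refine hjz _ _ ?_ ?_
    · simp only [rb_and, rb_eq, rb_eD]
      exact ⟨hreg3, hreg3, hreg2⟩
    · simp only [dp_and, dp_eq, dp_eD, Exp.dp]
      omega
  · intro p hp
    simp only [List.mem_singleton] at hp
    subst hp
    refine ⟨by simp only; omega, trivial, ?_⟩
    simp only [Exp.dp]
    omega
  · trivial
  · exact hdig _ _ _ (by omega) (fun j hj => ⟨rb_dec (by omega), by
      have := hdDec 0 j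
      omega⟩)
  · trivial
  · exact hdig _ _ _ (by omega) (fun j hj => ⟨rb_inc (by omega), by
      have := hdInc 0 j
      omega⟩)
  · refine hjz _ _ (rb_eq.2 ⟨hreg2, trivial⟩) ?_
    simp only [dp_eq, Exp.dp]
    omega
  · refine hjz _ _ (rb_eq.2 ⟨hreg2, trivial⟩) ?_
    simp only [dp_eq, Exp.dp]
    omega
  · exact hdig _ _ _ (by omega) (fun j hj => ⟨rb_dec (by omega), by
      have := hdDec 0 j
      omega⟩)
  · refine hjz _ _ ?_ ?_
    · simp only [rb_eq, rb_if, rb_eD]
      exact ⟨hreg2, hAll _ _ _ (by omega), hrb', hrb'⟩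
    · have := hdAll 0 (m + 1) 0
      simp only [dp_eq, dp_if, dp_eD, Exp.dp]
      omega
  · exact hdig _ _ _ (by omega) (fun j hj => ⟨trivial, by simp only [Exp.dp]; omega⟩)
  · trivial
  · trivial
  · simp

/-- The program of the tableau satisfies the side conditions. -/
theorem tab_pok {m K : ℕ} {symE : Exp F} {cW cB : F} (hm : 0 < m) (hs : 7 < s) (hKs : K ≤ s)
    (hrb : Exp.Rb (2 * m + 3) symE) (hK : 4 * m + 30 + Exp.dp symE ≤ K)
    (hlen : tabLen m + 2 * Exp.len symE < s) :
    POk A (tabStmts A m symE cW cB) (2 * m + 3) K 29 := by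
  have hfl := lt_of_le_of_lt (tab_flat_length A (m := m) (symE := symE) (cW := cW) (cB := cB)
    (2 * m + 3)) hlen
  exact
    { hs := hs
      hbK := by omega
      hKs := hKs
      hlen := hfl
      hacI := by rw [tabStmts_length]; omega
      hhalt := fun _ => rfl
      hok := codeOf_ok (by omega) (tab_stOk A hrb hK) hfl }

end Vale.Agent.P310d
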