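import Vale.Agent.P310h2.WLGen

/-!
# Padding with isolated vertices does not change equivalence

`wlEquiv_map_iff`: if `G`, `H` have no isolated vertices and equally many vertices, embedded into a
common vertex type `W`, then the embedded graphs are `m`-dimensionally equivalent (`m ≥ 2`) if and
only if `G` and `H` are.
-/

namespace Vale.Agent.P310d

open Function Vale.Agent.P310h2

open scoped Classical

set_option linter.unusedSectionVars false

section Bisim

variable {V W : Type} [Fintype V] [Fintype W] {G : SimpleGraph V} {H : SimpleGraph W} {m : ℕ}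

/-- A relation on tuples that preserves atomic types and has the bijective step implies equal colours
in all rounds. -/
theorem eqvAll_of_bisim (R : (Fin m → V) → (Fin m → W) → Prop)
    (h0 : ∀ x y, R x y → ∀ i j, (x i = x j ↔ y i = y j) ∧ (G.Adj (x i) (x j) ↔ H.Adj (y i) (y j)))
    (hs : ∀ x y, R x y → ∃ f : V ≃ W, ∀ v i, R (update x i v) (update y i (f v))) :
    ∀ x y, R x y → EqvAll G H x y := by
  intro x y h r
  induction r generalizing x y with
  | zero =>
    funext i j
    simp only [wlColor]
    rw [propext (h0 x y h i j).1, propext (h0 x y h i j).2]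
  | succ r ih =>
    obtain ⟨f, hf⟩ := hs x y h
    simp only [wlColor]
    refine Prod.ext (ih x y h) ?_
    simp only
    have e : (Finset.univ : Finset W).val = Multiset.map f (Finset.univ : Finset V).val :=
      (Multiset.map_univ_val_equiv f).symm
    rw [e, Multiset.map_map]
    refine Multiset.map_congr rfl ?_
    intro v _
    funext i
    exact ih _ _ (hf v i)

/-- A bijection of tuples with equal colours gives equivalence. -/
theorem wlEquiv_of_equiv (σ : (Fin m → V) ≃ (Fin m → W)) (h : ∀ x, EqvAll G H x (σ x)) :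
    WLEquiv G H m := by
  intro r
  have e : (Finset.univ : Finset (Fin m → W)).val =
      Multiset.map σ (Finset.univ : Finset (Fin m → V)).val :=
    (Multiset.map_univ_val_equiv σ).symm
  rw [e, Multiset.map_map]
  exact Multiset.map_congr rfl (fun x _ => h x r)

end Bisim

section Map

variable {V V' W : Type} [Fintype V] [Fintype V'] [Fintype W]

/-- The relation for the direction from `G`, `H` to the padded graphs: the entries in the images are
matched by an equivalent pair of tuples, the others by `π`. -/
def PadRel (G : SimpleGraph V) (H : SimpleGraph V') (e : V ↪ W) (e2 : V' ↪ W)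
    (π : {w // w ∉ Set.range e} ≃ {w // w ∉ Set.range e2}) {m : ℕ}
    (x' : Fin m → W) (y' : Fin m → W) : Prop :=
  ∃ (x : Fin m → V) (y : Fin m → V'), EqvAll G H x y ∧ ∀ i,
    (x' i = e (x i) ∧ y' i = e2 (y i)) ∨
      ∃ (u : W) (hu : u ∉ Set.range e), x' i = u ∧ y' i = π ⟨u, hu⟩

theorem map_adj_left_not_range {G : SimpleGraph V} {e : V ↪ W} {u w : W}
    (hu : u ∉ Set.range e) : ¬ (G.map e).Adj u w := by
  intro h
  rw [SimpleGraph.map_adj] at h
  obtain ⟨a, b, _, h2, _⟩ := h
  exact hu ⟨a, h2⟩

theorem map_adj_right_not_range {G : SimpleGraph V} {e : V ↪ W} {u w : W}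
    (hu : u ∉ Set.range e) : ¬ (G.map e).Adj w u := by
  intro h
  rw [SimpleGraph.map_adj] at h
  obtain ⟨a, b, _, _, h2⟩ := h
  exact hu ⟨b, h2⟩

variable (G : SimpleGraph V) (H : SimpleGraph V') (e : V ↪ W) (e2 : V' ↪ W)
  (π : {w // w ∉ Set.range e} ≃ {w // w ∉ Set.range e2}) {m : ℕ}

theorem padRel_atomic {x' y' : Fin m → W} (h : PadRel G H e e2 π x' y') (i j : Fin m) :
    (x' i = x' j ↔ y' i = y' j) ∧ ((G.map e).Adj (x' i) (x' j) ↔ (H.map e2).Adj (y' i) (y' j)) := by
  obtain ⟨x, y, hxy, hc⟩ := h
  rcases hc i with ⟨h1, h2⟩ | ⟨u, hu, h1, h2⟩ <;> rcases hc j with ⟨h3, h4⟩ | ⟨u', hu', h3, h4⟩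
  · rw [h1, h2, h3, h4]
    simp only [e.injective.eq_iff, e2.injective.eq_iff, SimpleGraph.map_adj_apply]
    exact ⟨hxy.eq_iff i j, hxy.adj_iff i j⟩
  · constructor
    · rw [h1, h2, h3, h4]
      constructor
      · intro h5
        exact absurd ⟨_, h5⟩ hu'
      · intro h5
        exact absurd ⟨_, h5⟩ (π ⟨u', hu'⟩).2
    · rw [h1, h2, h3, h4]
      exact ⟨fun h5 => absurd h5 (map_adj_right_not_range hu'),
        fun h5 => absurd h5 (map_adj_right_not_range (π ⟨u', hu'⟩).2)⟩
  · constructor
    · rw [h1, h2, h3, h4]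
      constructor
      · intro h5
        exact absurd ⟨_, h5.symm⟩ hu
      · intro h5
        exact absurd ⟨_, h5.symm⟩ (π ⟨u, hu⟩).2
    · rw [h1, h2, h3, h4]
      exact ⟨fun h5 => absurd h5 (map_adj_left_not_range hu),
        fun h5 => absurd h5 (map_adj_left_not_range (π ⟨u, hu⟩).2)⟩
  · constructor
    · rw [h1, h2, h3, h4]
      constructor
      · intro h5
        subst h5
        rfl
      · intro h5
        have := π.injective (Subtype.ext h5)
        exact congrArg Subtype.val this
    · rw [h1, h2, h3, h4]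
      exact ⟨fun h5 => absurd h5 (map_adj_left_not_range hu),
        fun h5 => absurd h5 (map_adj_left_not_range (π ⟨u, hu⟩).2)⟩

/-- The extension of a bijection to the padded vertex types. -/
noncomputable def padEquiv (f : V ≃ V') : W ≃ W :=
  (Equiv.sumCompl (fun w => w ∈ Set.range e)).symm.trans
    ((Equiv.sumCongr ((Equiv.ofInjective e e.injective).symm.trans
        (f.trans (Equiv.ofInjective e2 e2.injective))) π).trans
      (Equiv.sumCompl (fun w => w ∈ Set.range e2)))

theorem padEquiv_apply_e (f : V ≃ V') (v : V) : padEquiv e e2 π f (e v) = e2 (f v) := by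
  have h : e v ∈ Set.range e := ⟨v, rfl⟩
  simp only [padEquiv, Equiv.trans_apply]
  rw [Equiv.sumCompl_symm_apply_of_pos h]
  simp only [Equiv.sumCongr_apply, Sum.map_inl, Equiv.trans_apply, Equiv.sumCompl_apply_inl]
  have h2 : (Equiv.ofInjective e e.injective).symm ⟨e v, h⟩ = v :=
    Equiv.ofInjective_symm_apply e.injective v
  rw [h2]
  rfl

theorem padEquiv_apply_not (f : V ≃ V') (u : W) (hu : u ∉ Set.range e) :
    padEquiv e e2 π f u = π ⟨u, hu⟩ := by
  simp only [padEquiv, Equiv.trans_apply]
  rw [Equiv.sumCompl_symm_apply_of_neg hu]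
  simp only [Equiv.sumCongr_apply, Sum.map_inr, Equiv.sumCompl_apply_inr]

theorem padRel_step {x' y' : Fin m → W} (h : PadRel G H e e2 π x' y') :
    ∃ F : W ≃ W, ∀ v i, PadRel G H e e2 π (update x' i v) (update y' i (F v)) := by
  obtain ⟨x, y, hxy, hc⟩ := h
  obtain ⟨f, hf⟩ := hxy.step
  refine ⟨padEquiv e e2 π f, ?_⟩
  intro v i
  by_cases hv : v ∈ Set.range e
  · obtain ⟨a, rfl⟩ := hv
    refine ⟨update x i a, update y i (f a), hf a i, ?_⟩
    intro j
    by_cases hj : j = i
    · subst hj
      left
      simp [padEquiv_apply_e]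
    · rcases hc j with ⟨h1, h2⟩ | ⟨u, hu, h1, h2⟩
      · left
        simpa [update_of_ne hj] using ⟨h1, h2⟩
      · right
        exact ⟨u, hu, by simpa [update_of_ne hj] using h1, by simpa [update_of_ne hj] using h2⟩
  · refine ⟨x, y, hxy, ?_⟩
    intro j
    by_cases hj : j = i
    · subst hj
      right
      exact ⟨v, hv, by simp, by simp [padEquiv_apply_not e e2 π f v hv]⟩
    · simpa [update_of_ne hj] using hc j

theorem padRel_eqvAll {x' y' : Fin m → W} (h : PadRel G H e e2 π x' y') :
    EqvAll (G.map e) (H.map e2) x' y' :=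
  eqvAll_of_bisim (PadRel G H e e2 π) (fun _ _ h i j => padRel_atomic G H e e2 π h i j)
    (fun _ _ h => padRel_step G H e e2 π h) _ _ h

end Map

section Forward

variable {V V' W : Type} [Fintype V] [Fintype V'] [Fintype W]
  (G : SimpleGraph V) (H : SimpleGraph V') (e : V ↪ W) (e2 : V' ↪ W)
  (π : {w // w ∉ Set.range e} ≃ {w // w ∉ Set.range e2}) {m : ℕ}

/-- The tuple of `V` with the entries outside the image replaced by a default `a`. -/
noncomputable def fillD (x' : Fin m → W) (a : V) : Fin m → V :=
  fun i => if h : x' i ∈ Set.range e then Classical.choose h else a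

theorem fillD_spec (x' : Fin m → W) (a : V) (i : Fin m)
    (h : x' i ∈ Set.range e) : e (fillD e x' a i) = x' i := by
  simp only [fillD, dif_pos h]
  exact Classical.choose_spec h

theorem fillD_off (x' : Fin m → W) (a : V) (i : Fin m)
    (h : x' i ∉ Set.range e) : fillD e x' a i = a := by
  simp only [fillD, dif_neg h]

/-- The first entry in the image, depending only on the pattern. -/
noncomputable def firstIn (P : Fin m → Prop) (h : ∃ j, P j) : Fin m := Classical.choose h

theorem firstIn_spec (P : Fin m → Prop) (h : ∃ j, P j) : P (firstIn P h) := Classical.choose_spec h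

/-- The padded tuple of a tuple `x'`, the default of the fill being the first entry in the image. -/
noncomputable def padTuple (σ : (Fin m → V) ≃ (Fin m → V')) (a0 : V) (x' : Fin m → W) : Fin m → W :=
  let P : Fin m → Prop := fun j => x' j ∈ Set.range e
  let a : V := if h : ∃ j, P j then Classical.choose (firstIn_spec P h) else a0
  fun i => if hi : x' i ∈ Set.range e then e2 (σ (fillD e x' a) i) else π ⟨x' i, hi⟩

theorem padTuple_rel (σ : (Fin m → V) ≃ (Fin m → V')) (hσ : ∀ x, EqvAll G H x (σ x)) (a0 : V)
    (x' : Fin m → W) : PadRel G H e e2 π x' (padTuple e e2 π σ a0 x') := by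
  set a : V := if h : ∃ j, x' j ∈ Set.range e then
    Classical.choose (firstIn_spec (fun j => x' j ∈ Set.range e) h) else a0 with ha
  refine ⟨fillD e x' a, σ (fillD e x' a), hσ _, ?_⟩
  intro i
  by_cases hi : x' i ∈ Set.range e
  · left
    refine ⟨(fillD_spec e x' a i hi).symm, ?_⟩
    simp only [padTuple, dif_pos hi]
    rfl
  · right
    refine ⟨x' i, hi, rfl, ?_⟩
    simp only [padTuple, dif_neg hi]

theorem padTuple_mem_iff (σ : (Fin m → V) ≃ (Fin m → V')) (a0 : V) (x' : Fin m → W) (i : Fin m) :
    padTuple e e2 π σ a0 x' i ∈ Set.range e2 ↔ x' i ∈ Set.range e := by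
  by_cases hi : x' i ∈ Set.range e
  · simp only [padTuple, dif_pos hi, hi, iff_true]
    exact ⟨_, rfl⟩
  · simp only [padTuple, dif_neg hi, hi, iff_false]
    exact (π ⟨x' i, hi⟩).2

theorem padTuple_injective (σ : (Fin m → V) ≃ (Fin m → V')) (hσ : ∀ x, EqvAll G H x (σ x)) (a0 : V) :
    Injective (padTuple (m := m) e e2 π σ a0) := by
  intro x1 x2 h
  have hp : ∀ i, x1 i ∈ Set.range e ↔ x2 i ∈ Set.range e := by
    intro i
    rw [← padTuple_mem_iff e e2 π σ a0 x1 i, h, padTuple_mem_iff e e2 π σ a0 x2 i]
  have hP : (fun j => x1 j ∈ Set.range e) = (fun j => x2 j ∈ Set.range e) :=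
    funext fun j => propext (hp j)
  have hoff : ∀ i, x1 i ∉ Set.range e → x1 i = x2 i := by
    intro i hi
    have hi2 : x2 i ∉ Set.range e := fun h2 => hi ((hp i).2 h2)
    have := congrFun h i
    simp only [padTuple, dif_neg hi, dif_neg hi2] at this
    have h3 := π.injective (Subtype.ext this)
    exact congrArg Subtype.val h3
  by_cases hex : ∃ j, x1 j ∈ Set.range e
  · -- the first entry in the image is the same for both
    have hex2 : ∃ j, x2 j ∈ Set.range e := by
      obtain ⟨j, hj⟩ := hex
      exact ⟨j, (hp j).1 hj⟩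
    have hj : firstIn (fun j => x1 j ∈ Set.range e) hex = firstIn (fun j => x2 j ∈ Set.range e) hex2 := by
      congr 1
    set j0 := firstIn (fun j => x1 j ∈ Set.range e) hex with hj0
    have hj1 : x1 j0 ∈ Set.range e := firstIn_spec _ hex
    have hj2 : x2 j0 ∈ Set.range e := (hp j0).1 hj1
    set a1 : V := Classical.choose hj1 with ha1
    have ha1e : e a1 = x1 j0 := Classical.choose_spec hj1
    have hspec2 : x2 (firstIn (fun j => x2 j ∈ Set.range e) hex2) ∈ Set.range e := firstIn_spec _ hex2
    set a2 : V := Classical.choose hspec2 with ha2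
    have ha2e : e a2 = x2 j0 :=
      (Classical.choose_spec hspec2).trans (congrArg x2 hj.symm)
    -- the tuples
    have hT1 : padTuple e e2 π σ a0 x1 = fun i => if hi : x1 i ∈ Set.range e then
        e2 (σ (fillD e x1 a1) i) else π ⟨x1 i, hi⟩ := by
      funext i
      simp only [padTuple]
      rw [dif_pos hex]
    have hT2 : padTuple e e2 π σ a0 x2 = fun i => if hi : x2 i ∈ Set.range e then
        e2 (σ (fillD e x2 a2) i) else π ⟨x2 i, hi⟩ := by
      funext i
      simp only [padTuple]
      rw [dif_pos hex2]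
    -- agreement of the images on the pattern
    have hag : ∀ i, x1 i ∈ Set.range e → σ (fillD e x1 a1) i = σ (fillD e x2 a2) i := by
      intro i hi
      have hi2 := (hp i).1 hi
      have := congrFun h i
      rw [hT1, hT2] at this
      simp only [dif_pos hi, dif_pos hi2] at this
      exact e2.injective this
    -- the entries at the default equal the entry at `j0`
    have hy : σ (fillD e x1 a1) = σ (fillD e x2 a2) := by
      funext i
      by_cases hi : x1 i ∈ Set.range e
      · exact hag i hi
      · have hi2 : x2 i ∉ Set.range e := fun h2 => hi ((hp i).2 h2)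
        have e1 : σ (fillD e x1 a1) i = σ (fillD e x1 a1) j0 := by
          have h5 : fillD e x1 a1 i = fillD e x1 a1 j0 := by
            rw [fillD_off e x1 a1 i hi]
            apply e.injective
            rw [fillD_spec e x1 a1 j0 hj1, ha1e]
          exact ((hσ _).eq_iff i j0).1 h5
        have e2' : σ (fillD e x2 a2) i = σ (fillD e x2 a2) j0 := by
          have h5 : fillD e x2 a2 i = fillD e x2 a2 j0 := by
            rw [fillD_off e x2 a2 i hi2]
            apply e.injective
            rw [fillD_spec e x2 a2 j0 hj2, ha2e]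
          exact ((hσ _).eq_iff i j0).1 h5
        rw [e1, e2', hag j0 hj1]
    have hx : fillD e x1 a1 = fillD e x2 a2 := σ.injective hy
    funext i
    by_cases hi : x1 i ∈ Set.range e
    · have hi2 := (hp i).1 hi
      rw [← fillD_spec e x1 a1 i hi, ← fillD_spec e x2 a2 i hi2, hx]
    · exact hoff i hi
  · funext i
    exact hoff i (fun hi => hex ⟨i, hi⟩)

end Forward

section Back

variable {V V' W : Type} [Fintype V] [Fintype V'] [Fintype W]
  {G : SimpleGraph V} {H : SimpleGraph V'} {e : V ↪ W} {e2 : V' ↪ W} {m : ℕ}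

/-- The vertices not in the image have degree zero. -/
theorem dg_map_not_range {G : SimpleGraph V} {e : V ↪ W} {u : W} (hu : u ∉ Set.range e) :
    dg (G.map e) u = 0 := by
  have : IsEmpty {w // (G.map e).Adj u w} := ⟨fun w => map_adj_left_not_range hu w.2⟩
  simp only [dg]
  exact Nat.card_of_isEmpty

/-- The vertices in the image of a vertex with a neighbour have positive degree. -/
theorem dg_map_pos {G : SimpleGraph V} {e : V ↪ W} (hG : ∀ v, ∃ w, G.Adj v w) (a : V) :
    0 < dg (G.map e) (e a) := by
  obtain ⟨b, hb⟩ := hG a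
  have : Nonempty {w // (G.map e).Adj (e a) w} :=
    ⟨⟨e b, (SimpleGraph.map_adj_apply (f := e)).2 hb⟩⟩
  simp only [dg]
  exact Nat.card_pos

theorem eqvAll_mem_range (hG : ∀ v, ∃ w, G.Adj v w) (hm : 2 ≤ m) {x' y' : Fin m → W}
    (h : EqvAll (G.map e) (H.map e2) x' y') (i : Fin m) (hi : x' i ∈ Set.range e) :
    y' i ∈ Set.range e2 := by
  by_contra hn
  obtain ⟨a, ha⟩ := hi
  have h1 := h.dg_eq hm i
  rw [← ha, dg_map_not_range hn] at h1
  have := dg_map_pos (e := e) hG a
  omega

/-- The relation for the direction from the padded graphs to `G`, `H`. -/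
def BackRel (G : SimpleGraph V) (H : SimpleGraph V') (e : V ↪ W) (e2 : V' ↪ W)
    (x : Fin m → V) (y : Fin m → V') : Prop :=
  EqvAll (G.map e) (H.map e2) (e ∘ x) (e2 ∘ y)

theorem backRel_atomic {x : Fin m → V} {y : Fin m → V'} (h : BackRel G H e e2 x y) (i j : Fin m) :
    (x i = x j ↔ y i = y j) ∧ (G.Adj (x i) (x j) ↔ H.Adj (y i) (y j)) := by
  constructor
  · have := EqvAll.eq_iff h i j
    simpa [e.injective.eq_iff, e2.injective.eq_iff] using this
  · have := EqvAll.adj_iff h i j
    simpa [SimpleGraph.map_adj_apply] using this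

theorem backRel_step (hG : ∀ v, ∃ w, G.Adj v w) (hc : Fintype.card V = Fintype.card V')
    (hm : 2 ≤ m) {x : Fin m → V} {y : Fin m → V'} (h : BackRel G H e e2 x y) :
    ∃ f : V ≃ V', ∀ v i, BackRel G H e e2 (update x i v) (update y i (f v)) := by
  obtain ⟨F, hF⟩ := EqvAll.step h
  have hmem : ∀ a : V, F (e a) ∈ Set.range e2 := by
    intro a
    have i : Fin m := ⟨0, by omega⟩
    have := eqvAll_mem_range hG hm (hF (e a) i) i (by simp)
    simpa using this
  choose f0 hf0 using hmem
  have hinj : Injective f0 := by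
    intro a b hab
    apply e.injective
    apply F.injective
    rw [← hf0 a, ← hf0 b, hab]
  have hbij : Bijective f0 := (Fintype.bijective_iff_injective_and_card f0).2 ⟨hinj, hc⟩
  refine ⟨Equiv.ofBijective f0 hbij, ?_⟩
  intro v i
  have h1 := hF (e v) i
  have e1 : e ∘ update x i v = update (e ∘ x) i (e v) := comp_update _ _ _ _
  have e2' : e2 ∘ update y i (f0 v) = update (e2 ∘ y) i (F (e v)) := by
    rw [comp_update, hf0]
  simp only [BackRel, Equiv.ofBijective_apply]
  rw [e1, e2']
  exact h1

theorem backRel_eqvAll (hG : ∀ v, ∃ w, G.Adj v w) (hc : Fintype.card V = Fintype.card V')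
    (hm : 2 ≤ m) {x : Fin m → V} {y : Fin m → V'} (h : BackRel G H e e2 x y) : EqvAll G H x y :=
  eqvAll_of_bisim (BackRel G H e e2) (fun _ _ h i j => backRel_atomic h i j)
    (fun _ _ h => backRel_step hG hc hm h) _ _ h

end Back

/-- Padding with isolated vertices preserves and reflects `m`-dimensional equivalence (`m ≥ 2`) of
graphs without isolated vertices and with equally many vertices. -/
theorem wlEquiv_map_iff {V V' W : Type} [Fintype V] [Fintype V'] [Fintype W] (G : SimpleGraph V)
    (H : SimpleGraph V') (e : V ↪ W) (e2 : V' ↪ W) (hc : Fintype.card V = Fintype.card V')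
    (hG : ∀ v, ∃ w, G.Adj v w) (hH : ∀ v, ∃ w, H.Adj v w) {m : ℕ} (hm : 2 ≤ m) :
    WLEquiv (G.map e) (H.map e2) m ↔ WLEquiv G H m := by
  constructor
  · intro h
    obtain ⟨τ, hτ⟩ := exists_tuple_equiv h
    have hmem : ∀ (x : Fin m → V) (i : Fin m), τ (e ∘ x) i ∈ Set.range e2 := by
      intro x i
      exact eqvAll_mem_range hG hm (hτ (e ∘ x)) i ⟨x i, rfl⟩
    choose s hs using hmem
    have hinj : Injective s := by
      intro x1 x2 h12
      have h1 : τ (e ∘ x1) = τ (e ∘ x2) := by
        funext i
        rw [← hs x1 i, ← hs x2 i, h12]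
      have h2 := τ.injective h1
      funext i
      exact e.injective (congrFun h2 i)
    have hcard : Fintype.card (Fin m → V) = Fintype.card (Fin m → V') := by
      simp only [Fintype.card_fun, Fintype.card_fin, hc]
    have hbij : Bijective s := (Fintype.bijective_iff_injective_and_card s).2 ⟨hinj, hcard⟩
    refine wlEquiv_of_equiv (Equiv.ofBijective s hbij) ?_
    intro x
    refine backRel_eqvAll (e := e) (e2 := e2) hG hc hm ?_
    simp only [BackRel, Equiv.ofBijective_apply]
    have e3 : e2 ∘ s x = τ (e ∘ x) := by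
      funext i
      exact hs x i
    rw [e3]
    exact hτ _
  · intro h
    have hW : Fintype.card {w // w ∉ Set.range e} = Fintype.card {w // w ∉ Set.range e2} := by
      have h1 : Fintype.card {w // w ∈ Set.range e} = Fintype.card V :=
        (Fintype.card_congr (Equiv.ofInjective e e.injective)).symm
      have h2 : Fintype.card {w // w ∈ Set.range e2} = Fintype.card V' :=
        (Fintype.card_congr (Equiv.ofInjective e2 e2.injective)).symm
      rw [Fintype.card_subtype_compl (fun w => w ∈ Set.range e),
        Fintype.card_subtype_compl (fun w => w ∈ Set.range e2), h1, h2, hc]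
    let π : {w // w ∉ Set.range e} ≃ {w // w ∉ Set.range e2} := Fintype.equivOfCardEq hW
    by_cases hne : Nonempty V
    · obtain ⟨a0⟩ := hne
      obtain ⟨σ, hσ⟩ := exists_tuple_equiv h
      have hinj := padTuple_injective G H e e2 π σ hσ a0
      have hbij : Bijective (padTuple e e2 π σ a0) :=
        Finite.injective_iff_bijective.1 hinj
      refine wlEquiv_of_equiv (Equiv.ofBijective _ hbij) ?_
      intro x'
      exact padRel_eqvAll G H e e2 π (padTuple_rel G H e e2 π σ hσ a0 x')
    · have hV : IsEmpty V := not_nonempty_iff.mp hne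
      have hV' : IsEmpty V' :=
        Fintype.card_eq_zero_iff.mp (by rw [← hc]; exact Fintype.card_eq_zero_iff.mpr hV)
      have e1 : G.map e = ⊥ := by
        ext a b
        simp only [SimpleGraph.map_adj, SimpleGraph.bot_adj, iff_false]
        rintro ⟨u, _⟩
        exact hV.false u
      have e2' : H.map e2 = ⊥ := by
        ext a b
        simp only [SimpleGraph.map_adj, SimpleGraph.bot_adj, iff_false]
        rintro ⟨u, _⟩
        exact hV'.false u
      rw [e1, e2']
      intro r
      rfl

end Vale.Agent.P310d
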