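import Vale.Agent.P310d.SymE
import Vale.Agent.P310d.WLMap
import Vale.Agent.P310d.NoIso
import Vale.Agent.P310d.TabOk
import Vale.Agent.P310d.AuxTab
import Vale.Agent.P310d.ProgAcc
import Vale.Agent.P310d.SizeCirc

/-!
# No machine decides equivalence within a small power of the number of vertices
-/

namespace Vale.Agent.P310d

open Function Vale.Agent.P310y Vale.Agent.P310h2

open scoped Classical

set_option linter.unusedSectionVars false

variable {F : Type} [AddCommGroup F] [Module (ZMod 2) F] [Fintype F] {s : ℕ} (A : Alph F s)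

theorem vars_nonempty {K xe : ℕ} (P : Prog K xe s (NN s) F) (hK : 0 < K) (c : GItem P.gs) : (P.gs.xs.vars c).Nonempty := by
  have h := slot_ok P hK
  refine ⟨slotF P hK c 0, (h.mem c _).2 ⟨0, ?_, rfl⟩⟩
  cases c with
  | e p b β hh =>
    simp only [nvF]
    split_ifs <;> omega
  | h b =>
    simp only [nvF]
    omega

/-- The main step. -/
theorem no_decide {K xe m g C n0 : ℕ} {Q Γ : Type} (M : TM Q Γ) {cS : Sym Q Γ → F}
    {cT : Sym Q Γ × Sym Q Γ × Sym Q Γ → F} (hS : Injective cS) (hT : Injective cT)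
    (hs : 60 < s) (hxe : xe ≤ 1) (hK : 0 < K) (hm : 83 ≤ m) (h6 : 6 * K + 3 * xe + 12 ≤ s) (hp : 2 ^ (2 * K + xe + 4) ≤ s)
    (hKd : 4 * m + 30 + Exp.dp (symE A M cS K xe m) ≤ K)
    (hlen : tabLen m + 2 * Exp.len (symE A M cS K xe m) < s)
    (hrb : Exp.Rb (2 * m + 3) (symE A M cS K xe m))
    (hC : C * (s ^ 41) ^ g ≤ s ^ m - 1) (hn0 : n0 ≤ s ^ 41) (hw : 2 * s ^ 41 * s ^ 41 ≤ s ^ m) :
    ¬ DecidesWithin M (2 * K + xe) C n0 g := by
  intro hdec
  have hKs : K ≤ s := by omega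
  have hp1 : 2 ^ (2 * K + xe) < s := by
    have h1 : 2 ^ (2 * K + xe) < 2 ^ (2 * K + xe + 4) := Nat.pow_lt_pow_right (by omega) (by omega)
    omega
  have cdi : Injective (cdOf A (K := K) (xe := xe)) := cdOf_inj A (by omega) hKs h6
  set sE := symE A M cS K xe m with hsE
  set cW := cS Sym.wall with hcW
  set cB := cS (Sym.pl M.blank) with hcB
  set l := tabStmts A m sE cW cB with hl
  have hP : POk A l (2 * m + 3) K 29 := tab_pok A (by omega) (by omega) hKs hrb hKd hlen
  set ac := A.num (addr l 29) with hac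
  set aux := auxT A M cS cT ac with haux
  set code := codeOf (2 * m + 3) l with hcode
  set D := codeTab A code aux with hD
  have hTab : TabAux A aux M cS cT := auxT_tab hs hS hT
  have hStd : Std A D := auxT_std hs hS hT code
  have hCT : CTab A D ac := auxT_ctab hs code
  have hW : (PP A D ac cdi (s ^ 15)).gs.xs.bnd + 2 ≤ s ^ 15 := bnd_le A D ac cdi hp (by omega)
  set G0 := Gr hKs h6 hK hp1.le hStd.hs hW false with hG0
  set G1 := Gr hKs h6 hK hp1.le hStd.hs hW true with hG1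
  set w := encPair G0 G1 with hwd
  have hwlen : w.length ≤ s ^ m := by
    rw [hwd, encPair_length]
    exact hw
  have hsym : ∀ (c : ℕ) (ρ : ℕ → F), c < s ^ (m + 1) → (∀ j, j ≤ m → ρ j = A.num (dgt s c j)) →
      Vl A m sE aux cW cB sE ρ = cS (Sym.pl ((M.init w).tape c)) := fun c ρ hc hρ =>
    sym_spec M cS hStd hCT hxe hKs h6 hK hp1 hW (by omega) hc ρ hρ
  have hmain := tab_main hP hTab hrb hsym rfl rfl hwlen (by omega)
  set P := PP A D ac cdi (s ^ 15) with hPd
  have hacc : Ac A m sE K aux cW cB 0 (fun _ => 0) ↔ P.Acc P.s0 P.c0 := by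
    have e0 : P.c0 = wd K (fun _ => (0 : F)) := rfl
    have e1 : P.s0 = A.nm (A.num 0) := by
      show A.nm 0 = _
      rw [A.num_zero]
    rw [e1, e0, prog_acc A D ac cdi (s ^ 15)]
    show AccL A D (A.num 0) ac (A.num (addr l 0)) _ ↔ _
    rw [show addr l 0 = 0 from rfl]
  have hwl := P.main hK
  have hnv : ∀ c, (P.gs.xs.vars c).Nonempty := vars_nonempty P hK
  have hcard : Fintype.card (P.gs.xs.Vtx false) = Fintype.card (P.gs.xs.Vtx true) := by
    rw [← Nat.card_eq_fintype_card, ← Nat.card_eq_fintype_card]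
    exact XS.card_eq hnv
  have hmap : WLEquiv G0 G1 (2 * K + xe) ↔ WLEquiv (P.gs.xs.graph false) (P.gs.xs.graph true) (2 * K + xe) :=
    wlEquiv_map_iff _ _ _ _ hcard (xs_graph_no_isolated _ _) (xs_graph_no_isolated _ _) (by omega)
  obtain ⟨t, ht, h⟩ := hdec (s ^ 41) hn0 G0 G1
  rcases h with ⟨h1, h2⟩ | ⟨h1, h2⟩
  · have h3 : (M.run w (s ^ m - 1)).state = M.accept := by
      rw [M.run_stays (le_trans ht hC) (Or.inl h1)]
      exact h1
    have h4 := hwl.1 (hacc.1 (hmain.2 h3))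
    exact h4 (hmap.1 h2)
  · have h3 : (M.run w (s ^ m - 1)).state = M.reject := by
      rw [M.run_stays (le_trans ht hC) (Or.inr h1)]
      exact h1
    apply h2
    apply hmap.2
    by_contra h4
    have h5 := hmain.1 (hacc.2 (hwl.2 h4))
    rw [h3] at h5
    exact M.accept_ne_reject h5.symm

section sizes

variable {Q Γ : Type} (M : TM Q Γ) (cS : Sym Q Γ → F)

theorem rb_symE {K xe m : ℕ} (hm : 83 ≤ m) : Exp.Rb (2 * m + 3) (symE A M cS K xe m) := by
  unfold symE
  simp only [rb_if, rb_and, rb_lt]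
  refine ⟨⟨⟨?_, trivial⟩, rb_allEq (by omega)⟩, ⟨rb_adjE A _ _ _ _ (by omega) (by omega) (by omega), trivial,
    trivial⟩, trivial⟩
  show 82 < 2 * m + 3
  omega

theorem dp_symE {K xe m : ℕ} (hm : 83 ≤ m) : Exp.dp (symE A M cS K xe m) ≤ 2 * m + dpAdj + 20 := by
  unfold symE
  have h1 := dp_allEq (A := A) 83 (m - 82) 0
  have h2 := dp_adjE A K xe 41 0 82
  simp only [dp_if, dp_and]
  have e1 : Exp.dp (eLt (Exp.reg 82) (eN A 2)) = 2 := rfl
  have e2 : ∀ a : F, Exp.dp (Exp.lit a) = 0 := fun _ => rfl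
  rw [e1]
  simp only [e2]
  omega

theorem len_allEq' (base n : ℕ) (v : F) : Exp.len (eAllEq A base n v) = 9 * n + 1 := by
  induction n with
  | zero => rfl
  | succ n ih =>
    simp only [eAllEq]
    show (1 + (1 + 1) + 3) + Exp.len (eAllEq A base n v) + 3 = _
    rw [ih]
    ring

/-- The bound of the length. -/
def lenSym (m : ℕ) : ℕ := 2 * (9 * m + 100) + 2 * lenAdj + 100

theorem len_symE {K xe m : ℕ} (hm : 83 ≤ m) : Exp.len (symE A M cS K xe m) ≤ lenSym m := by
  unfold symE lenSym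
  have h1 := len_allEq' A 83 (m - 82) 0
  have h2 := len_adjE A K xe 41 0 82
  have e0 : ∀ p x y : Exp F, Exp.len (eIf A p x y) = 2 * Exp.len p + Exp.len x + Exp.len y + 10 := by
    intro p x y
    show (Exp.len p + Exp.len x + 3) + ((1 + Exp.len p + 3) + Exp.len y + 3) = _
    ring
  rw [e0, e0]
  have e1 : Exp.len (eAnd (eLt (Exp.reg 82) (eN A 2)) (eAllEq A 83 (m - 82) 0)) =
      (1 + 1 + 3) + Exp.len (eAllEq A 83 (m - 82) 0) + 3 := rfl
  rw [e1, h1]
  have e2 : ∀ a : F, Exp.len (Exp.lit a) = 1 := fun _ => rfl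
  simp only [e2]
  omega

end sizes

end Vale.Agent.P310d
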