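import Vale.Agent.P310d.Circ

/-!
# Which letters are the letters of a gadget
-/

namespace Vale.Agent.P310d

open Function Vale.Agent.P310y

open scoped Classical

set_option linter.unusedSectionVars false

variable {F : Type} [AddCommGroup F] [Module (ZMod 2) F] {s K xe : ℕ} (A : Alph F s)

/-- The letters of a gadget: the plain condition. -/
def GadOk (K xe : ℕ) (u : ℕ → F) : Prop :=
  nmv A (u 1) < 10 ∧
  (if nmv A (u 1) = 9 then u 2 = 0 else nmv A (u 2) < 3) ∧
  (nmv A (u 1) = 2 ∨ nmv A (u 1) = 3 ∨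
    (if nmv A (u 1) = 6 then nmv A (u 6) < 6 * K + 3 * xe + 11 else u 6 = 0)) ∧
  (if nmv A (u 1) < 2 then u 10 = 0 ∧ u 11 = 0
    else if nmv A (u 1) = 3 ∨ nmv A (u 1) = 4 then
      (nmv A (u 11) < 2 ∧ (u 10 = 0 ∨ (u 10 = A.num 1 ∧ ∀ i, i < 3 → u (7 + i) = 0)))
    else ∀ i, i < 5 → u (7 + i) = 0)

variable {A}

theorem num_eq_iff_nmv {a : F} {n : ℕ} (hn : n < s) : a = A.num n ↔ nmv A a = n := by
  constructor
  · rintro rfl
    exact A.nm_num hn
  · rintro rfl
    exact (A.num_nm a).symm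

theorem nmv_num {n : ℕ} (hn : n < s) : nmv A (A.num n : F) = n := A.nm_num hn

theorem nmv_zero (hs : 0 < s) : nmv A (0 : F) = 0 := by
  have := nmv_num (A := A) hs
  rwa [A.num_zero] at this

/-- The letters of a number of a copy in the range. -/
theorem chain_ok (hs : 60 < s) {i : ℕ} (hi : i < 2 * NN s + 2) :
    nmv A (chD A i 4) < 2 ∧ (chD A i 3 = 0 ∨ (chD A i 3 = A.num 1 ∧ ∀ f, f < 3 → chD A i f = 0)) := by
  by_cases h : i < 2 * NN s
  · rw [chD_low4 h, chD_low3 h, nmv_num (Nat.lt_of_lt_of_le (Nat.mod_lt _ (by omega)) (by omega))]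
    exact ⟨Nat.mod_lt _ (by omega), Or.inl rfl⟩
  · rw [chD_high4 h, chD_high3 h, nmv_num (by omega)]
    exact ⟨by omega, Or.inr ⟨rfl, fun f hf => chD_high h hf⟩⟩

/-- The letters of a rule. -/
theorem chD_rule (r : Fin (NN s)) {e : ℕ} (he : e < 2) :
    chD A (2 * r.val + e) 0 = A.rc r ∧ chD A (2 * r.val + e) 1 = A.ra r ∧
      chD A (2 * r.val + e) 2 = A.rpc r := by
  have hlt : 2 * r.val + e < 2 * NN s := by have := r.isLt; omega
  have e1 : (2 * r.val + e) / 2 = r.val := by omega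
  rw [chD_low hlt (by omega), chD_low hlt (by omega), chD_low hlt (by omega), e1, ← ra_eq, ← rc_eq,
    ← rpc_eq]
  exact ⟨rfl, rfl, rfl⟩

/-- Letters of a number of a copy. -/
theorem chain_low (hs : 60 < s) {u : ℕ → F} (h3 : u 10 = 0) {e : ℕ} (he : e < 2)
    (h4 : u 11 = A.num e) :
    ∃ r : Fin (NN s), ∀ f, f < 5 → u (7 + f) = chD A (2 * r.val + e) f := by
  refine ⟨A.mkr (u 9) (u 8) (u 7), ?_⟩
  have hlt : 2 * (A.mkr (u 9) (u 8) (u 7)).val + e < 2 * NN s := by
    have : (A.mkr (u 9) (u 8) (u 7)).val < NN s := (A.mkr (u 9) (u 8) (u 7)).isLt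
    omega
  obtain ⟨e0, e1, e2⟩ := chD_rule (A := A) (A.mkr (u 9) (u 8) (u 7)) he
  rw [Alph.rc_mkr] at e0
  rw [Alph.ra_mkr] at e1
  rw [Alph.rpc_mkr] at e2
  intro f hf
  have hf5 : f = 0 ∨ f = 1 ∨ f = 2 ∨ f = 3 ∨ f = 4 := by omega
  rcases hf5 with rfl | rfl | rfl | rfl | rfl
  · exact e0.symm
  · exact e1.symm
  · exact e2.symm
  · rw [chD_low3 hlt]
    exact h3
  · rw [chD_low4 hlt]
    show u 11 = _
    rw [h4]
    congr 1
    omega

/-- Letters in the range are the letters of a number of a copy. -/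
theorem chain_dec (hs : 60 < s) {u : ℕ → F} (h4 : nmv A (u 11) < 2)
    (h3 : u 10 = 0 ∨ (u 10 = A.num 1 ∧ ∀ i, i < 3 → u (7 + i) = 0)) :
    ∃ i, i < 2 * NN s + 2 ∧ ∀ f, f < 5 → u (7 + f) = chD A i f := by
  have e4 : u 11 = A.num (nmv A (u 11)) := (A.num_nm _).symm
  rcases h3 with h3 | ⟨h3, h5⟩
  · obtain ⟨r, hr⟩ := chain_low hs h3 h4 e4
    exact ⟨2 * r.val + nmv A (u 11), by have := r.isLt; omega, hr⟩
  · refine ⟨2 * NN s + nmv A (u 11), by omega, ?_⟩
    have hge : ¬ 2 * NN s + nmv A (u 11) < 2 * NN s := by omega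
    intro f hf
    have hf5 : f < 3 ∨ f = 3 ∨ f = 4 := by omega
    rcases hf5 with hf3 | rfl | rfl
    · rw [chD_high hge hf3]
      exact h5 f hf3
    · rw [chD_high3 hge]
      exact h3
    · rw [chD_high4 hge]
      show u 11 = _
      rw [show 2 * NN s + nmv A (u 11) - 2 * NN s = nmv A (u 11) by omega]
      exact e4

/-- The letters of a gadget satisfy the condition. -/
theorem gadOk_of (hs : 60 < s) (h6 : 6 * K + 3 * xe + 12 ≤ s) {u : ℕ → F} {b : Gad s (NN s) K xe}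
    (hu : GadL A u b) : GadOk A K xe u := by
  have hs0 : 0 < s := by omega
  have hg : nmv A (u 1) = gadK b := by
    rw [hu.g]
    exact nmv_num (by have := mk_lt_gadK b; omega)
  have hτ : nmv A (u 2) = (gadTau b).val := by
    rw [hu.τ]
    exact nmv_num (by have := (gadTau b).isLt; omega)
  have ht := hu.t
  have hch := hu.ch
  have hτ3 := (gadTau b).isLt
  have hz : gadC b = 0 → ∀ i, i < 5 → u (7 + i) = 0 := by
    intro h i hi
    rw [hch i hi, h, chD_zero hs0]
  unfold GadOk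
  rw [hg, hτ]
  rcases b with ⟨l, τ⟩ | τ | _
  · cases l with
    | orR r =>
      have hlt : 2 * r.val < 2 * NN s := by have := r.isLt; omega
      have h10 : u 10 = 0 := (hch 3 (by omega)).trans (chD_low3 hlt)
      have h11 : u 11 = 0 := by
        refine (hch 4 (by omega)).trans ((chD_low4 hlt).trans ?_)
        rw [Nat.mul_mod_right, A.num_zero]
      simp only [gadK, lamK]
      norm_num
      exact ⟨ht, h10, h11⟩
    | andR r =>
      have hlt : 2 * r.val < 2 * NN s := by have := r.isLt; omega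
      have h10 : u 10 = 0 := (hch 3 (by omega)).trans (chD_low3 hlt)
      have h11 : u 11 = 0 := by
        refine (hch 4 (by omega)).trans ((chD_low4 hlt).trans ?_)
        rw [Nat.mul_mod_right, A.num_zero]
      simp only [gadK, lamK]
      norm_num
      exact ⟨ht, h10, h11⟩
    | cz t =>
      simp only [gadK, lamK]
      norm_num
      exact hz rfl
    | cs t i =>
      simp only [gadK, lamK]
      norm_num
      have h1 := chain_ok (A := A) hs (i := i.val) i.isLt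
      have e10 : u 10 = chD A i.val 3 := hch 3 (by omega)
      have e11 : u 11 = chD A i.val 4 := hch 4 (by omega)
      rw [e10, e11]
      refine ⟨by have := h1.1; omega, ?_⟩
      rcases h1.2 with h2 | ⟨h2, h3⟩
      · exact Or.inl h2
      · exact Or.inr ⟨h2, fun j hj => (hch j (by omega)).trans (h3 j hj)⟩
    | us r σ =>
      simp only [gadK, lamK]
      norm_num
      have hlt : 2 * r.val + (if σ then 1 else 0) < 2 * NN s + 2 := by
        have := r.isLt
        split_ifs <;> omega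
      have h1 := chain_ok (A := A) hs hlt
      have e10 : u 10 = chD A (2 * r.val + (if σ then 1 else 0)) 3 := hch 3 (by omega)
      have e11 : u 11 = chD A (2 * r.val + (if σ then 1 else 0)) 4 := hch 4 (by omega)
      rw [e10, e11]
      refine ⟨ht, by have := h1.1; omega, ?_⟩
      rcases h1.2 with h2 | ⟨h2, h3⟩
      · exact Or.inl h2
      · exact Or.inr ⟨h2, fun j hj => (hch j (by omega)).trans (h3 j hj)⟩
    | bas =>
      simp only [gadK, lamK]
      norm_num
      exact ⟨ht, hz rfl⟩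
    | del j =>
      simp only [gadK, lamK]
      norm_num
      refine ⟨?_, hz rfl⟩
      have e1 : u 6 = A.num j.val := ht
      rw [e1, nmv_num (by have := j.isLt; omega)]
      exact j.isLt
    | las =>
      simp only [gadK, lamK]
      norm_num
      exact ⟨ht, hz rfl⟩
  · simp only [gadK]
    norm_num
    exact ⟨ht, hz rfl⟩
  · simp only [gadK]
    norm_num
    refine ⟨?_, ht, hz rfl⟩
    have := hu.τ
    rw [show (gadTau (Gad.tw : Gad s (NN s) K xe)).val = 0 from rfl, A.num_zero] at this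
    exact this

/-- Letters satisfying the condition are the letters of a gadget. -/
theorem exists_of_gadOk (hs : 60 < s) (h6 : 6 * K + 3 * xe + 12 ≤ s) {u : ℕ → F} (h : GadOk A K xe u) :
    ∃ b : Gad s (NN s) K xe, GadL A u b := by
  have hs0 : 0 < s := by omega
  obtain ⟨h1, h2, h3, h4⟩ := h
  have eg : u 1 = A.num (nmv A (u 1)) := (A.num_nm _).symm
  have ez : ∀ τ, nmv A (u 2) = τ → u 2 = A.num τ := fun τ h => by
    rw [← h]
    exact (A.num_nm _).symm
  generalize nmv A (u 1) = g at *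
  have hz0 : (∀ i, i < 5 → u (7 + i) = 0) → ∀ f, f < 5 → u (7 + f) = chD A 0 f := by
    intro hv f hf
    rw [hv f hf, chD_zero hs0]
  have hg : g = 0 ∨ g = 1 ∨ g = 2 ∨ g = 3 ∨ g = 4 ∨ g = 5 ∨ g = 6 ∨ g = 7 ∨ g = 8 ∨ g = 9 := by
    omega
  rcases hg with rfl | rfl | rfl | rfl | rfl | rfl | rfl | rfl | rfl | rfl
  · norm_num at h2 h3 h4
    obtain ⟨r, hr⟩ := chain_low (A := A) hs h4.1 (e := 0) (by omega)
      (by rw [A.num_zero]; exact h4.2)
    exact ⟨Gad.tri (Lam.orR r) ⟨_, h2⟩, eg, ez _ rfl, h3, hr⟩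
  · norm_num at h2 h3 h4
    obtain ⟨r, hr⟩ := chain_low (A := A) hs h4.1 (e := 0) (by omega)
      (by rw [A.num_zero]; exact h4.2)
    exact ⟨Gad.tri (Lam.andR r) ⟨_, h2⟩, eg, ez _ rfl, h3, hr⟩
  · norm_num at h2 h3 h4
    refine ⟨Gad.tri (Lam.cz (A.nm (u 6))) ⟨_, h2⟩, eg, ez _ rfl, ?_, hz0 h4⟩
    simp [gadT, lamT, stL]
  · norm_num at h2 h3 h4
    obtain ⟨i, hi, hr⟩ := chain_dec (A := A) hs (by have := h4.1; omega) h4.2
    refine ⟨Gad.tri (Lam.cs (A.nm (u 6)) ⟨i, hi⟩) ⟨_, h2⟩, eg, ez _ rfl, ?_, hr⟩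
    simp [gadT, lamT, stL]
  · norm_num at h2 h3 h4
    obtain ⟨i, hi, hr⟩ := chain_dec (A := A) hs (by have := h4.1; omega) h4.2
    refine ⟨Gad.tri (Lam.us ⟨i / 2, by omega⟩ (decide (i % 2 = 1))) ⟨_, h2⟩, eg, ez _ rfl, h3, ?_⟩
    have e1 : 2 * (i / 2) + (if decide (i % 2 = 1) = true then 1 else 0) = i := by
      simp only [decide_eq_true_eq]
      split_ifs <;> omega
    intro f hf
    rw [hr f hf]
    show chD A i f = chD A (2 * (i / 2) + (if decide (i % 2 = 1) = true then 1 else 0)) f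
    rw [e1]
  · norm_num at h2 h3 h4
    exact ⟨Gad.tri Lam.bas ⟨_, h2⟩, eg, ez _ rfl, h3, hz0 h4⟩
  · norm_num at h2 h3 h4
    refine ⟨Gad.tri (Lam.del ⟨_, h3⟩) ⟨_, h2⟩, eg, ez _ rfl, ?_, hz0 h4⟩
    exact (A.num_nm _).symm
  · norm_num at h2 h3 h4
    exact ⟨Gad.tri Lam.las ⟨_, h2⟩, eg, ez _ rfl, h3, hz0 h4⟩
  · norm_num at h2 h3 h4
    exact ⟨Gad.mono ⟨_, h2⟩, eg, ez _ rfl, h3, hz0 h4⟩
  · norm_num at h2 h3 h4
    refine ⟨Gad.tw, eg, ?_, h3, hz0 h4⟩
    show u 2 = A.num 0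
    rw [h2, A.num_zero]

end Vale.Agent.P310d
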