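import Vale.Agent.P310y.Defs

/-!
# Solutions of single equations as numbers
-/

namespace Vale.Agent.P310d

open Function Vale.Agent.P310y

open scoped Classical

set_option linter.unusedSectionVars false

variable {V I : Type} (S : XS V I) (nv : I → ℕ) (slot : I → ℕ → V)

/-- The bit of a number as an element of the field. -/
def zb (v t : ℕ) : ZMod 2 := if v.testBit t = true then 1 else 0

/-- The number of a solution, given the variables of each equation as a list. -/
noncomputable def vaOf {b : Bool} (x : S.Core b) : ℕ :=
  Nat.ofBits (fun t : Fin (nv x.item) => decide (x.a (slot x.item t.val) = 1))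

/-- The variables of an equation are listed without repetition. -/
structure SlotOk : Prop where
  inj : ∀ c t t', t < nv c → t' < nv c → slot c t = slot c t' → t = t'
  mem : ∀ c d, d ∈ S.vars c ↔ ∃ t, t < nv c ∧ slot c t = d

variable {S nv slot}

theorem zmod2_eq_one_or {a : ZMod 2} : a = 0 ∨ a = 1 := by
  revert a
  decide

theorem vaOf_lt {b : Bool} (x : S.Core b) : vaOf S nv slot x < 2 ^ nv x.item :=
  Nat.ofBits_lt_two_pow _

theorem zb_vaOf {b : Bool} (x : S.Core b) {t : ℕ} (ht : t < nv x.item) :
    zb (vaOf S nv slot x) t = x.a (slot x.item t) := by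
  unfold zb vaOf
  rw [Nat.testBit_ofBits_lt _ _ ht]
  rcases zmod2_eq_one_or (a := x.a (slot x.item t)) with h | h
  · simp [h]
  · simp [h]

theorem sum_slots (hS : SlotOk S nv slot) (c : I) (g : V → ZMod 2) :
    ∑ d ∈ S.vars c, g d = ∑ t ∈ Finset.range (nv c), g (slot c t) := by
  have e : S.vars c = (Finset.range (nv c)).image (slot c) := by
    ext d
    rw [hS.mem, Finset.mem_image]
    simp only [Finset.mem_range]
  rw [e, Finset.sum_image]
  intro t ht t' ht' h
  exact hS.inj c t t' (by simpa using ht) (by simpa using ht') h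

/-- The parity of a number. -/
def parN (n v : ℕ) : ZMod 2 := ∑ t ∈ Finset.range n, zb v t

theorem parN_vaOf (hS : SlotOk S nv slot) {b : Bool} (x : S.Core b) :
    parN (nv x.item) (vaOf S nv slot x) = S.rhs b x.item := by
  rw [← x.eqn, sum_slots hS]
  apply Finset.sum_congr rfl
  intro t ht
  exact zb_vaOf x (by simpa using ht)

/-- A solution is determined by its equation and its number. -/
theorem core_ext (hS : SlotOk S nv slot) {b : Bool} {x y : S.Core b} (h1 : x.item = y.item)
    (h2 : vaOf S nv slot x = vaOf S nv slot y) : x = y := by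
  apply XS.Core.ext h1
  funext d
  by_cases hd : d ∈ S.vars x.item
  · obtain ⟨t, ht, rfl⟩ := (hS.mem _ _).1 hd
    rw [← zb_vaOf x ht]
    have ht' : t < nv y.item := h1 ▸ ht
    have := zb_vaOf (slot := slot) y ht'
    rw [← h1] at this
    rw [← this, h2]
  · rw [x.sup d hd, y.sup d (h1 ▸ hd)]

/-- The solution of a number. -/
theorem exists_core (hS : SlotOk S nv slot) {b : Bool} (c : I) (v : ℕ) (hv : v < 2 ^ nv c)
    (hp : parN (nv c) v = S.rhs b c) : ∃ x : S.Core b, x.item = c ∧ vaOf S nv slot x = v := by
  -- the values on the variables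
  have hex : ∀ d, d ∈ S.vars c → ∃ t, t < nv c ∧ slot c t = d := fun d hd => (hS.mem c d).1 hd
  let a : V → ZMod 2 := fun d => if h : d ∈ S.vars c then zb v (Classical.choose (hex d h)) else 0
  have ha : ∀ t, t < nv c → a (slot c t) = zb v t := by
    intro t ht
    have hd : slot c t ∈ S.vars c := (hS.mem c _).2 ⟨t, ht, rfl⟩
    have h1 := Classical.choose_spec (hex _ hd)
    have h2 := hS.inj c _ _ h1.1 ht h1.2
    simp only [a, dif_pos hd]
    rw [h2]
  refine ⟨⟨c, a, fun d hd => by simp [a, hd], ?_⟩, rfl, ?_⟩
  · rw [sum_slots hS, ← hp]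
    apply Finset.sum_congr rfl
    intro t ht
    exact ha t (by simpa using ht)
  · apply Nat.eq_of_testBit_eq
    intro t
    by_cases ht : t < nv c
    · have h1 : zb (vaOf S nv slot (⟨c, a, fun d hd => by simp [a, hd], by
        rw [sum_slots hS, ← hp]
        apply Finset.sum_congr rfl
        intro t ht
        exact ha t (by simpa using ht)⟩ : S.Core b)) t = a (slot c t) :=
        zb_vaOf _ ht
      rw [ha t ht] at h1
      unfold zb at h1
      by_cases h2 : v.testBit t = true
      · rw [h2] at h1 ⊢
        simp only [if_true] at h1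
        by_contra h3
        rw [if_neg h3] at h1
        exact zero_ne_one h1
      · rw [if_neg h2] at h1
        by_contra h3
        apply h2
        cases h4 : (vaOf S nv slot (⟨c, a, fun d hd => by simp [a, hd], by
          rw [sum_slots hS, ← hp]
          apply Finset.sum_congr rfl
          intro t ht
          exact ha t (by simpa using ht)⟩ : S.Core b)).testBit t with
        | false =>
          rw [h4] at h3
          have : v.testBit t = false := by
            cases h5 : v.testBit t with
            | false => rfl
            | true => exact (h2 h5).elim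
          exact (h3 this.symm).elim
        | true =>
          rw [h4] at h1
          simp at h1
    · have h1 := Nat.testBit_eq_false_of_lt (lt_of_lt_of_le hv (Nat.pow_le_pow_right (by omega)
        (not_lt.1 ht)))
      have h2 : Nat.ofBits (fun t : Fin (nv c) => decide (a (slot c t.val) = 1)) < 2 ^ t :=
        lt_of_lt_of_le (Nat.ofBits_lt_two_pow _) (Nat.pow_le_pow_right (by omega) (not_lt.1 ht))
      have h3 := Nat.testBit_eq_false_of_lt h2
      rw [h1]
      exact h3

/-- Adjacency of solutions in terms of the bits. -/
theorem coreAdj_iff (hS : SlotOk S nv slot) {b : Bool} (x y : S.Core b) :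
    S.coreAdj x y ↔ x.item ≠ y.item ∧
      ∀ t t', t < nv x.item → t' < nv y.item → slot x.item t = slot y.item t' →
        zb (vaOf S nv slot x) t = zb (vaOf S nv slot y) t' := by
  unfold XS.coreAdj
  apply and_congr_right
  intro _
  constructor
  · intro h t t' ht ht' e
    rw [zb_vaOf x ht, zb_vaOf y ht', ← e]
    exact h _ ((hS.mem _ _).2 ⟨t, ht, rfl⟩) ((hS.mem _ _).2 ⟨t', ht', e.symm⟩)
  · intro h d hd hd'
    obtain ⟨t, ht, rfl⟩ := (hS.mem _ _).1 hd
    obtain ⟨t', ht', e⟩ := (hS.mem _ _).1 hd'
    have := h t t' ht ht' e.symm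
    rw [zb_vaOf x ht, zb_vaOf y ht'] at this
    rw [this, e]

end Vale.Agent.P310d
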