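import Vale.Agent.P310d.Chain
import Vale.Agent.P310d.XSlots

/-!
# Expressions for the rules of a table, the tables of the adjacency circuit
-/

namespace Vale.Agent.P310d

open Function

open scoped Classical

set_option linter.unusedSectionVars false

variable {F : Type} [AddCommGroup F] [Module (ZMod 2) F] {s : ℕ} (A : Alph F s)

/-- The number of a letter. -/
abbrev nmv (a : F) : ℕ := (A.nm a).val

/-- A numbered letter as an expression. -/
noncomputable def eN (n : ℕ) : Exp F := Exp.lit (A.num n)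

/-- The test of being a given numbered letter. -/
noncomputable def eIs (e : Exp F) (n : ℕ) : Exp F := eEq A e (eN A n)

/-- The test of the kind of instruction. -/
noncomputable def isK (pc : Exp F) (n : ℕ) : Exp F := eIs A (eD A 0 pc) n

noncomputable def activeE (pc a c : Exp F) : Exp F :=
  eOr A (isK A pc 0) (eOr A (eAnd (isK A pc 1) (eAnd (eIs A a 0) (eIs A c 0)))
    (eOr A (eAnd (isK A pc 2) (eIs A c 0)) (eOr A (eAnd (isK A pc 3) (eIs A c 0))
      (eAnd (isK A pc 4) (eAnd (eIs A a 0) (eIs A c 0))))))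

noncomputable def guardE (pc a c i β : Exp F) : Exp F :=
  eAnd (activeE A pc a c)
    (eAnd (eOr A (eNot A (eOr A (isK A pc 0) (isK A pc 2)))
        (eOr A (eNot A (eEq A i (eD A 1 pc))) (eEq A β a)))
      (eOr A (eNot A (isK A pc 0)) (eOr A (eNot A (eEq A i (eD A 2 pc))) (eEq A β c))))

noncomputable def chE (pc a σ : Exp F) : Exp F :=
  eIf A (isK A pc 2) (eIf A (eIs A a 0) (eD A 6 pc) (eD A 8 pc))
    (eIf A (isK A pc 4) (eIf A σ (eD A 6 pc) (eD A 8 pc)) (eD A 8 pc))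

noncomputable def tabE (t a c : Exp F) : Exp F :=
  eIf A (eIs A t 0) a (eIf A (eIs A t 1) (Exp.ap 1 a c) (eIf A (eIs A t 2) (Exp.ap 2 a c)
    (eIf A (eIs A t 3) (Exp.ap 3 a c) (Exp.ap 4 a c))))

noncomputable def valE (pc a c : Exp F) : Exp F :=
  eIf A (isK A pc 0) (tabE A (eD A 4 pc) a c) (eIf A (isK A pc 1) (eD A 5 pc)
    (eIf A (isK A pc 3) a (Exp.lit 0)))

noncomputable def deltaE (pc a c i : Exp F) : Exp F :=
  eIf A (eEq A i (eD A 3 pc)) (valE A pc a c) (Exp.lit 0)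

section values

variable {A} {D : F → F → F} (H : Std A D) (ρ : ℕ → F)

include H

theorem tv_not2 (e : Exp F) :
    Exp.eval (tbl A D) (eNot A e) ρ ≠ 0 ↔ ¬ Exp.eval (tbl A D) e ρ ≠ 0 := by
  rw [tv_not H, not_not]

theorem tv_is (e : Exp F) (n : ℕ) :
    Exp.eval (tbl A D) (eIs A e n) ρ ≠ 0 ↔ Exp.eval (tbl A D) e ρ = A.num n := by
  unfold eIs eN
  rw [tv_eq H]
  rfl

theorem tv_isK (pc : Exp F) (n : ℕ) :
    Exp.eval (tbl A D) (isK A pc n) ρ ≠ 0 ↔
      Alph.fKind A D (Exp.eval (tbl A D) pc ρ) = A.num n := by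
  unfold isK
  rw [tv_is H, eval_eD H]
  rfl

theorem tv_active (pc a c : Exp F) :
    Exp.eval (tbl A D) (activeE A pc a c) ρ ≠ 0 ↔
      A.activeL D (Exp.eval (tbl A D) pc ρ) (Exp.eval (tbl A D) a ρ) (Exp.eval (tbl A D) c ρ) := by
  simp only [activeE, tv_or H, tv_and H, tv_isK H, tv_is H, Alph.activeL, A.num_zero]

theorem tv_guard (pc a c i β : Exp F) :
    Exp.eval (tbl A D) (guardE A pc a c i β) ρ ≠ 0 ↔
      A.guardL D (Exp.eval (tbl A D) pc ρ) (Exp.eval (tbl A D) a ρ) (Exp.eval (tbl A D) c ρ)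
        (Exp.eval (tbl A D) i ρ) (Exp.eval (tbl A D) β ρ) := by
  simp only [guardE, tv_and H, tv_or H, tv_not2 H, tv_isK H, tv_active H, tv_eq H, eval_eD H,
    Alph.guardL, Alph.fX1, Alph.fX2]
  tauto

theorem eval_ch (pc a σ : Exp F) :
    Exp.eval (tbl A D) (chE A pc a σ) ρ =
      A.chL D (Exp.eval (tbl A D) pc ρ) (Exp.eval (tbl A D) a ρ) 0
        (decide (Exp.eval (tbl A D) σ ρ ≠ 0)) := by
  simp only [chE, eval_if H, tv_isK H, tv_is H, eval_eD H, H.hsucc, Alph.chL, A.num_zero,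
    Alph.fLbl, decide_eq_true_eq]

theorem eval_tab (t a c : Exp F) :
    Exp.eval (tbl A D) (tabE A t a c) ρ =
      A.tabL D (Exp.eval (tbl A D) t ρ) (Exp.eval (tbl A D) a ρ) (Exp.eval (tbl A D) c ρ) := by
  simp only [tabE, eval_if H, tv_is H, Exp.eval, tbl_one H, tbl_two H, tbl_three H, tbl_four H,
    Alph.tabL]

theorem eval_val (pc a c : Exp F) :
    Exp.eval (tbl A D) (valE A pc a c) ρ =
      A.valL D (Exp.eval (tbl A D) pc ρ) (Exp.eval (tbl A D) a ρ) (Exp.eval (tbl A D) c ρ) := by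
  simp only [valE, eval_if H, tv_isK H, eval_tab H, eval_eD H, Exp.eval, Alph.valL, Alph.fTab,
    Alph.fImm]

theorem eval_delta (pc a c i : Exp F) :
    Exp.eval (tbl A D) (deltaE A pc a c i) ρ =
      A.deltaL D (Exp.eval (tbl A D) pc ρ) (Exp.eval (tbl A D) a ρ) (Exp.eval (tbl A D) c ρ)
        (Exp.eval (tbl A D) i ρ) := by
  simp only [deltaE, eval_if H, tv_eq H, eval_val H, eval_eD H, Exp.eval, Alph.deltaL, Alph.fY]
  congr

end values

end Vale.Agent.P310d
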