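import Vale.Agent.P310d.Enc

/-!
# The hubs of a gadget, as letters
-/

namespace Vale.Agent.P310d

open Function Vale.Agent.P310y

open scoped Classical

set_option linter.unusedSectionVars false

variable {F : Type} [AddCommGroup F] [Module (ZMod 2) F] {s K xe : ℕ} (A : Alph F s)

/-! ### The rule of a number -/

theorem rpc_eq (r : Fin (s * (s * s))) : A.rpc r = A.num (dgt s r.val 2) := by
  have hs : 0 < s := by
    rcases Nat.eq_zero_or_pos s with h | h
    · subst h
      exact r.elim0
    · exact h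
  have h1 : r.val / (s * s) < s := by
    apply Nat.div_lt_of_lt_mul
    exact lt_of_lt_of_eq r.isLt (by ring)
  unfold Alph.rpc Alph.num dgt
  have e : r.val / s ^ 2 % s = r.val / (s * s) := by
    rw [pow_two, Nat.mod_eq_of_lt h1]
  rw [e, dif_pos h1]
  congr 1

theorem ra_eq (r : Fin (s * (s * s))) : A.ra r = A.num (dgt s r.val 1) := by
  have hs : 0 < s := by
    rcases Nat.eq_zero_or_pos s with h | h
    · subst h
      exact r.elim0
    · exact h
  have h1 : r.val / s % s < s := Nat.mod_lt _ hs
  unfold Alph.ra Alph.num dgt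
  rw [pow_one, dif_pos h1]
  congr 1
  apply Fin.ext
  simp [finProdFinEquiv_symm_apply, Nat.mod_mul_right_div_self]

theorem rc_eq (r : Fin (s * (s * s))) : A.rc r = A.num (dgt s r.val 0) := by
  have hs : 0 < s := by
    rcases Nat.eq_zero_or_pos s with h | h
    · subst h
      exact r.elim0
    · exact h
  have h1 : r.val / 1 % s < s := Nat.mod_lt _ hs
  unfold Alph.rc Alph.num dgt
  rw [pow_zero, dif_pos h1]
  congr 1
  apply Fin.ext
  simp [finProdFinEquiv_symm_apply]

/-! ### The letters of a tag -/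

/-- The kind of a tag. -/
def tagK : Tag s (NN s) K xe → ℕ
  | .orig _ => 0
  | .cp _ _ => 1
  | .use _ _ => 2
  | .prv _ => 3
  | .base => 4
  | .dly _ => 5

/-- The letter of a tag. -/
noncomputable def tagT : Tag s (NN s) K xe → F
  | .orig t => stL A t
  | .cp t _ => stL A t
  | .use _ _ => 0
  | .prv _ => 0
  | .base => 0
  | .dly j => A.num j.val

/-- The number of copy of a tag. -/
def tagC : Tag s (NN s) K xe → ℕ
  | .orig _ => 0
  | .cp _ i => i.val
  | .use r σ => 2 * r.val + (if σ then 1 else 0)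
  | .prv r => 2 * r.val
  | .base => 0
  | .dly _ => 0

theorem tagC_lt (t : Tag s (NN s) K xe) : tagC t < 2 * NN s + 3 := by
  cases t with
  | orig t => simp only [tagC]; omega
  | cp t i => have := i.isLt; simp only [tagC]; omega
  | use r σ =>
    have := r.isLt
    simp only [tagC]
    split_ifs <;> omega
  | prv r => have := r.isLt; simp only [tagC]; omega
  | base => simp only [tagC]; omega
  | dly j => simp only [tagC]; omega

/-- The letters determine a tag. -/
theorem tag_inj (h6 : 6 * K + 3 * xe + 12 ≤ s) {x y : Tag s (NN s) K xe} (h1 : tagK x = tagK y)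
    (h2 : tagT A x = tagT A y) (h3 : tagC x = tagC y) : x = y := by
  cases x <;> cases y <;> simp only [tagK] at h1 <;> try omega
  all_goals simp only [tagT, tagC] at h2 h3
  · rw [stL_inj A h2]
  · rw [stL_inj A h2]
    congr 1
    exact Fin.ext h3
  · rename_i r σ r' σ'
    have e : r = r' := Fin.ext (by split_ifs at h3 <;> omega)
    have e2 : σ = σ' := by
      subst e
      cases σ <;> cases σ' <;> simp at h3 <;> rfl
    rw [e, e2]
  · congr 1
    exact Fin.ext (by omega)
  · rfl
  · rename_i j j'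
    have := A.num_inj (by have := j.isLt; omega) (by have := j'.isLt; omega) h2
    rw [Fin.ext this]

/-! ### The tables of the hubs -/

/-- The kind of the tag of a slot. -/
def kT (n : ℕ) : ℕ :=
  [0, 3, 3, 3, 2, 2, 1, 0, 0, 1, 1, 1, 2, 1, 0, 0, 4, 4, 5, 5, 5, 5, 2, 2, 4, 4, 4, 5, 5, 5].getD n 0

/-- How to find the letter of the tag of a slot. -/
def tcT (n : ℕ) : ℕ :=
  [2, 0, 0, 0, 0, 0, 1, 1, 1, 1, 1, 1, 0, 3, 3, 4, 0, 0, 1, 5, 5, 6, 0, 0, 0, 0, 0, 0, 0, 0].getD n 0

/-- How to find the number of copy of the tag of a slot. -/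
def coT (n : ℕ) : ℕ :=
  [0, 1, 1, 1, 2, 1, 0, 0, 0, 2, 1, 1, 1, 2, 0, 0, 0, 0, 0, 0, 0, 0, 4, 3, 0, 0, 0, 0, 0, 0].getD n 0

section plain

variable (D : F → F → F) (K xe) (ac : F)

/-- The state of a child, from the letters of an equation. -/
noncomputable def srcL (u : ℕ → F) : F :=
  if u 10 ≠ 0 then 0 else A.chL D (u 9) (u 8) 0 (decide (u 11 ≠ 0))

/-- The letter of a tag, from the letters of an equation and the way to find it. -/
noncomputable def tSel (u : ℕ → F) (tc : F) : F :=
  if tc = A.num 1 then u 6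
  else if tc = A.num 2 then u 9
  else if tc = A.num 3 then srcL A D u
  else if tc = A.num 4 then ac
  else if tc = A.num 5 then A.succL (u 6)
  else if tc = A.num 6 then A.num (6 * K + 3 * xe + 11)
  else 0

/-- The letters of the number of copy of a tag. -/
noncomputable def chSel (u : ℕ → F) (co : F) (f : ℕ) : F :=
  if co = A.num 1 then u (7 + f)
  else if co = A.num 2 then nxF A (fun i => u (7 + i)) f
  else if co = A.num 3 then chD A (2 * NN s) f
  else if co = A.num 4 then chD A (2 * NN s + 1) f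
  else 0

end plain

section sel

variable {A} (D : F → F → F) (K xe) (ac : F) (u : ℕ → F) (hs : 60 < s)

include hs

theorem num_ne_small {i j : ℕ} (hi : i < 60) (hj : j < 60) (h : i ≠ j) : A.num i ≠ (A.num j : F) :=
  ne_num (by omega) (by omega) h

theorem tSel_0 : tSel K xe A D ac u (A.num 0) = 0 := by
  unfold tSel
  repeat rw [if_neg (num_ne_small hs (by omega) (by omega) (by omega))]

theorem tSel_1 : tSel K xe A D ac u (A.num 1) = u 6 := by
  unfold tSel
  rw [if_pos rfl]

theorem tSel_2 : tSel K xe A D ac u (A.num 2) = u 9 := by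
  unfold tSel
  rw [if_neg (num_ne_small hs (by omega) (by omega) (by omega)), if_pos rfl]

theorem tSel_3 : tSel K xe A D ac u (A.num 3) = srcL A D u := by
  unfold tSel
  repeat rw [if_neg (num_ne_small hs (by omega) (by omega) (by omega))]
  rw [if_pos rfl]

theorem tSel_4 : tSel K xe A D ac u (A.num 4) = ac := by
  unfold tSel
  repeat rw [if_neg (num_ne_small hs (by omega) (by omega) (by omega))]
  rw [if_pos rfl]

theorem tSel_5 : tSel K xe A D ac u (A.num 5) = A.succL (u 6) := by
  unfold tSel
  repeat rw [if_neg (num_ne_small hs (by omega) (by omega) (by omega))]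
  rw [if_pos rfl]

theorem tSel_6 : tSel K xe A D ac u (A.num 6) = A.num (6 * K + 3 * xe + 11) := by
  unfold tSel
  repeat rw [if_neg (num_ne_small hs (by omega) (by omega) (by omega))]
  rw [if_pos rfl]

theorem chSel_0 (f : ℕ) : chSel A u (A.num 0) f = 0 := by
  unfold chSel
  repeat rw [if_neg (num_ne_small hs (by omega) (by omega) (by omega))]

theorem chSel_1 (f : ℕ) : chSel A u (A.num 1) f = u (7 + f) := by
  unfold chSel
  rw [if_pos rfl]

theorem chSel_2 (f : ℕ) : chSel A u (A.num 2) f = nxF A (fun i => u (7 + i)) f := by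
  unfold chSel
  rw [if_neg (num_ne_small hs (by omega) (by omega) (by omega)), if_pos rfl]

theorem chSel_3 (f : ℕ) : chSel A u (A.num 3) f = chD A (2 * NN s) f := by
  unfold chSel
  repeat rw [if_neg (num_ne_small hs (by omega) (by omega) (by omega))]
  rw [if_pos rfl]

theorem chSel_4 (f : ℕ) : chSel A u (A.num 4) f = chD A (2 * NN s + 1) f := by
  unfold chSel
  repeat rw [if_neg (num_ne_small hs (by omega) (by omega) (by omega))]
  rw [if_pos rfl]

end sel

/-! ### The slots -/

section slots

variable (D : F → F → F) (ac : F) (cdi : Injective (cdOf A (K := K) (xe := xe))) (gap : ℕ)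

/-- The program. -/
noncomputable abbrev PP : Prog K xe s (NN s) F := prog A D K xe ac (cdOf A) cdi gap

variable {D ac cdi gap}

/-- The hub of a slot of a gadget. -/
def slotH (P : Prog K xe s (NN s) F) (h6 : 0 < 6 * K + 3 * xe + 12) : Gad s (NN s) K xe → Fin 3 → Fin 3 × Tag s (NN s) K xe
  | .tri l τ, d => (τ + d, P.slotTag l d)
  | .mono τ, _ => (τ, Tag.base)
  | .tw, _ => (0, Tag.dly ⟨0, h6⟩)

/-- The letters of an equation with a given gadget. -/
structure GadL (u : ℕ → F) (b : Gad s (NN s) K xe) : Prop where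
  g : u 1 = A.num (gadK b)
  τ : u 2 = A.num (gadTau b).val
  t : u 6 = gadT A b
  ch : ∀ f, f < 5 → u (7 + f) = chD A (gadC b) f

/-- The slot exists. -/
def Pres (b : Gad s (NN s) K xe) (d : Fin 3) : Prop := gadK b < 8 ∨ d = 0

variable {A}

theorem chL_c (pc a c : F) (σ : Bool) (D : F → F → F) : A.chL D pc a c σ = A.chL D pc a 0 σ := rfl

theorem srcL_us (hs : 60 < s) {u : ℕ → F} {r : Fin (NN s + 1)} {σ : Bool}
    (hu : ∀ f, f < 5 → u (7 + f) = chD A (2 * r.val + (if σ then 1 else 0)) f) :
    srcL A D u = stL A ((PP A D ac cdi gap).src r σ) := by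
  have h10 : u 10 = _ := hu 3 (by omega)
  have h9 : u 9 = _ := hu 2 (by omega)
  have h8 : u 8 = _ := hu 1 (by omega)
  have h11 : u 11 = _ := hu 4 (by omega)
  have h1 : A.num 1 ≠ (0 : F) := Alph.num_one_ne (by omega)
  unfold srcL Prog.src
  by_cases hr : r.val < NN s
  · have hlt : 2 * r.val + (if σ then 1 else 0) < 2 * NN s := by split_ifs <;> omega
    have e1 : (2 * r.val + (if σ then 1 else 0)) / 2 = r.val := by split_ifs <;> omega
    rw [h10, chD_low3 hlt, dif_pos hr]
    simp only [ne_eq, not_true_eq_false, if_false]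
    rw [h9, h8, h11, chD_low hlt (by omega), chD_low hlt (by omega), chD_low4 hlt, e1,
      ← ra_eq A ⟨r.val, hr⟩, ← rpc_eq A ⟨r.val, hr⟩]
    cases σ
    · simp [stL, prog, A.num_zero]
      rfl
    · have e2 : (2 * r.val + 1) % 2 = 1 := by omega
      simp [stL, prog, e2, h1]
      rfl
  · have hge : ¬ 2 * r.val + (if σ then 1 else 0) < 2 * NN s := by split_ifs <;> omega
    rw [h10, chD_high3 hge, dif_neg hr, if_pos h1]
    simp [stL, prog]

theorem nxF_congr {dig dig' : ℕ → F} {f : ℕ} (h : ∀ i, i < 5 → dig i = dig' i) (hf : f < 5) :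
    nxF A dig f = nxF A dig' f := by
  unfold nxF
  have h2 : (∀ i, i < 3 → dig i = A.num (s - 1)) ↔ (∀ i, i < 3 → dig' i = A.num (s - 1)) := by
    constructor
    · intro h5 i hi
      rw [← h i (by omega)]
      exact h5 i hi
    · intro h5 i hi
      rw [h i (by omega)]
      exact h5 i hi
  have h3 : (∀ i, i < f → dig i = A.num (s - 1)) ↔ (∀ i, i < f → dig' i = A.num (s - 1)) := by
    constructor
    · intro h5 i hi
      rw [← h i (by omega)]
      exact h5 i hi
    · intro h5 i hi
      rw [h i (by omega)]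
      exact h5 i hi
  rw [h 3 (by omega), h 4 (by omega), h f hf]
  simp only [h2, h3]
  congr

theorem chD_next (hs : 60 < s) {i f : ℕ} (hi : i + 1 < 2 * NN s + 3) (hf : f < 5) {u : ℕ → F}
    (hu : ∀ f, f < 5 → u (7 + f) = chD A i f) :
    nxF A (fun j => u (7 + j)) f = chD A (i + 1) f := by
  rw [nxF_congr (dig' := chD A i) hu hf]
  exact chD_succ (by omega) hi hf

/-- The letters of the tag of a slot. -/
theorem hub_attr (hs : 60 < s) (h6 : 6 * K + 3 * xe + 12 ≤ s) (b : Gad s (NN s) K xe) (d : Fin 3)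
    (hp : Pres b d) {u : ℕ → F} (hu : GadL A u b) :
    kT (gadK b * 3 + d.val) = tagK (slotH (PP A D ac cdi gap) (by omega) b d).2 ∧
    tSel K xe A D ac u (A.num (tcT (gadK b * 3 + d.val))) =
      tagT A (slotH (PP A D ac cdi gap) (by omega) b d).2 ∧
    ∀ f, f < 5 → chSel A u (A.num (coT (gadK b * 3 + d.val))) f =
      chD A (tagC (slotH (PP A D ac cdi gap) (by omega) b d).2) f := by
  have hs0 : 0 < s := by omega
  have hch := hu.ch
  have ht := hu.t
  have hd3 : d = 0 ∨ d = 1 ∨ d = 2 := by
    have : ∀ d : Fin 3, d = 0 ∨ d = 1 ∨ d = 2 := by decide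
    exact this d
  have hz : ∀ f, chSel A u (A.num 0) f = chD A 0 f := fun f => by
    rw [chSel_0 u hs, chD_zero hs0]
  have hsame : ∀ f, f < 5 → chSel A u (A.num 1) f = chD A (gadC b) f := fun f hf => by
    rw [chSel_1 u hs, hch f hf]
  have hsucc : ∀ f, f < 5 → gadC b + 1 < 2 * NN s + 3 →
      chSel A u (A.num 2) f = chD A (gadC b + 1) f := fun f hf h1 => by
    rw [chSel_2 u hs]
    exact chD_next hs h1 hf hch
  rcases b with ⟨l, τ⟩ | τ | _
  · cases l with
    | orR r =>
      have hlt : 2 * r.val < 2 * NN s := by have := r.isLt; omega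
      rcases hd3 with rfl | rfl | rfl
      · refine ⟨rfl, ?_, fun f _ => hz f⟩
        show tSel K xe A D ac u (A.num 2) = stL A (A.nm (A.rpc r))
        rw [tSel_2 K xe D ac u hs]
        have := hch 2 (by omega)
        show u (7 + 2) = _
        rw [this]
        show chD A (2 * r.val) 2 = _
        rw [chD_low hlt (by omega), rpc_eq]
        simp [stL]
      · exact ⟨rfl, tSel_0 K xe D ac u hs, hsame⟩
      · exact ⟨rfl, tSel_0 K xe D ac u hs, hsame⟩
    | andR r =>
      rcases hd3 with rfl | rfl | rfl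
      · exact ⟨rfl, tSel_0 K xe D ac u hs, hsame⟩
      · refine ⟨rfl, tSel_0 K xe D ac u hs, fun f hf => hsucc f hf ?_⟩
        have := r.isLt
        show 2 * r.val + 1 < _
        omega
      · refine ⟨rfl, tSel_0 K xe D ac u hs, fun f hf => ?_⟩
        rw [show coT _ = 1 from rfl, hsame f hf]
        rfl
    | cz t =>
      rcases hd3 with rfl | rfl | rfl
      · exact ⟨rfl, (tSel_1 K xe D ac u hs).trans ht, fun f _ => hz f⟩
      · exact ⟨rfl, (tSel_1 K xe D ac u hs).trans ht, fun f _ => hz f⟩
      · exact ⟨rfl, (tSel_1 K xe D ac u hs).trans ht, fun f _ => hz f⟩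
    | cs t i =>
      have hi := i.isLt
      rcases hd3 with rfl | rfl | rfl
      · exact ⟨rfl, (tSel_1 K xe D ac u hs).trans ht, fun f hf => hsucc f hf (by
          show i.val + 1 < _
          omega)⟩
      · exact ⟨rfl, (tSel_1 K xe D ac u hs).trans ht, hsame⟩
      · exact ⟨rfl, (tSel_1 K xe D ac u hs).trans ht, hsame⟩
    | us r σ =>
      have hr := r.isLt
      have hsr := srcL_us (D := D) (ac := ac) (cdi := cdi) (gap := gap) hs (r := r) (σ := σ) hch
      rcases hd3 with rfl | rfl | rfl
      · exact ⟨rfl, tSel_0 K xe D ac u hs, hsame⟩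
      · refine ⟨rfl, (tSel_3 K xe D ac u hs).trans hsr, fun f hf => ?_⟩
        have h1 := hsucc f hf (by
          show 2 * r.val + (if σ then 1 else 0) + 1 < _
          split_ifs <;> omega)
        rw [show coT _ = 2 from rfl, h1]
        congr 1
      · exact ⟨rfl, (tSel_3 K xe D ac u hs).trans hsr, fun f _ => hz f⟩
    | bas =>
      rcases hd3 with rfl | rfl | rfl
      · refine ⟨rfl, ?_, fun f _ => hz f⟩
        show tSel K xe A D ac u (A.num 4) = stL A (A.nm ac)
        rw [tSel_4 K xe D ac u hs]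
        simp [stL]
      · exact ⟨rfl, tSel_0 K xe D ac u hs, fun f _ => hz f⟩
      · exact ⟨rfl, tSel_0 K xe D ac u hs, fun f _ => hz f⟩
    | del j =>
      have hj := j.isLt
      have hsu : tSel K xe A D ac u (A.num 5) = A.num (j.val + 1) := by
        rw [tSel_5 K xe D ac u hs, ht]
        exact succ_num hs0 (by omega)
      rcases hd3 with rfl | rfl | rfl
      · exact ⟨rfl, (tSel_1 K xe D ac u hs).trans ht, fun f _ => hz f⟩
      · exact ⟨rfl, hsu, fun f _ => hz f⟩
      · exact ⟨rfl, hsu, fun f _ => hz f⟩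
    | las =>
      rcases hd3 with rfl | rfl | rfl
      · exact ⟨rfl, tSel_6 K xe D ac u hs, fun f _ => hz f⟩
      · exact ⟨rfl, tSel_0 K xe D ac u hs, fun f _ => chSel_4 u hs f⟩
      · exact ⟨rfl, tSel_0 K xe D ac u hs, fun f _ => chSel_3 u hs f⟩
  · have hd0 : d = 0 := by
      rcases hp with h | h
      · exact absurd h (by simp [gadK])
      · exact h
    subst hd0
    exact ⟨rfl, tSel_0 K xe D ac u hs, fun f _ => hz f⟩
  · have hd0 : d = 0 := by
      rcases hp with h | h
      · exact absurd h (by simp [gadK])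
      · exact h
    subst hd0
    refine ⟨rfl, ?_, fun f _ => hz f⟩
    show tSel K xe A D ac u (A.num 0) = A.num 0
    rw [tSel_0 K xe D ac u hs, A.num_zero]

end slots

end Vale.Agent.P310d
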