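import Vale.Agent.P310d.Verts

/-!
# The hubs of an equation from its letters
-/

namespace Vale.Agent.P310d

open Function Vale.Agent.P310y

open scoped Classical

set_option linter.unusedSectionVars false

variable {F : Type} [AddCommGroup F] [Module (ZMod 2) F] [Fintype F] {s : ℕ} (A : Alph F s)
  (D : F → F → F) (K xe : ℕ) (ac : F)

/-- The packed number of a hub of an equation. -/
noncomputable def pkL (u : ℕ → F) (j : ℕ) : F := D (D (A.num (30 + j)) (u 2)) (u 1)

/-- The letter of the variable of a hub. -/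
noncomputable def lettL (u : ℕ → F) (j : ℕ) : F :=
  u 5 + (if D (A.num 55) (pkL A D u j) ≠ 0 then A.deltaL D (u 9) (u 8) (u 7) (u 3) else 0)

/-- The value of the variable of a hub. -/
def tbB (u : ℕ → F) (j : ℕ) : Prop :=
  (nmv A (u 12)).testBit (nmv A (D (A.num 54) (pkL A D u j))) = true

/-- The two hubs are the same. -/
def HubEq (u u' : ℕ → F) (j : ℕ) : Prop :=
  D (A.num 50) (pkL A D u j) = D (A.num 50) (pkL A D u' j) ∧
  tSel K xe A D ac u (D (A.num 51) (pkL A D u j)) = tSel K xe A D ac u' (D (A.num 51) (pkL A D u' j)) ∧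
  ∀ f, f < 5 → chSel A u (D (A.num 52) (pkL A D u j)) f = chSel A u' (D (A.num 52) (pkL A D u' j)) f

/-- The letters of the gadget are the same. -/
def GadEq (u u' : ℕ → F) : Prop :=
  u 1 = u' 1 ∧ u 2 = u' 2 ∧ u 6 = u' 6 ∧ ∀ f, f < 5 → u (7 + f) = u' (7 + f)

/-- The letters of the position are the same. -/
def PosEq (u u' : ℕ → F) : Prop := u 3 = u' 3 ∧ u 4 = u' 4

/-- The two equations have the same token with different values. -/
def TokEE (u u' : ℕ → F) : Prop :=
  u 0 = 0 ∧ u' 0 = 0 ∧ PosEq u u' ∧ GadEq u u' ∧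
    ¬ ((nmv A (u 12)).testBit 0 = true ↔ (nmv A (u' 12)).testBit 0 = true)

/-- The slot of the token of a position, from the letters. -/
noncomputable def idxL (u : ℕ → F) : ℕ :=
  if nmv A (u 4) = 2 then 2 * K else 2 * nmv A (u 3) + (if u 4 ≠ 0 then 1 else 0)

/-- The first equation has a token of the second, with a different value. -/
def TokEH (u u' : ℕ → F) : Prop :=
  u 0 = 0 ∧ u' 0 ≠ 0 ∧ GadEq u u' ∧
    ¬ ((nmv A (u 12)).testBit 0 = true ↔
      (nmv A (u' 12)).testBit (idxL A K u) = true)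

/-- The two equations have the variable of the same hub with different values. -/
def HubConf (u u' : ℕ → F) (j : ℕ) : Prop :=
  u 0 = 0 ∧ u' 0 = 0 ∧ PosEq u u' ∧ D (A.num 53) (pkL A D u j) ≠ 0 ∧ D (A.num 53) (pkL A D u' j) ≠ 0 ∧
    HubEq A D K xe ac u u' j ∧ lettL A D u j = lettL A D u' j ∧ ¬ (tbB A D u j ↔ tbB A D u' j)

/-- Adjacency of solutions by their letters. -/
def CoreAdjL (u u' : ℕ → F) : Prop :=
  (¬ ∀ j, j < 12 → u j = u' j) ∧ ¬ TokEE A u u' ∧ ¬ TokEH A K u u' ∧ ¬ TokEH A K u' u ∧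
    ∀ j, j < 3 → ¬ HubConf A D K xe ac u u' j

/-- Adjacency of vertices by their letters. -/
def AdjL (u u' : ℕ → F) : Prop :=
  (u 13 = 0 ∧ u' 13 = 0 ∧ CoreAdjL A D K xe ac u u') ∨
    ((∀ j, j < 13 → u j = u' j) ∧ ((u 13 = 0 ∧ u' 13 ≠ 0) ∨ (u 13 ≠ 0 ∧ u' 13 = 0)))

variable {A D K xe ac} {cdi : Injective (cdOf A (K := K) (xe := xe))} {gap : ℕ}

theorem fin3_sub_val : ∀ (j τ : Fin 3), (j - τ).val = (j.val + 3 - τ.val) % 3 := by decide

theorem off_tri (P : Prog K xe s (NN s) F) (l : Lam s (NN s) K xe) (τ d : Fin 3) (i : Fin K) :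
    P.gs.off (Gad.tri l τ) (slotH P K12 (Gad.tri l τ) d) i = P.slotOff l d i := by
  show P.slotOff l (τ + d - τ) i = _
  rw [fin3_sub_add]

theorem off_zero {P : Prog K xe s (NN s) F} {l : Lam s (NN s) K xe} (hl : ∀ r, l ≠ Lam.andR r) {d : Fin 3}
    {i : Fin K} : P.slotOff l d i = 0 := by
  have hd3 : ∀ d : Fin 3, d = 0 ∨ d = 1 ∨ d = 2 := by decide
  cases l with
  | andR r => exact (hl r rfl).elim
  | _ =>
    rcases hd3 d with rfl | rfl | rfl <;> simp [Prog.slotOff, Prog.oB, Prog.oC]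

theorem tagK_lt (t : Tag s (NN s) K xe) : tagK t < 6 := by
  cases t <;> simp [tagK]

section facts

variable (H : Std A D) (C : CTab A D ac) (hs : 60 < s) (h6 : 6 * K + 3 * xe + 12 ≤ s)
  {u : ℕ → F} {g : Gad s (NN s) K xe} (hu : GadL A u g) (J : Fin 3)

include H C hu

theorem pk_eq : pkL A D u J.val = A.num (gadK g * 3 + (J - gadTau g).val) := by
  have hs := H.hs
  have hg10 := mk_lt_gadK g
  have hτ := (gadTau g).isLt
  unfold pkL
  rw [C.hsub _ J.isLt, hu.τ, nmv_num (by omega)]
  have h1 : (J.val + 3 - (gadTau g).val) % 3 < 3 := Nat.mod_lt _ (by omega)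
  rw [C.hpk _ h1, hu.g, nmv_num (by omega), fin3_sub_val]

theorem pk_nmv : nmv A (pkL A D u J.val) = gadK g * 3 + (J - gadTau g).val := by
  have hs := H.hs
  have hg10 := mk_lt_gadK g
  have hd := (J - gadTau g).isLt
  rw [pk_eq H C hu, nmv_num (by omega)]

theorem pres_iff : D (A.num 53) (pkL A D u J.val) ≠ 0 ↔ Pres g (J - gadTau g) := by
  have hs := H.hs
  have hd := (J - gadTau g).isLt
  rw [C.hpr, Alph.bl_ne_zero (by omega), pk_nmv H C hu]
  unfold Pres
  constructor
  · rintro (h | h)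
    · left
      omega
    · right
      apply Fin.ext
      show _ = 0
      omega
  · rintro (h | h)
    · left
      omega
    · right
      rw [h]
      show (gadK g * 3 + 0) % 3 = 0
      omega

theorem bi_eq : nmv A (D (A.num 54) (pkL A D u J.val)) = 1 + (J - gadTau g).val := by
  have hs := H.hs
  have hd := (J - gadTau g).isLt
  rw [C.hbi, pk_nmv H C hu, nmv_num (by omega)]
  congr 1
  omega

theorem lett_eq {p : Pos K xe} {β : F} (h3 : u 3 = A.num p.1.val) (h5 : u 5 = β) :
    lettL A D u J.val = β + (PP A D ac cdi gap).gs.off g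
      (slotH (PP A D ac cdi gap) K12 g (J - gadTau g)) p.1 := by
  have hs := H.hs
  have hd := (J - gadTau g).isLt
  have hg10 := mk_lt_gadK g
  unfold lettL
  rw [C.hof, pk_nmv H C hu, h5]
  have hiff : A.bl ((gadK g * 3 + (J - gadTau g).val) / 3 = 1 ∧
      (gadK g * 3 + (J - gadTau g).val) % 3 ≠ 0) ≠ 0 ↔ gadK g = 1 ∧ (J - gadTau g) ≠ 0 := by
    rw [Alph.bl_ne_zero (by omega)]
    have h0 : (J - gadTau g) ≠ 0 ↔ (J - gadTau g).val ≠ 0 := by
      rw [not_iff_not]
      exact ⟨fun h => by rw [h]; rfl, fun h => Fin.ext h⟩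
    rw [h0]
    omega
  simp only [hiff]
  generalize J - gadTau g = d at *
  rcases g with ⟨l, τ⟩ | τ | _
  · cases l with
    | andR r =>
      have hch : ∀ f, f < 5 → u (7 + f) = chD A (2 * r.val + 0) f := hu.ch
      obtain ⟨e0, e1, e2⟩ := chD_rule (A := A) r (e := 0) (by omega)
      have h7 : u 7 = A.rc r := (hch 0 (by omega)).trans e0
      have h8 : u 8 = A.ra r := (hch 1 (by omega)).trans e1
      have h9 : u 9 = A.rpc r := (hch 2 (by omega)).trans e2
      have hd3 : ∀ d : Fin 3, d = 0 ∨ d = 1 ∨ d = 2 := by decide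
      have hoff : (PP A D ac cdi gap).gs.off (Gad.tri (Lam.andR r) τ)
          (slotH (PP A D ac cdi gap) K12 (Gad.tri (Lam.andR r) τ) d) p.1 =
          (PP A D ac cdi gap).slotOff (Lam.andR r) (τ + d - τ) p.1 := rfl
      rw [hoff, fin3_sub_add, h3, h7, h8, h9]
      rcases hd3 d with rfl | rfl | rfl
      · simp [Prog.slotOff]
      · simp [gadK, lamK, Prog.slotOff, Prog.oC]
        rfl
      · simp [gadK, lamK, Prog.slotOff, Prog.oB]
        rfl
    | orR r =>
      rw [off_tri, off_zero (by intro r' h; cases h)]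
      simp [gadK, lamK]
    | cz t =>
      rw [off_tri, off_zero (by intro r' h; cases h)]
      simp [gadK, lamK]
    | cs t i =>
      rw [off_tri, off_zero (by intro r' h; cases h)]
      simp [gadK, lamK]
    | us r σ =>
      rw [off_tri, off_zero (by intro r' h; cases h)]
      simp [gadK, lamK]
    | bas =>
      rw [off_tri, off_zero (by intro r' h; cases h)]
      simp [gadK, lamK]
    | del j =>
      rw [off_tri, off_zero (by intro r' h; cases h)]
      simp [gadK, lamK]
    | las =>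
      rw [off_tri, off_zero (by intro r' h; cases h)]
      simp [gadK, lamK]
  · have hoff : (PP A D ac cdi gap).gs.off (Gad.mono τ)
        (slotH (PP A D ac cdi gap) K12 (Gad.mono τ) d) p.1 = 0 := rfl
    rw [hoff]
    simp [gadK]
  · have hoff : (PP A D ac cdi gap).gs.off Gad.tw
        (slotH (PP A D ac cdi gap) K12 Gad.tw d) p.1 = 0 := rfl
    rw [hoff]
    simp [gadK]

include h6 in
theorem hub_fields (hp : Pres g (J - gadTau g)) :
    D (A.num 50) (pkL A D u J.val) =
      A.num (tagK (slotH (PP A D ac cdi gap) K12 g (J - gadTau g)).2) ∧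
    tSel K xe A D ac u (D (A.num 51) (pkL A D u J.val)) =
      tagT A (slotH (PP A D ac cdi gap) K12 g (J - gadTau g)).2 ∧
    ∀ f, f < 5 → chSel A u (D (A.num 52) (pkL A D u J.val)) f =
      chD A (tagC (slotH (PP A D ac cdi gap) K12 g (J - gadTau g)).2) f := by
  have hs := H.hs
  obtain ⟨h1, h2, h3⟩ := hub_attr (D := D) (ac := ac) (cdi := cdi) (gap := gap) hs h6 g _ hp hu
  rw [C.hk, C.htc, C.hco, pk_nmv H C hu]
  exact ⟨by rw [h1], h2, h3⟩

end facts

theorem slotH_fst {g : Gad s (NN s) K xe} (P : Prog K xe s (NN s) F) {d : Fin 3} (hp : Pres g d) :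
    (slotH P K12 g d).1 = gadTau g + d := by
  rcases g with ⟨l, τ⟩ | τ | _
  · rfl
  · have hd0 : d = 0 := by
      rcases hp with h | h
      · exact absurd h (by simp [gadK])
      · exact h
    subst hd0
    show τ = τ + 0
    simp
  · have hd0 : d = 0 := by
      rcases hp with h | h
      · exact absurd h (by simp [gadK])
      · exact h
    subst hd0
    rfl

section pairs

variable (H : Std A D) (C : CTab A D ac) (h6 : 6 * K + 3 * xe + 12 ≤ s)
  {u u' : ℕ → F} {g g' : Gad s (NN s) K xe} (hu : GadL A u g) (hu' : GadL A u' g') (J : Fin 3)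

include H C h6 hu hu'

theorem hubEq_iff (hp : Pres g (J - gadTau g)) (hp' : Pres g' (J - gadTau g')) :
    HubEq A D K xe ac u u' J.val ↔
      (slotH (PP A D ac cdi gap) K12 g (J - gadTau g)).2 =
        (slotH (PP A D ac cdi gap) K12 g' (J - gadTau g')).2 := by
  have hs := H.hs
  obtain ⟨a1, a2, a3⟩ := hub_fields (cdi := cdi) (gap := gap) H C h6 hu J hp
  obtain ⟨b1, b2, b3⟩ := hub_fields (cdi := cdi) (gap := gap) H C h6 hu' J hp'
  unfold HubEq
  rw [a1, a2, b1, b2]
  constructor
  · rintro ⟨h1, h2, h3⟩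
    apply tag_inj A h6
    · exact A.num_inj (by have := tagK_lt (slotH (PP A D ac cdi gap) K12 g (J - gadTau g)).2; omega)
        (by have := tagK_lt (slotH (PP A D ac cdi gap) K12 g' (J - gadTau g')).2; omega) h1
    · exact h2
    · apply chD_inj (A := A) (by omega) (tagC_lt _) (tagC_lt _)
      intro f hf
      rw [← a3 f hf, ← b3 f hf]
      exact h3 f hf
  · intro h
    rw [h]
    refine ⟨rfl, rfl, fun f hf => ?_⟩
    rw [a3 f hf, b3 f hf, h]

theorem gadEq_iff : GadEq u u' ↔ g = g' := by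
  have hs := H.hs
  constructor
  · rintro ⟨h1, h2, h3, h4⟩
    apply gad_inj A h6
    · rw [hu.g, hu'.g] at h1
      have a1 := mk_lt_gadK g
      have a2 := mk_lt_gadK g'
      exact A.num_inj (by omega) (by omega) h1
    · rw [hu.τ, hu'.τ] at h2
      have a1 := (gadTau g).isLt
      have a2 := (gadTau g').isLt
      exact Fin.ext (A.num_inj (by omega) (by omega) h2)
    · rw [← hu.t, ← hu'.t]
      exact h3
    · apply chD_inj (A := A) (by omega) (gadC_lt g) (gadC_lt g')
      intro f hf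
      rw [← hu.ch f hf, ← hu'.ch f hf]
      exact h4 f hf
  · rintro rfl
    refine ⟨by rw [hu.g, hu'.g], by rw [hu.τ, hu'.τ], by rw [hu.t, hu'.t], fun f hf => ?_⟩
    rw [hu.ch f hf, hu'.ch f hf]

end pairs

end Vale.Agent.P310d
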