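import Vale.Agent.P310d.Slots

/-!
# Which letters are the letters of an equation
-/

namespace Vale.Agent.P310d

open Function Vale.Agent.P310y

open scoped Classical

set_option linter.unusedSectionVars false

variable {F : Type} [AddCommGroup F] [Module (ZMod 2) F] [Fintype F] {s K xe : ℕ} (A : Alph F s)
  (D : F → F → F) (ac : F) (cdi : Injective (cdOf A (K := K) (xe := xe))) (gap : ℕ)

/-- The letter is allowed. -/
def AllowL (u : ℕ → F) : Prop :=
  if nmv A (u 1) = 1 then A.guardL D (u 9) (u 8) (u 7) (u 3) (u 5)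
  else if nmv A (u 1) < 5 then True else u 5 = 0

/-- The letters of an equation: the plain condition. -/
def ItemOk (K xe : ℕ) (u : ℕ → F) : Prop :=
  GadOk A K xe u ∧ (if u 0 = 0 then nmv A (u 3) < K ∧ nmv A (u 4) < 2 + xe ∧
      (nmv A (u 4) < 2 ∨ u 3 = 0) ∧ AllowL A D u
    else u 0 = A.num 1 ∧ u 3 = 0 ∧ u 4 = 0 ∧ u 5 = 0)

variable {A D ac cdi gap}

theorem allow_iff (hs : 60 < s) {u : ℕ → F} {b : Gad s (NN s) K xe} (hu : GadL A u b) (i : Fin K)
    (hi : u 3 = A.num i.val) :
    AllowL A D u ↔ (PP A D ac cdi gap).gs.allow b i (u 5) := by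
  have hg : nmv A (u 1) = gadK b := by
    rw [hu.g]
    exact nmv_num (by have := mk_lt_gadK b; omega)
  unfold AllowL
  rw [hg]
  rcases b with ⟨l, τ⟩ | τ | _
  · cases l with
    | orR r => simp [gadK, lamK]; exact trivial
    | andR r =>
      have hch : ∀ f, f < 5 → u (7 + f) = chD A (2 * r.val + 0) f := hu.ch
      obtain ⟨e0, e1, e2⟩ := chD_rule (A := A) r (e := 0) (by omega)
      have h7 : u 7 = A.rc r := (hch 0 (by omega)).trans e0
      have h8 : u 8 = A.ra r := (hch 1 (by omega)).trans e1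
      have h9 : u 9 = A.rpc r := (hch 2 (by omega)).trans e2
      simp only [gadK, lamK, if_true]
      rw [h7, h8, h9, hi]
      rfl
    | cz t => simp [gadK, lamK]; exact trivial
    | cs t i => simp [gadK, lamK]; exact trivial
    | us r σ => simp [gadK, lamK]; exact trivial
    | bas =>
      simp only [gadK, lamK]
      norm_num
      rfl
    | del j =>
      simp only [gadK, lamK]
      norm_num
      rfl
    | las =>
      simp only [gadK, lamK]
      norm_num
      rfl
  · simp only [gadK]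
    norm_num
    rfl
  · simp only [gadK]
    norm_num
    rfl

theorem mkF_eq {u : ℕ → F} {b : Gad s (NN s) K xe} (hu : GadL A u b) {h i σ : ℕ} {β : F}
    (h0 : u 0 = A.num h) (h3 : u 3 = A.num i) (h4 : u 4 = A.num σ) (h5 : u 5 = β) {j : ℕ}
    (hj : j < 12) :
    mkF A h (gadK b) (gadTau b).val i σ β (gadT A b) (gadC b) j = u j := by
  have hj2 : j = 0 ∨ j = 1 ∨ j = 2 ∨ j = 3 ∨ j = 4 ∨ j = 5 ∨ j = 6 ∨ ∃ f, f < 5 ∧ j = 7 + f := by
    by_cases h7 : j < 7
    · omega
    · exact Or.inr (Or.inr (Or.inr (Or.inr (Or.inr (Or.inr (Or.inr ⟨j - 7, by omega, by omega⟩))))))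
  rcases hj2 with rfl | rfl | rfl | rfl | rfl | rfl | rfl | ⟨f, hf, rfl⟩
  · exact h0.symm
  · exact hu.g.symm
  · exact hu.τ.symm
  · exact h3.symm
  · exact h4.symm
  · exact h5.symm
  · exact hu.t.symm
  · rw [hu.ch f hf, add_comm]
    rfl

/-- Letters agreeing with the letters of an equation have its gadget. -/
theorem gadL_of_mkF {u : ℕ → F} {b : Gad s (NN s) K xe} {h i σ : ℕ} {β : F}
    (hr : ∀ j, j < 12 → mkF A h (gadK b) (gadTau b).val i σ β (gadT A b) (gadC b) j = u j) :
    GadL A u b where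
  g := (hr 1 (by omega)).symm
  τ := (hr 2 (by omega)).symm
  t := (hr 6 (by omega)).symm
  ch := fun f hf => by
    rw [← hr (7 + f) (by omega), add_comm]
    rfl

/-- The condition is that of the letters of an equation. -/
theorem itemOk_iff (hs : 60 < s) (hK : K ≤ s) (h6 : 6 * K + 3 * xe + 12 ≤ s) (u : ℕ → F) :
    ItemOk A D K xe u ↔ ∃ c : GItem (PP A D ac cdi gap).gs,
      ∀ j, j < 12 → rawF A ((PP A D ac cdi gap).gs.rawI c) j = u j := by
  have hn0 : A.num 1 ≠ (0 : F) := Alph.num_one_ne (by omega)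
  constructor
  · rintro ⟨h1, h2⟩
    obtain ⟨b, hb⟩ := exists_of_gadOk hs h6 h1
    by_cases h0 : u 0 = 0
    · rw [if_pos h0] at h2
      obtain ⟨h3, h4, h8, h5⟩ := h2
      have ei : u 3 = A.num (⟨_, h3⟩ : Fin K).val := (A.num_nm _).symm
      refine ⟨GItem.e ⟨⟨_, h3⟩, ⟨_, h4⟩, h8.imp id (fun h => by
          show nmv A (u 3) = 0
          rw [h]
          exact nmv_zero (by omega))⟩ b (u 5)
        ((allow_iff hs hb ⟨_, h3⟩ ei).1 h5), ?_⟩
      intro j hj
      apply mkF_eq hb _ ei _ rfl hj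
      · rw [h0, A.num_zero]
      · exact (A.num_nm _).symm
    · rw [if_neg h0] at h2
      obtain ⟨h3, h4, h5, h7⟩ := h2
      refine ⟨GItem.h b, ?_⟩
      intro j hj
      apply mkF_eq hb h3 _ _ _ hj
      · rw [h4, A.num_zero]
      · rw [h5, A.num_zero]
      · exact h7
  · rintro ⟨c, hc⟩
    cases c with
    | e p b β hh =>
      have hr : ∀ j, j < 12 → mkF A 0 (gadK b) (gadTau b).val p.1.val p.idx.val β
          (gadT A b) (gadC b) j = u j := hc
      have hb := gadL_of_mkF hr
      have h0 : u 0 = 0 := by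
        rw [← hr 0 (by omega)]
        exact A.num_zero
      have h3 : u 3 = A.num p.1.val := (hr 3 (by omega)).symm
      have h4 : u 4 = A.num p.idx.val := (hr 4 (by omega)).symm
      have h5 : u 5 = β := (hr 5 (by omega)).symm
      have hK1 := p.1.isLt
      refine ⟨gadOk_of hs h6 hb, ?_⟩
      have hI1 := p.idx.isLt
      rw [if_pos h0, h3, h4, nmv_num (by omega), nmv_num (by omega)]
      refine ⟨hK1, hI1, p.ok.imp id (fun h => by rw [h]; exact A.num_zero), ?_⟩
      have := (allow_iff (D := D) (ac := ac) (cdi := cdi) (gap := gap) hs hb p.1 h3).2 (by rw [h5]; exact hh)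
      unfold AllowL at this
      unfold AllowL
      exact this
    | h b =>
      have hr : ∀ j, j < 12 → mkF A 1 (gadK b) (gadTau b).val 0 0 0
          (gadT A b) (gadC b) j = u j := hc
      have hb := gadL_of_mkF hr
      have h0 : u 0 = A.num 1 := (hr 0 (by omega)).symm
      have h3 : u 3 = A.num 0 := (hr 3 (by omega)).symm
      have h4 : u 4 = A.num 0 := (hr 4 (by omega)).symm
      have h5 : u 5 = 0 := (hr 5 (by omega)).symm
      refine ⟨gadOk_of hs h6 hb, ?_⟩
      rw [if_neg (by rw [h0]; exact hn0), h3, h4, A.num_zero]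
      exact ⟨h0, rfl, rfl, h5⟩

end Vale.Agent.P310d
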