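import Vale.Agent.P310d.Arm

/-!
# Instructions, expressions and statements of the register machine
-/

namespace Vale.Agent.P310d

open Function

open scoped Classical

/-- Instructions. -/
inductive Instr (F : Type) : Type
  | gate (t x1 x2 y : ℕ) : Instr F
  | imm (a : F) (y : ℕ) : Instr F
  | jz (x l : ℕ) : Instr F
  | guess (y : ℕ) : Instr F
  | fork (l : ℕ) : Instr F
  | halt : Instr F

namespace Instr

variable {F : Type}

def kind : Instr F → ℕ
  | gate _ _ _ _ => 0
  | imm _ _ => 1
  | jz _ _ => 2
  | guess _ => 3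
  | fork _ => 4
  | halt => 5

def x1 : Instr F → ℕ
  | gate _ x _ _ => x
  | jz x _ => x
  | _ => 0

def x2 : Instr F → ℕ
  | gate _ _ x _ => x
  | _ => 0

def y : Instr F → ℕ
  | gate _ _ _ y => y
  | imm _ y => y
  | guess y => y
  | _ => 0

def tab : Instr F → ℕ
  | gate t _ _ _ => t
  | _ => 0

def lbl : Instr F → ℕ
  | jz _ l => l
  | fork l => l
  | _ => 0

def immv [Zero F] : Instr F → F
  | imm a _ => a
  | _ => 0

/-- The fields of an instruction are in range. -/
def Ok (K s : ℕ) (i : Instr F) : Prop :=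
  i.x1 < K ∧ i.x2 < K ∧ i.y < K ∧ i.tab < 5 ∧ i.lbl < s

end Instr

variable {F : Type} [AddCommGroup F] {s : ℕ} (A : Alph F s)

/-- The table of a code: the numbers below `7` give the fields of the instruction at a letter, the
other numbers are free. -/
noncomputable def codeTab (code : ℕ → Instr F) (aux : F → F → F) : F → F → F := fun τ pc =>
  if τ = A.num 0 then A.num (code (A.nm pc).val).kind else
  if τ = A.num 1 then A.num (code (A.nm pc).val).x1 else
  if τ = A.num 2 then A.num (code (A.nm pc).val).x2 else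
  if τ = A.num 3 then A.num (code (A.nm pc).val).y else
  if τ = A.num 4 then A.num (code (A.nm pc).val).tab else
  if τ = A.num 5 then (code (A.nm pc).val).immv else
  if τ = A.num 6 then A.num (code (A.nm pc).val).lbl else aux τ pc

section fields

variable {A}

variable {code : ℕ → Instr F} {aux : F → F → F}

theorem ne_num {i j : ℕ} (hi : i < s) (hj : j < s) (h : i ≠ j) : A.num i ≠ (A.num j : F) :=
  fun e => h (A.num_inj hi hj e)

theorem fKind_code (hs : 7 < s) {a : ℕ} (ha : a < s) :
    Alph.fKind A (codeTab A code aux) (A.num a) = A.num (code a).kind := by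
  unfold Alph.fKind codeTab
  rw [if_pos rfl, A.nm_num ha]

theorem fX1_code (hs : 7 < s) {a : ℕ} (ha : a < s) :
    Alph.fX1 A (codeTab A code aux) (A.num a) = A.num (code a).x1 := by
  unfold Alph.fX1 codeTab
  rw [if_neg (ne_num (by omega) (by omega) (by omega)), if_pos rfl, A.nm_num ha]

theorem fX2_code (hs : 7 < s) {a : ℕ} (ha : a < s) :
    Alph.fX2 A (codeTab A code aux) (A.num a) = A.num (code a).x2 := by
  unfold Alph.fX2 codeTab
  rw [if_neg (ne_num (by omega) (by omega) (by omega)),
    if_neg (ne_num (by omega) (by omega) (by omega)), if_pos rfl, A.nm_num ha]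

theorem fY_code (hs : 7 < s) {a : ℕ} (ha : a < s) :
    Alph.fY A (codeTab A code aux) (A.num a) = A.num (code a).y := by
  unfold Alph.fY codeTab
  rw [if_neg (ne_num (by omega) (by omega) (by omega)),
    if_neg (ne_num (by omega) (by omega) (by omega)),
    if_neg (ne_num (by omega) (by omega) (by omega)), if_pos rfl, A.nm_num ha]

theorem fTab_code (hs : 7 < s) {a : ℕ} (ha : a < s) :
    Alph.fTab A (codeTab A code aux) (A.num a) = A.num (code a).tab := by
  unfold Alph.fTab codeTab
  rw [if_neg (ne_num (by omega) (by omega) (by omega)),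
    if_neg (ne_num (by omega) (by omega) (by omega)),
    if_neg (ne_num (by omega) (by omega) (by omega)),
    if_neg (ne_num (by omega) (by omega) (by omega)), if_pos rfl, A.nm_num ha]

theorem fImm_code (hs : 7 < s) {a : ℕ} (ha : a < s) :
    Alph.fImm A (codeTab A code aux) (A.num a) = (code a).immv := by
  unfold Alph.fImm codeTab
  rw [if_neg (ne_num (by omega) (by omega) (by omega)),
    if_neg (ne_num (by omega) (by omega) (by omega)),
    if_neg (ne_num (by omega) (by omega) (by omega)),
    if_neg (ne_num (by omega) (by omega) (by omega)),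
    if_neg (ne_num (by omega) (by omega) (by omega)), if_pos rfl, A.nm_num ha]

theorem fLbl_code (hs : 7 < s) {a : ℕ} (ha : a < s) :
    Alph.fLbl A (codeTab A code aux) (A.num a) = A.num (code a).lbl := by
  unfold Alph.fLbl codeTab
  rw [if_neg (ne_num (by omega) (by omega) (by omega)),
    if_neg (ne_num (by omega) (by omega) (by omega)),
    if_neg (ne_num (by omega) (by omega) (by omega)),
    if_neg (ne_num (by omega) (by omega) (by omega)),
    if_neg (ne_num (by omega) (by omega) (by omega)),
    if_neg (ne_num (by omega) (by omega) (by omega)), if_pos rfl, A.nm_num ha]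

end fields

/-! ### Acceptance at numbered program points -/

section machine

variable {A}

variable {K : ℕ} {code : ℕ → Instr F} {aux : F → F → F} {acN : ℕ}

/-- Acceptance at a numbered program point, starting at `0`, the accepting point being `acN`. -/
def AccN (A : Alph F s) (K : ℕ) (code : ℕ → Instr F) (aux : F → F → F) (acN : ℕ) (a : ℕ)
    (ρ : ℕ → F) : Prop :=
  AccL A (codeTab A code aux) (A.num 0) (A.num acN) (A.num a) (wd K ρ)

/-- The conditions on the parameters. -/
structure MOk (A : Alph F s) (K : ℕ) (code : ℕ → Instr F) (acN : ℕ) : Prop where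
  hs : 7 < s
  hK0 : 0 < K
  hKs : K ≤ s
  hok : ∀ a, (code a).Ok K s
  hac : acN < s
  hhalt : code acN = Instr.halt

theorem succ_num (hs : 0 < s) {a : ℕ} (ha : a + 1 < s) : A.succL (A.num a) = A.num (a + 1) := by
  unfold Alph.succL
  rw [A.nm_num (by omega), Nat.mod_eq_of_lt ha]

variable (h : MOk A K code acN)

include h

theorem accN_gate {a t x1 x2 y : ℕ} (ρ : ℕ → F) (hc : code a = Instr.gate t x1 x2 y)
    (ha : a + 1 < s) :
    AccN A K code aux acN a ρ ↔
      AccN A K code aux acN (a + 1)
        (update ρ y (ρ y + A.tabL (codeTab A code aux) (A.num t) (ρ x1) (ρ x2))) := by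
  have hs := h.hs
  have ok := h.hok a
  rw [hc] at ok
  obtain ⟨h1, h2, h3, h4, h5⟩ := ok
  simp only [Instr.x1, Instr.x2, Instr.y, Instr.tab] at h1 h2 h3 h4
  unfold AccN
  have hne : A.num a ≠ (A.num acN : F) := by
    refine ne_num (by omega) h.hac ?_
    rintro rfl
    rw [h.hhalt] at hc
    cases hc
  have := accL_gate (A := A) (D := codeTab A code aux) (st := A.num 0) (ac := A.num acN)
    (pc := A.num a) (x1 := x1) (x2 := x2) (y := y) (K := K) ρ (by omega) h.hKs
    (by rw [fKind_code hs (by omega), hc]; rfl)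
    (by rw [fX1_code hs (by omega), hc]; rfl)
    (by rw [fX2_code hs (by omega), hc]; rfl)
    (by rw [fY_code hs (by omega), hc]; rfl) h1 h2 h3 hne
  rw [this, succ_num (by omega) ha, fTab_code hs (by omega), hc]
  rfl

theorem accN_imm {a : ℕ} {v : F} {y : ℕ} (ρ : ℕ → F) (hc : code a = Instr.imm v y)
    (ha : a + 1 < s) :
    AccN A K code aux acN a ρ ↔ AccN A K code aux acN (a + 1) (update ρ y (ρ y + v)) := by
  have hs := h.hs
  have ok := h.hok a
  rw [hc] at ok
  obtain ⟨h1, h2, h3, h4, h5⟩ := ok
  simp only [Instr.y] at h3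
  unfold AccN
  have hne : A.num a ≠ (A.num acN : F) := by
    refine ne_num (by omega) h.hac ?_
    rintro rfl
    rw [h.hhalt] at hc
    cases hc
  have := accL_imm (A := A) (D := codeTab A code aux) (st := A.num 0) (ac := A.num acN)
    (pc := A.num a) (y := y) (K := K) ρ (by omega) h.hKs
    (by rw [fKind_code hs (by omega), hc]; rfl)
    (by rw [fY_code hs (by omega), hc]; rfl) h3 hne
  rw [this, succ_num (by omega) ha, fImm_code hs (by omega), hc]
  rfl

theorem accN_jz {a x l : ℕ} (ρ : ℕ → F) (hc : code a = Instr.jz x l)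
    (ha : a + 1 < s) :
    AccN A K code aux acN a ρ ↔
      AccN A K code aux acN (if ρ x = 0 then l else a + 1) ρ := by
  have hs := h.hs
  have ok := h.hok a
  rw [hc] at ok
  obtain ⟨h1, h2, h3, h4, h5⟩ := ok
  simp only [Instr.x1, Instr.y] at h1 h3
  unfold AccN
  have hne : A.num a ≠ (A.num acN : F) := by
    refine ne_num (by omega) h.hac ?_
    rintro rfl
    rw [h.hhalt] at hc
    cases hc
  have := accL_jz (A := A) (D := codeTab A code aux) (st := A.num 0) (ac := A.num acN)
    (pc := A.num a) (x := x) (y := 0) (K := K) ρ (by omega) h.hKs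
    (by rw [fKind_code hs (by omega), hc]; rfl)
    (by rw [fX1_code hs (by omega), hc]; rfl)
    (by rw [fY_code hs (by omega), hc]; rfl) h3 h1 hne
  rw [this, succ_num (by omega) ha, fLbl_code hs (by omega), hc]
  by_cases e : ρ x = 0
  · simp [e, Instr.lbl]
  · simp [e]

theorem accN_guess {a y : ℕ} (ρ : ℕ → F) (hc : code a = Instr.guess y)
    (ha : a + 1 < s) :
    AccN A K code aux acN a ρ ↔ ∃ v, AccN A K code aux acN (a + 1) (update ρ y (ρ y + v)) := by
  have hs := h.hs
  have ok := h.hok a
  rw [hc] at ok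
  obtain ⟨h1, h2, h3, h4, h5⟩ := ok
  simp only [Instr.y] at h3
  unfold AccN
  have hne : A.num a ≠ (A.num acN : F) := by
    refine ne_num (by omega) h.hac ?_
    rintro rfl
    rw [h.hhalt] at hc
    cases hc
  have := accL_guess (A := A) (D := codeTab A code aux) (st := A.num 0) (ac := A.num acN)
    (pc := A.num a) (y := y) (K := K) ρ (by omega) h.hKs
    (by rw [fKind_code hs (by omega), hc]; rfl)
    (by rw [fY_code hs (by omega), hc]; rfl) h3 hne
  rw [this, succ_num (by omega) ha]

theorem accN_fork {a l : ℕ} (ρ : ℕ → F) (hc : code a = Instr.fork l)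
    (ha : a + 1 < s) :
    AccN A K code aux acN a ρ ↔
      AccN A K code aux acN (a + 1) ρ ∧ AccN A K code aux acN l ρ := by
  have hs := h.hs
  have ok := h.hok a
  rw [hc] at ok
  obtain ⟨h1, h2, h3, h4, h5⟩ := ok
  simp only [Instr.y] at h3
  unfold AccN
  have hne : A.num a ≠ (A.num acN : F) := by
    refine ne_num (by omega) h.hac ?_
    rintro rfl
    rw [h.hhalt] at hc
    cases hc
  have := accL_fork (A := A) (D := codeTab A code aux) (st := A.num 0) (ac := A.num acN)
    (pc := A.num a) (y := 0) (K := K) ρ (by omega) h.hKs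
    (by rw [fKind_code hs (by omega), hc]; rfl)
    (by rw [fY_code hs (by omega), hc]; rfl) h3 hne
  rw [this, succ_num (by omega) ha, fLbl_code hs (by omega), hc]
  rfl

theorem accN_halt_any {a : ℕ} (ha : a < s) (hc : code a = Instr.halt) (p q : F) :
    ¬ A.activeL (codeTab A code aux) (A.num a) p q := by
  have hs := h.hs
  have hk : Alph.fKind A (codeTab A code aux) (A.num a) = A.num 5 := by
    rw [fKind_code hs ha, hc]
    rfl
  unfold Alph.activeL
  rw [hk]
  have ne : ∀ j, j < 5 → A.num 5 ≠ (A.num j : F) := fun j hj =>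
    ne_num (by omega) (by omega) (by omega)
  rintro (e | ⟨e, _⟩ | ⟨e, _⟩ | ⟨e, _⟩ | ⟨e, _⟩)
  · exact ne 0 (by omega) e
  · exact ne 1 (by omega) e
  · exact ne 2 (by omega) e
  · exact ne 3 (by omega) e
  · exact ne 4 (by omega) e

theorem accN_halt {a : ℕ} (ρ : ℕ → F) (ha : a < s) (hc : code a = Instr.halt) (hne : a ≠ acN) :
    ¬ AccN A K code aux acN a ρ := by
  unfold AccN
  exact accL_halt (accN_halt_any h ha hc 0 0) (accN_halt_any h ha hc)
    (ne_num ha h.hac hne) h.hK0

theorem accN_acc (ρ : ℕ → F) : AccN A K code aux acN acN ρ ↔ wd K ρ = 0 := by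
  unfold AccN
  exact accL_acc (accN_halt_any h h.hac h.hhalt) h.hK0

end machine

/-! ### Expressions -/

/-- Expressions over the registers. -/
inductive Exp (F : Type) : Type
  | lit (a : F) : Exp F
  | reg (x : ℕ) : Exp F
  | add (e1 e2 : Exp F) : Exp F
  | ap (t : ℕ) (e1 e2 : Exp F) : Exp F

namespace Exp

/-- The value of an expression, given the tables. -/
noncomputable def eval (T : ℕ → F → F → F) : Exp F → (ℕ → F) → F
  | lit a, _ => a
  | reg x, ρ => ρ x
  | add e1 e2, ρ => eval T e1 ρ + eval T e2 ρ
  | ap t e1 e2, ρ => T t (eval T e1 ρ) (eval T e2 ρ)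

/-- The number of temporary registers. -/
def dp : Exp F → ℕ
  | lit _ => 0
  | reg _ => 0
  | add e1 e2 => max (dp e1) (dp e2)
  | ap _ e1 e2 => 2 + max (dp e1) (dp e2)

/-- The registers are below `b` and the tables below `5`. -/
def Rb (b : ℕ) : Exp F → Prop
  | lit _ => True
  | reg x => x < b
  | add e1 e2 => Rb b e1 ∧ Rb b e2
  | ap t e1 e2 => t < 5 ∧ Rb b e1 ∧ Rb b e2

/-- The code of an expression: adds its value to the register `y`, using the registers from `d`
on as temporary registers. -/
def cmp : Exp F → ℕ → ℕ → List (Instr F)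
  | lit a, y, _ => [Instr.imm a y]
  | reg x, y, _ => [Instr.gate 0 x x y]
  | add e1 e2, y, d => cmp e1 y d ++ cmp e2 y d
  | ap t e1 e2, y, d => cmp e1 d (d + 2) ++ cmp e2 (d + 1) (d + 2) ++
      [Instr.gate t d (d + 1) y, Instr.gate 0 d d d, Instr.gate 0 (d + 1) (d + 1) (d + 1)]

/-- The length of the code. -/
def len : Exp F → ℕ
  | lit _ => 1
  | reg _ => 1
  | add e1 e2 => len e1 + len e2
  | ap _ e1 e2 => len e1 + len e2 + 3

theorem len_cmp (e : Exp F) (y d : ℕ) : (cmp e y d).length = len e := by
  induction e generalizing y d with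
  | lit a => rfl
  | reg x => rfl
  | add e1 e2 h1 h2 => simp [cmp, len, h1, h2]
  | ap t e1 e2 h1 h2 =>
    simp [cmp, len, h1, h2]
    omega

theorem eval_congr (T : ℕ → F → F → F) {b : ℕ} {e : Exp F} (hb : Rb b e) {ρ ρ' : ℕ → F}
    (h : ∀ x, x < b → ρ x = ρ' x) : eval T e ρ = eval T e ρ' := by
  induction e with
  | lit a => rfl
  | reg x => exact h x hb
  | add e1 e2 h1 h2 =>
    show eval T e1 ρ + eval T e2 ρ = eval T e1 ρ' + eval T e2 ρ'
    rw [h1 hb.1, h2 hb.2]
  | ap t e1 e2 h1 h2 =>
    show T t (eval T e1 ρ) (eval T e2 ρ) = T t (eval T e1 ρ') (eval T e2 ρ')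
    rw [h1 hb.2.1, h2 hb.2.2]

theorem Rb.mono {b b' : ℕ} (hb : b ≤ b') {e : Exp F} (h : Rb b e) : Rb b' e := by
  induction e with
  | lit a => trivial
  | reg x => exact lt_of_lt_of_le h hb
  | add e1 e2 h1 h2 => exact ⟨h1 h.1, h2 h.2⟩
  | ap t e1 e2 h1 h2 => exact ⟨h.1, h1 h.2.1, h2 h.2.2⟩

end Exp

/-- A list of instructions at a place in the code. -/
def At (code : ℕ → Instr F) (a : ℕ) (l : List (Instr F)) : Prop :=
  ∀ i (hi : i < l.length), code (a + i) = l[i]

theorem At.left {code : ℕ → Instr F} {a : ℕ} {l l' : List (Instr F)} (h : At code a (l ++ l')) :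
    At code a l := by
  intro i hi
  have := h i (by simp; omega)
  rw [this, List.getElem_append_left hi]

theorem At.right {code : ℕ → Instr F} {a : ℕ} {l l' : List (Instr F)} (h : At code a (l ++ l')) :
    At code (a + l.length) l' := by
  intro i hi
  have := h (l.length + i) (by simp; omega)
  rw [add_assoc, this]
  simp

theorem At.head {code : ℕ → Instr F} {a : ℕ} {x : Instr F} {l : List (Instr F)}
    (h : At code a (x :: l)) : code a = x := h 0 (by simp)

theorem At.tail {code : ℕ → Instr F} {a : ℕ} {x : Instr F} {l : List (Instr F)}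
    (h : At code a (x :: l)) : At code (a + 1) l := by
  intro i hi
  have := h (i + 1) (by simp; omega)
  rw [show a + 1 + i = a + (i + 1) by omega]
  simpa using this

section run

variable [Module (ZMod 2) F]

theorem F_add_self (c : F) : c + c = 0 := by
  have h : ((2 : ZMod 2)) • c = 0 := by
    have : (2 : ZMod 2) = 0 := by decide
    rw [this, zero_smul]
  rwa [two_smul] at h

variable {A}

/-- The tables of the gates, given the table `D`. -/
noncomputable def tbl (A : Alph F s) (D : F → F → F) : ℕ → F → F → F := fun t a c =>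
  A.tabL D (A.num t) a c

theorem tbl_zero (D : F → F → F) (a c : F) : tbl A D 0 a c = a := by
  simp [tbl, Alph.tabL]

variable {K : ℕ} {code : ℕ → Instr F} {aux : F → F → F} {acN : ℕ}

/-- The run of the code of an expression. -/
theorem run_exp (h : MOk A K code acN) {b : ℕ} (e : Exp F) (hb : Exp.Rb b e) :
    ∀ (y d a : ℕ) (ρ : ℕ → F), At code a (Exp.cmp e y d) → a + Exp.len e < s → b ≤ y → y < d →
      (∀ x, d ≤ x → ρ x = 0) →
      (AccN A K code aux acN a ρ ↔ AccN A K code aux acN (a + Exp.len e)
        (update ρ y (ρ y + Exp.eval (tbl A (codeTab A code aux)) e ρ))) := by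
  induction e with
  | lit v =>
    intro y d a ρ hAt ha _ _ _
    exact accN_imm h ρ hAt.head ha
  | reg x =>
    intro y d a ρ hAt ha _ _ _
    have := accN_gate (aux := aux) h ρ hAt.head ha
    rw [this]
    show _ ↔ AccN A K code aux acN (a + 1) (update ρ y (ρ y + ρ x))
    rw [show A.tabL (codeTab A code aux) (A.num 0) (ρ x) (ρ x) = ρ x from tbl_zero _ _ _]
  | add e1 e2 h1 h2 =>
    intro y d a ρ hAt ha hby hyd hd
    have hA1 : At code a (Exp.cmp e1 y d) := At.left hAt
    have hA2 := At.right hAt
    rw [Exp.len_cmp] at hA2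
    have hl : Exp.len (Exp.add e1 e2) = Exp.len e1 + Exp.len e2 := rfl
    rw [hl] at ha ⊢
    rw [h1 hb.1 y d a ρ hA1 (by omega) hby hyd hd]
    rw [h2 hb.2 y d (a + Exp.len e1) _ hA2 (by omega) hby hyd (by
      intro x hx
      rw [update_of_ne (by omega)]
      exact hd x hx)]
    have e1' : Exp.eval (tbl A (codeTab A code aux)) e2
        (update ρ y (ρ y + Exp.eval (tbl A (codeTab A code aux)) e1 ρ)) =
        Exp.eval (tbl A (codeTab A code aux)) e2 ρ :=
      Exp.eval_congr _ hb.2 (fun x hx => update_of_ne (by omega) _ _)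
    have e2' : Exp.eval (tbl A (codeTab A code aux)) (Exp.add e1 e2) ρ =
        Exp.eval (tbl A (codeTab A code aux)) e1 ρ + Exp.eval (tbl A (codeTab A code aux)) e2 ρ := rfl
    rw [e1', update_self, update_idem, e2', add_assoc, add_assoc]
  | ap t e1 e2 h1 h2 =>
    intro y d a ρ hAt ha hby hyd hd
    have hA1 : At code a (Exp.cmp e1 d (d + 2)) := At.left (At.left hAt)
    have hA2 := At.right (At.left hAt)
    have hA3 := At.right hAt
    rw [Exp.len_cmp] at hA2
    simp only [List.length_append, Exp.len_cmp] at hA3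
    have hl : Exp.len (Exp.ap t e1 e2) = Exp.len e1 + Exp.len e2 + 3 := rfl
    rw [hl] at ha ⊢
    set T := tbl A (codeTab A code aux) with hT
    set v1 := Exp.eval T e1 ρ with hv1
    set v2 := Exp.eval T e2 ρ with hv2
    rw [h1 hb.2.1 d (d + 2) a ρ hA1 (by omega) (by omega) (by omega)
      (fun x hx => hd x (by omega))]
    rw [hd d le_rfl, zero_add, ← hv1]
    set ρ1 := update ρ d v1 with hρ1
    have e2' : Exp.eval T e2 ρ1 = v2 :=
      Exp.eval_congr _ hb.2.2 (fun x hx => update_of_ne (by omega) _ _)
    rw [h2 hb.2.2 (d + 1) (d + 2) (a + Exp.len e1) ρ1 hA2 (by omega) (by omega) (by omega) (by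
      intro x hx
      rw [hρ1, update_of_ne (by omega)]
      exact hd x (by omega))]
    have e3 : ρ1 (d + 1) = 0 := by
      rw [hρ1, update_of_ne (by omega)]
      exact hd _ (by omega)
    rw [e3, zero_add, e2']
    set ρ2 := update ρ1 (d + 1) v2 with hρ2
    have hc1 := hA3.head
    have hc2 := hA3.tail.head
    have hc3 := hA3.tail.tail.head
    have e4 : ρ2 d = v1 := by
      rw [hρ2, update_of_ne (by omega), hρ1, update_self]
    have e5 : ρ2 (d + 1) = v2 := by rw [hρ2, update_self]
    have e6 : ρ2 y = ρ y := by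
      rw [hρ2, update_of_ne (by omega), hρ1, update_of_ne (by omega)]
    have s1 := accN_gate (aux := aux) h ρ2 hc1 (by omega)
    rw [e4, e5, e6] at s1
    set w := A.tabL (codeTab A code aux) (A.num t) v1 v2 with hw
    set ρ3 := update ρ2 y (ρ y + w) with hρ3
    have s2 := accN_gate (aux := aux) h ρ3 hc2 (by omega)
    rw [show A.tabL (codeTab A code aux) (A.num 0) (ρ3 d) (ρ3 d) = ρ3 d from tbl_zero _ _ _,
      F_add_self] at s2
    set ρ4 := update ρ3 d 0 with hρ4
    have s3 := accN_gate (aux := aux) h ρ4 hc3 (by omega)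
    rw [show A.tabL (codeTab A code aux) (A.num 0) (ρ4 (d + 1)) (ρ4 (d + 1)) = ρ4 (d + 1) from
      tbl_zero _ _ _, F_add_self] at s3
    have efinal : update ρ4 (d + 1) 0 = update ρ y (ρ y + w) := by
      funext x
      by_cases hx1 : x = d + 1
      · subst hx1
        rw [update_self, update_of_ne (by omega)]
        exact (hd _ (by omega)).symm
      by_cases hx2 : x = d
      · subst hx2
        rw [update_of_ne (by omega), hρ4, update_self, update_of_ne (by omega)]
        exact (hd _ (by omega)).symm
      rw [update_of_ne hx1, hρ4, update_of_ne hx2, hρ3]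
      by_cases hx3 : x = y
      · subst hx3
        rw [update_self, update_self]
      · rw [update_of_ne hx3, update_of_ne hx3, hρ2, update_of_ne hx1, hρ1, update_of_ne hx2]
    rw [efinal] at s3
    have en : a + (Exp.len e1 + Exp.len e2) + 1 + 1 + 1 = a + (Exp.len e1 + Exp.len e2 + 3) := by
      omega
    rw [en] at s3
    rw [add_assoc a]
    exact s1.trans (s2.trans s3)

end run

end Vale.Agent.P310d
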