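import Vale.Agent.P310d.Final

/-!
# The final statement
-/

namespace Vale.Agent.P310d

open Function Vale.Agent.P310y Vale.Agent.P310h2

open scoped Classical

set_option linter.unusedSectionVars false

/-- The constant term. -/
def cst : ℕ := 1056 + 2 * dpAdj + 60

theorem main_step {F : Type} [AddCommGroup F] [Module (ZMod 2) F] [Fintype F] {s : ℕ} (A : Alph F s)
    {g K xe : ℕ} (hxe : xe ≤ 1) (hKm : 6 * (41 * g + 83) + 50 + dpAdj ≤ K) {Q Γ : Type} (M : TM Q Γ) {C n0 : ℕ}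
    {cS : Sym Q Γ → F} {cT : Sym Q Γ × Sym Q Γ × Sym Q Γ → F} (hS : Injective cS) (hT : Injective cT)
    (hB : 61 + (6 * K + 3 * xe + 12) + (2 * K + xe + 4) + (tabLen (41 * g + 83) + 2 * lenSym (41 * g + 83) + 1) +
      C + 1 + n0 ≤ s) (hpow : 2 ^ (2 * K + xe + 4) ≤ s) :
    ¬ DecidesWithin M (2 * K + xe) C n0 g := by
  set m := 41 * g + 83 with hm
  have hm83 : 83 ≤ m := by omega
  have hK0 : 0 < K := by omega
  have hs2 : 2 ≤ s := by omega
  have hs0 : 0 < s := by omega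
  have hle : s ^ (41 * g + 1) ≤ s ^ m := Nat.pow_le_pow_right hs0 (by omega)
  have hP : 0 < (s ^ 41) ^ g := Nat.pow_pos (Nat.pow_pos hs0)
  apply no_decide A M hS hT (by omega) hxe hK0 hm83 (by omega) hpow
  · have := dp_symE A M cS (K := K) (xe := xe) hm83
    omega
  · have := len_symE A M cS (K := K) (xe := xe) hm83
    omega
  · exact rb_symE A M cS hm83
  · have e1 : s ^ (41 * g + 1) = (s ^ 41) ^ g * s := by
      rw [pow_succ, pow_mul]
    have e2 : C * (s ^ 41) ^ g + 1 ≤ (s ^ 41) ^ g * s := by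
      have h1 : C + 1 ≤ s := by omega
      calc C * (s ^ 41) ^ g + 1 ≤ C * (s ^ 41) ^ g + (s ^ 41) ^ g := by omega
        _ = (s ^ 41) ^ g * (C + 1) := by ring
        _ ≤ (s ^ 41) ^ g * s := Nat.mul_le_mul_left _ h1
    rw [← e1] at e2
    omega
  · have h1 : s ≤ s ^ 41 := Nat.le_self_pow (by omega) s
    omega
  · have h1 : 2 * s ^ 41 * s ^ 41 = 2 * s ^ 82 := by ring
    rw [h1]
    calc 2 * s ^ 82 ≤ s * s ^ 82 := Nat.mul_le_mul_right _ hs2
      _ = s ^ 83 := by ring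
      _ ≤ s ^ m := Nat.pow_le_pow_right hs0 hm83

/-- No machine decides equivalence in time `n ^ g` at dimension at least `492 g + cst`. -/
theorem main_all {g k : ℕ} (hkg : 492 * g + cst ≤ k) {Q Γ : Type} [Finite Q] [Finite Γ]
    (M : TM Q Γ) (C n0 : ℕ) : ¬ DecidesWithin M k C n0 g := by
  obtain ⟨K, xe, hxe, rfl⟩ : ∃ K xe, xe ≤ 1 ∧ k = 2 * K + xe :=
    ⟨k / 2, k % 2, by omega, by omega⟩
  obtain ⟨N, hN⟩ := exists_codes (Q := Q) (Γ := Γ)
  have hcst : cst = 1056 + 2 * dpAdj + 60 := rfl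
  have hKm : 6 * (41 * g + 83) + 50 + dpAdj ≤ K := by omega
  set B := 61 + (6 * K + 3 * xe + 12) + (2 * K + xe + 4) +
    (tabLen (41 * g + 83) + 2 * lenSym (41 * g + 83) + 1) + C + 1 + n0 + N with hB
  have hBs : B < 2 ^ B := Nat.lt_two_pow_self
  obtain ⟨A⟩ := exists_alph B
  obtain ⟨cS, cT, hS, hT⟩ := hN _ (by omega) A
  exact main_step A hxe hKm M hS hT (by omega) (Nat.pow_le_pow_right (by omega) (by omega))

end Vale.Agent.P310d
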