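import Vale.Agent.P310h2.Defs

/-!
# Deterministic single-tape Turing machines, and what it means to decide equivalence
-/

namespace Vale.Agent.P310d

open Function Vale.Agent.P310h2

open scoped Classical

/-- A deterministic Turing machine with one tape, infinite to the right: states `Q`, tape symbols
`Γ`, a start state, an accepting and a rejecting state (in which it stops), the blank symbol, the
symbols of the input bits, and the transition function: new state, written symbol, and the move
(`true`: right, `false`: left; a move left on the first cell stays there). The accepting state and
the rejecting state are different. -/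
structure TM (Q Γ : Type) where
  start : Q
  accept : Q
  reject : Q
  blank : Γ
  input : Bool → Γ
  δ : Q → Γ → Q × Γ × Bool
  accept_ne_reject : accept ≠ reject

/-- A configuration: state, head position, tape contents. -/
structure Cfg (Q Γ : Type) where
  state : Q
  head : ℕ
  tape : ℕ → Γ

namespace TM

variable {Q Γ : Type} (M : TM Q Γ)

/-- One step of the machine; the accepting and the rejecting state do not change anything. -/
noncomputable def step (c : Cfg Q Γ) : Cfg Q Γ :=
  if c.state = M.accept ∨ c.state = M.reject then c
  else
    { state := (M.δ c.state (c.tape c.head)).1
      head := if (M.δ c.state (c.tape c.head)).2.2 then c.head + 1 else c.head - 1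
      tape := update c.tape c.head (M.δ c.state (c.tape c.head)).2.1 }

/-- The initial configuration on the input `w`: the input from the first cell on, blanks after it,
the head on the first cell. -/
def init (w : List Bool) : Cfg Q Γ where
  state := M.start
  head := 0
  tape c := match w[c]? with
    | some b => M.input b
    | none => M.blank

/-- The configuration after `t` steps on the input `w`. -/
noncomputable def run (w : List Bool) (t : ℕ) : Cfg Q Γ := M.step^[t] (M.init w)

end TM

/-- The adjacency matrix of a graph on `Fin n`, as a list of bits, row by row. -/
noncomputable def adjBits {n : ℕ} (G : SimpleGraph (Fin n)) : List Bool :=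
  (List.finRange n).flatMap fun u => (List.finRange n).map fun v => decide (G.Adj u v)

/-- The input word of a pair of graphs: the two adjacency matrices, one after the other. -/
noncomputable def encPair {n : ℕ} (G H : SimpleGraph (Fin n)) : List Bool := adjBits G ++ adjBits H

/-- The machine `M` decides `k`-dimensional Weisfeiler-Leman equivalence of graphs with `n` vertices
within `C * n ^ g` steps, for all `n ≥ n0`: it reaches the accepting state if the two graphs are
equivalent, the rejecting state if not. -/
def DecidesWithin {Q Γ : Type} (M : TM Q Γ) (k C n0 g : ℕ) : Prop :=
  ∀ n, n0 ≤ n → ∀ G H : SimpleGraph (Fin n), ∃ t, t ≤ C * n ^ g ∧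
    (((M.run (encPair G H) t).state = M.accept ∧ WLEquiv G H k) ∨
      ((M.run (encPair G H) t).state = M.reject ∧ ¬ WLEquiv G H k))

end Vale.Agent.P310d
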