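import Vale.Agent.P310x.Model
import Vale.Agent.P310d.TMDefs

/-!
# Simulating a multi-tape machine on the single-tape machine

Helper2's machine `P310x.TM` (finitely many two-way infinite tapes) is simulated by the one-tape,
one-way infinite machine `P310d.TM` in time `(t + 1) ^ 2`.

Cell `i` of the single tape holds, for each tape `t`, the two symbols of the positions `i` and
`- i - 1` of that tape and a mark: on which of the two positions the head of `t` stands, if it stands
on one of them. The cells from `R` on have not been used. One step of the simulated machine is a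
sweep to the right, which writes and moves up the heads that leave the cell towards the larger
cells, one step on the first unused cell, which is used now, and a sweep to the left, which moves the
remaining heads and collects the symbols under the heads.
-/

namespace Vale.Agent.P310d

open Function

open scoped Classical

namespace SimDefs

/-- The two positions of a cell. -/
def pos (i : ℕ) : Bool → ℤ
  | true => i
  | false => -(i : ℤ) - 1

/-- The way a head moves relative to the cell number. -/
inductive Rel
  | stay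
  | up
  | down

/-- How a move changes the cell number on a side. -/
def rel : Bool → P310x.Dir → Rel
  | _, .stay => .stay
  | true, .right => .up
  | true, .left => .down
  | false, .left => .up
  | false, .right => .down

/-- The control for one tape in the sweep to the right. -/
inductive RP (S : Type)
  | todo (wr : S) (mv : P310x.Dir)
  | carry (τ : Bool)
  | idle
  | pend

/-- The control for one tape in the sweep to the left. -/
inductive LP
  | idle
  | pend
  | carry (τ : Bool)

/-- The content of a cell for one tape. -/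
abbrev Trk (S : Type) := (Bool → S) × Option Bool

variable {S : Type}

/-- One cell of the sweep to the right, for one tape. -/
noncomputable def rstep (first : Bool) : RP S → Trk S → RP S × Trk S
  | .todo wr mv, (v, some τ) =>
    match rel τ mv with
    | .stay => (.idle, (update v τ wr, some τ))
    | .up => (.carry τ, (update v τ wr, none))
    | .down =>
      if first = true then (.idle, (update v τ wr, some (!τ)))
      else (.pend, (update v τ wr, some τ))
  | .todo wr mv, (v, none) => (.todo wr mv, (v, none))
  | .carry τ, (v, _) => (.idle, (v, some τ))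
  | .idle, y => (.idle, y)
  | .pend, y => (.pend, y)

/-- One cell of the sweep to the left, for one tape. -/
def lstep : LP × S → Trk S → (LP × S) × Trk S
  | (.idle, _), (v, some τ) => ((.idle, v τ), (v, some τ))
  | (.idle, g), (v, none) => ((.idle, g), (v, none))
  | (.pend, g), (v, some τ) => ((.carry τ, g), (v, none))
  | (.pend, g), (v, none) => ((.pend, g), (v, none))
  | (.carry τ, _), (v, _) => ((.idle, v τ), (v, some τ))

/-- The start of the sweep to the left. -/
def conv (b : S) : RP S → LP × S
  | .pend => (.pend, b)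
  | _ => (.idle, b)

/-- The mark of cell `j` for a head at `h`. -/
noncomputable def markOf (h : ℤ) (j : ℕ) : Option Bool :=
  if h = pos j true then some true else if h = pos j false then some false else none

/-- The two symbols of cell `j`. -/
def vv (T : ℤ → S) (j : ℕ) : Bool → S := fun σ => T (pos j σ)

/-- The content of cell `j` for the tape `T` with the head at `h`. -/
noncomputable def trk (T : ℤ → S) (h : ℤ) (j : ℕ) : Trk S := (vv T j, markOf h j)

/-- The cell of a position. -/
def cell (h : ℤ) : ℕ := if 0 ≤ h then h.toNat else (-h - 1).toNat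

theorem pos_inj {i j : ℕ} {σ τ : Bool} : pos i σ = pos j τ ↔ i = j ∧ σ = τ := by
  cases σ <;> cases τ <;> simp [pos] <;> omega

theorem markOf_pos (i j : ℕ) (τ : Bool) : markOf (pos i τ) j = if j = i then some τ else none := by
  unfold markOf
  cases τ <;> by_cases h : j = i <;> simp [h, pos_inj, eq_comm] <;> omega

theorem exists_pos (h : ℤ) : ∃ i τ, h = pos i τ := by
  by_cases h0 : 0 ≤ h
  · exact ⟨h.toNat, true, by simp [pos]; omega⟩
  · exact ⟨(-h - 1).toNat, false, by simp [pos]; omega⟩

theorem cell_pos (i : ℕ) (τ : Bool) : cell (pos i τ) = i := by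
  unfold cell
  cases τ
  · have : ¬ (0 ≤ pos i false) := by simp [pos]; omega
    simp only [this, if_false]
    simp [pos]
  · have : 0 ≤ pos i true := by simp [pos]
    simp only [this, if_true]
    simp [pos]

theorem vv_upd_ne (T : ℤ → S) {i j : ℕ} (τ : Bool) (wr : S) (h : j ≠ i) :
    vv (update T (pos i τ) wr) j = vv T j := by
  funext σ
  simp only [vv]
  rw [update_of_ne]
  intro e
  exact h (pos_inj.1 e).1

theorem vv_upd_eq (T : ℤ → S) (i : ℕ) (τ : Bool) (wr : S) :
    vv (update T (pos i τ) wr) i = update (vv T i) τ wr := by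
  funext σ
  simp only [vv]
  by_cases h : σ = τ
  · subst h; simp
  · rw [update_of_ne (fun e => h (pos_inj.1 e).2), update_of_ne h]
    rfl

theorem move_stay {τ : Bool} {mv : P310x.Dir} (i : ℕ) (h : rel τ mv = .stay) :
    pos i τ + mv.toInt = pos i τ := by
  cases τ <;> cases mv <;> simp_all [rel, pos, P310x.Dir.toInt]

theorem move_up {τ : Bool} {mv : P310x.Dir} (i : ℕ) (h : rel τ mv = .up) :
    pos i τ + mv.toInt = pos (i + 1) τ := by
  cases τ <;> cases mv <;> simp_all [rel, pos, P310x.Dir.toInt] <;> omega

theorem move_down {τ : Bool} {mv : P310x.Dir} (i : ℕ) (h : rel τ mv = .down) :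
    pos (i + 1) τ + mv.toInt = pos i τ := by
  cases τ <;> cases mv <;> simp_all [rel, pos, P310x.Dir.toInt] <;> omega

theorem move_flip {τ : Bool} {mv : P310x.Dir} (h : rel τ mv = .down) :
    pos 0 τ + mv.toInt = pos 0 (!τ) := by
  cases τ <;> cases mv <;> simp_all [rel, pos, P310x.Dir.toInt]

/-- What the sweeps do on one tape. -/
theorem tape_spec (T : ℤ → S) (h : ℤ) (wr : S) (mv : P310x.Dir) (b : S) :
    ∃ (X : ℕ → RP S) (L : ℕ → LP × S) (h1 : ℤ),
      X 0 = .todo wr mv ∧
      (∀ j, rstep (decide (j = 0)) (X j) (trk T h j) = (X (j + 1), trk (update T h wr) h1 j)) ∧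
      (∀ j, lstep (L (j + 1)) (trk (update T h wr) h1 j) =
        (L j, trk (update T h wr) (h + mv.toInt) j)) ∧
      (∀ R, cell h < R → conv b (X (R + 1)) = L (R + 1)) ∧
      L 0 = (.idle, update T h wr (h + mv.toInt)) := by
  obtain ⟨i, τ, rfl⟩ := exists_pos h
  rcases hrel : rel τ mv with _ | _ | _
  · -- the head stays
    rw [move_stay i hrel]
    refine ⟨fun j => if j ≤ i then .todo wr mv else .idle,
      fun j => (.idle, if j ≤ i then update T (pos i τ) wr (pos i τ) else b), pos i τ, ?_, ?_, ?_, ?_, ?_⟩
    · simp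
    · intro j
      rcases lt_trichotomy j i with hj | rfl | hj
      · have h1 : j ≠ i := by omega
        have h2 : j ≤ i := by omega
        have h3 : j + 1 ≤ i := by omega
        simp [trk, markOf_pos, vv_upd_ne, h1, h2, h3, rstep]
      · simp [trk, markOf_pos, vv_upd_eq, rstep, hrel]
      · have h1 : j ≠ i := by omega
        have h2 : ¬ j ≤ i := by omega
        have h3 : ¬ j + 1 ≤ i := by omega
        simp [trk, markOf_pos, vv_upd_ne, h1, h2, h3, rstep]
    · intro j
      rcases lt_trichotomy j i with hj | rfl | hj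
      · have h1 : j ≠ i := by omega
        have h2 : j ≤ i := by omega
        have h3 : j + 1 ≤ i := by omega
        simp [trk, markOf_pos, h1, h2, h3, lstep]
      · simp [trk, markOf_pos, lstep, vv]
      · have h1 : j ≠ i := by omega
        have h2 : ¬ j ≤ i := by omega
        have h3 : ¬ j + 1 ≤ i := by omega
        simp [trk, markOf_pos, h1, h2, h3, lstep]
    · intro R hR
      rw [cell_pos] at hR
      have h3 : ¬ R + 1 ≤ i := by omega
      simp [h3, conv]
    · simp
  · -- the head moves to the next larger cell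
    rw [move_up i hrel]
    refine ⟨fun j => if j ≤ i then .todo wr mv else if j = i + 1 then .carry τ else .idle,
      fun j => (.idle, if j ≤ i + 1 then update T (pos i τ) wr (pos (i + 1) τ) else b),
      pos (i + 1) τ, ?_, ?_, ?_, ?_, ?_⟩
    · simp
    · intro j
      rcases lt_trichotomy j i with hj | rfl | hj
      · have h1 : j ≠ i := by omega
        have h2 : j ≤ i := by omega
        have h3 : j + 1 ≤ i := by omega
        have h4 : j ≠ i + 1 := by omega
        simp [trk, markOf_pos, vv_upd_ne, h1, h2, h3, h4, rstep]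
      · simp [trk, markOf_pos, vv_upd_eq, rstep, hrel]
      · by_cases hj2 : j = i + 1
        · subst hj2
          simp [trk, markOf_pos, vv_upd_ne, rstep]
        · have h1 : j ≠ i := by omega
          have h2 : ¬ j ≤ i := by omega
          have h3 : ¬ j + 1 ≤ i := by omega
          have h4 : j + 1 ≠ i + 1 := by omega
          simp [trk, markOf_pos, vv_upd_ne, h1, h2, h3, hj2, rstep]
    · intro j
      rcases lt_or_ge j (i + 1) with hj | hj
      · have h1 : j ≠ i + 1 := by omega
        have h2 : j ≤ i + 1 := by omega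
        have h3 : j + 1 ≤ i + 1 := by omega
        simp [trk, markOf_pos, h1, h2, lstep]
        omega
      · by_cases hj2 : j = i + 1
        · subst hj2
          simp [trk, markOf_pos, lstep, vv]
        · have h1 : j ≠ i + 1 := by omega
          have h2 : ¬ j ≤ i + 1 := by omega
          have h3 : ¬ j + 1 ≤ i + 1 := by omega
          simp [trk, markOf_pos, h1, h2, lstep]
          omega
    · intro R hR
      rw [cell_pos] at hR
      have h3 : ¬ R + 1 ≤ i := by omega
      have h4 : ¬ R + 1 = i + 1 := by omega
      have h5 : ¬ R ≤ i := by omega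
      have h6 : R ≠ i := by omega
      simp [h3, h5, h6, conv]
    · simp
  · -- the head moves to the next smaller cell, or to the other side of the first cell
    cases i with
    | zero =>
      rw [move_flip hrel]
      refine ⟨fun j => if j = 0 then .todo wr mv else .idle,
        fun j => (.idle, if j = 0 then update T (pos 0 τ) wr (pos 0 (!τ)) else b),
        pos 0 (!τ), ?_, ?_, ?_, ?_, ?_⟩
      · simp
      · intro j
        by_cases hj : j = 0
        · subst hj
          simp [trk, markOf_pos, vv_upd_eq, rstep, hrel]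
        · simp [trk, markOf_pos, vv_upd_ne, hj, rstep]
      · intro j
        by_cases hj : j = 0
        · subst hj
          simp [trk, markOf_pos, lstep, vv]
        · simp [trk, markOf_pos, hj, lstep]
      · intro R hR
        simp [conv]
      · simp
    | succ i =>
      rw [move_down i hrel]
      refine ⟨fun j => if j ≤ i + 1 then .todo wr mv else .pend,
        fun j => if i + 1 < j then (.pend, b) else if j = i + 1 then (.carry τ, b)
          else (.idle, update T (pos (i + 1) τ) wr (pos i τ)),
        pos (i + 1) τ, ?_, ?_, ?_, ?_, ?_⟩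
      · simp
      · intro j
        rcases lt_trichotomy j (i + 1) with hj | rfl | hj
        · have h1 : j ≠ i + 1 := by omega
          have h2 : j ≤ i + 1 := by omega
          have h3 : j ≤ i := by omega
          simp [trk, markOf_pos, vv_upd_ne, h1, h2, h3, rstep]
        · simp [trk, markOf_pos, vv_upd_eq, rstep, hrel]
        · have h1 : j ≠ i + 1 := by omega
          have h2 : ¬ j ≤ i + 1 := by omega
          have h3 : ¬ j ≤ i := by omega
          simp [trk, markOf_pos, vv_upd_ne, h1, h2, h3, rstep]
      · intro j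
        rcases lt_trichotomy j i with hj | rfl | hj
        · have h1 : j ≠ i + 1 := by omega
          have h2 : j ≠ i := by omega
          have h3 : ¬ i + 1 < j := by omega
          have h4 : ¬ i < j := by omega
          simp [trk, markOf_pos, h1, h2, h3, h4, lstep]
        · simp [trk, markOf_pos, lstep, vv]
        · by_cases hj2 : j = i + 1
          · subst hj2
            simp [trk, markOf_pos, lstep]
          · have h1 : j ≠ i + 1 := by omega
            have h2 : j ≠ i := by omega
            have h3 : i + 1 < j := by omega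
            have h4 : i < j := by omega
            simp [trk, markOf_pos, h1, h2, h3, h4, lstep]
      · intro R hR
        rw [cell_pos] at hR
        have h3 : ¬ R ≤ i := by omega
        have h4 : i + 1 < R + 1 := by omega
        simp [h3, h4, conv]
      · simp

variable (M : P310x.TM)

/-- The cells of the single tape. -/
inductive Cell
  | plain (x : Option Bool)
  | fmt (first : Bool) (y : M.Tp → Trk M.Sym)

/-- The states of the single-tape machine. -/
inductive SQ
  | st0
  | rs (s : M.St) (X : M.Tp → RP M.Sym)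
  | ls (s : M.St) (L : M.Tp → LP × M.Sym)
  | hlt (b : Bool)

/-- The symbols of an unused cell. -/
noncomputable def initV (t : M.Tp) (x : Option Bool) : Bool → M.Sym
  | true => if t = M.input then
      (match x with
        | some b => M.bitSym b
        | none => M.blank) else M.blank
  | false => M.blank

/-- The state after the simulated machine has reached the state `s` and read `g`. -/
noncomputable def chk (s : M.St) (g : M.Tp → M.Sym) : SQ M :=
  if s = M.acc then .hlt true else if s = M.rej then .hlt false else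
    .rs (M.next s g).1 (fun t => .todo ((M.next s g).2.1 t) ((M.next s g).2.2 t))

/-- The transition function. -/
noncomputable def delta : SQ M → Cell M → SQ M × Cell M × Bool
  | .st0, .plain x =>
    (chk M M.start (fun t => initV M t x true), .fmt true (fun t => (initV M t x, some true)), false)
  | .rs s X, .plain x =>
    (.ls s (fun t => (lstep (conv M.blank (rstep false (X t) (initV M t x, none)).1)
        (rstep false (X t) (initV M t x, none)).2).1),
      .fmt false (fun t => (lstep (conv M.blank (rstep false (X t) (initV M t x, none)).1)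
        (rstep false (X t) (initV M t x, none)).2).2), false)
  | .rs s X, .fmt f y =>
    (.rs s (fun t => (rstep f (X t) (y t)).1), .fmt f (fun t => (rstep f (X t) (y t)).2), true)
  | .ls s L, .fmt f y =>
    (if f = true then chk M s (fun t => (lstep (L t) (y t)).1.2)
      else .ls s (fun t => (lstep (L t) (y t)).1),
      .fmt f (fun t => (lstep (L t) (y t)).2), false)
  | q, a => (q, a, false)

/-- The single-tape machine. -/
noncomputable def simTM : TM (SQ M) (Cell M) where
  start := .st0
  accept := .hlt true
  reject := .hlt false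
  blank := .plain none
  input b := .plain (some b)
  δ := delta M
  accept_ne_reject := by simp

variable {M}

theorem step_st0 (j : ℕ) (τ : ℕ → Cell M) (x : Option Bool) (h : τ j = .plain x) :
    (simTM M).step ⟨.st0, j, τ⟩ = ⟨chk M M.start (fun t => initV M t x true), j - 1,
      update τ j (.fmt true (fun t => (initV M t x, some true)))⟩ := by
  simp [TM.step, simTM, delta, h]

theorem step_rs_fmt (s : M.St) (X : M.Tp → RP M.Sym) (j : ℕ) (τ : ℕ → Cell M) (f : Bool)
    (y : M.Tp → Trk M.Sym) (h : τ j = .fmt f y) :
    (simTM M).step ⟨.rs s X, j, τ⟩ = ⟨.rs s (fun t => (rstep f (X t) (y t)).1), j + 1,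
      update τ j (.fmt f (fun t => (rstep f (X t) (y t)).2))⟩ := by
  simp [TM.step, simTM, delta, h]

theorem step_rs_plain (s : M.St) (X : M.Tp → RP M.Sym) (j : ℕ) (τ : ℕ → Cell M) (x : Option Bool)
    (h : τ j = .plain x) :
    (simTM M).step ⟨.rs s X, j, τ⟩ =
      ⟨.ls s (fun t => (lstep (conv M.blank (rstep false (X t) (initV M t x, none)).1)
        (rstep false (X t) (initV M t x, none)).2).1), j - 1,
      update τ j (.fmt false (fun t => (lstep (conv M.blank (rstep false (X t) (initV M t x, none)).1)
        (rstep false (X t) (initV M t x, none)).2).2))⟩ := by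
  simp [TM.step, simTM, delta, h]

theorem step_ls_fmt (s : M.St) (L : M.Tp → LP × M.Sym) (j : ℕ) (τ : ℕ → Cell M) (f : Bool)
    (y : M.Tp → Trk M.Sym) (h : τ j = .fmt f y) :
    (simTM M).step ⟨.ls s L, j, τ⟩ =
      ⟨if f = true then chk M s (fun t => (lstep (L t) (y t)).1.2)
        else .ls s (fun t => (lstep (L t) (y t)).1), j - 1,
      update τ j (.fmt f (fun t => (lstep (L t) (y t)).2))⟩ := by
  simp [TM.step, simTM, delta, h]

/-- The sweep to the right. -/
theorem sweepR (s : M.St) (X : M.Tp → ℕ → RP M.Sym) (y y1 : ℕ → M.Tp → Trk M.Sym)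
    (b : ℕ → Cell M)
    (hr : ∀ j t, rstep (decide (j = 0)) (X t j) (y j t) = (X t (j + 1), y1 j t)) (R : ℕ)
    (hb : ∀ i, i < R → b i = .fmt (decide (i = 0)) (y i)) :
    ∀ j, j ≤ R → (simTM M).step^[j] ⟨.rs s (fun t => X t 0), 0, b⟩ =
      ⟨.rs s (fun t => X t j), j, fun i => if i < j then .fmt (decide (i = 0)) (y1 i) else b i⟩ := by
  intro j
  induction j with
  | zero =>
    intro _
    simp
  | succ j ih =>
    intro hj
    rw [iterate_succ_apply', ih (by omega), step_rs_fmt s _ j _ (decide (j = 0)) (y j)
      (by simp [hb j (by omega)])]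
    simp only [hr]
    congr 1
    funext i
    by_cases h : i = j
    · subst h
      simp
    · rw [update_of_ne h]
      have : i < j + 1 ↔ i < j := by omega
      simp [this]

/-- The sweep to the left, down to the cell `0`. -/
theorem sweepL (s : M.St) (L : M.Tp → ℕ → LP × M.Sym) (y y2 : ℕ → M.Tp → Trk M.Sym)
    (b E : ℕ → Cell M)
    (hl : ∀ j t, lstep (L t (j + 1)) (y j t) = (L t j, y2 j t)) (R : ℕ)
    (hb : ∀ i, i < R → b i = .fmt (decide (i = 0)) (y i))
    (hE : ∀ i, i < R → E i = .fmt (decide (i = 0)) (y2 i)) :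
    ∀ j, j < R → (simTM M).step^[j] ⟨.ls s (fun t => L t (j + 1)), j,
        fun i => if i ≤ j then b i else E i⟩ =
      ⟨.ls s (fun t => L t 1), 0, fun i => if i ≤ 0 then b i else E i⟩ := by
  intro j
  induction j with
  | zero =>
    intro _
    simp
  | succ j ih =>
    intro hj
    rw [iterate_succ_apply, step_ls_fmt s _ (j + 1) _ false (y (j + 1))
      (by simpa using hb (j + 1) hj)]
    simp only [hl]
    have : update (fun i => if i ≤ j + 1 then b i else E i) (j + 1)
        (Cell.fmt false (fun t => y2 (j + 1) t)) = fun i => if i ≤ j then b i else E i := by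
      funext i
      by_cases h : i = j + 1
      · subst h
        have h2 := hE (j + 1) hj
        simp at h2
        simp [h2]
      · rw [update_of_ne h]
        have : i ≤ j + 1 ↔ i ≤ j := by omega
        simp [this]
    simp only [Nat.add_sub_cancel]
    simp only [Bool.false_eq_true, if_false]
    rw [this]
    exact ih (by omega)

/-- The tape of the single-tape machine for a configuration. -/
noncomputable def enc (c : M.Cfg) (w : List Bool) (R : ℕ) : ℕ → Cell M := fun i =>
  if i < R then .fmt (decide (i = 0)) (fun t => trk (c.tape t) (c.head t) i) else .plain w[i]?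

/-- The heads are on the used cells, the other cells are as at the start. -/
def Good (c : M.Cfg) (w : List Bool) (R : ℕ) : Prop :=
  (∀ t, cell (c.head t) < R) ∧ ∀ t i σ, R ≤ i → c.tape t (pos i σ) = initV M t w[i]? σ

/-- The configuration of the single-tape machine between two steps of the simulated machine. -/
noncomputable def cp (c : M.Cfg) (w : List Bool) (R : ℕ) : Cfg (SQ M) (Cell M) :=
  ⟨chk M c.st (fun t => c.tape t (c.head t)), 0, enc c w R⟩

theorem markOf_big {h : ℤ} {j : ℕ} (hj : cell h < j) : markOf h j = none := by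
  obtain ⟨i, τ, rfl⟩ := exists_pos h
  rw [cell_pos] at hj
  rw [markOf_pos, if_neg (by omega)]

theorem cell_cast (a : ℤ) : (cell a : ℤ) = if 0 ≤ a then a else -a - 1 := by
  unfold cell
  split_ifs <;> omega

theorem cell_move (h : ℤ) (mv : P310x.Dir) : cell (h + mv.toInt) ≤ cell h + 1 := by
  have h1 := cell_cast h
  have h2 := cell_cast (h + mv.toInt)
  cases mv <;> simp only [P310x.Dir.toInt] at h2 ⊢ <;> split_ifs at h1 h2 <;> omega

/-- One step of the simulated machine. -/
theorem cycle (c : M.Cfg) (w : List Bool) (R : ℕ) (hR : 1 ≤ R)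
    (hc : ¬ (c.st = M.acc ∨ c.st = M.rej)) (hg : Good c w R) :
    (simTM M).step^[2 * R + 1] (cp c w R) = cp c.step w (R + 1) ∧ Good c.step w (R + 1) := by
  obtain ⟨R, rfl⟩ : ∃ R', R = R' + 1 := ⟨R - 1, by omega⟩
  set r := M.next c.st (fun t => c.tape t (c.head t)) with hrdef
  have hstep : c.step = ⟨r.1, fun t => c.head t + (r.2.2 t).toInt,
      fun t => update (c.tape t) (c.head t) (r.2.1 t)⟩ := by
    simp only [P310x.TM.Cfg.step, if_neg hc]
    rfl
  choose X L h1 X0 hr hl htop hL0 using fun t =>
    tape_spec (c.tape t) (c.head t) (r.2.1 t) (r.2.2 t) M.blank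
  have hgood : Good c.step w (R + 1 + 1) := by
    rw [hstep]
    refine ⟨fun t => ?_, fun t i σ hi => ?_⟩
    · have := cell_move (c.head t) (r.2.2 t)
      have := hg.1 t
      show cell (c.head t + (r.2.2 t).toInt) < _
      omega
    · show update (c.tape t) (c.head t) (r.2.1 t) (pos i σ) = _
      rw [update_of_ne, hg.2 t i σ (by omega)]
      intro e
      have := hg.1 t
      rw [← e, cell_pos] at this
      omega
  refine ⟨?_, hgood⟩
  -- the sweep to the right
  have hcp : cp c w (R + 1) = ⟨.rs r.1 (fun t => X t 0), 0, enc c w (R + 1)⟩ := by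
    have h1 : (fun t => X t 0) = fun t => RP.todo (r.2.1 t) (r.2.2 t) := funext X0
    simp only [cp, chk, if_neg (fun e => hc (Or.inl e)), if_neg (fun e => hc (Or.inr e)), h1]
    rfl
  have hR1 := sweepR r.1 X (fun j t => trk (c.tape t) (c.head t) j)
    (fun j t => trk (update (c.tape t) (c.head t) (r.2.1 t)) (h1 t) j) (enc c w (R + 1))
    (fun j t => hr t j) (R + 1) (fun i hi => by simp [enc, hi]) (R + 1) le_rfl
  -- the first unused cell
  obtain ⟨tpR, htpR⟩ : ∃ f : ℕ → Cell M, f = fun i => if i < R + 1 then Cell.fmt (decide (i = 0))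
      (fun t => trk (update (c.tape t) (c.head t) (r.2.1 t)) (h1 t) i) else enc c w (R + 1) i :=
    ⟨_, rfl⟩
  rw [← htpR] at hR1
  have hplain : tpR (R + 1) = Cell.plain w[R + 1]? := by
    simp [htpR, enc]
  have hnew : ∀ t, (initV M t w[R + 1]?, (none : Option Bool)) = trk (c.tape t) (c.head t) (R + 1) := by
    intro t
    simp only [trk]
    rw [markOf_big (hg.1 t)]
    congr 1
    funext σ
    exact (hg.2 t (R + 1) σ le_rfl).symm
  have hR2 := step_rs_plain r.1 (fun t => X t (R + 1)) (R + 1) _ _ hplain
  have hnew2 : ∀ t, rstep false (X t (R + 1)) (initV M t w[R + 1]?, none) =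
      (X t (R + 1 + 1), trk (update (c.tape t) (c.head t) (r.2.1 t)) (h1 t) (R + 1)) := by
    intro t
    rw [hnew t]
    simpa using hr t (R + 1)
  simp only [hnew2] at hR2
  have hnew3 : ∀ t, lstep (conv M.blank (X t (R + 1 + 1)))
      (trk (update (c.tape t) (c.head t) (r.2.1 t)) (h1 t) (R + 1)) =
      (L t (R + 1), trk (update (c.tape t) (c.head t) (r.2.1 t))
        (c.head t + (r.2.2 t).toInt) (R + 1)) := by
    intro t
    rw [htop t (R + 1) (hg.1 t)]
    exact hl t (R + 1)
  simp only [hnew3, Nat.add_sub_cancel] at hR2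
  -- the sweep to the left
  have hE : ∀ i, i < R + 1 + 1 → enc c.step w (R + 1 + 1) i = Cell.fmt (decide (i = 0))
      (fun t => trk (update (c.tape t) (c.head t) (r.2.1 t)) (c.head t + (r.2.2 t).toInt) i) := by
    intro i hi
    rw [hstep]
    simp [enc, hi]
  have hR3 := sweepL r.1 L (fun j t => trk (update (c.tape t) (c.head t) (r.2.1 t)) (h1 t) j)
    (fun j t => trk (update (c.tape t) (c.head t) (r.2.1 t)) (c.head t + (r.2.2 t).toInt) j)
    (fun i => Cell.fmt (decide (i = 0))
      (fun t => trk (update (c.tape t) (c.head t) (r.2.1 t)) (h1 t) i))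
    (enc c.step w (R + 1 + 1))
    (fun j t => hl t j) (R + 1) (fun i _ => rfl) (fun i hi => hE i (by omega)) R (by omega)
  have htape : update tpR (R + 1)
      (Cell.fmt false (fun t => trk (update (c.tape t) (c.head t) (r.2.1 t))
        (c.head t + (r.2.2 t).toInt) (R + 1))) =
      fun i => if i ≤ R then Cell.fmt (decide (i = 0))
        (fun t => trk (update (c.tape t) (c.head t) (r.2.1 t)) (h1 t) i)
        else enc c.step w (R + 1 + 1) i := by
    funext i
    by_cases h : i = R + 1
    · subst h
      have := hE (R + 1) (by omega)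
      simp at this
      simp [this]
    · rw [update_of_ne h, htpR]
      by_cases h2 : i ≤ R
      · have h3 : i < R + 1 := by omega
        simp [h2, h3]
      · have h3 : ¬ i < R + 1 := by omega
        have h4 : ¬ i < R + 1 + 1 := by omega
        simp [h2, h3, h4, enc]
  -- the last step
  obtain ⟨tpL, htpL⟩ : ∃ f : ℕ → Cell M, f = fun i => if i ≤ 0 then Cell.fmt (decide (i = 0))
      (fun t => trk (update (c.tape t) (c.head t) (r.2.1 t)) (h1 t) i)
      else enc c.step w (R + 1 + 1) i := ⟨_, rfl⟩
  rw [← htpL] at hR3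
  have hfirst : tpL 0 = Cell.fmt true
        (fun t => trk (update (c.tape t) (c.head t) (r.2.1 t)) (h1 t) 0) := by
    simp [htpL]
  have hR4 := step_ls_fmt r.1 (fun t => L t 1) 0 _ true _ hfirst
  simp only [hl, hL0] at hR4
  have hE0 : update tpL 0
      (Cell.fmt true (fun t => trk (update (c.tape t) (c.head t) (r.2.1 t))
        (c.head t + (r.2.2 t).toInt) 0)) = enc c.step w (R + 1 + 1) := by
    funext i
    by_cases h : i = 0
    · subst h
      have := hE 0 (by omega)
      simp at this
      simp [this]
    · rw [update_of_ne h, htpL]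
      simp [h]
  have hcount : 2 * (R + 1) + 1 = 1 + (R + (1 + (R + 1))) := by omega
  rw [hcount, iterate_add_apply, iterate_add_apply, iterate_add_apply, hcp, hR1,
    iterate_one, hR2, htape, hR3, hR4, hE0]
  simp only [if_true, Nat.zero_sub]
  rw [hstep]
  rfl

theorem init_pos (w : List Bool) (t : M.Tp) (i : ℕ) (σ : Bool) :
    (M.init w).tape t (pos i σ) = initV M t w[i]? σ := by
  cases σ with
  | false =>
    have : ¬ (0 ≤ pos i false) := by simp [pos]; omega
    simp [P310x.TM.init, this, initV]
  | true =>
    by_cases ht : t = M.input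
    · by_cases hi : i < w.length
      · simp [P310x.TM.init, pos, initV, ht, hi]
      · simp [P310x.TM.init, pos, initV, ht, hi]
    · simp [P310x.TM.init, initV, ht]

theorem sim_one (w : List Bool) : (simTM M).run w 1 = cp (M.init w) w 1 := by
  have hx : ((simTM M).init w).tape 0 = Cell.plain w[0]? := by
    cases h : w[0]? <;> simp [TM.init, simTM, h]
  have h1 : (simTM M).run w 1 = (simTM M).step ⟨.st0, 0, ((simTM M).init w).tape⟩ := rfl
  rw [h1, step_st0 0 _ _ hx]
  have hhead : ∀ t, (M.init w).head t = pos 0 true := fun t => by simp [P310x.TM.init, pos]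
  simp only [cp]
  congr 1
  · have : (fun t => (M.init w).tape t ((M.init w).head t)) = fun t => initV M t w[0]? true := by
      funext t
      rw [hhead, init_pos]
    rw [this]
    rfl
  · funext i
    by_cases h : i = 0
    · subst h
      simp only [update_self, enc]
      simp only [zero_lt_one, if_true, decide_true]
      congr 1
      funext t
      simp only [trk, hhead, markOf_pos, if_true]
      congr 1
      funext σ
      exact (init_pos w t 0 σ).symm
    · rw [update_of_ne h]
      have h2 : ¬ i < 1 := by omega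
      simp only [enc, h2, if_false]
      cases h3 : w[i]? <;> simp [TM.init, simTM, h3]

theorem good_init (w : List Bool) : Good (M.init w) w 1 := by
  refine ⟨fun t => ?_, fun t i σ _ => init_pos w t i σ⟩
  have : (M.init w).head t = pos 0 true := by simp [P310x.TM.init, pos]
  rw [this, cell_pos]
  omega

theorem run_succ (w : List Bool) (k : ℕ) : M.run w (k + 1) = (M.run w k).step := by
  simp only [P310x.TM.run, iterate_succ_apply']

/-- The main invariant of the simulation. -/
theorem sim_run (w : List Bool) (k : ℕ) :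
    ∃ t2, t2 ≤ (k + 1) ^ 2 ∧
      ((simTM M).run w t2).state =
        chk M (M.run w k).st (fun t => (M.run w k).tape t ((M.run w k).head t)) ∧
      (((M.run w k).st = M.acc ∨ (M.run w k).st = M.rej) ∨
        ((simTM M).run w t2 = cp (M.run w k) w (k + 1) ∧ Good (M.run w k) w (k + 1))) := by
  induction k with
  | zero =>
    refine ⟨1, by simp, ?_, Or.inr ⟨?_, ?_⟩⟩
    · rw [sim_one]; rfl
    · rw [sim_one]; rfl
    · exact good_init w
  | succ k ih =>
    obtain ⟨t2, ht2, hst, hh⟩ := ih
    by_cases hc : (M.run w k).st = M.acc ∨ (M.run w k).st = M.rej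
    · have hs : M.run w (k + 1) = M.run w k := by
        rw [run_succ]
        simp only [P310x.TM.Cfg.step, if_pos hc]
      rw [hs]
      refine ⟨t2, ?_, hst, Or.inl hc⟩
      have : (k + 1) ^ 2 ≤ (k + 1 + 1) ^ 2 := Nat.pow_le_pow_left (by omega) 2
      omega
    · obtain ⟨h1, h2⟩ := hh.resolve_left hc
      obtain ⟨h3, h4⟩ := cycle (M.run w k) w (k + 1) (by omega) hc h2
      have h5 : (simTM M).run w ((2 * (k + 1) + 1) + t2) = cp (M.run w (k + 1)) w (k + 1 + 1) := by
        rw [run_succ, ← h3, ← h1]
        simp only [TM.run, iterate_add_apply]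
      refine ⟨(2 * (k + 1) + 1) + t2, ?_, ?_, Or.inr ⟨h5, ?_⟩⟩
      · nlinarith
      · rw [h5]; rfl
      · rw [run_succ]; exact h4

/-- The simulation, with the bound `(t + 1) ^ 2`. -/
theorem sim_time (w : List Bool) (t : ℕ) (h : M.HaltedAt w t) :
    ∃ t2, t2 ≤ (t + 1) ^ 2 ∧
      ((((simTM M).run w t2).state = (simTM M).accept ∧ (M.run w t).st = M.acc) ∨
        (((simTM M).run w t2).state = (simTM M).reject ∧ (M.run w t).st = M.rej)) := by
  obtain ⟨t2, ht2, hst, -⟩ := sim_run (M := M) w t
  refine ⟨t2, ht2, ?_⟩
  rcases h with h | h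
  · left
    refine ⟨?_, h⟩
    rw [hst, h]
    simp [chk, simTM]
  · right
    refine ⟨?_, h⟩
    rw [hst, h]
    have : M.rej ≠ M.acc := fun e => M.acc_ne_rej e.symm
    simp [chk, simTM, this]

theorem finite_dir : Finite P310x.Dir :=
  Finite.of_injective (fun d : P310x.Dir => match d with
    | .left => (0 : Fin 3)
    | .stay => 1
    | .right => 2) (by intro a b h; cases a <;> cases b <;> simp_all)

theorem finite_rp (S : Type) [Finite S] : Finite (RP S) := by
  have := finite_dir
  exact Finite.of_injective (fun x : RP S => match x with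
    | .todo a d => (Sum.inl (a, d) : (S × P310x.Dir) ⊕ (Bool ⊕ Bool ⊕ Bool))
    | .carry τ => Sum.inr (Sum.inl τ)
    | .idle => Sum.inr (Sum.inr (Sum.inl true))
    | .pend => Sum.inr (Sum.inr (Sum.inl false)))
    (by intro a b h; cases a <;> cases b <;> simp_all)

theorem finite_lp : Finite LP :=
  Finite.of_injective (fun x : LP => match x with
    | .idle => (Sum.inl true : Bool ⊕ Bool)
    | .pend => Sum.inl false
    | .carry τ => Sum.inr τ)
    (by intro a b h; cases a <;> cases b <;> simp_all)

theorem finite_cell (M : P310x.TM) : Finite (Cell M) := by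
  have := M.finTp
  have := M.finSym
  exact Finite.of_injective (fun x : Cell M => match x with
    | .plain a => (Sum.inl a : Option Bool ⊕ (Bool × (M.Tp → Trk M.Sym)))
    | .fmt f y => Sum.inr (f, y))
    (by intro a b h; cases a <;> cases b <;> simp_all)

theorem finite_sq (M : P310x.TM) : Finite (SQ M) := by
  have := M.finTp
  have := M.finSym
  have := M.finSt
  have := finite_rp M.Sym
  have := finite_lp
  exact Finite.of_injective (fun x : SQ M => match x with
    | .st0 => (Sum.inl none : Option Bool ⊕ ((M.St × (M.Tp → RP M.Sym)) ⊕ (M.St × (M.Tp → LP × M.Sym))))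
    | .rs s X => Sum.inr (Sum.inl (s, X))
    | .ls s L => Sum.inr (Sum.inr (s, L))
    | .hlt b => Sum.inl (some b))
    (by intro a b h; cases a <;> cases b <;> simp_all)

end SimDefs

open SimDefs in
/-- A multi-tape machine halting after `t` steps on `w` is simulated by a single-tape machine
within `(t + 1) ^ 2` steps. -/
theorem sim_exists' (M : P310x.TM) :
    ∃ (Q G : Type) (_ : Finite Q) (_ : Finite G) (N : TM Q G),
      ∀ (w : List Bool) (t : ℕ), M.HaltedAt w t → ∃ t2, t2 ≤ (t + 1) ^ 2 ∧
        (((N.run w t2).state = N.accept ∧ (M.run w t).st = M.acc) ∨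
          ((N.run w t2).state = N.reject ∧ (M.run w t).st = M.rej)) :=
  ⟨SQ M, Cell M, finite_sq M, finite_cell M, simTM M, fun w t h => sim_time w t h⟩

/-- The form asked for by the main proof. -/
theorem sim_exists (M : P310x.TM) :
    ∃ (Q G : Type) (_ : Finite Q) (_ : Finite G) (N : TM Q G) (C : ℕ),
      ∀ (w : List Bool) (t : ℕ), M.HaltedAt w t → ∃ t2, t2 ≤ C * (t + w.length + 1) ^ 2 + C ∧
        (((N.run w t2).state = N.accept ∧ (M.run w t).st = M.acc) ∨
          ((N.run w t2).state = N.reject ∧ (M.run w t).st = M.rej)) := by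
  obtain ⟨Q, G, h1, h2, N, h⟩ := sim_exists' M
  refine ⟨Q, G, h1, h2, N, 1, fun w t ht => ?_⟩
  obtain ⟨t2, h3, h4⟩ := h w t ht
  refine ⟨t2, ?_, h4⟩
  have : (t + 1) ^ 2 ≤ (t + w.length + 1) ^ 2 := Nat.pow_le_pow_left (by omega) 2
  omega

theorem time_le_worstTime (A : P310x.TM) {n : ℕ} (G H : SimpleGraph (Fin n)) :
    A.time (P310x.TM.pairBits G H) ≤ A.worstTime n := by
  apply le_csSup
  · apply Set.Finite.bddAbove
    have h1 : Set.Finite (Set.range fun p : SimpleGraph (Fin n) × SimpleGraph (Fin n) =>
        A.time (P310x.TM.pairBits p.1 p.2)) := Set.finite_range _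
    refine h1.subset ?_
    rintro t ⟨G, H, rfl⟩
    exact ⟨(G, H), rfl⟩
  · exact ⟨G, H, rfl⟩

open Filter Asymptotics in
/-- A multi-tape machine deciding `k`-dimensional equivalence in time `O(n ^ G)` gives a single-tape
machine deciding it within `C * n ^ (2 * ⌈G⌉)` steps. -/
theorem sim_decides (M : P310x.TM) (k : ℕ) (hM : M.Decides k) (G : ℝ)
    (hT : (fun n : ℕ => (M.worstTime n : ℝ)) =O[atTop] fun n : ℕ => (n : ℝ) ^ G) :
    ∃ (Q Γ : Type) (_ : Finite Q) (_ : Finite Γ) (N : TM Q Γ) (C n0 : ℕ),
      DecidesWithin N k C n0 (2 * ⌈G⌉₊) := by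
  obtain ⟨Q, Γ, h1, h2, N, hN⟩ := sim_exists' M
  obtain ⟨c, hc⟩ := hT.bound
  obtain ⟨n1, hn1⟩ := Filter.eventually_atTop.1 hc
  refine ⟨Q, Γ, h1, h2, N, (⌈max c 0⌉₊ + 1) ^ 2, max n1 1, ?_⟩
  intro n hn G' H'
  have hn1' : n1 ≤ n := le_trans (le_max_left _ _) hn
  have hn2 : 1 ≤ n := le_trans (le_max_right _ _) hn
  have hw : encPair G' H' = P310x.TM.pairBits G' H' := rfl
  rw [hw]
  obtain ⟨hex, hiff⟩ := hM n G' H'
  have hhalt : M.HaltedAt (P310x.TM.pairBits G' H') (M.time (P310x.TM.pairBits G' H')) :=
    Nat.sInf_mem hex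
  obtain ⟨t2, ht2, hst⟩ := hN _ _ hhalt
  have hle := time_le_worstTime M G' H'
  refine ⟨t2, ?_, ?_⟩
  · have h3 := hn1 n hn1'
    have hn3 : (1 : ℝ) ≤ n := by exact_mod_cast hn2
    have h4 : (n : ℝ) ^ G ≤ (n : ℝ) ^ ⌈G⌉₊ := by
      rw [← Real.rpow_natCast]
      exact Real.rpow_le_rpow_of_exponent_le hn3 (Nat.le_ceil G)
    have h5 : 0 ≤ (n : ℝ) ^ G := Real.rpow_nonneg (by positivity) G
    rw [Real.norm_of_nonneg (by positivity), Real.norm_of_nonneg h5] at h3
    have h6 : (M.worstTime n : ℝ) ≤ (⌈max c 0⌉₊ : ℝ) * (n : ℝ) ^ ⌈G⌉₊ := by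
      calc (M.worstTime n : ℝ) ≤ c * (n : ℝ) ^ G := h3
        _ ≤ (max c 0) * (n : ℝ) ^ G := by gcongr; exact le_max_left _ _
        _ ≤ (max c 0) * (n : ℝ) ^ ⌈G⌉₊ := by gcongr
        _ ≤ (⌈max c 0⌉₊ : ℝ) * (n : ℝ) ^ ⌈G⌉₊ := by gcongr; exact Nat.le_ceil _
    have h7 : M.worstTime n ≤ ⌈max c 0⌉₊ * n ^ ⌈G⌉₊ := by exact_mod_cast h6
    have h8 : 1 ≤ n ^ ⌈G⌉₊ := Nat.one_le_pow _ _ hn2
    have h9 : M.time (P310x.TM.pairBits G' H') + 1 ≤ (⌈max c 0⌉₊ + 1) * n ^ ⌈G⌉₊ := by
      have : (⌈max c 0⌉₊ + 1) * n ^ ⌈G⌉₊ = ⌈max c 0⌉₊ * n ^ ⌈G⌉₊ + n ^ ⌈G⌉₊ := by ring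
      omega
    calc t2 ≤ (M.time (P310x.TM.pairBits G' H') + 1) ^ 2 := ht2
      _ ≤ ((⌈max c 0⌉₊ + 1) * n ^ ⌈G⌉₊) ^ 2 := Nat.pow_le_pow_left h9 2
      _ = (⌈max c 0⌉₊ + 1) ^ 2 * n ^ (2 * ⌈G⌉₊) := by ring
  · rcases hst with ⟨h3, h4⟩ | ⟨h3, h4⟩
    · exact Or.inl ⟨h3, hiff.1 h4⟩
    · refine Or.inr ⟨h3, fun h5 => ?_⟩
      exact M.acc_ne_rej ((hiff.2 h5).symm.trans h4)

end Vale.Agent.P310d
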