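import Vale.Agent.P310d.GadDec

/-!
# The variables of an equation of the gadget system of a program, as a list
-/

namespace Vale.Agent.P310d

open Function Vale.Agent.P310y

open scoped Classical

set_option linter.unusedSectionVars false

variable {F : Type} [AddCommGroup F] [Module (ZMod 2) F] [Fintype F] {s K xe : ℕ}
  (P : Prog K xe s (NN s) F)

/-- The number of variables of an equation. -/
def nvF : GItem P.gs → ℕ
  | .e _ b _ _ => if gadK b < 8 then 4 else 2
  | .h _ => 2 * K + xe

theorem K12 : 0 < 6 * K + 3 * xe + 12 := by omega

/-- The hub of a slot. -/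
def hubAt (b : Gad s (NN s) K xe) (t : ℕ) : Fin 3 × Tag s (NN s) K xe :=
  slotH P K12 b (Fin.ofNat 3 (t - 1))

/-- The position of a slot of an equation of the second class. -/
def posOf (hK : 0 < K) (t : ℕ) : Pos K xe :=
  if h : t < 2 * K then ⟨⟨t / 2, by omega⟩, ⟨t % 2, by omega⟩, Or.inl (by simp only; omega)⟩
  else ⟨⟨0, hK⟩, ⟨(t - 2 * K + 2) % (2 + xe), Nat.mod_lt _ (by omega)⟩, Or.inr rfl⟩

/-- The slot of a position. -/
def tOf (p : Pos K xe) : ℕ :=
  if p.idx.val < 2 then 2 * p.dig.val + p.idx.val else 2 * K + (p.idx.val - 2)

theorem tOf_lt (p : Pos K xe) : tOf p < 2 * K + xe := by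
  have h1 := p.dig.isLt
  have h2 := p.idx.isLt
  unfold tOf
  split_ifs <;> omega

theorem posOf_tOf (hK : 0 < K) (p : Pos K xe) : posOf hK (tOf p) = p := by
  have h1 := p.dig.isLt
  have h2 := p.idx.isLt
  unfold posOf tOf
  by_cases h : p.idx.val < 2
  · rw [if_pos h, dif_pos (by omega)]
    apply Pos.ext'
    · apply Fin.ext
      show (2 * p.dig.val + p.idx.val) / 2 = _
      omega
    · apply Fin.ext
      show (2 * p.dig.val + p.idx.val) % 2 = _
      omega
  · rw [if_neg h, dif_neg (by omega)]
    apply Pos.ext'
    · apply Fin.ext
      have := p.ok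
      show 0 = _
      omega
    · apply Fin.ext
      show (2 * K + (p.idx.val - 2) - 2 * K + 2) % (2 + xe) = _
      rw [show 2 * K + (p.idx.val - 2) - 2 * K + 2 = p.idx.val by omega]
      exact Nat.mod_eq_of_lt h2

theorem tOf_posOf (hK : 0 < K) {t : ℕ} (ht : t < 2 * K + xe) : tOf (posOf (xe := xe) hK t) = t := by
  unfold posOf tOf
  by_cases h : t < 2 * K
  · rw [dif_pos h]
    show (if t % 2 < 2 then 2 * (t / 2) + t % 2 else _) = t
    rw [if_pos (by omega)]
    omega
  · rw [dif_neg h]
    have e : (t - 2 * K + 2) % (2 + xe) = t - 2 * K + 2 := Nat.mod_eq_of_lt (by omega)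
    simp only [e]
    rw [if_neg (by omega)]
    omega

/-- The variables of an equation, as a list. -/
noncomputable def slotF (hK : 0 < K) : GItem P.gs → ℕ → GVar K xe F (Fin 3 × Tag s (NN s) K xe) (Gad s (NN s) K xe)
  | .e p b β _, t => if t = 0 then yv b p else
      xv p (hubAt P b t) (β + P.gs.off b (hubAt P b t) p.1)
  | .h b, t => yv b (posOf hK t)

theorem ofNat3_val (n : ℕ) : (Fin.ofNat 3 n).val = n % 3 := rfl

theorem fin3_add_cancel : ∀ τ d d' : Fin 3, τ + d = τ + d' → d = d' := by decide

theorem fin3_add_sub : ∀ τ j : Fin 3, τ + (j - τ) = j := by decide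

theorem fin3_sub_add : ∀ τ d : Fin 3, τ + d - τ = d := by decide

theorem slot_ok (hK : 0 < K) : SlotOk P.gs.xs (nvF P) (slotF P hK) where
  inj := by
    intro c t t' ht ht' e
    cases c with
    | e p b β hh =>
      simp only [nvF] at ht ht'
      simp only [slotF] at e
      by_cases h : t = 0 <;> by_cases h' : t' = 0
      · omega
      · rw [if_pos h, if_neg h'] at e
        exact absurd e (by simp [yv, xv])
      · rw [if_neg h, if_pos h'] at e
        exact absurd e (by simp [yv, xv])
      · rw [if_neg h, if_neg h'] at e
        have e2 : hubAt P b t = hubAt P b t' := by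
          have := Sum.inl.inj e
          exact (Prod.ext_iff.1 (Prod.ext_iff.1 this).2).1
        rcases b with ⟨l, τ⟩ | τ | _
        · have e3 := congrArg Prod.fst e2
          have e4 := fin3_add_cancel _ _ _ e3
          have e5 := congrArg Fin.val e4
          simp only [ofNat3_val] at e5
          split_ifs at ht ht' <;> omega
        · simp only [gadK] at ht ht'
          norm_num at ht ht'
          omega
        · simp only [gadK] at ht ht'
          norm_num at ht ht'
          omega
    | h b =>
      simp only [nvF] at ht ht'
      simp only [slotF] at e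
      have e1 := Sum.inr.inj e
      have e2 : posOf hK t = posOf hK t' := (Prod.ext_iff.1 e1).2
      rw [← tOf_posOf (xe := xe) hK ht, ← tOf_posOf (xe := xe) hK ht', e2]
  mem := by
    intro c d
    cases c with
    | e p b β hh =>
      show d ∈ P.gs.gvars (.e p b β hh) ↔ _
      simp only [GS.gvars, Finset.mem_insert, Finset.mem_image]
      constructor
      · rintro (rfl | ⟨H, hH, rfl⟩)
        · refine ⟨0, ?_, ?_⟩
          · simp only [nvF]
            split_ifs <;> omega
          · simp [slotF]
        · rcases b with ⟨l, τ⟩ | τ | _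
          · have hH' : H ∈ Finset.univ.image (fun j : Fin 3 => (j, P.slotTag l (j - τ))) := hH
            obtain ⟨j, -, rfl⟩ := Finset.mem_image.1 hH'
            refine ⟨(j - τ).val + 1, ?_, ?_⟩
            · have h1 := (j - τ).isLt
              have h2 : gadK (Gad.tri l τ) < 8 := by
                cases l <;> simp [gadK, lamK]
              simp only [nvF]
              rw [if_pos h2]
              omega
            · have e1 : hubAt P (Gad.tri l τ) ((j - τ).val + 1) = (j, P.slotTag l (j - τ)) := by
                unfold hubAt slotH
                have e2 : Fin.ofNat 3 ((j - τ).val + 1 - 1) = j - τ := by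
                  apply Fin.ext
                  simp only [ofNat3_val]
                  have h1 := (j - τ).isLt
                  rw [Nat.add_sub_cancel, Nat.mod_eq_of_lt h1]
                rw [e2]
                show (τ + (j - τ), P.slotTag l (j - τ)) = _
                rw [fin3_add_sub]
              simp only [slotF]
              rw [if_neg (by omega), e1]
          · have hH' : H = (τ, Tag.base) := Finset.mem_singleton.1 hH
            subst hH'
            refine ⟨1, by simp [nvF, gadK], ?_⟩
            simp [slotF, hubAt, slotH]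
          · have hH' : H = (0, Tag.dly ⟨0, K12⟩) := Finset.mem_singleton.1 hH
            subst hH'
            refine ⟨1, by simp [nvF, gadK], ?_⟩
            simp [slotF, hubAt, slotH]
      · rintro ⟨t, ht, rfl⟩
        simp only [slotF]
        by_cases h : t = 0
        · rw [if_pos h]
          exact Or.inl rfl
        · rw [if_neg h]
          refine Or.inr ⟨hubAt P b t, ?_, rfl⟩
          rcases b with ⟨l, τ⟩ | τ | _
          · show _ ∈ Finset.univ.image (fun j : Fin 3 => (j, P.slotTag l (j - τ)))
            refine Finset.mem_image.2 ⟨τ + Fin.ofNat 3 (t - 1), Finset.mem_univ _, ?_⟩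
            rw [fin3_sub_add]
            rfl
          · exact Finset.mem_singleton.2 rfl
          · exact Finset.mem_singleton.2 rfl
    | h b =>
      show d ∈ P.gs.gvars (.h b) ↔ _
      simp only [GS.gvars, Finset.mem_image, Finset.mem_univ, true_and]
      constructor
      · rintro ⟨p, rfl⟩
        refine ⟨tOf p, tOf_lt p, ?_⟩
        simp only [slotF]
        rw [posOf_tOf]
      · rintro ⟨t, _, rfl⟩
        exact ⟨_, rfl⟩

end Vale.Agent.P310d
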