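import Vale.Agent.P310d.Mach

/-!
# Statements of the register machine and their compilation
-/

namespace Vale.Agent.P310d

open Function

open scoped Classical

set_option linter.unusedSectionVars false

/-- Statements. -/
inductive Stmt (F : Type) : Type
  | asg (l : List (ℕ × Exp F)) : Stmt F
  | jze (e : Exp F) (L : ℕ) : Stmt F
  | guess (xs : List ℕ) : Stmt F
  | fork (L : ℕ) : Stmt F
  | halt : Stmt F

section defs

variable {F : Type} [AddCommGroup F]

/-- The code of one assignment, `b` being the first temporary register. -/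
def cmpA (b : ℕ) (p : ℕ × Exp F) : List (Instr F) :=
  Exp.cmp p.2 b (b + 1) ++ [Instr.gate 0 p.1 p.1 p.1, Instr.gate 0 b b p.1, Instr.gate 0 b b b]

/-- The code of a list of assignments. -/
def cmpL (b : ℕ) : List (ℕ × Exp F) → List (Instr F)
  | [] => [Instr.gate 0 b b b]
  | p :: l => cmpA b p ++ cmpL b l

def lenL : List (ℕ × Exp F) → ℕ
  | [] => 1
  | p :: l => Exp.len p.2 + 3 + lenL l

theorem len_cmpL (b : ℕ) (l : List (ℕ × Exp F)) : (cmpL b l).length = lenL l := by
  induction l with
  | nil => rfl
  | cons p l ih =>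
    simp [cmpL, lenL, cmpA, ih, Exp.len_cmp]
    omega

/-- The code of a statement, `ad` giving the places of the statements. -/
def cmpS (b : ℕ) (ad : ℕ → ℕ) : Stmt F → List (Instr F)
  | Stmt.asg l => cmpL b l
  | Stmt.jze e L => Exp.cmp e b (b + 1) ++ [Instr.jz b (ad L), Instr.gate 0 b b b]
  | Stmt.guess xs => xs.map Instr.guess ++ [Instr.gate 0 b b b]
  | Stmt.fork L => [Instr.fork (ad L)]
  | Stmt.halt => [Instr.halt]

def lenS : Stmt F → ℕ
  | Stmt.asg l => lenL l
  | Stmt.jze e _ => Exp.len e + 2
  | Stmt.guess xs => xs.length + 1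
  | Stmt.fork _ => 1
  | Stmt.halt => 1

theorem len_cmpS (b : ℕ) (ad : ℕ → ℕ) (t : Stmt F) : (cmpS b ad t).length = lenS t := by
  cases t with
  | asg l => exact len_cmpL b l
  | jze e L => simp [cmpS, lenS, Exp.len_cmp]
  | guess xs => simp [cmpS, lenS]
  | fork L => rfl
  | halt => rfl

theorem lenL_pos (l : List (ℕ × Exp F)) : 0 < lenL l := by
  cases l with
  | nil => exact Nat.one_pos
  | cons p l => simp [lenL]

theorem lenS_pos (t : Stmt F) : 0 < lenS t := by
  cases t with
  | asg l => exact lenL_pos l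
  | jze e L => simp [lenS]
  | guess xs => simp [lenS]
  | fork L => exact Nat.one_pos
  | halt => exact Nat.one_pos

/-- The place of a statement. -/
def addr (l : List (Stmt F)) (i : ℕ) : ℕ := ((l.take i).map lenS).sum

/-- The whole code. -/
def flat (b : ℕ) (l : List (Stmt F)) : List (Instr F) := l.flatMap (cmpS b (addr l))

/-- The code as a function. -/
def codeOf (b : ℕ) (l : List (Stmt F)) : ℕ → Instr F := fun a => (flat b l).getD a Instr.halt

theorem length_flatMap_cmpS (b : ℕ) (ad : ℕ → ℕ) (l : List (Stmt F)) :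
    (l.flatMap (cmpS b ad)).length = (l.map lenS).sum := by
  induction l with
  | nil => rfl
  | cons t l ih => simp [List.flatMap_cons, len_cmpS, ih]

theorem addr_succ {l : List (Stmt F)} {i : ℕ} (hi : i < l.length) :
    addr l (i + 1) = addr l i + lenS l[i] := by
  unfold addr
  rw [List.take_succ_eq_append_getElem hi, List.map_append, List.sum_append]
  simp

theorem addr_length (l : List (Stmt F)) : addr l l.length = (flat 0 l).length := by
  unfold addr flat
  rw [List.take_length, length_flatMap_cmpS]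

theorem length_flat (b b' : ℕ) (l : List (Stmt F)) : (flat b l).length = (flat b' l).length := by
  unfold flat
  rw [length_flatMap_cmpS, length_flatMap_cmpS]

theorem addr_le {l : List (Stmt F)} {i j : ℕ} (h : i ≤ j) : addr l i ≤ addr l j := by
  unfold addr
  obtain ⟨d, rfl⟩ := Nat.exists_eq_add_of_le h
  rw [List.take_add]
  simp

theorem addr_lt {l : List (Stmt F)} {i j : ℕ} (h : i < j) (hj : j ≤ l.length) :
    addr l i < addr l j := by
  have h1 : addr l i ≤ addr l (j - 1) := addr_le (by omega)
  have h2 := addr_succ (l := l) (i := j - 1) (by omega)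
  have h3 := lenS_pos (l[j - 1]'(by omega))
  rw [show j - 1 + 1 = j by omega] at h2
  omega

theorem flatMap_split {α β : Type} (g : α → List β) (l : List α) {i : ℕ} (hi : i < l.length) :
    l.flatMap g = (l.take i).flatMap g ++ (g l[i] ++ (l.drop (i + 1)).flatMap g) := by
  have e : l = l.take i ++ l[i] :: l.drop (i + 1) := by
    rw [List.cons_getElem_drop_succ, List.take_append_drop]
  conv_lhs => rw [e]
  rw [List.flatMap_append, List.flatMap_cons]

theorem at_flat (b : ℕ) (l : List (Stmt F)) {i : ℕ} (hi : i < l.length) :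
    At (codeOf b l) (addr l i) (cmpS b (addr l) l[i]) := by
  intro j hj
  unfold codeOf flat
  rw [flatMap_split (cmpS b (addr l)) l hi]
  have h1 : ((l.take i).flatMap (cmpS b (addr l))).length = addr l i := by
    rw [length_flatMap_cmpS]
    rfl
  rw [← h1, List.getD_eq_getElem _ _ (by
    simp only [List.length_append] at hj ⊢
    omega)]
  rw [List.getElem_append_right (by omega)]
  simp only [Nat.add_sub_cancel_left]
  rw [List.getElem_append_left hj]

end defs

section step

variable {F : Type} [AddCommGroup F] [Module (ZMod 2) F] {s : ℕ} {A : Alph F s}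

/-- The conditions on a program: the statements, the first temporary register `b`, the number of
registers `K`, the index `acI` of the accepting statement. -/
structure POk (A : Alph F s) (l : List (Stmt F)) (b K acI : ℕ) : Prop where
  hs : 7 < s
  hbK : b < K
  hKs : K ≤ s
  hlen : (flat b l).length < s
  hacI : acI < l.length
  hhalt : ∀ h : acI < l.length, l[acI] = Stmt.halt
  hok : ∀ a, (codeOf b l a).Ok K s

variable {l : List (Stmt F)} {b K acI : ℕ} {aux : F → F → F}

theorem POk.addr_lt_s (h : POk A l b K acI) {i : ℕ} (hi : i ≤ l.length) : addr l i < s := by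
  have h1 := addr_le (l := l) hi
  have h2 := addr_length l
  have h3 := length_flat b 0 l
  have := h.hlen
  omega

theorem POk.toM (h : POk A l b K acI) : MOk A K (codeOf b l) (addr l acI) where
  hs := h.hs
  hK0 := by have := h.hbK; omega
  hKs := h.hKs
  hok := h.hok
  hac := h.addr_lt_s h.hacI.le
  hhalt := by
    have h1 := at_flat b l h.hacI
    have h2 := h1 0 (by
      rw [h.hhalt h.hacI]
      simp [cmpS])
    simp only [add_zero] at h2
    rw [h2]
    simp [h.hhalt h.hacI, cmpS]

/-- Acceptance at a statement. -/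
def AccS (A : Alph F s) (l : List (Stmt F)) (b K acI : ℕ) (aux : F → F → F) (i : ℕ)
    (ρ : ℕ → F) : Prop :=
  AccN A K (codeOf b l) aux (addr l acI) (addr l i) ρ

/-- The value of an expression in the program. -/
noncomputable def ev (A : Alph F s) (l : List (Stmt F)) (b : ℕ) (aux : F → F → F) (e : Exp F)
    (ρ : ℕ → F) : F :=
  Exp.eval (tbl A (codeTab A (codeOf b l) aux)) e ρ

/-- The result of a list of assignments. -/
noncomputable def runL (A : Alph F s) (l : List (Stmt F)) (b : ℕ) (aux : F → F → F) :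
    List (ℕ × Exp F) → (ℕ → F) → ℕ → F
  | [], ρ => ρ
  | p :: q, ρ => runL A l b aux q (update ρ p.1 (ev A l b aux p.2 ρ))

theorem run_asg1 (h : POk A l b K acI) {a : ℕ} {x : ℕ} {e : Exp F} {ρ : ℕ → F}
    (hA : At (codeOf b l) a (cmpA b (x, e))) (ha : a + (Exp.len e + 3) < s)
    (hx : x < b) (hr : Exp.Rb b e) (hc : ∀ y, b ≤ y → ρ y = 0) :
    AccN A K (codeOf b l) aux (addr l acI) a ρ ↔
      AccN A K (codeOf b l) aux (addr l acI) (a + (Exp.len e + 3))
        (update ρ x (ev A l b aux e ρ)) := by
  have hM := h.toM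
  have hA1 : At (codeOf b l) a (Exp.cmp e b (b + 1)) := At.left hA
  have hA2 : At (codeOf b l) (a + Exp.len e)
      [Instr.gate 0 x x x, Instr.gate 0 b b x, Instr.gate 0 b b b] := by
    have := At.right (show At (codeOf b l) a (Exp.cmp e b (b + 1) ++
      [Instr.gate 0 x x x, Instr.gate 0 b b x, Instr.gate 0 b b b]) from hA)
    rwa [Exp.len_cmp] at this
  have s0 := run_exp (aux := aux) hM e hr b (b + 1) a ρ hA1 (by omega) le_rfl (by omega)
    (fun y hy => hc y (by omega))
  rw [hc b le_rfl, zero_add] at s0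
  set v := Exp.eval (tbl A (codeTab A (codeOf b l) aux)) e ρ with hv
  have ev_eq : ev A l b aux e ρ = v := rfl
  rw [ev_eq]
  set ρ1 := update ρ b v with hρ1
  have hc1 := hA2.head
  have hc2 := hA2.tail.head
  have hc3 := hA2.tail.tail.head
  have s1 := accN_gate (aux := aux) hM ρ1 hc1 (by omega)
  rw [show A.tabL (codeTab A (codeOf b l) aux) (A.num 0) (ρ1 x) (ρ1 x) = ρ1 x from tbl_zero _ _ _,
    F_add_self] at s1
  set ρ2 := update ρ1 x 0 with hρ2
  have s2 := accN_gate (aux := aux) hM ρ2 hc2 (by omega)
  rw [show A.tabL (codeTab A (codeOf b l) aux) (A.num 0) (ρ2 b) (ρ2 b) = ρ2 b from tbl_zero _ _ _]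
    at s2
  have e1 : ρ2 b = v := by
    rw [hρ2, update_of_ne (by omega), hρ1, update_self]
  have e2 : ρ2 x = 0 := by rw [hρ2, update_self]
  rw [e1, e2, zero_add] at s2
  set ρ3 := update ρ2 x v with hρ3
  have s3 := accN_gate (aux := aux) hM ρ3 hc3 (by omega)
  rw [show A.tabL (codeTab A (codeOf b l) aux) (A.num 0) (ρ3 b) (ρ3 b) = ρ3 b from tbl_zero _ _ _,
    F_add_self] at s3
  have efinal : update ρ3 b 0 = update ρ x v := by
    funext y
    by_cases hy1 : y = b
    · subst hy1
      rw [update_self, update_of_ne (by omega)]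
      exact (hc _ le_rfl).symm
    by_cases hy2 : y = x
    · subst hy2
      rw [update_of_ne hy1, hρ3, update_self, update_self]
    · rw [update_of_ne hy1, hρ3, update_of_ne hy2, hρ2, update_of_ne hy2, hρ1, update_of_ne hy1,
        update_of_ne hy2]
  rw [efinal] at s3
  have en : a + Exp.len e + 1 + 1 + 1 = a + (Exp.len e + 3) := by omega
  rw [en] at s3
  exact s0.trans (s1.trans (s2.trans s3))

theorem run_asgL (h : POk A l b K acI) (q : List (ℕ × Exp F)) :
    ∀ {a : ℕ} {ρ : ℕ → F}, At (codeOf b l) a (cmpL b q) → a + lenL q < s →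
    (∀ p ∈ q, p.1 < b ∧ Exp.Rb b p.2) → (∀ y, b ≤ y → ρ y = 0) →
    (AccN A K (codeOf b l) aux (addr l acI) a ρ ↔
      AccN A K (codeOf b l) aux (addr l acI) (a + lenL q) (runL A l b aux q ρ)) := by
  induction q with
  | nil =>
    intro a ρ hA ha _ hc
    have hM := h.toM
    have s0 := accN_gate (aux := aux) hM ρ hA.head (by simpa [lenL] using ha)
    rw [show A.tabL (codeTab A (codeOf b l) aux) (A.num 0) (ρ b) (ρ b) = ρ b from tbl_zero _ _ _,
      F_add_self] at s0
    have e : update ρ b 0 = ρ := by
      rw [← hc b le_rfl, update_eq_self]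
    rw [e] at s0
    exact s0
  | cons p q ih =>
    intro a ρ hA ha hq hc
    have hA1 : At (codeOf b l) a (cmpA b p) := At.left hA
    have hA2 := At.right hA
    have hl : (cmpA b p).length = Exp.len p.2 + 3 := by
      simp [cmpA, Exp.len_cmp]
    rw [hl] at hA2
    have hl2 : lenL (p :: q) = Exp.len p.2 + 3 + lenL q := rfl
    rw [hl2] at ha ⊢
    have hp := hq p (by simp)
    rw [run_asg1 (x := p.1) (e := p.2) h hA1 (by omega) hp.1 hp.2 hc]
    have hc' : ∀ y, b ≤ y → update ρ p.1 (ev A l b aux p.2 ρ) y = 0 := by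
      intro y hy
      rw [update_of_ne (by have := hp.1; omega)]
      exact hc y hy
    rw [ih hA2 (by omega) (fun p' hp' => hq p' (by simp [hp'])) hc', add_assoc]
    rfl

/-- Assignments. -/
theorem accS_asg (h : POk A l b K acI) {i : ℕ} (hi : i < l.length) {q : List (ℕ × Exp F)}
    (hq : l[i] = Stmt.asg q) {ρ : ℕ → F}
    (hr : ∀ p ∈ q, p.1 < b ∧ Exp.Rb b p.2) (hc : ∀ y, b ≤ y → ρ y = 0) :
    AccS A l b K acI aux i ρ ↔ AccS A l b K acI aux (i + 1) (runL A l b aux q ρ) := by
  have hA := at_flat b l hi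
  rw [hq] at hA
  have hn := addr_succ hi
  rw [hq] at hn
  have hb := h.addr_lt_s (i := i + 1) (by omega)
  unfold AccS
  rw [hn]
  exact run_asgL h q hA (by rw [hn] at hb; exact hb) hr hc

/-- Conditional jumps. -/
theorem accS_jze (h : POk A l b K acI) {i L : ℕ} (hi : i < l.length) {e : Exp F}
    (hq : l[i] = Stmt.jze e L) {ρ : ℕ → F}
    (hr : Exp.Rb b e) (hc : ∀ y, b ≤ y → ρ y = 0) :
    AccS A l b K acI aux i ρ ↔
      AccS A l b K acI aux (if ev A l b aux e ρ = 0 then L else i + 1) ρ := by
  have hM := h.toM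
  have hA := at_flat b l hi
  rw [hq] at hA
  have hn := addr_succ hi
  rw [hq] at hn
  have hb := h.addr_lt_s (i := i + 1) (by omega)
  rw [hn] at hb
  simp only [lenS] at hn hb
  unfold AccS
  set a := addr l i with ha
  have hA1 : At (codeOf b l) a (Exp.cmp e b (b + 1)) := At.left hA
  have hA2 := At.right hA
  rw [Exp.len_cmp] at hA2
  have s0 := run_exp (aux := aux) hM e hr b (b + 1) a ρ hA1 (by omega) le_rfl (by omega)
    (fun y hy => hc y (by omega))
  rw [hc b le_rfl, zero_add] at s0
  have ev_eq : ev A l b aux e ρ = Exp.eval (tbl A (codeTab A (codeOf b l) aux)) e ρ := rfl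
  rw [ev_eq]
  set v := Exp.eval (tbl A (codeTab A (codeOf b l) aux)) e ρ with hv
  set ρ1 := update ρ b v with hρ1
  have hc1 := hA2.head
  have hc2 := hA2.tail.head
  have s1 := accN_gate (aux := aux) hM ρ1 hc2 (by omega)
  rw [show A.tabL (codeTab A (codeOf b l) aux) (A.num 0) (ρ1 b) (ρ1 b) = ρ1 b from tbl_zero _ _ _,
    F_add_self] at s1
  have e1 : update ρ1 b 0 = ρ := by
    rw [hρ1, update_idem, ← hc b le_rfl, update_eq_self]
  rw [e1] at s1
  have s2 := accN_jz (aux := aux) hM ρ1 hc1 (by omega)
  have e2 : ρ1 b = v := by rw [hρ1, update_self]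
  rw [e2] at s2
  by_cases hv0 : v = 0
  · rw [if_pos hv0] at s2 ⊢
    have e3 : ρ1 = ρ := by
      rw [hρ1, hv0, ← hc b le_rfl, update_eq_self]
    rw [e3] at s2
    rw [e3] at s0
    exact s0.trans s2
  · rw [if_neg hv0] at s2 ⊢
    rw [hn]
    have en : a + Exp.len e + 1 + 1 = a + (Exp.len e + 2) := by omega
    rw [en] at s1
    exact s0.trans (s2.trans s1)

theorem run_guess (h : POk A l b K acI) (xs : List ℕ) : ∀ {a : ℕ} {ρ : ℕ → F},
    At (codeOf b l) a (xs.map Instr.guess) → a + xs.length < s → xs.Nodup →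
    (AccN A K (codeOf b l) aux (addr l acI) a ρ ↔
      ∃ f : ℕ → F, AccN A K (codeOf b l) aux (addr l acI) (a + xs.length)
        (fun x => if x ∈ xs then ρ x + f x else ρ x)) := by
  have hM := h.toM
  induction xs with
  | nil =>
    intro a ρ _ _ _
    simp
  | cons y q ih =>
    intro a ρ hA ha hnd
    have hy : y ∉ q := (List.nodup_cons.1 hnd).1
    have hq := (List.nodup_cons.1 hnd).2
    simp only [List.length_cons] at ha
    have hA' : At (codeOf b l) a (Instr.guess y :: q.map Instr.guess) := hA
    rw [accN_guess hM ρ hA'.head (by omega)]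
    constructor
    · rintro ⟨v, hv⟩
      rw [ih hA'.tail (by omega) hq] at hv
      obtain ⟨f, hf⟩ := hv
      refine ⟨fun x => if x = y then v else f x, ?_⟩
      have e : (fun x => if x ∈ y :: q then ρ x + (if x = y then v else f x) else ρ x) =
          (fun x => if x ∈ q then update ρ y (ρ y + v) x + f x else update ρ y (ρ y + v) x) := by
        funext x
        by_cases hx : x = y
        · subst hx
          simp [hy]
        · simp [hx, update_of_ne hx]
      rw [e]
      simp only [List.length_cons]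
      rw [show a + (q.length + 1) = a + 1 + q.length by omega]
      exact hf
    · rintro ⟨f, hf⟩
      refine ⟨f y, ?_⟩
      rw [ih hA'.tail (by omega) hq]
      refine ⟨f, ?_⟩
      have e : (fun x => if x ∈ y :: q then ρ x + f x else ρ x) =
          (fun x => if x ∈ q then update ρ y (ρ y + f y) x + f x else update ρ y (ρ y + f y) x) := by
        funext x
        by_cases hx : x = y
        · subst hx
          simp [hy]
        · simp [hx, update_of_ne hx]
      rw [e] at hf
      simp only [List.length_cons] at hf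
      rw [show a + (q.length + 1) = a + 1 + q.length by omega] at hf
      exact hf

theorem accS_guess (h : POk A l b K acI) {i : ℕ} {xs : List ℕ} (hi : i < l.length)
    (hq : l[i] = Stmt.guess xs) (hnd : xs.Nodup) (hr : ∀ x ∈ xs, x < b) {ρ : ℕ → F}
    (hc : ∀ y, b ≤ y → ρ y = 0) :
    AccS A l b K acI aux i ρ ↔
      ∃ f : ℕ → F, AccS A l b K acI aux (i + 1) (fun x => if x ∈ xs then ρ x + f x else ρ x) := by
  have hM := h.toM
  have hA := at_flat b l hi
  rw [hq] at hA
  have hn := addr_succ hi
  rw [hq] at hn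
  have hb := h.addr_lt_s (i := i + 1) (by omega)
  rw [hn] at hb
  simp only [lenS] at hn hb
  unfold AccS
  have hA1 : At (codeOf b l) (addr l i) (xs.map Instr.guess) := At.left hA
  have hA2 := At.right hA
  simp only [List.length_map] at hA2
  rw [run_guess h xs hA1 (by omega) hnd, hn]
  apply exists_congr
  intro f
  set ρ' : ℕ → F := fun x => if x ∈ xs then ρ x + f x else ρ x with hρ'
  have s0 := accN_gate (aux := aux) hM ρ' hA2.head (by omega)
  rw [show A.tabL (codeTab A (codeOf b l) aux) (A.num 0) (ρ' b) (ρ' b) = ρ' b from tbl_zero _ _ _,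
    F_add_self] at s0
  have e0 : ρ' b = 0 := by
    have : b ∉ xs := fun hm => by
      have := hr b hm
      omega
    simp [hρ', this, hc b le_rfl]
  have e : update ρ' b 0 = ρ' := by
    rw [← e0, update_eq_self]
  rw [e] at s0
  rw [show addr l i + (xs.length + 1) = addr l i + xs.length + 1 by omega]
  exact s0

theorem accS_fork (h : POk A l b K acI) {i L : ℕ} (hi : i < l.length)
    (hq : l[i] = Stmt.fork L) (ρ : ℕ → F) :
    AccS A l b K acI aux i ρ ↔ AccS A l b K acI aux (i + 1) ρ ∧ AccS A l b K acI aux L ρ := by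
  have hM := h.toM
  have hA := at_flat b l hi
  rw [hq] at hA
  have hn := addr_succ hi
  rw [hq] at hn
  have hb := h.addr_lt_s (i := i + 1) (by omega)
  rw [hn] at hb
  unfold AccS
  rw [hn]
  exact accN_fork hM ρ hA.head hb

theorem accS_halt (h : POk A l b K acI) {i : ℕ} (hi : i < l.length)
    (hq : l[i] = Stmt.halt) (hne : i ≠ acI) (ρ : ℕ → F) :
    ¬ AccS A l b K acI aux i ρ := by
  have hM := h.toM
  have hA := at_flat b l hi
  rw [hq] at hA
  have hb := h.addr_lt_s (i := i) hi.le
  unfold AccS
  refine accN_halt hM ρ hb hA.head ?_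
  rcases Nat.lt_or_gt_of_ne hne with h1 | h1
  · exact (addr_lt h1 h.hacI.le).ne
  · exact (addr_lt h1 hi.le).ne'

theorem accS_acc (h : POk A l b K acI) (ρ : ℕ → F) :
    AccS A l b K acI aux acI ρ ↔ wd K ρ = 0 :=
  accN_acc h.toM ρ

end step

end Vale.Agent.P310d
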