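import Vale.Agent.P310d.Circ3
import Vale.Agent.P310d.EncPair
import Vale.Agent.P310d.Tab

/-!
# The symbols of the input tape as an expression
-/

namespace Vale.Agent.P310d

open Function Vale.Agent.P310y

open scoped Classical

set_option linter.unusedSectionVars false

variable {F : Type} [AddCommGroup F] [Module (ZMod 2) F] [Fintype F] {s K xe : ℕ} (A : Alph F s)

/-- The symbol of a cell of the input: the digits `0 .. 40` are the second vertex, `41 .. 81` the first
vertex, `82` the graph, the digits above must be zero. -/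
noncomputable def symE {Q Γ : Type} (M : TM Q Γ) (cS : Sym Q Γ → F) (K xe m : ℕ) : Exp F :=
  eIf A (eAnd (eLt (Exp.reg 82) (eN A 2)) (eAllEq A 83 (m - 82) 0))
    (eIf A (adjE A K xe 41 0 (Exp.reg 82)) (Exp.lit (cS (Sym.pl (M.input true))))
      (Exp.lit (cS (Sym.pl (M.input false)))))
    (Exp.lit (cS (Sym.pl M.blank)))

section embed

variable {D : F → F → F} {ac : F} {cdi : Injective (cdOf A (K := K) (xe := xe))} {A}

/-- The number of a vertex. -/
noncomputable def idN (P : Prog K xe s (NN s) F) (hK : 0 < K) {bb : Bool} (v : P.gs.xs.Vtx bb) : ℕ :=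
  numOf s (fun j => nmv A (idL A P hK v j)) 41

theorem idN_lt (P : Prog K xe s (NN s) F) (hK : 0 < K) {bb : Bool} (v : P.gs.xs.Vtx bb) :
    idN (A := A) P hK v < s ^ 41 :=
  numOf_lt _ (fun _ _ => (A.nm _).isLt)

theorem idN_iff (hs : 0 < s) (P : Prog K xe s (NN s) F) (hK : 0 < K) {bb : Bool} (v : P.gs.xs.Vtx bb) {x : ℕ}
    (hx : x < s ^ 41) : idN (A := A) P hK v = x ↔ ∀ j, j < 41 → idL A P hK v j = A.num (dgt s x j) := by
  constructor
  · rintro rfl j hj
    have h1 := dgt_numOf hs (fun j => nmv A (idL A P hK v j)) (n := 41)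
      (fun _ _ => (A.nm _).isLt) hj
    unfold idN
    rw [h1]
    exact (A.num_nm _).symm
  · intro h
    unfold idN
    have h1 : numOf s (fun j => nmv A (idL A P hK v j)) 41 = numOf s (dgt s x) 41 := by
      apply numOf_congr
      intro j hj
      show nmv A (idL A P hK v j) = _
      rw [h j hj]
      exact nmv_num (dgt_lt hs _ _)
    rw [h1, numOf_dgt, Nat.mod_eq_of_lt hx]

end embed

section digits

variable {c m : ℕ}

/-- The digits of a cell above the digit `82`. -/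
theorem in_range_iff (hs : 2 ≤ s) (hm : 82 ≤ m) (hc : c < s ^ (m + 1)) :
    (dgt s c 82 < 2 ∧ ∀ i, i < m - 82 → dgt s c (83 + i) = 0) ↔ c < 2 * s ^ 82 := by
  have hs0 : 0 < s := by omega
  have hP : 0 < s ^ 82 := Nat.pow_pos hs0
  constructor
  · rintro ⟨h1, h2⟩
    have h3 : ∀ i, i ≤ m - 82 → c % s ^ (83 + i) = c % s ^ 83 := by
      intro i
      induction i with
      | zero => intro _; rfl
      | succ i ih =>
        intro hi
        rw [show 83 + (i + 1) = (83 + i) + 1 by omega, mod_succ_eq, ih (by omega),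
          h2 i (by omega)]
        simp
    have h4 := h3 (m - 82) le_rfl
    rw [show 83 + (m - 82) = m + 1 by omega, Nat.mod_eq_of_lt hc] at h4
    rw [h4, show 83 = 82 + 1 by omega, mod_succ_eq]
    have h5 : c % s ^ 82 < s ^ 82 := Nat.mod_lt _ hP
    have h6 : s ^ 82 * dgt s c 82 ≤ s ^ 82 * 1 := Nat.mul_le_mul_left _ (by omega)
    omega
  · intro h
    have h1 : c / s ^ 82 < 2 := Nat.div_lt_of_lt_mul (by rw [Nat.mul_comm]; exact h)
    constructor
    · unfold dgt
      rw [Nat.mod_eq_of_lt (by omega)]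
      exact h1
    · intro i _
      unfold dgt
      have h2 : c < s ^ (83 + i) := by
        calc c < 2 * s ^ 82 := h
          _ ≤ s * s ^ 82 := Nat.mul_le_mul_right _ hs
          _ = s ^ 83 := by ring
          _ ≤ s ^ (83 + i) := Nat.pow_le_pow_right hs0 (by omega)
      rw [Nat.div_eq_of_lt h2]
      simp

theorem cell_split (hs : 2 ≤ s) (h : c < 2 * s ^ 82) :
    c = dgt s c 82 * (s ^ 41 * s ^ 41) + (c / s ^ 41 % s ^ 41) * s ^ 41 + c % s ^ 41 := by
  have hs0 : 0 < s := by omega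
  have h1 : c / s ^ 82 < 2 := Nat.div_lt_of_lt_mul (by rw [Nat.mul_comm]; exact h)
  have h2 : dgt s c 82 = c / s ^ 82 := by
    unfold dgt
    rw [Nat.mod_eq_of_lt (by omega)]
  have h3 : c / s ^ 41 / s ^ 41 = c / s ^ 82 := by
    rw [Nat.div_div_eq_div_mul, ← pow_add]
  have h4 := Nat.mod_add_div c (s ^ 41)
  have h5 := Nat.mod_add_div (c / s ^ 41) (s ^ 41)
  rw [h3, ← h2] at h5
  have h6 : c = c % s ^ 41 + s ^ 41 * (c / s ^ 41 % s ^ 41 + s ^ 41 * dgt s c 82) := by
    rw [h5]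
    exact h4.symm
  calc c = c % s ^ 41 + s ^ 41 * (c / s ^ 41 % s ^ 41 + s ^ 41 * dgt s c 82) := h6
    _ = _ := by ring

theorem dgt_hi (hs : 0 < s) (j : ℕ) (hj : j < 41) : dgt s (c / s ^ 41 % s ^ 41) j = dgt s c (41 + j) := by
  rw [dgt_mod_pow hs hj]
  unfold dgt
  rw [Nat.div_div_eq_div_mul, ← pow_add]

end digits

section main

variable {Q Γ : Type} (M : TM Q Γ) (cS : Sym Q Γ → F) {D : F → F → F} {ac : F}
  {cdi : Injective (cdOf A (K := K) (xe := xe))} {A}

/-- The embedding of the vertices. -/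
noncomputable def emb (hKs : K ≤ s) (h6 : 6 * K + 3 * xe + 12 ≤ s) (hK : 0 < K) (hp : 2 ^ (2 * K + xe) ≤ s) (hs : 60 < s)
    (hW : (PP A D ac cdi (s ^ 15)).gs.xs.bnd + 2 ≤ s ^ 15) (bb : Bool) :
    (PP A D ac cdi (s ^ 15)).gs.xs.Vtx bb ↪ Fin (s ^ 41) where
  toFun v := ⟨idN (A := A) _ hK v, idN_lt _ hK v⟩
  inj' := by
    intro v v' h
    apply idL_inj hs hKs h6 hp hW hK
    intro j hj
    have h1 : idN (A := A) _ hK v = idN (A := A) _ hK v' := congrArg Fin.val h
    have h2 := (idN_iff (A := A) (by omega) _ hK v (idN_lt _ hK v)).1 rfl j hj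
    rw [h2, h1]
    exact ((idN_iff (A := A) (by omega) _ hK v' (idN_lt _ hK v')).1 rfl j hj).symm

/-- The padded graphs. -/
noncomputable def Gr (hKs : K ≤ s) (h6 : 6 * K + 3 * xe + 12 ≤ s) (hK : 0 < K) (hp : 2 ^ (2 * K + xe) ≤ s) (hs : 60 < s)
    (hW : (PP A D ac cdi (s ^ 15)).gs.xs.bnd + 2 ≤ s ^ 15) (bb : Bool) : SimpleGraph (Fin (s ^ 41)) :=
  ((PP A D ac cdi (s ^ 15)).gs.xs.graph bb).map (emb hKs h6 hK hp hs hW bb)

variable (H : Std A D) (C : CTab A D ac)

include H C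

theorem gr_adj_iff (hxe : xe ≤ 1) (hKs : K ≤ s) (h6 : 6 * K + 3 * xe + 12 ≤ s) (hK : 0 < K) (hp : 2 ^ (2 * K + xe) < s)
    (hW : (PP A D ac cdi (s ^ 15)).gs.xs.bnd + 2 ≤ s ^ 15) (ρ : ℕ → F) {bb : Bool} {bE : Exp F}
    (hb : Exp.eval (tbl A D) bE ρ ≠ 0 ↔ bb = true) (u v : Fin (s ^ 41))
    (h1 : ∀ j, j < 41 → ρ (41 + j) = A.num (dgt s u.val j))
    (h2 : ∀ j, j < 41 → ρ (0 + j) = A.num (dgt s v.val j)) :
    Exp.eval (tbl A D) (adjE A K xe 41 0 bE) ρ ≠ 0 ↔
      (Gr hKs h6 hK hp.le H.hs hW bb).Adj u v := by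
  have hs0 : 0 < s := by have := H.hs; omega
  rw [adjE_spec H C ρ hxe hKs h6 hK hp hW hb 41 0]
  unfold Gr
  rw [SimpleGraph.map_adj]
  constructor
  · rintro ⟨x, y, hA, hx, hy⟩
    refine ⟨x, y, hA, ?_, ?_⟩
    · apply Fin.ext
      apply (idN_iff hs0 _ hK x u.isLt).2
      intro j hj
      rw [hx j hj, h1 j hj]
    · apply Fin.ext
      apply (idN_iff hs0 _ hK y v.isLt).2
      intro j hj
      rw [hy j hj, h2 j hj]
  · rintro ⟨x, y, hA, rfl, rfl⟩
    refine ⟨x, y, hA, ?_, ?_⟩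
    · intro j hj
      rw [h1 j hj]
      exact (idN_iff hs0 _ hK x (idN_lt _ hK x)).1 rfl j hj
    · intro j hj
      rw [h2 j hj]
      exact (idN_iff hs0 _ hK y (idN_lt _ hK y)).1 rfl j hj

/-- The expression gives the symbol of the cell. -/
theorem sym_spec (hxe : xe ≤ 1) (hKs : K ≤ s) (h6 : 6 * K + 3 * xe + 12 ≤ s) (hK : 0 < K) (hp : 2 ^ (2 * K + xe) < s)
    (hW : (PP A D ac cdi (s ^ 15)).gs.xs.bnd + 2 ≤ s ^ 15) {m c : ℕ} (hm : 82 ≤ m)
    (hc : c < s ^ (m + 1)) (ρ : ℕ → F) (hρ : ∀ j, j ≤ m → ρ j = A.num (dgt s c j)) :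
    Exp.eval (tbl A D) (symE A M cS K xe m) ρ =
      cS (Sym.pl ((M.init (encPair (Gr hKs h6 hK hp.le H.hs hW false)
        (Gr hKs h6 hK hp.le H.hs hW true))).tape c)) := by
  have hs := H.hs
  have hs0 : 0 < s := by omega
  have hn1 : A.num 1 ≠ (0 : F) := Alph.num_one_ne (by omega)
  set G0 := Gr hKs h6 hK hp.le H.hs hW false with hG0
  set G1 := Gr hKs h6 hK hp.le H.hs hW true with hG1
  have hin : Exp.eval (tbl A D) (eAnd (eLt (Exp.reg 82) (eN A 2)) (eAllEq A 83 (m - 82) 0)) ρ ≠ 0 ↔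
      c < 2 * s ^ 82 := by
    rw [← in_range_iff (by omega) hm hc, tv_and H, tv_ltN H ρ _ (by omega), tv_allEq H]
    have e1 : Exp.eval (tbl A D) (Exp.reg 82) ρ = ρ 82 := rfl
    rw [e1, hρ 82 hm, nmv_num (dgt_lt hs0 _ _)]
    apply and_congr_right
    intro _
    apply forall_congr'
    intro i
    apply imp_congr_right
    intro hi
    rw [hρ (83 + i) (by omega)]
    rw [← A.num_zero]
    exact A.num_eq_iff (dgt_lt hs0 _ _) hs0
  unfold symE
  rw [eval_if H]
  by_cases h1 : c < 2 * s ^ 82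
  · rw [if_pos (hin.2 h1), eval_if H]
    simp only [Exp.eval]
    have hb2 : dgt s c 82 < 2 := ((in_range_iff (by omega) hm hc).2 h1).1
    have hbE : Exp.eval (tbl A D) (Exp.reg 82) ρ ≠ 0 ↔ decide (dgt s c 82 ≠ 0) = true := by
      show ρ 82 ≠ 0 ↔ _
      rw [hρ 82 hm, decide_eq_true_eq, ne_eq, ne_eq, ← A.num_zero]
      exact not_congr (A.num_eq_iff (dgt_lt hs0 _ _) hs0)
    have hu : c / s ^ 41 % s ^ 41 < s ^ 41 := Nat.mod_lt _ (Nat.pow_pos hs0)
    have hv : c % s ^ 41 < s ^ 41 := Nat.mod_lt _ (Nat.pow_pos hs0)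
    have hA := gr_adj_iff H C hxe hKs h6 hK hp hW ρ hbE ⟨_, hu⟩ ⟨_, hv⟩ (by
        intro j hj
        rw [hρ (41 + j) (by omega)]
        simp only
        rw [dgt_hi hs0 j hj]) (by
        intro j hj
        rw [hρ (0 + j) (by omega)]
        simp only
        rw [dgt_mod_pow hs0 hj, Nat.zero_add])
    have hsplit := cell_split (by omega) h1
    have hget : (encPair G0 G1)[c]? = some (decide ((Gr hKs h6 hK hp.le H.hs hW
        (decide (dgt s c 82 ≠ 0))).Adj ⟨_, hu⟩ ⟨_, hv⟩)) := by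
      have hb01 : dgt s c 82 = 0 ∨ dgt s c 82 = 1 := by omega
      rcases hb01 with h0 | h0
      · rw [h0, Nat.zero_mul, Nat.zero_add] at hsplit
        have e3 := encPair_getElem?_left G0 G1 ⟨_, hu⟩ ⟨_, hv⟩
        simp only at e3
        rw [← hsplit] at e3
        rw [e3]
        simp [h0, hG0]
      · rw [h0, Nat.one_mul] at hsplit
        have e3 := encPair_getElem?_right G0 G1 ⟨_, hu⟩ ⟨_, hv⟩
        simp only at e3
        rw [← hsplit] at e3
        rw [e3]
        simp [h0, hG1]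
    have htape : (M.init (encPair G0 G1)).tape c = M.input (decide ((Gr hKs h6 hK hp.le H.hs hW
        (decide (dgt s c 82 ≠ 0))).Adj ⟨_, hu⟩ ⟨_, hv⟩)) := by
      show (match (encPair G0 G1)[c]? with
        | some b => M.input b
        | none => M.blank) = _
      rw [hget]
    rw [htape]
    by_cases h3 : (Gr hKs h6 hK hp.le H.hs hW (decide (dgt s c 82 ≠ 0))).Adj ⟨_, hu⟩ ⟨_, hv⟩
    · rw [if_pos (hA.2 h3), decide_eq_true h3]
    · rw [if_neg (fun h => h3 (hA.1 h)), decide_eq_false h3]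
  · rw [if_neg (fun h => h1 (hin.1 h))]
    simp only [Exp.eval]
    have hget : (encPair G0 G1)[c]? = none := by
      apply List.getElem?_eq_none
      rw [encPair_length]
      have : 2 * s ^ 41 * s ^ 41 = 2 * s ^ 82 := by ring
      rw [this]
      omega
    have htape : (M.init (encPair G0 G1)).tape c = M.blank := by
      show (match (encPair G0 G1)[c]? with
        | some b => M.input b
        | none => M.blank) = _
      rw [hget]
    rw [htape]

end main

end Vale.Agent.P310d
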