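import Vale.Agent.P310d.Items

/-!
# Which letters are the letters of a vertex
-/

namespace Vale.Agent.P310d

open Function Vale.Agent.P310y

open scoped Classical

set_option linter.unusedSectionVars false

variable {F : Type} [AddCommGroup F] [Module (ZMod 2) F] [Fintype F] {s K xe : ℕ} (A : Alph F s)
  (D : F → F → F) (ac : F) (cdi : Injective (cdOf A (K := K) (xe := xe))) (gap : ℕ) (hK : 0 < K)

/-- The letters of a vertex. -/
noncomputable def idL (P : Prog K xe s (NN s) F) (hK : 0 < K) {b : Bool} (v : P.gs.xs.Vtx b) (j : ℕ) : F :=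
  if j < 12 then rawF A (P.gs.rawI v.1.1.item) j
  else if j = 12 then A.num (vaOf P.gs.xs (nvF P) (slotF P hK) v.1.1)
  else if j = 13 then (if v.1.2 = 0 then 0 else A.num 1)
  else A.num (dgt s (v.1.2 - 1) (j - 14))

section idL

variable (P : Prog K xe s (NN s) F) {b : Bool} (v : P.gs.xs.Vtx b)

theorem idL_lo {j : ℕ} (hj : j < 12) : idL A P hK v j = rawF A (P.gs.rawI v.1.1.item) j := by
  unfold idL
  rw [if_pos hj]

theorem idL_va : idL A P hK v 12 = A.num (vaOf P.gs.xs (nvF P) (slotF P hK) v.1.1) := by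
  unfold idL
  simp

theorem idL_pf : idL A P hK v 13 = if v.1.2 = 0 then 0 else A.num 1 := by
  unfold idL
  simp

theorem idL_pi (j : ℕ) : idL A P hK v (14 + j) = A.num (dgt s (v.1.2 - 1) j) := by
  unfold idL
  rw [if_neg (by omega), if_neg (by omega), if_neg (by omega)]
  congr 2
  omega

end idL

/-- The number of variables, from the letters. -/
noncomputable def nvL (K xe : ℕ) (u : ℕ → F) : ℕ :=
  if u 0 ≠ 0 then 2 * K + xe else if nmv A (u 1) < 8 then 4 else 2

/-- The letter of the solution is right. -/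
def CoreOk (K xe : ℕ) (b : Bool) (u : ℕ → F) : Prop :=
  nmv A (u 12) < 2 ^ nvL A K xe u ∧
    (A.bl (parN s (nmv A (u 12)) = 1) =
      if (b = true ∧ u 0 ≠ 0 ∧ nmv A (u 1) = 9) then A.num 1 else 0)

/-- The letters of the number of a pendant vertex are right. -/
def PendOk (u : ℕ → F) : Prop :=
  (u 13 = 0 ∧ ∀ j, j < 27 → u (14 + j) = 0) ∨
    (u 13 = A.num 1 ∧ numOf s (fun j => nmv A (u (29 + j))) 12 ≤ numOf s (fun j => nmv A (u j)) 12)

/-- All conditions. -/
def VertOk (K xe : ℕ) (b : Bool) (u : ℕ → F) : Prop :=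
  ItemOk A D K xe u ∧ CoreOk A K xe b u ∧ PendOk A u

variable {A D ac cdi gap}

theorem parN_high {n m v : ℕ} (hmn : m ≤ n) (hv : v < 2 ^ m) : parN n v = parN m v := by
  unfold parN
  symm
  apply Finset.sum_subset (Finset.range_subset_range.2 hmn)
  intro t _ ht
  have h1 : m ≤ t := by simpa using ht
  unfold zb
  rw [if_neg]
  rw [Nat.testBit_eq_false_of_lt (lt_of_lt_of_le hv (Nat.pow_le_pow_right (by omega) h1))]
  simp

theorem rawI_inj (P : Prog K xe s (NN s) F) {c c' : GItem P.gs} (h : P.gs.rawI c = P.gs.rawI c') :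
    c = c' := by
  cases c <;> cases c' <;> simp_all [GS.rawI]

theorem nvL_eq (P : Prog K xe s (NN s) F) (hs : 60 < s) {u : ℕ → F} {c : GItem P.gs}
    (hc : ∀ j, j < 12 → rawF A (P.gs.rawI c) j = u j) : nvL A K xe u = nvF P c := by
  have hn0 : A.num 1 ≠ (0 : F) := Alph.num_one_ne (by omega)
  cases c with
  | e p b β hh =>
    have hr : ∀ j, j < 12 → mkF A 0 (gadK b) (gadTau b).val p.1.val p.idx.val β
        (gadT A b) (gadC b) j = u j := hc
    have h0 : u 0 = 0 := by
      rw [← hr 0 (by omega)]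
      exact A.num_zero
    have h1 : nmv A (u 1) = gadK b := by
      rw [← hr 1 (by omega)]
      exact nmv_num (by have := mk_lt_gadK b; omega)
    unfold nvL
    rw [if_neg (by simpa using h0), h1]
    rfl
  | h b =>
    have hr : ∀ j, j < 12 → mkF A 1 (gadK b) (gadTau b).val 0 0 0
        (gadT A b) (gadC b) j = u j := hc
    have h0 : u 0 = A.num 1 := (hr 0 (by omega)).symm
    unfold nvL
    rw [if_pos (by rw [h0]; exact hn0)]
    rfl

theorem rhs_iff (P : Prog K xe s (NN s) F) (hs : 60 < s) {u : ℕ → F} {c : GItem P.gs} (bb : Bool)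
    (hc : ∀ j, j < 12 → rawF A (P.gs.rawI c) j = u j) :
    P.gs.xs.rhs bb c = if (bb = true ∧ u 0 ≠ 0 ∧ nmv A (u 1) = 9) then 1 else 0 := by
  have hn0 : A.num 1 ≠ (0 : F) := Alph.num_one_ne (by omega)
  cases c with
  | e p b β hh =>
    have hr : ∀ j, j < 12 → mkF A 0 (gadK b) (gadTau b).val p.1.val p.idx.val β
        (gadT A b) (gadC b) j = u j := hc
    have h0 : u 0 = 0 := by
      rw [← hr 0 (by omega)]
      exact A.num_zero
    rw [if_neg (by simp [h0])]
    unfold XS.rhs
    split_ifs <;> rfl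
  | h b =>
    have hr : ∀ j, j < 12 → mkF A 1 (gadK b) (gadTau b).val 0 0 0
        (gadT A b) (gadC b) j = u j := hc
    have h0 : u 0 = A.num 1 := (hr 0 (by omega)).symm
    have h1 : nmv A (u 1) = gadK b := by
      rw [← hr 1 (by omega)]
      exact nmv_num (by have := mk_lt_gadK b; omega)
    have h2 : gadK b = 9 ↔ b = Gad.tw := by
      rcases b with ⟨l, τ⟩ | τ | _
      · constructor
        · intro h
          cases l <;> simp [gadK, lamK] at h
        · intro h
          cases h
      · simp [gadK]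
      · simp [gadK]
    unfold XS.rhs
    rw [h1]
    show (if bb = true then (if b = Gad.tw then (1 : ZMod 2) else 0) else 0) = _
    by_cases hb : bb = true
    · by_cases h3 : b = Gad.tw
      · rw [if_pos hb, if_pos h3, if_pos ⟨hb, by rw [h0]; exact hn0, h2.2 h3⟩]
      · rw [if_pos hb, if_neg h3, if_neg (fun h4 => h3 (h2.1 h4.2.2))]
    · rw [if_neg hb, if_neg (fun h4 => hb h4.1)]

theorem parity_iff (hs : 60 < s) {q r : ZMod 2} {c : Prop} [Decidable c]
    (hr : r = if c then 1 else 0) :
    A.bl (q = 1) = (if c then A.num 1 else (0 : F)) ↔ q = r := by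
  have hn0 : A.num 1 ≠ (0 : F) := Alph.num_one_ne (by omega)
  subst hr
  have hq : q = 0 ∨ q = 1 := by
    revert q
    decide
  unfold Alph.bl
  by_cases h : c
  · rcases hq with rfl | rfl
    · simp [h, hn0.symm]
    · simp [h]
  · rcases hq with rfl | rfl
    · simp [h]
    · simp [h, hn0]

section main

variable (hs : 60 < s) (hKs : K ≤ s) (h6 : 6 * K + 3 * xe + 12 ≤ s) (hp2 : 2 ^ (2 * K + xe) ≤ s)
  (hW : (PP A D ac cdi (s ^ 15)).gs.xs.bnd + 2 ≤ s ^ 15)

include hW

theorem weight_eq (c : GItem (PP A D ac cdi (s ^ 15)).gs) :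
    (PP A D ac cdi (s ^ 15)).gs.xs.weight c =
      s ^ 15 * (cdOf A ((PP A D ac cdi (s ^ 15)).gs.rawI c) + 1) := by
  unfold XS.weight
  have e : (PP A D ac cdi (s ^ 15)).gs.xs.gap = s ^ 15 := rfl
  rw [e, max_eq_right hW]
  rfl

include hs hKs h6 hp2

omit hW in
theorem nv_le (P : Prog K xe s (NN s) F) (c : GItem P.gs) : 2 ^ nvF P c ≤ s := by
  cases c with
  | e p b β hh =>
    simp only [nvF]
    split_ifs
    · norm_num
      omega
    · norm_num
      omega
  | h b => exact hp2

/-- Letters satisfying the conditions are the letters of a vertex. -/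
theorem exists_vert (hK : 0 < K) (bb : Bool) {u : ℕ → F} (h : VertOk A D K xe bb u) :
    ∃ v : (PP A D ac cdi (s ^ 15)).gs.xs.Vtx bb, ∀ j, j < 41 → idL A _ hK v j = u j := by
  have hs0 : 0 < s := by omega
  obtain ⟨hI, ⟨hC1, hC2⟩, hPd⟩ := h
  obtain ⟨c, hc⟩ := (itemOk_iff (ac := ac) (cdi := cdi) (gap := s ^ 15) hs hKs h6 u).1 hI
  have hnv := nvL_eq _ hs hc
  rw [hnv] at hC1
  have hnvs : nvF _ c ≤ s := by
    have h1 := nv_le hs hKs h6 hp2 _ c
    exact le_trans (Nat.lt_two_pow_self).le h1
  have hpar : parN (nvF _ c) (nmv A (u 12)) = (PP A D ac cdi (s ^ 15)).gs.xs.rhs bb c := by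
    rw [← parN_high hnvs hC1]
    exact (parity_iff hs (rhs_iff _ hs bb hc)).1 hC2
  obtain ⟨x, hx1, hx2⟩ := exists_core (slot_ok _ hK) (b := bb) c _ hC1 hpar
  subst hx1
  have hκ : numOf s (fun j => nmv A (u j)) 12 = cdOf A ((PP A D ac cdi (s ^ 15)).gs.rawI x.item) :=
    numOf_congr (fun j hj => by rw [← hc j hj])
  have e12 : A.num (vaOf (PP A D ac cdi (s ^ 15)).gs.xs (nvF _) (slotF _ hK) x) = u 12 := by
    rw [hx2]
    exact A.num_nm _
  rcases hPd with ⟨h13, h14⟩ | ⟨h13, hle⟩
  · refine ⟨⟨(x, 0), Nat.zero_le _⟩, ?_⟩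
    intro j hj
    unfold idL
    by_cases h1 : j < 12
    · rw [if_pos h1]
      exact hc j h1
    rw [if_neg h1]
    by_cases h2 : j = 12
    · subst h2
      rw [if_pos rfl]
      exact e12
    rw [if_neg h2]
    by_cases h3 : j = 13
    · subst h3
      rw [if_pos rfl, if_pos rfl]
      exact h13.symm
    rw [if_neg h3]
    have h4 := h14 (j - 14) (by omega)
    rw [show 14 + (j - 14) = j by omega] at h4
    rw [h4]
    show A.num (dgt s 0 (j - 14)) = 0
    simp [dgt, A.num_zero]
  · set f : ℕ → ℕ := fun j => nmv A (u (14 + j)) with hf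
    have hflt : ∀ j, f j < s := fun j => (A.nm _).isLt
    have e1 : numOf s f 27 = numOf s f 15 + s ^ 15 * numOf s (fun j => nmv A (u (29 + j))) 12 := by
      have := numOf_add (s := s) f 15 12
      rw [show 15 + 12 = 27 by omega] at this
      rw [this]
      congr 2
    have hp := (pend_iff (κ := cdOf A ((PP A D ac cdi (s ^ 15)).gs.rawI x.item)) e1
      (numOf_lt f (fun j _ => hflt j))).2 (by rw [← hκ]; exact hle)
    have hlim : numOf s f 27 + 1 ≤ (PP A D ac cdi (s ^ 15)).gs.xs.weight x.item := by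
      rw [weight_eq hW]
      omega
    refine ⟨⟨(x, numOf s f 27 + 1), hlim⟩, ?_⟩
    intro j hj
    unfold idL
    by_cases h1 : j < 12
    · rw [if_pos h1]
      exact hc j h1
    rw [if_neg h1]
    by_cases h2 : j = 12
    · subst h2
      rw [if_pos rfl]
      exact e12
    rw [if_neg h2]
    by_cases h3 : j = 13
    · subst h3
      rw [if_pos rfl, if_neg (by simp)]
      exact h13.symm
    rw [if_neg h3]
    show A.num (dgt s (numOf s f 27 + 1 - 1) (j - 14)) = u j
    rw [Nat.add_sub_cancel, dgt_numOf hs0 f (fun j _ => hflt j) (by omega)]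
    have : 14 + (j - 14) = j := by omega
    simp only [hf, this]
    exact A.num_nm _

/-- The letters of a vertex satisfy the conditions. -/
theorem vertOk_of (hK : 0 < K) (bb : Bool) {u : ℕ → F}
    (v : (PP A D ac cdi (s ^ 15)).gs.xs.Vtx bb) (hv : ∀ j, j < 41 → idL A _ hK v j = u j) :
    VertOk A D K xe bb u := by
  have hs0 : 0 < s := by omega
  set x := v.1.1 with hx
  have hc : ∀ j, j < 12 → rawF A ((PP A D ac cdi (s ^ 15)).gs.rawI x.item) j = u j := by
    intro j hj
    rw [← hv j (by omega)]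
    unfold idL
    rw [if_pos hj]
  have hva : u 12 = A.num (vaOf (PP A D ac cdi (s ^ 15)).gs.xs (nvF _) (slotF _ hK) x) := by
    rw [← hv 12 (by omega)]
    unfold idL
    rw [if_neg (by omega), if_pos rfl]
  have hvlt := vaOf_lt (S := (PP A D ac cdi (s ^ 15)).gs.xs) (nv := nvF _) (slot := slotF _ hK) x
  have hnvs := nv_le hs hKs h6 hp2 _ x.item
  have hnm : nmv A (u 12) = vaOf (PP A D ac cdi (s ^ 15)).gs.xs (nvF _) (slotF _ hK) x := by
    rw [hva]
    exact nmv_num (lt_of_lt_of_le hvlt hnvs)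
  have hpar := parN_vaOf (slot_ok _ hK) x
  have hnvs2 : nvF _ x.item ≤ s := le_trans (Nat.lt_two_pow_self).le hnvs
  refine ⟨(itemOk_iff (ac := ac) (cdi := cdi) (gap := s ^ 15) hs hKs h6 u).2 ⟨x.item, hc⟩, ⟨?_, ?_⟩, ?_⟩
  · rw [nvL_eq _ hs hc, hnm]
    exact hvlt
  · rw [hnm, parN_high hnvs2 hvlt]
    exact (parity_iff hs (rhs_iff _ hs bb hc)).2 hpar
  · by_cases hi : v.1.2 = 0
    · left
      constructor
      · rw [← hv 13 (by omega)]
        unfold idL
        rw [if_neg (by omega), if_neg (by omega), if_pos rfl, if_pos hi]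
      · intro j hj
        rw [← hv (14 + j) (by omega)]
        unfold idL
        rw [if_neg (by omega), if_neg (by omega), if_neg (by omega), hi]
        simp [dgt, A.num_zero]
    · right
      constructor
      · rw [← hv 13 (by omega)]
        unfold idL
        rw [if_neg (by omega), if_neg (by omega), if_pos rfl, if_neg hi]
      · set p := v.1.2 - 1 with hpd
        have hle := v.2
        rw [weight_eq hW] at hle
        have hplt : p < s ^ 15 * (cdOf A ((PP A D ac cdi (s ^ 15)).gs.rawI x.item) + 1) := by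
          have : v.1.2 ≤ s ^ 15 * (cdOf A ((PP A D ac cdi (s ^ 15)).gs.rawI x.item) + 1) := hle
          omega
        have hκ : numOf s (fun j => nmv A (u j)) 12 =
            cdOf A ((PP A D ac cdi (s ^ 15)).gs.rawI x.item) :=
          numOf_congr (fun j hj => by rw [← hc j hj])
        have hκlt := cdOf_lt A ((PP A D ac cdi (s ^ 15)).gs.rawI x.item)
        have hp27 : p < s ^ 27 := by
          calc p < s ^ 15 * (cdOf A ((PP A D ac cdi (s ^ 15)).gs.rawI x.item) + 1) := hplt
            _ ≤ s ^ 15 * s ^ 12 := Nat.mul_le_mul_left _ hκlt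
            _ = s ^ 27 := by rw [← pow_add]
        have e0 : ∀ j, j < 27 → nmv A (u (14 + j)) = dgt s p j := by
          intro j hj
          rw [← hv (14 + j) (by omega)]
          unfold idL
          rw [if_neg (by omega), if_neg (by omega), if_neg (by omega),
            show 14 + j - 14 = j by omega]
          exact nmv_num (dgt_lt hs0 _ _)
        have e1 : p = numOf s (dgt s p) 15 + s ^ 15 * numOf s (fun j => dgt s p (15 + j)) 12 := by
          have h1 := numOf_add (s := s) (dgt s p) 15 12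
          rw [show 15 + 12 = 27 by omega, numOf_dgt, Nat.mod_eq_of_lt hp27] at h1
          exact h1
        have h2 := (pend_iff e1 (numOf_lt _ (fun j _ => dgt_lt hs0 _ _))).1 hplt
        rw [hκ]
        have e2 : numOf s (fun j => nmv A (u (29 + j))) 12 =
            numOf s (fun j => dgt s p (15 + j)) 12 := by
          apply numOf_congr
          intro j hj
          have := e0 (15 + j) (by omega)
          rw [show 14 + (15 + j) = 29 + j by omega] at this
          exact this
        rw [e2]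
        exact h2

/-- The letters determine the vertex. -/
theorem idL_inj (hK : 0 < K) {bb : Bool} {v v' : (PP A D ac cdi (s ^ 15)).gs.xs.Vtx bb}
    (h : ∀ j, j < 41 → idL A _ hK v j = idL A _ hK v' j) : v = v' := by
  have hs0 : 0 < s := by omega
  have hn0 : A.num 1 ≠ (0 : F) := Alph.num_one_ne (by omega)
  have e1 : v.1.1.item = v'.1.1.item := by
    apply rawI_inj
    apply raw_inj A (by omega) hKs h6
    intro j hj
    have := h j (by omega)
    rw [idL_lo A hK _ _ hj, idL_lo A hK _ _ hj] at this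
    exact this
  have e2 : vaOf (PP A D ac cdi (s ^ 15)).gs.xs (nvF _) (slotF _ hK) v.1.1 =
      vaOf (PP A D ac cdi (s ^ 15)).gs.xs (nvF _) (slotF _ hK) v'.1.1 := by
    have := h 12 (by omega)
    rw [idL_va, idL_va] at this
    exact A.num_inj (lt_of_lt_of_le (vaOf_lt _) (nv_le hs hKs h6 hp2 _ _))
      (lt_of_lt_of_le (vaOf_lt _) (nv_le hs hKs h6 hp2 _ _)) this
  have e3 : v.1.1 = v'.1.1 := core_ext (slot_ok _ hK) e1 e2
  have hbd : ∀ w : (PP A D ac cdi (s ^ 15)).gs.xs.Vtx bb, w.1.2 - 1 < s ^ 27 ∨ w.1.2 = 0 := by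
    intro w
    by_cases hw : w.1.2 = 0
    · exact Or.inr hw
    · left
      have h1 : w.1.2 ≤ (PP A D ac cdi (s ^ 15)).gs.xs.weight w.1.1.item := w.2
      rw [weight_eq hW] at h1
      have h2 := cdOf_lt A ((PP A D ac cdi (s ^ 15)).gs.rawI w.1.1.item)
      have h3 : s ^ 15 * (cdOf A ((PP A D ac cdi (s ^ 15)).gs.rawI w.1.1.item) + 1) ≤ s ^ 27 := by
        calc _ ≤ s ^ 15 * s ^ 12 := Nat.mul_le_mul_left _ h2
          _ = s ^ 27 := by rw [← pow_add]
      omega
  have e4 : v.1.2 = v'.1.2 := by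
    have h13 := h 13 (by omega)
    rw [idL_pf, idL_pf] at h13
    by_cases h0 : v.1.2 = 0
    · rw [if_pos h0] at h13
      by_cases h0' : v'.1.2 = 0
      · rw [h0, h0']
      · rw [if_neg h0'] at h13
        exact (hn0 h13.symm).elim
    · rw [if_neg h0] at h13
      by_cases h0' : v'.1.2 = 0
      · rw [if_pos h0'] at h13
        exact (hn0 h13).elim
      · have h1 : v.1.2 - 1 = v'.1.2 - 1 := by
          apply eq_of_dgt hs0 (m := 27) ((hbd v).resolve_right h0) ((hbd v').resolve_right h0')
          intro j hj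
          have := h (14 + j) (by omega)
          rw [idL_pi, idL_pi] at this
          exact A.num_inj (dgt_lt hs0 _ _) (dgt_lt hs0 _ _) this
        omega
  apply Subtype.ext
  exact Prod.ext e3 e4

end main

end Vale.Agent.P310d
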